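import Vale.Agent.P202M.PSV

/-! Presentations with additional variables. -/

open IsLocalRing Function Polynomial

namespace Vale.Agent.P202

namespace AddX

lemma loc {A T : Type*} [CommRing A] [IsLocalRing A] [CommRing T] [IsLocalRing T] [Algebra A T]
    [Module.Finite A T] : IsLocalHom (algebraMap A T) :=
  isLocalHom_of_map_le (Ideal.map_le_iff_le_comap.2 (eq_maximalIdeal
    (Ideal.isMaximal_comap_of_isIntegral_of_isMaximal (maximalIdeal T))).ge)

lemma bij {A T Q : Type*} [CommRing A] [IsLocalRing A] [IsNoetherianRing A]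
    [IsAdicComplete (maximalIdeal A) A] [CommRing T] [IsLocalRing T] [Algebra A T]
    [Module.Finite A T] (x : T) (h : A[X]) (hm : h.Monic)
    (hker : ∀ G : A[X], aeval x G = 0 ↔ h ∣ G) [CommRing Q] [IsLocalRing Q] [IsNoetherianRing Q]
    [Algebra A Q] (χ : Q →ₐ[A] T) (y : Q) (hy : h.eval₂ (Algebra.ofId A Q) y = 0) (hχ : χ y = x)
    {ι : Type*} [Finite ι] (w : ι → Q) (h1 : ∀ i, ∃ G : A[X], aeval y G = w i)
    (h2 : ∀ i, χ (w i) ∈ maximalIdeal T)
    (h3 : ∀ N q, ∃ G : A[X], q - aeval y G ∈ Ideal.span (Set.range w) ^ N) :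
    Bijective (AdjoinRoot.liftAlgHom h (Algebra.ofId A Q) y hy) := by
  set θ := AdjoinRoot.liftAlgHom h (Algebra.ofId A Q) y hy
  have hθ : ∀ G, θ (AdjoinRoot.mk h G) = aeval y G := fun G => rfl
  have hψ : ∀ G, χ (θ (AdjoinRoot.mk h G)) = aeval x G := fun G => by
    rw [hθ, ← aeval_algHom_apply, hχ]
  have inj : Injective (χ.comp θ).toRingHom := (injective_iff_map_eq_zero _).2 fun a ha => by
    obtain ⟨G, rfl⟩ := AdjoinRoot.mk_surjective a
    exact AdjoinRoot.mk_eq_zero.2 ((hker G).1 ((hψ G).symm.trans ha))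
  refine ⟨Injective.of_comp (f := χ) inj, ?_⟩
  have := hm.finite_adjoinRoot
  have : IsNoetherianRing (AdjoinRoot h) := IsNoetherianRing.of_finite A _
  have int : (χ.comp θ).toRingHom.IsIntegral :=
    RingHom.IsIntegral.tower_top (algebraMap A _) _ (by
      rw [show (χ.comp θ).toRingHom.comp (algebraMap A _) = algebraMap A T from
        (χ.comp θ).comp_algebraMap]
      exact algebraMap_isIntegral_iff.2 inferInstance)
  have := int.isLocalHom inj
  have : IsLocalRing (AdjoinRoot h) := (χ.comp θ).toRingHom.domain_isLocalRing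
  obtain ⟨a, ha⟩ := exists_pow_le_of_finite (A := A) (T := AdjoinRoot h)
  obtain ⟨N, hN⟩ := Ideal.exists_pow_le_of_le_radical_of_fg (I := Ideal.span (Set.range w))
    (J := (maximalIdeal A).map (algebraMap A Q)) (by
      rw [Ideal.span_le]
      rintro _ ⟨i, rfl⟩
      obtain ⟨G, hG⟩ := h1 i
      have b1 : AdjoinRoot.mk h G ∈ maximalIdeal (AdjoinRoot h) := fun hu =>
        h2 i (by rw [← hG, ← hθ]; exact hu.map (χ.comp θ))
      have b2 := Ideal.mem_map_of_mem θ.toRingHom (ha (Ideal.pow_mem_pow b1 a))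
      rw [Ideal.map_map, map_pow] at b2
      refine ⟨a, ?_⟩
      rw [← hG, ← θ.comp_algebraMap]
      exact b2) (Submodule.fg_span (Set.finite_range w))
  have := complete_of_finite (maximalIdeal A) (AdjoinRoot h)
  have := loc (A := A) (T := T)
  have : IsHausdorff (maximalIdeal A) Q := IsHausdorff.of_map (J := maximalIdeal Q)
    (Ideal.map_le_iff_le_comap.2 fun b hb hu => hb (by
      have := hu.map χ
      rwa [χ.commutes, isUnit_map_iff] at this))
  refine surjective_of_mkQ_comp_surjective (I := maximalIdeal A) (f := θ.toLinearMap) fun q => ?_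
  obtain ⟨q, rfl⟩ := Submodule.mkQ_surjective _ q
  obtain ⟨G, hG⟩ := h3 N q
  refine ⟨AdjoinRoot.mk h G, (Submodule.Quotient.eq _).2 ?_⟩
  rw [Ideal.smul_top_eq_map, Submodule.restrictScalars_mem, ← neg_sub]
  exact neg_mem (hN hG)

lemma ln_le {V B W : Type*} [CommRing V] [CommRing B] [CommRing W] [Algebra V W]
    (hW : Surjective (algebraMap V W)) (π : B →+* W) (hπ : Surjective π) (K : Ideal B)
    (hK : K ≤ RingHom.ker π) : Module.length V W ≤ ln B K := by
  let _ : Algebra B W := π.toAlgebra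
  rw [Module.length_eq_of_surjective hW, ← Module.length_eq_of_surjective (S := B) hπ]
  refine Module.length_le_of_surjective (K.liftQ (Algebra.linearMap B W) hK) fun w => ?_
  obtain ⟨b, rfl⟩ := hπ w
  exact ⟨Submodule.Quotient.mk b, rfl⟩

end AddX

theorem add_vars {V : Type*} [CommRing V] [IsDomain V] [IsDiscreteValuationRing V]
    [IsAdicComplete (maximalIdeal V) V] {n r : ℕ} {T : Type*} [CommRing T] [IsLocalRing T]
    [Algebra (PS n V) T] [Module.Finite (PS n V) T] (x : T) (h : (PS n V)[X]) (hm : h.Monic)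
    (hker : ∀ G : (PS n V)[X], aeval x G = 0 ↔ h ∣ G) (e : Fin (r + 1) → T) (he0 : e 0 = x)
    (he : ∀ i, e i ∈ maximalIdeal T) (he' : ∀ i, ∃ G : (PS n V)[X], aeval x G = e i) :
    ∃ (χ : PS (n + (r + 1)) V →+* T) (f : Fin (r + 1) → PS (n + (r + 1)) V),
      (∀ b, χ (MvPowerSeries.rename (Fin.castAdd (r + 1)) b) = algebraMap (PS n V) T b) ∧
      (∀ i, χ (MvPowerSeries.X (Fin.natAdd n i)) = e i) ∧
      RingHom.ker χ = Ideal.span (Set.range f) ∧
      (∀ b, ∃ G : (PS n V)[X], aeval x G = χ b) ∧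
      ln V (Ideal.span {MvPowerSeries.constantCoeff (h.coeff 0)}) ≤
        ln (PS (n + (r + 1)) V) (Ideal.span (Set.range f) ⊔
          (Ideal.span (Set.range fun i : Fin n =>
            (MvPowerSeries.X (Fin.castAdd (r + 1) i) : PS (n + (r + 1)) V)) ⊔
          Ideal.span {MvPowerSeries.X (Fin.natAdd n 0)})) := by
  have := AddX.loc (A := PS n V) (T := T)
  have := complete_of_finite_local (A := PS n V) (B := T)
  choose G hG using he'
  let _ : Algebra V T := ((algebraMap (PS n V) T).comp MvPowerSeries.C).toAlgebra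
  have hX : ∀ i, algebraMap (PS n V) T (MvPowerSeries.X i) ∈ maximalIdeal T := fun i =>
    map_nonunit _ _ fun hu => by
      have := hu.map MvPowerSeries.constantCoeff
      rw [MvPowerSeries.constantCoeff_X] at this
      exact not_isUnit_zero this
  have hz : ∀ i, Fin.append (fun i => algebraMap (PS n V) T (MvPowerSeries.X i)) e i ∈
      maximalIdeal T := fun i => by
    refine Fin.addCases (fun i => ?_) (fun j => ?_) i
    · rw [Fin.append_left]; exact hX i
    · rw [Fin.append_right]; exact he j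
  obtain ⟨χ, hχ⟩ := exists_evalPS (K := V) (maximalIdeal T) _ fun i => Ideal.le_radical (hz i)
  let ρ : PS n V →+* PS (n + (r + 1)) V :=
    (MvPowerSeries.rename (R := V) (Fin.castAdd (r + 1))).toRingHom
  have ρC : ∀ c, ρ (MvPowerSeries.C c) = MvPowerSeries.C c := fun c => MvPowerSeries.rename_C _ c
  have ρX : ∀ i, ρ (MvPowerSeries.X i) = MvPowerSeries.X (Fin.castAdd (r + 1) i) :=
    fun i => MvPowerSeries.rename_X _ i
  have hρ : algebraMap (PS n V) T = χ.toRingHom.comp ρ :=
    ringHom_PS_ext (maximalIdeal T) _ _ (fun c => by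
      rw [RingHom.comp_apply, ρC]
      exact (χ.commutes c).symm) (fun i => by
      rw [RingHom.comp_apply, ρX]
      exact ((hχ _).trans (Fin.append_left _ _ i)).symm) hX
  have χe : ∀ i, χ (MvPowerSeries.X (Fin.natAdd n i)) = e i := fun i => by
    rw [hχ, Fin.append_right]
  let X0 : PS (n + (r + 1)) V := MvPowerSeries.X (Fin.natAdd n 0)
  have χev : ∀ F : (PS n V)[X], χ.toRingHom (F.eval₂ ρ X0) = aeval x F := fun F => by
    rw [hom_eval₂, ← hρ, aeval_def, ← he0, ← χe 0]
    rfl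
  let f : Fin (r + 1) → PS (n + (r + 1)) V := Fin.cons (h.eval₂ ρ X0)
    fun i => MvPowerSeries.X (Fin.natAdd n i.succ) - (G i.succ).eval₂ ρ X0
  let K := Ideal.span (Set.range f)
  have hK : K ≤ RingHom.ker χ.toRingHom := by
    rw [Ideal.span_le]
    rintro _ ⟨i, rfl⟩
    refine Fin.cases ?_ (fun i => ?_) i
    · exact (χev h).trans ((hker h).2 dvd_rfl)
    · change χ.toRingHom (_ - _) = 0
      rw [map_sub, χev, hG, sub_eq_zero]
      exact χe _
  have : Nontrivial (PS (n + (r + 1)) V ⧸ K) := Ideal.Quotient.nontrivial_iff.2 fun h =>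
    RingHom.ker_ne_top _ (top_le_iff.1 (h ▸ hK))
  have : IsLocalRing (PS (n + (r + 1)) V ⧸ K) := .of_surjective' _ Ideal.Quotient.mk_surjective
  let _ : Algebra (PS n V) (PS (n + (r + 1)) V ⧸ K) := ((Ideal.Quotient.mk K).comp ρ).toAlgebra
  let χ' : (PS (n + (r + 1)) V ⧸ K) →ₐ[PS n V] T :=
    ⟨Ideal.Quotient.lift K χ.toRingHom hK, fun b => (DFunLike.congr_fun hρ b).symm⟩
  have ev : ∀ F : (PS n V)[X], aeval (Ideal.Quotient.mk K X0) F =
      Ideal.Quotient.mk K (F.eval₂ ρ X0) := fun F => by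
    rw [hom_eval₂, aeval_def]
    rfl
  have hy : h.eval₂ (Algebra.ofId (PS n V) (PS (n + (r + 1)) V ⧸ K))
      (Ideal.Quotient.mk K X0) = 0 :=
    (ev h).trans (Ideal.Quotient.eq_zero_iff_mem.2 (Ideal.subset_span ⟨0, rfl⟩))
  have hw : ∀ i, ∃ F : (PS n V)[X], aeval (Ideal.Quotient.mk K X0) F =
      Ideal.Quotient.mk K (MvPowerSeries.X i) := fun i => by
    refine Fin.addCases (fun i => ⟨C (MvPowerSeries.X i), ?_⟩) (fun j => ?_) i
    · rw [ev, eval₂_C, ρX]
    · refine Fin.cases ⟨X, aeval_X _⟩ (fun j => ⟨G j.succ, ?_⟩) j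
      rw [ev, eq_comm, Ideal.Quotient.eq]
      exact Ideal.subset_span ⟨j.succ, rfl⟩
  have bij := AddX.bij x h hm hker χ' (Ideal.Quotient.mk K X0) hy ((χe 0).trans he0)
    (fun i => Ideal.Quotient.mk K (MvPowerSeries.X i)) hw (fun i => (hχ i).symm ▸ hz i)
    fun N q => by
      obtain ⟨q, rfl⟩ := Ideal.Quotient.mk_surjective q
      obtain ⟨g, hg⟩ := exists_trunc q N
      have b1 : ∀ g : MvPolynomial (Fin (n + (r + 1))) V, ∃ F : (PS n V)[X],
          aeval (Ideal.Quotient.mk K X0) F = Ideal.Quotient.mk K g := fun g => by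
        induction g using MvPolynomial.induction_on with
        | C c => exact ⟨C (MvPowerSeries.C c), by rw [ev, eval₂_C, ρC, MvPolynomial.coe_C]⟩
        | add p q hp hq =>
          obtain ⟨F, hF⟩ := hp
          obtain ⟨F', hF'⟩ := hq
          exact ⟨F + F', by rw [map_add, hF, hF', MvPolynomial.coe_add, map_add]⟩
        | mul_X p j hp =>
          obtain ⟨F, hF⟩ := hp
          obtain ⟨F', hF'⟩ := hw j
          exact ⟨F * F', by rw [map_mul, hF, hF', MvPolynomial.coe_mul, map_mul,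
            MvPolynomial.coe_X]⟩
      obtain ⟨F, hF⟩ := b1 g
      refine ⟨F, ?_⟩
      have b2 := Ideal.mem_map_of_mem (Ideal.Quotient.mk K) hg
      rwa [Ideal.map_pow, Ideal.map_span, ← Set.range_comp, map_sub, ← hF] at b2
  have key : ∀ b, ∃ F : (PS n V)[X], aeval (Ideal.Quotient.mk K X0) F = Ideal.Quotient.mk K b :=
    fun b => by
      obtain ⟨a, ha⟩ := bij.2 (Ideal.Quotient.mk K b)
      obtain ⟨F, rfl⟩ := AdjoinRoot.mk_surjective a
      exact ⟨F, ha⟩
  have key' : ∀ b (F : (PS n V)[X]), aeval (Ideal.Quotient.mk K X0) F = Ideal.Quotient.mk K b →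
      aeval x F = χ b := fun b F hF => by
    have := congrArg χ' hF
    rwa [← aeval_algHom_apply, show χ' (Ideal.Quotient.mk K X0) = x from (χe 0).trans he0] at this
  refine ⟨χ.toRingHom, f, fun b => (DFunLike.congr_fun hρ b).symm, χe,
    le_antisymm (fun b hb => ?_) hK, fun b => (key b).imp (key' b), ?_⟩
  · obtain ⟨F, hF⟩ := key b
    obtain ⟨F', rfl⟩ := (hker F).1 ((key' b F hF).trans hb)
    rw [← Ideal.Quotient.eq_zero_iff_mem, ← hF, map_mul,
      show aeval (Ideal.Quotient.mk K X0) h = 0 from hy, zero_mul]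
  · let W := V ⧸ Ideal.span {MvPowerSeries.constantCoeff (h.coeff 0)}
    let π0 : PS n V →+* W := (Ideal.Quotient.mk _).comp MvPowerSeries.constantCoeff
    have h0 : h.eval₂ π0 0 = 0 := by
      rw [eval₂_at_zero]
      exact Ideal.Quotient.eq_zero_iff_mem.2 (Ideal.mem_span_singleton_self _)
    let θ := AlgEquiv.ofBijective _ bij
    let π : PS (n + (r + 1)) V →+* W :=
      ((AdjoinRoot.lift π0 0 h0).comp θ.symm.toRingEquiv.toRingHom).comp (Ideal.Quotient.mk K)
    have hπ : ∀ F : (PS n V)[X], π (F.eval₂ ρ X0) = π0 (F.coeff 0) := fun F => by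
      have b1 : θ.symm (Ideal.Quotient.mk K (F.eval₂ ρ X0)) = AdjoinRoot.mk h F :=
        θ.symm_apply_eq.2 (ev F).symm
      change AdjoinRoot.lift π0 0 h0 (θ.symm _) = _
      rw [b1, AdjoinRoot.lift_mk, eval₂_at_zero]
    refine AddX.ln_le (W := W) Ideal.Quotient.mk_surjective π (fun w => ?_) _
      (sup_le (fun b hb => ?_) (sup_le ?_ ?_))
    · obtain ⟨v, rfl⟩ := Ideal.Quotient.mk_surjective w
      refine ⟨_, (hπ (C (MvPowerSeries.C v))).trans ?_⟩
      rw [coeff_C_zero, RingHom.comp_apply, MvPowerSeries.constantCoeff_C]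
    · rw [RingHom.mem_ker, RingHom.comp_apply, Ideal.Quotient.eq_zero_iff_mem.2 hb, map_zero]
    · rw [Ideal.span_le]
      rintro _ ⟨i, rfl⟩
      have b1 := hπ (C (MvPowerSeries.X i))
      rw [eval₂_C, ρX, coeff_C_zero] at b1
      refine b1.trans ?_
      rw [RingHom.comp_apply, MvPowerSeries.constantCoeff_X, map_zero]
    · have b1 := hπ X
      rw [eval₂_X, coeff_X_zero, map_zero] at b1
      exact (Ideal.span_singleton_le_iff_mem _).2 b1

end Vale.Agent.P202
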