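import Vale.Agent.P202M.Bas

/-! Growth rates of sequences. -/

open IsLocalRing Filter
open scoped ENNReal

namespace Vale.Agent.P202

namespace AsymX

lemma tendsto_ratio (n c d : ℕ) :
    Tendsto (fun j : ℕ => (((n * j + c : ℕ) : ℝ≥0∞) / j) ^ d) atTop (nhds ((n : ℝ≥0∞) ^ d)) := by
  apply ENNReal.Tendsto.pow
  have h1 : Tendsto (fun j : ℕ => (n : ℝ≥0∞) + c * (j : ℝ≥0∞)⁻¹) atTop (nhds (n + c * 0)) :=
    tendsto_const_nhds.add (ENNReal.Tendsto.const_mul ENNReal.tendsto_inv_nat_nhds_zero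
      (Or.inr (ENNReal.natCast_ne_top c)))
  rw [mul_zero, add_zero] at h1
  refine h1.congr' ?_
  filter_upwards [eventually_gt_atTop 0] with j hj
  have hj0 : (j : ℝ≥0∞) ≠ 0 := by exact_mod_cast hj.ne'
  push_cast
  rw [ENNReal.add_div, ENNReal.mul_div_cancel_right hj0 (ENNReal.natCast_ne_top j),
    div_eq_mul_inv]

lemma div_pow' (a b : ℝ≥0∞) (d : ℕ) : (a / b) ^ d = a ^ d / b ^ d := by
  rw [div_eq_mul_inv, div_eq_mul_inv, mul_pow, ENNReal.inv_pow]

lemma ratio_mul {m : ℕ} (hm : 0 < m) (x b : ℝ≥0∞) (d : ℕ) :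
    x / b ^ d = ((m : ℝ≥0∞) / b) ^ d * (x / (m : ℝ≥0∞) ^ d) := by
  have hm0 : (m : ℝ≥0∞) ^ d ≠ 0 := pow_ne_zero _ (by exact_mod_cast hm.ne')
  have hmt : (m : ℝ≥0∞) ^ d ≠ ⊤ := ENNReal.pow_ne_top (ENNReal.natCast_ne_top m)
  rw [div_pow', div_eq_mul_inv, div_eq_mul_inv, div_eq_mul_inv]
  calc x * (b ^ d)⁻¹ = x * (b ^ d)⁻¹ * ((m : ℝ≥0∞) ^ d * ((m : ℝ≥0∞) ^ d)⁻¹) := by
        rw [ENNReal.mul_inv_cancel hm0 hmt, mul_one]
    _ = _ := by ring

lemma limsup_mul {u v : ℕ → ℝ≥0∞} {a : ℝ≥0∞} (hu : Tendsto u atTop (nhds a)) (ha : a ≠ ⊤)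
    (h0 : a ≠ 0 ∨ limsup v atTop ≠ ⊤) :
    limsup (fun j => u j * v j) atTop ≤ a * limsup v atTop := by
  have h := ENNReal.limsup_mul_le' (u := u) (v := v) (f := atTop)
    (by rw [hu.limsup_eq]; exact h0) (by rw [hu.limsup_eq]; exact Or.inl ha)
  rwa [hu.limsup_eq] at h

lemma bern (x d : ℕ) : x ^ (d + 1) + (d + 1) * x ^ d ≤ (x + 1) ^ (d + 1) := by
  induction d with
  | zero => simp
  | succ d ih =>
    calc x ^ (d + 1 + 1) + (d + 1 + 1) * x ^ (d + 1)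
        ≤ (x ^ (d + 1) + (d + 1) * x ^ d) * (x + 1) := by
          have : (x ^ (d + 1) + (d + 1) * x ^ d) * (x + 1) =
              x ^ (d + 1 + 1) + (d + 1 + 1) * x ^ (d + 1) + (d + 1) * x ^ d := by ring
          omega
      _ ≤ (x + 1) ^ (d + 1) * (x + 1) := Nat.mul_le_mul_right _ ih
      _ = _ := by ring

lemma sum_pow_le (j d : ℕ) : (d + 1) * ∑ k ∈ Finset.range j, k ^ d ≤ j ^ (d + 1) := by
  induction j with
  | zero => simp
  | succ j ih =>
    rw [Finset.sum_range_succ, mul_add]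
    have := bern j d
    omega

lemma cast_sum (s : Finset ℕ) (f : ℕ → ℕ∞) :
    ((∑ k ∈ s, f k : ℕ∞) : ℝ≥0∞) = ∑ k ∈ s, (f k : ℝ≥0∞) :=
  map_sum ENat.toENNRealRingHom f s

lemma succ_div {j : ℕ} (hj : 0 < j) (x : ℝ≥0∞) (d : ℕ) :
    (j : ℝ≥0∞) * x / (j : ℝ≥0∞) ^ (d + 1) = x / (j : ℝ≥0∞) ^ d := by
  have hj0 : (j : ℝ≥0∞) ≠ 0 := by exact_mod_cast hj.ne'
  rw [pow_succ', ENNReal.mul_div_mul_left _ _ hj0 (ENNReal.natCast_ne_top j)]

lemma nrat_eq {A : Type*} [CommRing A] [IsLocalRing A] [IsNoetherianRing A] (d : ℕ) :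
    nrat (fun j => lm (maximalIdeal A ^ j) A) d =ᶠ[atTop]
      fun j => ENNReal.ofReal (((d.factorial : ℝ) * (hs A j : ℝ)) / (j : ℝ) ^ d) := by
  filter_upwards [eventually_gt_atTop 0] with j hj
  have h1 : lm (maximalIdeal A ^ j) A = Module.length A (A ⧸ maximalIdeal A ^ j) := by
    unfold lm
    rw [show ((maximalIdeal A ^ j) • ⊤ : Submodule A A) = maximalIdeal A ^ j by simp]
  obtain ⟨r, y, hy⟩ := Submodule.fg_iff_exists_fin_generating_family.mp
    (IsNoetherian.noetherian (maximalIdeal A))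
  obtain ⟨N, rfl⟩ : ∃ N, j = N + 1 := ⟨j - 1, by omega⟩
  have h2 : Module.length A (A ⧸ maximalIdeal A ^ (N + 1)) ≠ ⊤ :=
    ne_top_of_le_ne_top (ENat.natCast_ne_top _) (length_quot_pow_le y hy.symm N)
  have h3 : Module.length A (A ⧸ maximalIdeal A ^ (N + 1)) = (hs A (N + 1) : ℕ∞) :=
    (ENat.natCast_toNat h2).symm
  unfold nrat
  simp only
  rw [h1, h3, ENNReal.ofReal_div_of_pos (by positivity), ENNReal.ofReal_mul (by positivity),
    ENNReal.ofReal_pow (by positivity), ENNReal.ofReal_natCast, ENNReal.ofReal_natCast,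
    ENNReal.ofReal_natCast, ENat.toENNReal_coe]

end AsymX

open AsymX

variable {f g : ℕ → ℕ∞} {d : ℕ}

theorem um_mono (h : ∀ᶠ j in atTop, f j ≤ g j) : um f d ≤ um g d := by
  refine limsup_le_limsup ?_
  filter_upwards [h] with j hj
  unfold nrat
  gcongr

theorem lw_mono (h : ∀ᶠ j in atTop, f j ≤ g j) : lw f d ≤ lw g d := by
  refine liminf_le_liminf ?_
  filter_upwards [h] with j hj
  unfold nrat
  gcongr

theorem lw_le_um : lw f d ≤ um f d := by
  exact liminf_le_limsup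

theorem um_zero : um (fun _ => 0) d = 0 := by
  have : nrat (fun _ => 0) d = fun _ => 0 := by
    funext j
    simp [nrat]
  rw [um, this, limsup_const]

theorem um_add_le : um (fun j => f j + g j) d ≤ um f d + um g d := by
  have : nrat (fun j => f j + g j) d = nrat f d + nrat g d := by
    funext j
    simp only [nrat, ENat.toENNReal_add, mul_add, ENNReal.add_div, Pi.add_apply]
  rw [um, um, um, this]
  refine le_of_forall_gt_imp_ge_of_dense fun c hc => ?_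
  obtain ⟨a, ha, b, hb, hab⟩ := ENNReal.exists_add_lt_of_add_lt hc
  refine limsup_le_of_le (by isBoundedDefault) ?_
  filter_upwards [eventually_lt_of_limsup_lt ha, eventually_lt_of_limsup_lt hb] with j h1 h2
  exact (add_le_add h1.le h2.le).trans hab.le

theorem lw_add_le : lw f d + lw g d ≤ lw (fun j => f j + g j) d := by
  have : nrat (fun j => f j + g j) d = nrat f d + nrat g d := by
    funext j
    simp only [nrat, ENat.toENNReal_add, mul_add, ENNReal.add_div, Pi.add_apply]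
  rw [lw, lw, lw, this]
  by_cases h1 : liminf (nrat f d) atTop = 0
  · rw [h1, zero_add]
    exact liminf_le_liminf (Eventually.of_forall fun j => le_add_self)
  by_cases h2 : liminf (nrat g d) atTop = 0
  · rw [h2, add_zero]
    exact liminf_le_liminf (Eventually.of_forall fun j => le_self_add)
  refine le_of_forall_lt_imp_le_of_dense fun c hc => ?_
  obtain ⟨a, ha, b, hb, hab⟩ := ENNReal.exists_lt_add_of_lt_add hc h1 h2
  refine le_liminf_of_le (by isBoundedDefault) ?_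
  filter_upwards [eventually_lt_of_lt_liminf ha, eventually_lt_of_lt_liminf hb] with j h3 h4
  exact hab.le.trans (add_le_add h3.le h4.le)

theorem um_const_mul (c : ℕ) : um (fun j => c * f j) d ≤ c * um f d := by
  have : nrat (fun j => c * f j) d = fun j => (c : ℝ≥0∞) * nrat f d j := by
    funext j
    simp only [nrat, ENat.toENNReal_mul, ENat.toENNReal_coe, div_eq_mul_inv]
    ring
  rw [um, this, ENNReal.limsup_const_mul_of_ne_top (ENNReal.natCast_ne_top c)]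
  rfl

theorem um_comp {n : ℕ} (hn : 0 < n) (c : ℕ) :
    um (fun j => f (n * j + c)) d ≤ (n : ℝ≥0∞) ^ d * um f d := by
  have h1 : nrat (fun j => f (n * j + c)) d =ᶠ[atTop]
      fun j => (((n * j + c : ℕ) : ℝ≥0∞) / j) ^ d * nrat f d (n * j + c) := by
    filter_upwards [eventually_gt_atTop 0] with j hj
    unfold nrat
    exact ratio_mul (by positivity) _ _ _
  have h2 : Tendsto (fun j : ℕ => n * j + c) atTop atTop :=
    tendsto_atTop_mono (fun j => by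
      have := Nat.le_mul_of_pos_left j hn
      simp only [id]
      omega) tendsto_id
  have h3 : limsup (fun j => nrat f d (n * j + c)) atTop ≤ um f d :=
    h2.limsup_comp_le_limsup (u := nrat f d)
  rw [um, limsup_congr h1]
  refine (limsup_mul (tendsto_ratio n c d) (ENNReal.pow_ne_top (ENNReal.natCast_ne_top n))
    (Or.inl (pow_ne_zero _ (by exact_mod_cast hn.ne')))).trans ?_
  gcongr

theorem lw_shift (c : ℕ) : lw (fun j => f (j + c)) d ≤ lw f d := by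
  have h1 : nrat (fun j => f (j + c)) d =ᶠ[atTop]
      (fun j => (((1 * j + c : ℕ) : ℝ≥0∞) / j) ^ d) * fun j => nrat f d (j + c) := by
    filter_upwards [eventually_gt_atTop 0] with j hj
    unfold nrat
    rw [Pi.mul_apply, one_mul]
    exact ratio_mul (by positivity) _ _ _
  have h2 := (tendsto_ratio 1 c d).limsup_eq
  rw [Nat.cast_one, one_pow] at h2
  rw [lw, liminf_congr h1]
  refine (ENNReal.liminf_mul_le (by rw [h2]; simp) (by rw [h2]; simp)).trans ?_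
  rw [h2, one_mul, liminf_nat_add (nrat f d) c]
  rfl

theorem um_sum (hf : ∀ k, f k ≠ ⊤) :
    um (fun j => ∑ k ∈ Finset.range (j + 1), f k) (d + 1) ≤ um f d := by
  refine le_of_forall_gt_imp_ge_of_dense fun a ha => ?_
  by_cases hat : a = ⊤
  · simp [hat]
  obtain ⟨k₀, hk₀⟩ := eventually_atTop.1
    ((eventually_lt_of_limsup_lt ha).and (eventually_gt_atTop 0))
  set S : ℝ≥0∞ := ∑ k ∈ Finset.range k₀, (d.factorial : ℝ≥0∞) * f k with hS
  have hSt : S ≠ ⊤ := ENNReal.sum_ne_top.2 fun k _ =>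
    ENNReal.mul_ne_top (ENNReal.natCast_ne_top _) (ENat.toENNReal_ne_top.2 (hf k))
  have h1 : ∀ j, ∑ k ∈ Finset.range j, (d.factorial : ℝ≥0∞) * f k ≤
      S + a * ∑ k ∈ Finset.range j, (k : ℝ≥0∞) ^ d := by
    intro j
    have h2 : ∀ k ∈ Finset.range j, (d.factorial : ℝ≥0∞) * f k ≤
        (if k ∈ Finset.range k₀ then (d.factorial : ℝ≥0∞) * f k else 0) + a * (k : ℝ≥0∞) ^ d := by
      intro k _
      split_ifs with hk
      · exact le_self_add
      · obtain ⟨h3, h4⟩ := hk₀ k (by simpa using hk)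
        have hk0 : (k : ℝ≥0∞) ^ d ≠ 0 := pow_ne_zero _ (by exact_mod_cast h4.ne')
        rw [zero_add]
        exact (ENNReal.div_le_iff hk0 (ENNReal.pow_ne_top (ENNReal.natCast_ne_top k))).1 h3.le
    refine (Finset.sum_le_sum h2).trans ?_
    rw [Finset.sum_add_distrib, ← Finset.mul_sum, Finset.sum_ite_mem]
    gcongr
    exact Finset.sum_le_sum_of_subset Finset.inter_subset_right
  have h5 : ∀ᶠ j : ℕ in atTop, nrat (fun j => ∑ k ∈ Finset.range (j + 1), f k) (d + 1) j ≤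
      (d + 1 : ℕ) * S * (j : ℝ≥0∞)⁻¹ + (((1 * j + 1 : ℕ) : ℝ≥0∞) / j) ^ (d + 1) * a := by
    filter_upwards [eventually_gt_atTop 0] with j hj
    have h6 : ((d + 1 : ℕ) : ℝ≥0∞) * ∑ k ∈ Finset.range (j + 1), (k : ℝ≥0∞) ^ d ≤
        ((j + 1 : ℕ) : ℝ≥0∞) ^ (d + 1) := by exact_mod_cast sum_pow_le (j + 1) d
    have h7 : ((j : ℝ≥0∞) ^ (d + 1))⁻¹ ≤ (j : ℝ≥0∞)⁻¹ := by
      rw [ENNReal.inv_le_inv]
      exact_mod_cast Nat.le_self_pow (Nat.succ_ne_zero d) j
    unfold nrat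
    simp only
    rw [cast_sum, Nat.factorial_succ, Nat.cast_mul, mul_assoc, Finset.mul_sum, one_mul, div_pow',
      div_eq_mul_inv, div_eq_mul_inv]
    calc ((d + 1 : ℕ) : ℝ≥0∞) * (∑ k ∈ Finset.range (j + 1), (d.factorial : ℝ≥0∞) * f k) *
          ((j : ℝ≥0∞) ^ (d + 1))⁻¹
        ≤ ((d + 1 : ℕ) : ℝ≥0∞) * (S + a * ∑ k ∈ Finset.range (j + 1), (k : ℝ≥0∞) ^ d) *
          ((j : ℝ≥0∞) ^ (d + 1))⁻¹ := by gcongr; exact h1 _
      _ = (d + 1 : ℕ) * S * ((j : ℝ≥0∞) ^ (d + 1))⁻¹ +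
          (((d + 1 : ℕ) : ℝ≥0∞) * ∑ k ∈ Finset.range (j + 1), (k : ℝ≥0∞) ^ d) *
            ((j : ℝ≥0∞) ^ (d + 1))⁻¹ * a := by ring
      _ ≤ _ := by gcongr
  have h8 : Tendsto (fun j : ℕ => ((d + 1 : ℕ) : ℝ≥0∞) * S * (j : ℝ≥0∞)⁻¹ +
      (((1 * j + 1 : ℕ) : ℝ≥0∞) / j) ^ (d + 1) * a) atTop
      (nhds (((d + 1 : ℕ) : ℝ≥0∞) * S * 0 + ((1 : ℕ) : ℝ≥0∞) ^ (d + 1) * a)) :=
    (ENNReal.Tendsto.const_mul ENNReal.tendsto_inv_nat_nhds_zero
      (Or.inr (ENNReal.mul_ne_top (ENNReal.natCast_ne_top _) hSt))).add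
      (ENNReal.Tendsto.mul_const (tendsto_ratio 1 1 (d + 1)) (Or.inr hat))
  rw [mul_zero, zero_add, Nat.cast_one, one_pow, one_mul] at h8
  rw [← h8.limsup_eq]
  exact limsup_le_limsup h5

theorem um_mul_id : um (fun j => j * f j) (d + 1) ≤ (d + 1 : ℕ) * um f d := by
  have h1 : nrat (fun j => j * f j) (d + 1) =ᶠ[atTop]
      fun j => ((d + 1 : ℕ) : ℝ≥0∞) * nrat f d j := by
    filter_upwards [eventually_gt_atTop 0] with j hj
    unfold nrat
    simp only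
    rw [ENat.toENNReal_mul, ENat.toENNReal_coe, Nat.factorial_succ, Nat.cast_mul, ← mul_div_assoc,
      ← succ_div hj _ d]
    congr 1
    ring
  rw [um, limsup_congr h1, ENNReal.limsup_const_mul_of_ne_top (ENNReal.natCast_ne_top _)]
  rfl

theorem um_succ_eq_zero (h : um f d ≠ ⊤) : um f (d + 1) = 0 := by
  have h1 : nrat f (d + 1) =ᶠ[atTop]
      fun j => (((d + 1 : ℕ) : ℝ≥0∞) * (j : ℝ≥0∞)⁻¹) * nrat f d j := by
    filter_upwards [eventually_gt_atTop 0] with j hj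
    have hj0 : (j : ℝ≥0∞) ≠ 0 := by exact_mod_cast hj.ne'
    unfold nrat
    rw [Nat.factorial_succ, Nat.cast_mul, pow_succ, div_eq_mul_inv, div_eq_mul_inv,
      ENNReal.mul_inv (Or.inr (ENNReal.natCast_ne_top j)) (Or.inr hj0)]
    ring
  have h2 : Tendsto (fun j : ℕ => ((d + 1 : ℕ) : ℝ≥0∞) * (j : ℝ≥0∞)⁻¹) atTop
      (nhds (((d + 1 : ℕ) : ℝ≥0∞) * 0)) :=
    ENNReal.Tendsto.const_mul ENNReal.tendsto_inv_nat_nhds_zero
      (Or.inr (ENNReal.natCast_ne_top _))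
  rw [mul_zero] at h2
  have h3 := limsup_mul (v := nrat f d) h2 ENNReal.zero_ne_top (Or.inr h)
  rw [zero_mul] at h3
  rw [um, limsup_congr h1]
  exact le_antisymm h3 zero_le

theorem le_lw_choose (c : ℕ∞) : (c : ℝ≥0∞) ≤ lw (fun j => ((j + d).choose d : ℕ) * c) d := by
  refine le_liminf_of_le (by isBoundedDefault) ?_
  filter_upwards [eventually_gt_atTop 0] with j hj
  have hj0 : (j : ℝ≥0∞) ^ d ≠ 0 := pow_ne_zero _ (by exact_mod_cast hj.ne')
  have h1 : j ^ d ≤ d.factorial * (j + d).choose d := by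
    rw [← Nat.ascFactorial_eq_factorial_mul_choose]
    exact (Nat.pow_le_pow_left (Nat.le_succ j) d).trans (Nat.pow_succ_le_ascFactorial _ _)
  have h2 : (j : ℝ≥0∞) ^ d ≤ d.factorial * ((j + d).choose d : ℕ) := by exact_mod_cast h1
  unfold nrat
  simp only
  rw [ENNReal.le_div_iff_mul_le (Or.inl hj0)
    (Or.inl (ENNReal.pow_ne_top (ENNReal.natCast_ne_top j))), ENat.toENNReal_mul,
    ENat.toENNReal_coe, ← mul_assoc, mul_comm (c : ℝ≥0∞)]
  gcongr

theorem um_choose (c : ℕ∞) : um (fun j => ((j + d).choose d : ℕ) * c) d ≤ c := by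
  have h1 : ∀ᶠ j : ℕ in atTop, nrat (fun j => ((j + d).choose d : ℕ) * c) d j ≤
      (((1 * j + d : ℕ) : ℝ≥0∞) / j) ^ d * (c : ℝ≥0∞) := by
    filter_upwards with j
    have h1 : d.factorial * (j + d).choose d ≤ (j + d) ^ d := by
      rw [← Nat.ascFactorial_eq_factorial_mul_choose]
      exact Nat.ascFactorial_le_pow_add _ _
    have h2 : (d.factorial : ℝ≥0∞) * ((j + d).choose d : ℕ) ≤ ((j + d : ℕ) : ℝ≥0∞) ^ d := by
      exact_mod_cast h1
    unfold nrat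
    simp only
    rw [ENat.toENNReal_mul, ENat.toENNReal_coe, one_mul, div_pow', div_eq_mul_inv, div_eq_mul_inv,
      ← mul_assoc, mul_right_comm]
    gcongr
  have h2 := ENNReal.Tendsto.mul_const (b := (c : ℝ≥0∞)) (tendsto_ratio 1 d d) (Or.inl (by simp))
  rw [Nat.cast_one, one_pow, one_mul] at h2
  rw [← h2.limsup_eq]
  exact limsup_le_limsup h1

/-- Passing to the limit `n → ∞`. -/
theorem le_of_pow_le {x e C : ℝ≥0∞} (hC : C ≠ ⊤)
    (h : ∀ n : ℕ, 1 ≤ n → (n : ℝ≥0∞) ^ (d + 1) * x ≤ (n : ℝ≥0∞) ^ (d + 1) * e + C * (n : ℝ≥0∞) ^ d) :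
    x ≤ e := by
  have h1 : Tendsto (fun n : ℕ => e + C * (n : ℝ≥0∞)⁻¹) atTop (nhds (e + C * 0)) :=
    tendsto_const_nhds.add (ENNReal.Tendsto.const_mul ENNReal.tendsto_inv_nat_nhds_zero
      (Or.inr hC))
  rw [mul_zero, add_zero] at h1
  refine ge_of_tendsto h1 ?_
  filter_upwards [eventually_ge_atTop 1] with n hn
  have hn0 : (n : ℝ≥0∞) ≠ 0 := by exact_mod_cast (by omega : n ≠ 0)
  have hnt := ENNReal.natCast_ne_top n
  rw [← ENNReal.mul_le_mul_iff_right (pow_ne_zero (d + 1) hn0) (ENNReal.pow_ne_top hnt)]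
  refine (h n hn).trans (le_of_eq ?_)
  calc (n : ℝ≥0∞) ^ (d + 1) * e + C * (n : ℝ≥0∞) ^ d
      = (n : ℝ≥0∞) ^ (d + 1) * e + C * (n : ℝ≥0∞) ^ d * (n * (n : ℝ≥0∞)⁻¹) := by
        rw [ENNReal.mul_inv_cancel hn0 hnt, mul_one]
    _ = _ := by ring

/-- Passing to the limit `q → ∞`. -/
theorem le_of_sub_pow_le {x e : ℝ≥0∞} (c : ℕ)
    (h : ∀ q : ℕ, 1 ≤ q → ((q - c : ℕ) : ℝ≥0∞) ^ d * x ≤ (q : ℝ≥0∞) ^ d * e) : x ≤ e := by
  have h2 := ENNReal.Tendsto.mul_const (b := e) (tendsto_ratio 1 c d) (Or.inl (by simp))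
  rw [Nat.cast_one, one_pow, one_mul] at h2
  refine ge_of_tendsto h2 ?_
  filter_upwards [eventually_gt_atTop 0] with j hj
  have hj0 : (j : ℝ≥0∞) ^ d ≠ 0 := pow_ne_zero _ (by exact_mod_cast hj.ne')
  have h3 := h (j + c) (by omega)
  rw [Nat.add_sub_cancel] at h3
  rw [one_mul, div_pow', div_eq_mul_inv, mul_right_comm, ← div_eq_mul_inv,
    ENNReal.le_div_iff_mul_le (Or.inl hj0)
      (Or.inl (ENNReal.pow_ne_top (ENNReal.natCast_ne_top j))), mul_comm]
  exact h3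

variable {A : Type*} [CommRing A] [IsLocalRing A] [IsNoetherianRing A]

theorem isMult_of_le (h : eU (maximalIdeal A) A d ≤ eL (maximalIdeal A) A d)
    (h' : eU (maximalIdeal A) A d ≠ ⊤) : IsMult A d (eU (maximalIdeal A) A d).toReal := by
  have h1 : Tendsto (nrat (fun j => lm (maximalIdeal A ^ j) A) d) atTop
      (nhds (eU (maximalIdeal A) A d)) := tendsto_of_le_liminf_of_limsup_le h le_rfl
  have h2 := (ENNReal.tendsto_toReal h').comp (h1.congr' (nrat_eq d))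
  refine h2.congr fun j => ?_
  exact ENNReal.toReal_ofReal (by positivity)

theorem IsMult.eU_eq {e : ℝ} (h : IsMult A d e) :
    eU (maximalIdeal A) A d = ENNReal.ofReal e ∧ eL (maximalIdeal A) A d = ENNReal.ofReal e := by
  have h1 := (ENNReal.tendsto_ofReal h).congr' (nrat_eq (A := A) d).symm
  exact ⟨h1.limsup_eq, h1.liminf_eq⟩

end Vale.Agent.P202
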