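import Vale.Agent.P202.Final2

/-! Basic definitions for the mixed characteristic case. -/

open IsLocalRing Filter
open scoped ENNReal

namespace Vale.Agent.P202

/-- Length of `M / I M`. -/
noncomputable abbrev lm {A : Type*} [CommRing A] (I : Ideal A) (M : Type*) [AddCommGroup M]
    [Module A M] : ℕ∞ :=
  Module.length A (M ⧸ (I • ⊤ : Submodule A M))

/-- The normalized sequence `d! f(j) / j^d`. -/
noncomputable def nrat (f : ℕ → ℕ∞) (d j : ℕ) : ℝ≥0∞ :=
  (d.factorial : ℝ≥0∞) * (f j : ℝ≥0∞) / (j : ℝ≥0∞) ^ d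

/-- Upper growth rate. -/
noncomputable def um (f : ℕ → ℕ∞) (d : ℕ) : ℝ≥0∞ := limsup (nrat f d) atTop

/-- Lower growth rate. -/
noncomputable def lw (f : ℕ → ℕ∞) (d : ℕ) : ℝ≥0∞ := liminf (nrat f d) atTop

/-- Upper multiplicity. -/
noncomputable def eU {A : Type*} [CommRing A] (I : Ideal A) (M : Type*) [AddCommGroup M]
    [Module A M] (d : ℕ) : ℝ≥0∞ := um (fun j => lm (I ^ j) M) d

/-- Lower multiplicity. -/
noncomputable def eL {A : Type*} [CommRing A] (I : Ideal A) (M : Type*) [AddCommGroup M]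
    [Module A M] (d : ℕ) : ℝ≥0∞ := lw (fun j => lm (I ^ j) M) d

/-- `I` contains a power of `m`. -/
def Prim {A : Type*} [CommRing A] (m I : Ideal A) : Prop := ∃ a : ℕ, m ^ a ≤ I

/-- Every family of `n` elements generating an ideal that contains a power of `m` has the
colon property. -/
def CM {A : Type*} [CommRing A] (m : Ideal A) (n : ℕ) : Prop :=
  ∀ (ι : Type) [Fintype ι], Fintype.card ι = n → ∀ z : ι → A, Prim m (Ideal.span (Set.range z)) →
    ∀ (j : ι) (w : A), z j * w ∈ Ideal.span (z '' {i | i ≠ j}) → w ∈ Ideal.span (z '' {i | i ≠ j})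

/-- Abstract length functions. -/
structure IsLam {T : Type*} [CommRing T] (lam : Ideal T → ℝ≥0∞) : Prop where
  anti : Antitone lam
  top : lam ⊤ = 0
  sub : ∀ (I : Ideal T) (w : T), lam I ≤ lam (I.colon {w}) + lam (I ⊔ Ideal.span {w})

lemma Prim.mono {A : Type*} [CommRing A] {m I J : Ideal A} (h : Prim m I) (hIJ : I ≤ J) :
    Prim m J := ⟨h.choose, h.choose_spec.trans hIJ⟩

end Vale.Agent.P202
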