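import Vale.Agent.P202M.Red

/-! Cohen-Macaulay rings through the colon property. -/

open IsLocalRing Filter Function
open scoped ENNReal

namespace Vale.Agent.P202

variable {A : Type*} [CommRing A] {m : Ideal A} {n : ℕ}

namespace CMX

theorem of_surj {B : Type*} [CommRing B] {r : ℕ} (h : CM m (r + n)) (ψ : Fin r → A)
    (φ : A →+* B) (hφ : Surjective φ) (hk : RingHom.ker φ = Ideal.span (Set.range ψ)) :
    CM (m.map φ) n := by
  intro ι _ hι z ⟨a, ha⟩ j w hw
  choose y hy using fun i => hφ (z i)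
  obtain ⟨w, rfl⟩ := hφ w
  have key : ∀ (s : Set ι) (x : A), φ x ∈ Ideal.span (z '' s) ↔
      x ∈ Ideal.span (Sum.elim ψ y '' (Set.range Sum.inl ∪ Sum.inr '' s)) := by
    intro s x
    rw [Set.image_union, Ideal.span_union, ← Set.range_comp, Set.image_image, Sum.elim_comp_inl,
      ← hk, sup_comm, RingHom.ker_eq_comap_bot, ← Ideal.comap_map_of_surjective φ hφ,
      Ideal.mem_comap, Ideal.map_span, Set.image_image]
    simp [hy]
  have e1 : {i : Fin r ⊕ ι | i ≠ Sum.inr j} = Set.range Sum.inl ∪ Sum.inr '' {i | i ≠ j} := by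
    ext (i | i) <;> simp
  rw [key, ← e1]
  refine h _ (by simp [hι]) (Sum.elim ψ y) ⟨a, fun x hx => ?_⟩ _ _ ?_
  · have h1 := ha (Ideal.map_pow φ m a ▸ Ideal.mem_map_of_mem φ hx)
    rw [← Set.image_univ, key] at h1
    exact Ideal.span_mono (Set.image_subset_range _ _) h1
  · rwa [e1, ← key, map_mul, Sum.elim_inr, hy]

theorem span_split {ι : Type*} (f : ι → A) (j : ι) :
    Ideal.span (Set.range f) = Ideal.span (f '' {i | i ≠ j}) ⊔ Ideal.span {f j} := by
  rw [← Ideal.span_union, ← Set.image_singleton, ← Set.image_union, ← Set.image_univ]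
  congr 2
  ext i
  by_cases h : i = j <;> simp [h]

theorem image_insert {ι : Type*} [DecidableEq ι] (z : ι → A) (e : ι → ℕ) (j : ι) (t : Finset ι) :
    (fun i => z i ^ if i ∈ insert j t then e i else 1) '' {i | i ≠ j} =
      (fun i => z i ^ if i ∈ t then e i else 1) '' {i | i ≠ j} :=
  Set.image_congr fun i hi => by simp [show i ≠ j from hi]

variable (h : CM m n) {ι : Type} [Fintype ι] (hι : Fintype.card ι = n) (z : ι → A)
  (hz : Prim m (Ideal.span (Set.range z)))
include h hι hz

theorem colon_pow (e : ι → ℕ) (j : ι) (a : ℕ) (r : A)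
    (hr : z j ^ a * r ∈ Ideal.span ((fun i => z i ^ e i) '' {i | i ≠ j})) :
    r ∈ Ideal.span ((fun i => z i ^ e i) '' {i | i ≠ j}) := by
  classical
  have e1 : (fun i => z i ^ e i) '' {i | i ≠ j} =
      (fun i => z i ^ update e j a i) '' {i | i ≠ j} :=
    Set.image_congr fun i hi => by rw [update_of_ne hi]
  rw [e1] at hr ⊢
  refine h ι hι _ ?_ j r (by rwa [update_self])
  exact (Prim.span_pow (K := ⊥) (hz.mono le_sup_right) (update e j a)).mono (bot_sup_eq _).le

theorem cancel (e : ι → ℕ) (j : ι) (a b : ℕ) (r : A)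
    (hr : z j ^ a * r ∈ Ideal.span ((fun i => z i ^ e i) '' {i | i ≠ j}) ⊔
      Ideal.span {z j ^ (b + a)}) :
    r ∈ Ideal.span ((fun i => z i ^ e i) '' {i | i ≠ j}) ⊔ Ideal.span {z j ^ b} := by
  obtain ⟨u, hu, v, hv, e1⟩ := Submodule.mem_sup.1 hr
  obtain ⟨c, rfl⟩ := Ideal.mem_span_singleton'.1 hv
  have h1 := colon_pow h hι z hz e j a (r - c * z j ^ b) (by
    convert hu using 1
    linear_combination (-1 : A) * e1)
  rw [← sub_add_cancel r (c * z j ^ b)]
  exact add_mem (Ideal.mem_sup_left h1)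
    (Ideal.mem_sup_right (Ideal.mul_mem_left _ _ (Ideal.mem_span_singleton_self _)))

theorem colon_mon [DecidableEq ι] (μ : ι → ℕ) (r : A) (t : Finset ι)
    (hr : (∏ i ∈ t, z i ^ μ i) * r ∈
      Ideal.span (Set.range fun i => z i ^ if i ∈ t then 1 + μ i else 1)) :
    r ∈ Ideal.span (Set.range z) := by
  induction t using Finset.induction_on with
  | empty => simpa using hr
  | insert j t hj ih =>
    rw [span_split _ j, if_pos (Finset.mem_insert_self _ _), Finset.prod_insert hj, mul_assoc,
      image_insert] at hr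
    rw [span_split _ j, if_neg hj] at ih
    exact ih (cancel h hι z hz _ j _ _ _ hr)

omit hι hz in
theorem layer (R : Type*) [CommRing R] [Algebra R A] (y : Fin n → A)
    (hy : Prim m (Ideal.span (Set.range y))) (N : ℕ) (s : Finset (Fin n →₀ ℕ))
    (hs : s ⊆ degL n N) : ln R (Ideal.span (Set.range y) ^ (N + 1)) =
      s.card * ln R (Ideal.span (Set.range y)) +
        ln R (Ideal.span (Set.range y) ^ (N + 1) ⊔ Ideal.span (monL y '' s)) := by
  classical
  induction s using Finset.induction_on with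
  | empty => simp
  | insert μ s hμ ih =>
    have d := mem_degL.1 (hs (Finset.mem_insert_self _ _))
    have key : ∀ ν : Fin n →₀ ℕ, N ≤ ∑ i, ν i → ν ≠ μ → monL y ν ∈
        Ideal.span (Set.range fun i => y i ^ if i ∈ Finset.univ then 1 + μ i else 1) := by
      intro ν h1 h2
      obtain ⟨k, hk⟩ : ∃ k, μ k < ν k := by
        by_contra! h3
        exact h2 (Finsupp.ext fun k => (Finset.sum_eq_sum_iff_of_le fun i _ => h3 i).1
          (le_antisymm (Finset.sum_le_sum fun i _ => h3 i) (d ▸ h1)) k (Finset.mem_univ k))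
      refine Ideal.mem_of_dvd _ ?_ (Ideal.subset_span ⟨k, rfl⟩)
      simp only [Finset.mem_univ, if_true]
      exact (pow_dvd_pow _ (by omega)).trans (Finset.dvd_prod_of_mem _ (Finset.mem_univ k))
    have e1 : (Ideal.span (Set.range y) ^ (N + 1) ⊔ Ideal.span (monL y '' s)).colon {monL y μ} =
        Ideal.span (Set.range y) := by
      ext r
      rw [Submodule.mem_colon_singleton, smul_eq_mul]
      refine ⟨fun hr => colon_mon h (Fintype.card_fin n) y hy μ r Finset.univ ?_, fun hr => ?_⟩
      · rw [mul_comm]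
        refine sup_le ((pow_le_span_monL y _).trans (Ideal.span_le.2 ?_)) (Ideal.span_le.2 ?_) hr
        · rintro _ ⟨ν, hν, rfl⟩
          have := mem_degL.1 hν
          exact key ν (by omega) (by rintro rfl; omega)
        · rintro _ ⟨ν, hν, rfl⟩
          exact key ν (mem_degL.1 (hs (Finset.mem_insert_of_mem hν))).ge (by rintro rfl; exact hμ hν)
      · rw [pow_succ']
        exact Ideal.mem_sup_left (Ideal.mul_mem_mul hr (d ▸ monL_mem y μ))
    rw [ih fun ν hν => hs (Finset.mem_insert_of_mem hν), len_colon R (_ ⊔ _) (monL y μ), e1,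
      Finset.card_insert_of_notMem hμ, Nat.cast_succ, add_mul, one_mul, add_assoc,
      Finset.coe_insert, Set.image_insert_eq, Ideal.span_insert, sup_assoc,
      sup_comm (Ideal.span {monL y μ})]

end CMX

theorem CM.of_regular (s : Fin n → A) (hs : ∀ i, s i ∈ m)
    (h : ∀ (a : ℕ) (j : Fin n) (r : A),
      s j ^ a * r ∈ Ideal.span ((fun i => s i ^ a) '' {i | i < j}) →
      r ∈ Ideal.span ((fun i => s i ^ a) '' {i | i < j})) : CM m n := by
  intro ι _ hι z ⟨a, ha⟩ j w hw
  let e := Fintype.equivFinOfCardEq hι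
  have h1 : (z ∘ e.symm) '' {i | i ≠ e j} = z '' {i | i ≠ j} := by
    rw [Set.image_comp]
    congr 1
    ext i
    simp [Set.mem_image_equiv]
  have h2 := colon_capture (Module.Basis.singleton Unit A) (z ∘ e.symm) (fun i => s i ^ a)
    (fun i => by
      rw [e.symm.surjective.range_comp]
      exact ha (Ideal.pow_mem_pow (hs i) a)) 1 (fun i r hr => by simpa using h a i r hr) (e j) w
    (by rwa [h1, comp_apply, e.symm_apply_apply])
  rwa [h1, map_one, one_pow, one_mul] at h2

theorem CM.quot {r : ℕ} (h : CM m (r + n)) (ψ : Fin r → A) :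
    CM (m.map (Ideal.Quotient.mk (Ideal.span (Set.range ψ)))) n := by
  exact CMX.of_surj h ψ _ Ideal.Quotient.mk_surjective Ideal.mk_ker

theorem CM.of_surj {B : Type*} [CommRing B] {r : ℕ} (h : CM m (r + n)) (ψ : Fin r → A)
    (φ : A →+* B) (hφ : Surjective φ) (hk : RingHom.ker φ = Ideal.span (Set.range ψ)) :
    CM (m.map φ) n := by
  exact CMX.of_surj h ψ φ hφ hk

theorem CM.bracket (h : CM m n) (R : Type*) [CommRing R] [Algebra R A] {ι : Type} [Fintype ι]
    (hι : Fintype.card ι = n) (z : ι → A) (hz : Prim m (Ideal.span (Set.range z))) (e : ι → ℕ) :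
    ln R (Ideal.span (Set.range fun i => z i ^ e i)) =
      (∏ i, e i : ℕ) * ln R (Ideal.span (Set.range z)) := by
  classical
  have key : ∀ t : Finset ι, ln R (Ideal.span (Set.range fun i => z i ^ if i ∈ t then e i else 1))
      = (∏ i ∈ t, e i : ℕ) * ln R (Ideal.span (Set.range z)) := by
    intro t
    induction t using Finset.induction_on with
    | empty => simp
    | insert j t hj ih =>
      rw [CMX.span_split _ j, if_neg hj, pow_one] at ih
      rw [CMX.span_split _ j, if_pos (Finset.mem_insert_self _ _), Finset.prod_insert hj,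
        Nat.cast_mul, mul_assoc, ← ih, CMX.image_insert]
      refine le_antisymm (len_pow_upper R _ _ _) ?_
      have := len_pow_lower R _ (z j) 1 (fun a w hw => by
        rw [one_mul]
        exact CMX.colon_pow h hι z hz (fun i => if i ∈ t then e i else 1) j a w hw) (e j)
      simpa [ln] using this
  simpa using key Finset.univ

theorem CM.pow (h : CM m n) (R : Type*) [CommRing R] [Algebra R A] {ι : Type} [Fintype ι]
    (hι : Fintype.card ι = n) (z : ι → A) (hz : Prim m (Ideal.span (Set.range z))) (j : ℕ) :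
    ln R (Ideal.span (Set.range z) ^ (j + 1)) =
      ((j + n).choose n : ℕ) * ln R (Ideal.span (Set.range z)) := by
  let e := Fintype.equivFinOfCardEq hι
  have e1 : Set.range z = Set.range (z ∘ e.symm) := e.symm.surjective.range_comp _ |>.symm
  rw [e1] at hz ⊢
  generalize z ∘ e.symm = y at hz ⊢
  rw [← sum_card_degL]
  generalize j + 1 = N
  induction N with
  | zero => simp [ln]
  | succ N ih =>
    have h1 : Ideal.span (Set.range y) ^ (N + 1) ⊔ Ideal.span (monL y '' degL n N) =
        Ideal.span (Set.range y) ^ N := by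
      refine le_antisymm (sup_le (Ideal.pow_le_pow_right N.le_succ) (Ideal.span_le.2 ?_))
        (le_sup_of_le_right (pow_le_span_monL y N))
      rintro _ ⟨ν, hν, rfl⟩
      exact mem_degL.1 hν ▸ monL_mem y ν
    rw [CMX.layer h R y hz N _ subset_rfl, h1, ih, Finset.sum_range_succ, Nat.cast_add, add_mul,
      add_comm]

theorem CM.le_eL (h : CM m n) {ι : Type} [Fintype ι] (hι : Fintype.card ι = n) (z : ι → A)
    (hz : Prim m (Ideal.span (Set.range z))) :
    (ln A (Ideal.span (Set.range z)) : ℝ≥0∞) ≤ eL (Ideal.span (Set.range z)) A n := by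
  refine (le_lw_choose (d := n) _).trans (le_trans (le_of_eq ?_) (lw_shift 1))
  congr 1
  funext j
  rw [lm_self, h.pow A hι z hz]

/-- The colength of a minimal reduction is at most the multiplicity. -/
theorem CM.le_eU_of_isRed (h : CM m n) {ι : Type} [Fintype ι] (hι : Fintype.card ι = n)
    (z : ι → A) {I : Ideal A} (hI : Prim m I) (hz : IsRed (Ideal.span (Set.range z)) I) :
    (ln A (Ideal.span (Set.range z)) : ℝ≥0∞) ≤ eU I A n := by
  obtain ⟨c, hc⟩ := hz.pow_le
  obtain ⟨a, ha⟩ := hI
  refine (h.le_eL hι z ⟨a * (1 + c), ?_⟩).trans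
    ((eL_le_of_pow c fun j => le_sup_of_le_left (hc j)).trans (eL_le_eU I))
  rw [pow_mul]
  exact (Ideal.pow_right_mono ha _).trans (by simpa using hc 1)

theorem CM.ln_le (h : CM m n) {ι ι' : Type} [Fintype ι] [Fintype ι'] (hι : Fintype.card ι = n)
    (hι' : Fintype.card ι' = n) (z : ι → A) (z' : ι' → A) {I : Ideal A} (hI : Prim m I)
    (hz : IsRed (Ideal.span (Set.range z)) I) (hz' : IsRed (Ideal.span (Set.range z')) I) :
    ln A (Ideal.span (Set.range z)) ≤ ln A (Ideal.span (Set.range z')) := by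
  let e := Fintype.equivFinOfCardEq hι'
  have h1 := eU_sop (M := A) (z' ∘ e.symm)
  rw [e.symm.surjective.range_comp, lm_self] at h1
  exact ENat.toENNReal_le.1 ((h.le_eU_of_isRed hι z hI hz).trans ((eU_le_of_pow 0 fun j =>
    le_sup_of_le_left (Ideal.pow_right_mono hz'.1 j)).trans h1))

/-- Two parameter ideals that are reductions of the same ideal have the same colength. -/
theorem CM.ln_eq (h : CM m n) {ι ι' : Type} [Fintype ι] [Fintype ι'] (hι : Fintype.card ι = n)
    (hι' : Fintype.card ι' = n) (z : ι → A) (z' : ι' → A) {I : Ideal A} (hI : Prim m I)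
    (hz : IsRed (Ideal.span (Set.range z)) I) (hz' : IsRed (Ideal.span (Set.range z')) I) :
    ln A (Ideal.span (Set.range z)) = ln A (Ideal.span (Set.range z')) := by
  exact le_antisymm (h.ln_le hι hι' z z' hI hz hz') (h.ln_le hι' hι z' z hI hz' hz)

theorem CM.regular [IsLocalRing A] [IsNoetherianRing A] (h : CM (maximalIdeal A) n)
    (z : Fin n → A) (hm : ∀ i, z i ∈ maximalIdeal A)
    (hz : Prim (maximalIdeal A) (Ideal.span (Set.range z))) (j : Fin n) (r : A)
    (hr : z j * r ∈ Ideal.span (z '' {i | i < j})) : r ∈ Ideal.span (z '' {i | i < j}) := by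
  refine JFlat.mem_of_forall _ _ fun N => ?_
  have h1 := CMX.colon_pow h (Fintype.card_fin n) z hz (fun i => if i < j then 1 else N) j 1 r
    (by
      rw [pow_one]
      refine Ideal.span_mono ?_ hr
      rintro _ ⟨i, hi, rfl⟩
      exact ⟨i, ne_of_lt hi, by simp [show i < j from hi]⟩)
  refine Ideal.span_le.2 ?_ h1
  rintro _ ⟨i, -, rfl⟩
  dsimp only
  split_ifs with hi
  · exact Ideal.mem_sup_left (Ideal.subset_span ⟨i, hi, (pow_one _).symm⟩)
  · exact Ideal.mem_sup_right (Ideal.pow_mem_pow (hm i) N)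

/-- Truncated colon property. -/
theorem CM.colon_trunc (h : CM m n) (z : Fin n → A) (hz : Prim m (Ideal.span (Set.range z)))
    (a K : ℕ) (ha : 0 < a) (j : Fin n) (r : A)
    (hr : z j ^ a * r ∈ Ideal.span ((fun i => z i ^ a) '' {i | i < j}) ⊔
      Ideal.span (Set.range fun i => z i ^ K)) :
    r ∈ Ideal.span ((fun i => z i ^ a) '' {i | i < j}) ⊔
      Ideal.span (Set.range fun i => z i ^ (K - a)) := by
  rcases le_total K a with hK | hK
  · exact Ideal.mem_sup_right (Ideal.mem_of_dvd _ (by simp [Nat.sub_eq_zero_of_le hK])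
      (Ideal.subset_span ⟨j, rfl⟩))
  obtain ⟨b, rfl⟩ := Nat.exists_eq_add_of_le' hK
  rw [Nat.add_sub_cancel]
  have h1 := CMX.cancel h (Fintype.card_fin n) z hz (fun i => if i < j then a else b) j a b r
    (mem_of_le_of_mem
      (sup_le (le_sup_of_le_left (Ideal.span_mono ?_)) (Ideal.span_le.2 ?_)) hr)
  · refine mem_of_le_of_mem
      (sup_le (Ideal.span_le.2 ?_) (le_sup_of_le_right (Ideal.span_mono ?_))) h1
    · rintro _ ⟨i, -, rfl⟩
      dsimp only
      split_ifs with hi
      · exact Ideal.mem_sup_left (Ideal.subset_span ⟨i, hi, rfl⟩)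
      · exact Ideal.mem_sup_right (Ideal.subset_span ⟨i, rfl⟩)
    · rintro _ rfl
      exact ⟨j, rfl⟩
  · rintro _ ⟨i, hi, rfl⟩
    exact ⟨i, ne_of_lt hi, by simp [show i < j from hi]⟩
  · rintro _ ⟨i, rfl⟩
    by_cases hi : i = j
    · exact Ideal.mem_sup_right (Ideal.subset_span (by simp [hi]))
    · refine Ideal.mem_sup_left (Ideal.mem_of_dvd _ (pow_dvd_pow (z i) ?_)
        (Ideal.subset_span ⟨i, hi, rfl⟩))
      split_ifs <;> omega

/-- Cancellation of the first parameter. -/
theorem CM.cancel (h : CM m (n + 1)) (g : A) (ξ : Fin n → A)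
    (hz : Prim m (Ideal.span {g} ⊔ Ideal.span (Set.range ξ))) (a b : ℕ) (r : A)
    (hr : g ^ a * r ∈ Ideal.span {g ^ (b + a)} ⊔ Ideal.span (Set.range ξ)) :
    r ∈ Ideal.span {g ^ b} ⊔ Ideal.span (Set.range ξ) := by
  classical
  have e1 : (fun i : Option (Fin n) => i.elim g ξ ^ 1) '' {i | i ≠ none} = Set.range ξ := by
    ext x
    constructor
    · rintro ⟨_ | i, hi, rfl⟩
      · exact absurd rfl hi
      · exact ⟨i, by simp⟩
    · rintro ⟨i, rfl⟩
      exact ⟨some i, by simp, by simp⟩
  have h1 := CMX.cancel h (ι := Option (Fin n)) (by simp) (fun i => i.elim g ξ)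
    (hz.mono (sup_le (Ideal.span_mono (by rintro _ rfl; exact ⟨none, rfl⟩))
      (Ideal.span_mono (by rintro _ ⟨i, rfl⟩; exact ⟨some i, rfl⟩)))) (fun _ => 1) none a b r
  rw [e1, sup_comm, sup_comm (Ideal.span (Set.range ξ))] at h1
  exact h1 hr

/-- Lengths along a map of local rings, the source being regular. -/
theorem CM.ln_map {C : Type*} [CommRing C] [IsLocalRing A] [IsNoetherianRing A] [IsLocalRing C]
    [IsNoetherianRing C] [Algebra A C] [IsLocalHom (algebraMap A C)]
    (hA : CM (maximalIdeal A) n) (hC : CM (maximalIdeal C) n) (s : Fin n → A)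
    (hs : maximalIdeal A = Ideal.span (Set.range s))
    (hp : Prim (maximalIdeal C) ((maximalIdeal A).map (algebraMap A C))) (I : Ideal A) :
    ln C (I.map (algebraMap A C)) = ln A I * ln C ((maximalIdeal A).map (algebraMap A C)) := by
  obtain ⟨lam, hl⟩ := ENat.ne_top_iff_exists.1 (lm_ne_top (M := C) (hp.mono le_sup_left))
  rw [lm_self] at hl
  have e : (maximalIdeal A).map (algebraMap A C) =
      Ideal.span (Set.range fun i => algebraMap A C (s i)) := by
    rw [hs, Ideal.map_span, ← Set.range_comp]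
    rfl
  have : Module.Flat A C := flat_of_lengths lam fun N => by
    rcases N with _ | N
    · rw [pow_zero, Ideal.one_eq_top, Ideal.map_top]
      simp
    have h1 := hA.pow A (Fintype.card_fin n) s ⟨1, by rw [← hs, pow_one]⟩ N
    have h2 := hC.pow C (Fintype.card_fin n) _ (e ▸ hp) N
    rw [← hs, show ln A (maximalIdeal A) = 1 from len_residue_one, mul_one] at h1
    rw [← e, ← Ideal.map_pow, ← hl, ← h1] at h2
    exact h2
  exact len_flat I

end Vale.Agent.P202
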