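import Vale.Agent.P202M.CohL

/-! Cohen rings. -/

open IsLocalRing Polynomial

namespace Vale.Agent.P202

universe u

namespace CohX

theorem ambient (p : ℕ) [Fact p.Prime] (k : Type u) [Field k] :
    ∃ (O : Type u) (_ : CommRing O) (_ : IsDomain O) (_ : IsLocalRing O)
      (_ : k →+* ResidueField O), (p : O) ≠ 0 ∧
        ∀ h : O[X], h.Monic → h.natDegree ≠ 0 → ∃ a, h.eval a = 0 := by
  let A := MvPolynomial k ℤ
  let π : A →+* k := MvPolynomial.eval₂Hom (Int.castRingHom k) id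
  have hπ : Function.Surjective π := fun a =>
    ⟨MvPolynomial.X a, MvPolynomial.eval₂Hom_X' _ _ _⟩
  let m : Ideal A := RingHom.ker π
  have : m.IsPrime := RingHom.ker_isPrime π
  let Ω := AlgebraicClosure (FractionRing A)
  have hinj : Function.Injective (algebraMap A Ω) := by
    rw [IsScalarTower.algebraMap_eq A (FractionRing A) Ω]
    exact (algebraMap (FractionRing A) Ω).injective.comp (IsFractionRing.injective A _)
  let f : Localization.AtPrime m →+* Ω := IsLocalization.lift (M := m.primeCompl)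
    (g := algebraMap A Ω) fun y => IsUnit.mk0 _ fun h0 => y.2 (by
      rw [(map_eq_zero_iff _ hinj).1 h0]
      exact m.zero_mem)
  obtain ⟨O, hO, hloc⟩ := IsLocalRing.exists_factor_valuationRing f
  let g : Localization.AtPrime m →+* O := f.codRestrict O.toSubring hO
  have : IsLocalHom g := hloc
  have : CharZero Ω := charZero_of_injective_algebraMap hinj
  refine ⟨O, inferInstance, inferInstance, inferInstance,
    RingHom.liftOfSurjective π hπ ⟨((residue O).comp g).comp (algebraMap A _), fun x hx => ?_⟩,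
    fun h0 => ?_, fun h hm hd => ?_⟩
  · rw [RingHom.mem_ker, RingHom.comp_apply, RingHom.comp_apply, residue_eq_zero_iff]
    exact map_nonunit g _
      ((IsLocalization.AtPrime.to_map_mem_maximal_iff (Localization.AtPrime m) m x).2 hx)
  · have h1 := congrArg (algebraMap O Ω) h0
    rw [map_natCast, map_zero, Nat.cast_eq_zero] at h1
    exact (Fact.out : p.Prime).ne_zero h1
  · obtain ⟨b, hb⟩ := IsAlgClosed.exists_aeval_eq_zero Ω h (by
      rw [degree_eq_natDegree hm.ne_zero]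
      exact_mod_cast hd)
    obtain ⟨a, rfl⟩ := (IsIntegrallyClosed.isIntegral_iff (R := O) (K := Ω)).1 ⟨h, hm, hb⟩
    rw [aeval_algebraMap_apply, map_eq_zero_iff _ (IsFractionRing.injective O Ω)] at hb
    exact ⟨a, by simpa using hb⟩

theorem root {O κ : Type*} [CommRing O] [IsDomain O] [Field κ] (ρ : O →+* κ)
    (H : ∀ h : O[X], h.Monic → h.natDegree ≠ 0 → ∃ a, h.eval a = 0) (b : κ) (n : ℕ) :
    ∀ h : O[X], h.natDegree = n → h.Monic → eval₂ ρ b h = 0 → ∃ a, h.eval a = 0 ∧ ρ a = b := by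
  induction n with
  | zero =>
    intro h hn hm hb
    rw [hm.natDegree_eq_zero.1 hn] at hb
    simp at hb
  | succ n ih =>
    intro h hn hm hb
    obtain ⟨a, ha⟩ := H h hm (by omega)
    obtain ⟨q, rfl⟩ := dvd_iff_isRoot.2 ha
    have hq : q.Monic := (monic_X_sub_C a).of_mul_monic_left hm
    rw [(monic_X_sub_C a).natDegree_mul hq, natDegree_X_sub_C] at hn
    rw [eval₂_mul, eval₂_sub, eval₂_X, eval₂_C, mul_eq_zero, sub_eq_zero] at hb
    rcases hb with hb | hb
    · exact ⟨a, ha, hb.symm⟩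
    · obtain ⟨c, hc, hc'⟩ := ih q (by omega) hq hb
      exact ⟨c, by rw [eval_mul, hc, mul_zero], hc'⟩

/-- The family of unramified subrings. -/
def Un {O κ : Type*} [CommRing O] [Field κ] (π : O) (ρ : O →+* κ) (F : Subfield κ)
    (C : Subring O) : Prop :=
  π ∈ C ∧ (∀ x ∈ C, ρ x = 0 → ∃ y ∈ C, x = π * y) ∧ ∀ x ∈ C, ρ x ∈ F

theorem Un.inv {O κ : Type*} [CommRing O] [Field κ] {π : O} {ρ : O →+* κ} {F : Subfield κ}
    {C : Subring O} (hC : Maximal (Un π ρ F) C) (hu : ∀ x, ρ x ≠ 0 → IsUnit x) {x : O}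
    (hx : x ∈ C) (h0 : ρ x ≠ 0) : ∃ y ∈ C, x * y = 1 := by
  let D : Subring O :=
    { carrier := {z | ∃ v ∈ C, ρ v ≠ 0 ∧ v * z ∈ C}
      mul_mem' := by
        rintro a b ⟨v, hv, hv0, ha⟩ ⟨w, hw, hw0, hb⟩
        refine ⟨v * w, C.mul_mem hv hw, by simp [hv0, hw0], ?_⟩
        rw [mul_mul_mul_comm]
        exact C.mul_mem ha hb
      one_mem' := ⟨1, C.one_mem, by simp, by simp⟩
      add_mem' := by
        rintro a b ⟨v, hv, hv0, ha⟩ ⟨w, hw, hw0, hb⟩
        refine ⟨v * w, C.mul_mem hv hw, by simp [hv0, hw0], ?_⟩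
        rw [show v * w * (a + b) = w * (v * a) + v * (w * b) by ring]
        exact C.add_mem (C.mul_mem hw ha) (C.mul_mem hv hb)
      zero_mem' := ⟨1, C.one_mem, by simp, by simp⟩
      neg_mem' := by
        rintro a ⟨v, hv, hv0, ha⟩
        exact ⟨v, hv, hv0, by rw [mul_neg]; exact C.neg_mem ha⟩ }
  have hle : C ≤ D := fun z hz => ⟨1, C.one_mem, by simp, by simpa using hz⟩
  have hD : Un π ρ F D := by
    refine ⟨hle hC.prop.1, ?_, ?_⟩
    · rintro z ⟨v, hv, hv0, hz⟩ hz0
      obtain ⟨y, hy, e⟩ := hC.prop.2.1 _ hz (by simp [hz0])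
      obtain ⟨w, hw⟩ := (hu v hv0).exists_right_inv
      refine ⟨w * y, ⟨v, hv, hv0, by rwa [← mul_assoc, hw, one_mul]⟩, ?_⟩
      rw [mul_left_comm, ← e, ← mul_assoc, mul_comm w, hw, one_mul]
    · rintro z ⟨v, hv, hv0, hz⟩
      have h1 := F.div_mem (hC.prop.2.2 _ hz) (hC.prop.2.2 _ hv)
      rwa [map_mul, mul_div_cancel_left₀ _ hv0] at h1
  obtain ⟨y, hy⟩ := (hu x h0).exists_right_inv
  exact ⟨y, hC.le_of_ge hD hle ⟨x, hx, h0, by rw [hy]; exact C.one_mem⟩, hy⟩

theorem Un.surj {O κ : Type*} [CommRing O] [IsDomain O] [Field κ] {π : O} {ρ : O →+* κ}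
    {F : Subfield κ} {C : Subring O} (hC : Maximal (Un π ρ F) C) (hu : ∀ x, ρ x ≠ 0 → IsUnit x)
    (hρ : Function.Surjective ρ)
    (H : ∀ h : O[X], h.Monic → h.natDegree ≠ 0 → ∃ a, h.eval a = 0) {b : κ} (hb : b ∈ F) :
    ∃ x ∈ C, ρ x = b := by
  let E : Subfield κ :=
    { C.map ρ with
      inv_mem' := by
        rintro _ ⟨x, hx, rfl⟩
        by_cases h0 : ρ x = 0
        · exact ⟨0, C.zero_mem, by simp [h0]⟩
        · obtain ⟨y, hy, e⟩ := Un.inv hC hu hx h0
          refine ⟨y, hy, eq_inv_of_mul_eq_one_right ?_⟩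
          rw [← map_mul, e, map_one] }
  let σ : C →+* E := (ρ.comp C.subtype).codRestrict E fun x => ⟨x, x.2, rfl⟩
  have hσ : Function.Surjective σ := by
    rintro ⟨_, x, hx, rfl⟩
    exact ⟨⟨x, hx⟩, rfl⟩
  have hev : ∀ g : C[X], aeval b (g.map σ) = eval₂ (ρ.comp C.subtype) b g := fun g => by
    rw [aeval_def, eval₂_map]
    rfl
  obtain ⟨h, a, h1, h2, h3⟩ : ∃ (h : C[X]) (a : O),
      h.map σ = minpoly E b ∧ eval₂ C.subtype a h = 0 ∧ ρ a = b := by
    by_cases hi : IsIntegral E b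
    · obtain ⟨h, e, -, hm⟩ := lifts_and_natDegree_eq_and_monic
        (mem_lifts_of_surjective hσ (minpoly E b)) (minpoly.monic hi)
      obtain ⟨a, ha, ha'⟩ := root ρ H b _ (h.map C.subtype) rfl (hm.map _) (by
        rw [eval₂_map, ← hev, e, minpoly.aeval])
      exact ⟨h, a, e, by rwa [eval_map] at ha, ha'⟩
    · obtain ⟨a, ha⟩ := hρ b
      exact ⟨0, a, by rw [minpoly.eq_zero hi, Polynomial.map_zero], eval₂_zero _ _, ha⟩
  let ev := eval₂RingHom C.subtype a
  have hle : C ≤ ev.range := fun x hx => ⟨Polynomial.C ⟨x, hx⟩, by simp [ev]⟩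
  have hρev : ∀ g : C[X], ρ (ev g) = eval₂ (ρ.comp C.subtype) b g := fun g => by
    rw [coe_eval₂RingHom, hom_eval₂, h3]
  have hD : Un π ρ F ev.range := by
    refine ⟨hle hC.prop.1, ?_, ?_⟩
    · rintro _ ⟨g, rfl⟩ hg
      rw [hρev, ← hev] at hg
      obtain ⟨q, hq⟩ := minpoly.dvd E b hg
      obtain ⟨q, rfl⟩ := map_surjective σ hσ q
      have h4 : (g - h * q).map σ = 0 := by
        rw [Polynomial.map_sub, Polynomial.map_mul, h1, hq, sub_self]
      obtain ⟨r, hr⟩ : Polynomial.C (⟨π, hC.prop.1⟩ : C) ∣ g - h * q := by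
        rw [C_dvd_iff_dvd_coeff]
        intro i
        have h5 : σ ((g - h * q).coeff i) = 0 := by rw [← coeff_map, h4, coeff_zero]
        obtain ⟨y, hy, e⟩ := hC.prop.2.1 _ ((g - h * q).coeff i).2 (congrArg Subtype.val h5)
        exact ⟨⟨y, hy⟩, Subtype.ext e⟩
      refine ⟨ev r, ⟨r, rfl⟩, ?_⟩
      have h6 := congrArg ev hr
      have h7 : ev h = 0 := h2
      rw [map_sub, map_mul, map_mul, h7, zero_mul, sub_zero] at h6
      rw [h6]
      simp [ev]
    · rintro _ ⟨g, rfl⟩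
      rw [hρev, eval₂_eq_sum_range]
      exact F.sum_mem fun i _ => F.mul_mem (hC.prop.2.2 _ (g.coeff i).2) (F.pow_mem hb i)
  exact ⟨a, hC.le_of_ge hD hle ⟨X, by simp [ev]⟩, h3⟩

theorem exists_max {O κ : Type*} [CommRing O] [Field κ] (p : ℕ) [CharP κ p] (ρ : O →+* κ)
    (F : Subfield κ) : ∃ C, Maximal (Un (p : O) ρ F) C := by
  have h0 : Un (p : O) ρ F ⊥ := by
    refine ⟨natCast_mem _ p, fun x hx h => ?_, fun x hx => ?_⟩
    · obtain ⟨n, rfl⟩ := Subring.mem_bot.1 hx
      rw [map_intCast, CharP.intCast_eq_zero_iff κ p] at h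
      obtain ⟨m, rfl⟩ := h
      exact ⟨m, intCast_mem _ m, by simp⟩
    · obtain ⟨n, rfl⟩ := Subring.mem_bot.1 hx
      rw [map_intCast]
      exact intCast_mem _ n
  obtain ⟨C, -, hC⟩ := zorn_le_nonempty₀ {C | Un (p : O) ρ F C} (fun c hc hch y hy => by
    have hm : ∀ {x}, x ∈ sSup c ↔ ∃ s ∈ c, x ∈ s :=
      Subring.mem_sSup_of_directedOn ⟨y, hy⟩ hch.directedOn
    refine ⟨sSup c, ⟨natCast_mem _ p, fun x hx h => ?_, fun x hx => ?_⟩, fun z hz => le_sSup hz⟩
    · obtain ⟨s, hs, hx⟩ := hm.1 hx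
      obtain ⟨z, hz, e⟩ := (hc hs).2.1 x hx h
      exact ⟨z, hm.2 ⟨s, hs, hz⟩, e⟩
    · obtain ⟨s, hs, hx⟩ := hm.1 hx
      exact (hc hs).2.2 x hx) ⊥ h0
  exact ⟨C, hC⟩

theorem weak (p : ℕ) [Fact p.Prime] (k : Type u) [Field k] [CharP k p] :
    ∃ (R : Type u) (_ : CommRing R) (_ : IsDomain R) (_ : IsLocalRing R),
      (p : R) ≠ 0 ∧ maximalIdeal R = Ideal.span {(p : R)} ∧ Nonempty (ResidueField R ≃+* k) := by
  obtain ⟨O, _, _, _, ι, hp, H⟩ := ambient p k
  have : CharP (ResidueField O) p := charP_of_injective_ringHom ι.injective p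
  obtain ⟨C, hC⟩ := exists_max p (residue O) ι.fieldRange
  have hu : ∀ x, residue O x ≠ 0 → IsUnit x := fun x hx => (residue_ne_zero_iff_isUnit x).1 hx
  let τ : C →+* k := (ι.rangeRestrictFieldEquiv.symm : ι.fieldRange →+* k).comp
    (((residue O).comp C.subtype).codRestrict ι.fieldRange fun x => hC.prop.2.2 x x.2)
  have hι : ∀ x : C, ι (τ x) = residue O x := fun x =>
    ι.rangeRestrictFieldEquiv_apply_symm_apply _
  have hτ0 : ∀ x : C, τ x = 0 ↔ residue O x = 0 := fun x => by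
    rw [← hι, map_eq_zero_iff _ ι.injective]
  have hτ : Function.Surjective τ := by
    intro b
    obtain ⟨x, hx, e⟩ := Un.surj hC hu residue_surjective H (b := ι b) ⟨b, rfl⟩
    exact ⟨⟨x, hx⟩, ι.injective ((hι _).trans e)⟩
  have hun : ∀ x : C, τ x ≠ 0 → IsUnit x := fun x hx => by
    obtain ⟨y, hy, e⟩ := Un.inv hC hu x.2 fun h => hx ((hτ0 x).2 h)
    exact IsUnit.of_mul_eq_one (⟨y, hy⟩ : C) (Subtype.ext e)
  have : IsLocalRing C := IsLocalRing.of_isUnit_or_isUnit_one_sub_self fun x => by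
    by_cases h : τ x = 0
    · exact Or.inr (hun _ (by simp [h]))
    · exact Or.inl (hun _ h)
  have hker : RingHom.ker τ = maximalIdeal C :=
    eq_maximalIdeal (RingHom.ker_isMaximal_of_surjective τ hτ)
  refine ⟨C, inferInstance, inferInstance, this, fun h => hp (by simpa using congrArg C.subtype h),
    le_antisymm (fun x hx => ?_) ?_,
    ⟨(Ideal.quotEquivOfEq hker.symm).trans (RingHom.quotientKerEquivOfSurjective hτ)⟩⟩
  · rw [← hker, RingHom.mem_ker, hτ0] at hx
    obtain ⟨y, hy, e⟩ := hC.prop.2.1 x x.2 hx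
    exact Ideal.mem_span_singleton.2 ⟨⟨y, hy⟩, Subtype.ext (by simpa using e)⟩
  · rw [Ideal.span_singleton_le_iff_mem, ← hker, RingHom.mem_ker, map_natCast]
    exact CharP.cast_eq_zero k p

theorem dvr {A : Type*} [CommRing A] [IsLocalRing A] [IsHausdorff (maximalIdeal A) A] {π : A}
    (hm : maximalIdeal A = Ideal.span {π}) (hπ : ∀ x, π * x = 0 → x = 0) :
    ∃ _ : IsDomain A, IsDiscreteValuationRing A := by
  classical
  have hfac : ∀ x : A, x ≠ 0 → ∃ n : ℕ, Associated (π ^ n) x := by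
    intro x hx
    have hex : ∃ n, ¬ π ^ n ∣ x := by
      by_contra h
      push Not at h
      refine hx (IsHausdorff.haus (inferInstance : IsHausdorff (maximalIdeal A) A) x fun n => ?_)
      rw [SModEq.zero, smul_eq_mul, Ideal.mul_top, hm, Ideal.span_singleton_pow,
        Ideal.mem_span_singleton]
      exact h n
    have h1 := Nat.find_spec hex
    rcases hn : Nat.find hex with _ | n
    · simp [hn] at h1
    · obtain ⟨y, hy⟩ := not_not.1 (Nat.find_min hex (m := n) (by omega))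
      have hy' : IsUnit y := by
        by_contra h2
        have h3 : y ∈ maximalIdeal A := h2
        rw [hm, Ideal.mem_span_singleton] at h3
        rw [hn, hy, pow_succ] at h1
        exact h1 (mul_dvd_mul_left _ h3)
      exact ⟨n, hy'.unit, hy.symm⟩
  have hpow : ∀ n : ℕ, π ^ n ≠ 0 := by
    intro n
    induction n with
    | zero => simp
    | succ n ih => exact fun h => ih (hπ _ (by rwa [pow_succ'] at h))
  have : NoZeroDivisors A := ⟨fun {x y} h => by
    by_contra h0
    push Not at h0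
    obtain ⟨n, hn⟩ := hfac x h0.1
    obtain ⟨m, hm⟩ := hfac y h0.2
    have := hn.mul_mul hm
    rw [h, ← pow_add, associated_zero_iff_eq_zero] at this
    exact hpow _ this⟩
  have : IsDomain A := NoZeroDivisors.to_isDomain A
  have h0 : π ≠ 0 := by simpa using hpow 1
  refine ⟨this, IsDiscreteValuationRing.ofHasUnitMulPowIrreducibleFactorization
    ⟨π, ((Ideal.span_singleton_prime h0).1 (hm ▸ inferInstance)).irreducible,
      fun {x} hx => hfac x hx⟩⟩

end CohX

theorem exists_cohen (p : ℕ) [Fact p.Prime] (k : Type u) [Field k] [CharP k p] :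
    ∃ (C : Type u) (_ : CommRing C) (_ : IsDomain C) (_ : IsDiscreteValuationRing C),
      IsAdicComplete (maximalIdeal C) C ∧ maximalIdeal C = Ideal.span {(p : C)} ∧
        Nonempty (ResidueField C ≃+* k) := by
  obtain ⟨R, _, _, _, hp, hm, ⟨e⟩⟩ := CohX.weak p k
  have fg : (maximalIdeal R).FG := hm ▸ Submodule.fg_span_singleton _
  let A := AdicCompletion (maximalIdeal R) R
  have := AdicCompletion.isLocalRing_of_fg fg
  have hc := AdicCompletion.isAdicComplete_of_fg fg
  have := AdicCompletion.algebraMap_isLocalHom_of_fg fg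
  have hpow : ∀ N, (maximalIdeal R ^ N).map (algebraMap R A) = Ideal.span {(p : A) ^ N} := by
    intro N
    have h1 : maximalIdeal R ^ N = Ideal.span {(p : R) ^ N} := by
      rw [hm, Ideal.span_singleton_pow]
    rw [h1, Ideal.map_span, Set.image_singleton, map_pow, map_natCast]
  have hmA : maximalIdeal A = Ideal.span {(p : A)} := by
    rw [AdicCompletion.maximalIdeal_eq_map_of_fg fg, ← pow_one (p : A), ← hpow, pow_one]
  obtain ⟨_, hD⟩ := CohX.dvr hmA fun x hx => by
    refine IsHausdorff.haus hc.toIsHausdorff x fun N => ?_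
    rw [SModEq.zero, smul_eq_mul, Ideal.mul_top, hmA, Ideal.span_singleton_pow]
    obtain ⟨t, ht⟩ := compl_approx _ fg N x
    rw [hpow] at ht
    have h1 : algebraMap R A (p * t) ∈ (maximalIdeal R ^ (N + 1)).map (algebraMap R A) := by
      rw [hpow, map_mul, map_natCast, Ideal.mem_span_singleton,
        show (p : A) * algebraMap R A t = -(p * (x - algebraMap R A t)) by
          rw [mul_sub, hx, zero_sub, neg_neg], dvd_neg, pow_succ']
      exact mul_dvd_mul_left _ (Ideal.mem_span_singleton.1 ht)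
    have h2 := compl_comap _ (N + 1) _ le_rfl _ h1
    rw [hm, Ideal.span_singleton_pow, Ideal.mem_span_singleton, pow_succ',
      mul_dvd_mul_iff_left hp] at h2
    have h3 : algebraMap R A t ∈ Ideal.span {(p : A) ^ N} := by
      have := map_dvd (algebraMap R A) h2
      rwa [map_pow, map_natCast, ← Ideal.mem_span_singleton] at this
    exact sub_add_cancel x (algebraMap R A t) ▸ Ideal.add_mem _ ht h3
  exact ⟨A, inferInstance, inferInstance, hD, hc, hmA,
    ⟨(RingEquiv.ofBijective _ (AdicCompletion.residueField_map_bijective_of_fg fg)).symm.trans e⟩⟩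

end Vale.Agent.P202
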