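import Vale.Agent.P202M.Bas

/-! The lifting property of Cohen rings. -/

open IsLocalRing

namespace Vale.Agent.P202

namespace CohLX

theorem key (p : ℕ) [hp : Fact p.Prime] {C B B' : Type*} [CommRing C] [IsDomain C]
    [IsDiscreteValuationRing C] (hC : maximalIdeal C = Ideal.span {(p : C)})
    [CommRing B] [CommRing B'] (π : B →+* B') (hπ : Function.Surjective π)
    (h2 : ∀ a, π a = 0 → a * a = 0) (h1 : ∀ a, π a = 0 → (p : B) * a = 0) (f : C →+* B') :
    ∃ g : C →+* B, π.comp g = f := by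
  have hp0 : (p : C) ≠ 0 := fun e => IsDiscreteValuationRing.not_a_field C (by
    rw [hC, e, Ideal.span_singleton_zero])
  let E : Subring (B × C) := (π.comp (RingHom.fst B C)).eqLocus (f.comp (RingHom.snd B C))
  let pr : E →+* C := (RingHom.snd B C).comp E.subtype
  let fs : E →+* B := (RingHom.fst B C).comp E.subtype
  have hE : ∀ e : E, π (fs e) = f (pr e) := fun e => e.2
  have ext : ∀ e : E, fs e = 0 → pr e = 0 → e = 0 := fun e a b => Subtype.ext (Prod.ext a b)
  have prs : Function.Surjective pr := fun c => by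
    obtain ⟨b, hb⟩ := hπ (f c)
    exact ⟨⟨(b, c), hb⟩, rfl⟩
  let J : Ideal E := Ideal.span {(p : E)}
  have mem : ∀ c : C, residue C c = 0 ↔ ∃ c', c = p * c' := fun c => by
    rw [residue_eq_zero_iff, hC, Ideal.mem_span_singleton]; rfl
  let ρ : E ⧸ J →+* ResidueField C := Ideal.Quotient.lift J ((residue C).comp pr) fun a ha => by
    obtain ⟨b, rfl⟩ := Ideal.mem_span_singleton.1 ha
    exact (mem _).2 ⟨pr b, by rw [map_mul, map_natCast]⟩
  have hρ : ∀ e, ρ (Ideal.Quotient.mk J e) = residue C (pr e) := fun e => rfl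
  have ρs : Function.Surjective ρ := fun x => by
    obtain ⟨c, rfl⟩ := residue_surjective x
    obtain ⟨e, rfl⟩ := prs c
    exact ⟨_, hρ e⟩
  have hJ : ∀ e : E, Ideal.Quotient.mk J ((p : E) * e) = 0 := fun e =>
    Ideal.Quotient.eq_zero_iff_mem.2 (Ideal.mem_span_singleton.2 ⟨e, rfl⟩)
  haveI : Nontrivial (E ⧸ J) := ρ.domain_nontrivial
  haveI : CharP (E ⧸ J) p := (CharP.charP_iff_prime_eq_zero hp.out).2 (by
    have := hJ 1
    rwa [mul_one, map_natCast] at this)
  obtain ⟨s, hs, -⟩ := geddes p ρ ρs fun a ha => by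
    obtain ⟨e, rfl⟩ := Ideal.Quotient.mk_surjective a
    obtain ⟨c, hc⟩ := (mem _).1 ha
    obtain ⟨e', rfl⟩ := prs c
    have a1 : pr (e - p * e') = 0 := by rw [map_sub, map_mul, map_natCast, hc, sub_self]
    have a2 : π (fs (e - p * e')) = 0 := by rw [hE, a1, map_zero]
    have a3 : (e - p * e') * (e - p * e') = 0 :=
      ext _ (by rw [map_mul]; exact h2 _ a2) (by rw [map_mul, a1, mul_zero])
    have a4 : Ideal.Quotient.mk J e = Ideal.Quotient.mk J (e - p * e') := by
      rw [map_sub, hJ, sub_zero]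
    rw [a4, ← map_mul, a3, map_zero]
  let E' : Subring E := s.range.comap (Ideal.Quotient.mk J)
  have bij : Function.Bijective (pr.comp E'.subtype) := by
    refine ⟨(injective_iff_map_eq_zero _).2 fun a ha => ?_, fun c => ?_⟩
    · obtain ⟨a, x, hx⟩ := a
      have ha' : pr a = 0 := ha
      have b1 : x = 0 := by rw [← hs x, hx, hρ, ha', map_zero]
      rw [b1, map_zero, eq_comm, Ideal.Quotient.eq_zero_iff_mem] at hx
      obtain ⟨b, rfl⟩ := Ideal.mem_span_singleton.1 hx
      rw [map_mul, map_natCast] at ha'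
      have b2 : pr b = 0 := (mul_eq_zero.1 ha').resolve_left hp0
      refine Subtype.ext (ext _ ?_ (by rw [map_mul, b2, mul_zero]))
      rw [map_mul, map_natCast]
      exact h1 _ (by rw [hE, b2, map_zero])
    · obtain ⟨e, he⟩ := Ideal.Quotient.mk_surjective (s (residue C c))
      have b1 : residue C (pr e - c) = 0 := by rw [map_sub, ← hρ, he, hs, sub_self]
      obtain ⟨c', hc'⟩ := (mem _).1 b1
      obtain ⟨e', rfl⟩ := prs c'
      refine ⟨⟨e - p * e', residue C c, by rw [map_sub, hJ, sub_zero, he]⟩, ?_⟩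
      change pr (e - p * e') = c
      rw [map_sub, map_mul, map_natCast, ← hc', sub_sub_cancel]
  let q := RingEquiv.ofBijective _ bij
  refine ⟨(fs.comp E'.subtype).comp q.symm.toRingHom, RingHom.ext fun c => ?_⟩
  exact (hE _).trans (congrArg f (q.apply_symm_apply c))

end CohLX

theorem cohen_lift (p : ℕ) [Fact p.Prime] {C B : Type*} [CommRing C] [IsDomain C]
    [IsDiscreteValuationRing C] (hC : maximalIdeal C = Ideal.span {(p : C)})
    [CommRing B] [IsLocalRing B] [IsNoetherianRing B] [IsAdicComplete (maximalIdeal B) B]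
    (hp : (p : B) ∈ maximalIdeal B) (I : Ideal B) (hI : I ≤ maximalIdeal B) (f : C →+* B ⧸ I) :
    ∃ g : C →+* B, (Ideal.Quotient.mk I).comp g = f := by
  let K : ℕ → Ideal B := fun j => I * maximalIdeal B ^ j
  have anti : ∀ {m n : ℕ}, m ≤ n → K n ≤ K m := fun h =>
    Ideal.mul_mono_right (Ideal.pow_le_pow_right h)
  have hKI : ∀ j, K j ≤ I := fun j => Ideal.mul_le_inf.trans inf_le_left
  have step : ∀ j, ∀ a ∈ K j, ∀ b ∈ maximalIdeal B, a * b ∈ K (j + 1) := fun j a ha b hb => by
    change _ ∈ I * maximalIdeal B ^ (j + 1)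
    rw [pow_succ, ← mul_assoc]
    exact Ideal.mul_mem_mul ha hb
  have h : ∀ j (f : C →+* B ⧸ K j), ∃ g : C →+* B ⧸ K (j + 1),
      (Ideal.Quotient.factor (anti j.le_succ)).comp g = f := fun j f => by
    refine CohLX.key p hC _ (Ideal.Quotient.factor_surjective _) (fun a ha => ?_) (fun a ha => ?_) f
    · obtain ⟨a, rfl⟩ := Ideal.Quotient.mk_surjective a
      have ha' : a ∈ K j := Ideal.Quotient.eq_zero_iff_mem.1 ha
      rw [← map_mul, Ideal.Quotient.eq_zero_iff_mem]
      exact step j a ha' a (hI (hKI j ha'))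
    · obtain ⟨a, rfl⟩ := Ideal.Quotient.mk_surjective a
      have ha' : a ∈ K j := Ideal.Quotient.eq_zero_iff_mem.1 ha
      rw [← map_natCast (Ideal.Quotient.mk (K (j + 1))), ← map_mul, Ideal.Quotient.eq_zero_iff_mem,
        mul_comm]
      exact step j a ha' _ hp
  choose L hL using h
  have h0 : I ≤ K 0 := by simp [K]
  let F : ∀ j, C →+* B ⧸ K j := fun j =>
    Nat.rec (motive := fun j => C →+* B ⧸ K j) ((Ideal.Quotient.factor h0).comp f) L j
  have hF : ∀ {m n : ℕ} (h : m ≤ n), (Ideal.Quotient.factor (anti h)).comp (F n) = F m := by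
    intro m n h
    induction n, h using Nat.le_induction with
    | base => rw [Ideal.Quotient.factor_eq, RingHom.id_comp]
    | succ n h ih =>
      rw [← ih, ← hL n (F n), ← RingHom.comp_assoc, Ideal.Quotient.factor_comp]
  have hK : ∀ j, K j ≤ maximalIdeal B ^ j := fun j => Ideal.mul_le_inf.trans inf_le_right
  have hG : ∀ {m n : ℕ} (h : m ≤ n), (Ideal.Quotient.factorPow (maximalIdeal B) h).comp
      ((Ideal.Quotient.factor (hK n)).comp (F n)) = (Ideal.Quotient.factor (hK m)).comp (F m) := by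
    intro m n h
    rw [← hF h, ← RingHom.comp_assoc, ← RingHom.comp_assoc, Ideal.Quotient.factor_comp,
      Ideal.Quotient.factor_comp]
  refine ⟨IsAdicComplete.liftRingHom (maximalIdeal B) _ hG, RingHom.ext fun c => ?_⟩
  obtain ⟨b, hb⟩ := Ideal.Quotient.mk_surjective (f c)
  rw [← hb, RingHom.comp_apply, Ideal.Quotient.eq]
  refine JFlat.mem_of_forall _ _ fun n => ?_
  obtain ⟨a, ha⟩ := Ideal.Quotient.mk_surjective (F n c)
  have e1 := IsAdicComplete.mk_liftRingHom (maximalIdeal B) _ hG n c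
  rw [RingHom.comp_apply, ← ha, Ideal.Quotient.factor_mk, Ideal.Quotient.eq] at e1
  have e2 := DFunLike.congr_fun (hF n.zero_le) c
  change _ = Ideal.Quotient.factor h0 (f c) at e2
  rw [RingHom.comp_apply, ← ha, ← hb, Ideal.Quotient.factor_mk, Ideal.Quotient.factor_mk,
    Ideal.Quotient.eq] at e2
  rw [← sub_add_sub_cancel _ a, add_comm]
  exact Submodule.add_mem_sup (hKI 0 e2) e1

end Vale.Agent.P202
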