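import Vale.Agent.P202M.Nrm
import Vale.Agent.P202.ATLin

/-! Primes of power series rings over a complete discrete valuation ring. -/

open IsLocalRing Function MvPowerSeries Polynomial

namespace Vale.Agent.P202

namespace RegX

lemma exists_point {K : Type*} [Field K] [Infinite K] {d : ℕ}
    {g : MvPolynomial (Fin (d + 1)) K} {a : ℕ} (hg : g.IsHomogeneous a) (h0 : g ≠ 0) :
    ∃ m : Fin d → K, MvPolynomial.eval (Fin.cons 1 m : Fin (d + 1) → K) g ≠ 0 := by
  by_contra hcon
  push Not at hcon
  have h2 : MvPolynomial.X 0 * g = 0 := by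
    refine MvPolynomial.funext fun x => ?_
    rw [map_mul, MvPolynomial.eval_X, map_zero]
    by_cases hx : x 0 = 0
    · rw [hx, zero_mul]
    · have h3 := hcon fun i => x i.succ / x 0
      have h4 := AT.eval₂_hom_scale hg (RingHom.id K)
        (Fin.cons 1 (fun i => x i.succ / x 0) : Fin (d + 1) → K) (x 0)
      have h5 : (fun j => (Fin.cons 1 (fun i => x i.succ / x 0) : Fin (d + 1) → K) j * x 0) = x := by
        funext j
        refine Fin.cases ?_ (fun i => ?_) j
        · simp
        · simp [div_mul_cancel₀ _ hx]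
      rw [h5, MvPolynomial.eval₂_id, MvPolynomial.eval₂_id, h3, zero_mul] at h4
      rw [h4, mul_zero]
  exact h0 ((mul_eq_zero.mp h2).resolve_left (MvPolynomial.X_ne_zero 0))

/-- A power series with nonzero reduction stays nonzero on a suitable line. -/
lemma exists_line {V K : Type*} [CommRing V] [Field K] [Infinite K] (φ : V →+* K) {d : ℕ}
    (F : PS (d + 1) V) (hw : MvPowerSeries.map φ F ≠ 0) :
    ∃ m : Fin d → K, ∀ ρ : PS (d + 1) V →+* PowerSeries K,
      (∀ c, ρ (MvPowerSeries.C c) = PowerSeries.C (φ c)) →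
      (∀ j, ρ (MvPowerSeries.X j) =
        PowerSeries.C ((Fin.cons 1 m : Fin (d + 1) → K) j) * PowerSeries.X) → ρ F ≠ 0 := by
  set w := MvPowerSeries.map (σ := Fin (d + 1)) φ F with hwF
  have hfin := ne_zero_iff_order_finite.mp hw
  set a := w.order.toNat with ha
  obtain ⟨e, he, hea⟩ := exists_coeff_ne_zero_and_order hfin
  rw [← hfin] at hea
  have hea' : e.degree = a := by exact_mod_cast hea
  let g : MvPolynomial (Fin (d + 1)) K := truncTotal (a + 1) w
  let g0 : MvPolynomial (Fin (d + 1)) V := truncTotal (a + 1) F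
  have hgg : MvPolynomial.map φ g0 = g := by
    ext m
    simp only [g, g0, MvPolynomial.coeff_map, coeff_truncTotal_eq_ite, hwF,
      MvPowerSeries.coeff_map]
    split_ifs <;> simp
  have hg : g.IsHomogeneous a := by
    intro m hm
    suffices m.degree = a by rw [Finsupp.degree_eq_weight_one] at this; exact this
    simp only [g, coeff_truncTotal_eq_ite] at hm
    split_ifs at hm with h
    · have := order_le hm
      rw [← hfin] at this
      have : a ≤ m.degree := by exact_mod_cast this
      omega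
    · exact absurd rfl hm
  have hg0 : g ≠ 0 := by
    intro h
    apply he
    rw [← coeff_truncTotal w (n := a + 1) (by omega)]
    show MvPolynomial.coeff e g = 0
    rw [h]; rfl
  obtain ⟨m, hm⟩ := exists_point hg hg0
  refine ⟨m, fun ρ hC hX h0 => hm ?_⟩
  generalize (Fin.cons 1 m : Fin (d + 1) → K) = μ at hX
  have h1 : F - (g0 : PS (d + 1) V) ∈ xI (d + 1) V ^ (a + 1) := by
    rw [mem_xI_pow_iff]
    intro n hn
    rw [map_sub, MvPolynomial.coeff_coe, coeff_truncTotal F hn, sub_self]
  have h2 : (xI (d + 1) V).map ρ ≤ Ideal.span {PowerSeries.X} := by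
    rw [Ideal.map_span, Ideal.span_le]
    rintro _ ⟨_, ⟨j, rfl⟩, rfl⟩
    rw [hX]
    exact Ideal.mul_mem_left _ _ (Ideal.mem_span_singleton_self _)
  have h3 : ρ (F - (g0 : PS (d + 1) V)) ∈
      Ideal.span {(PowerSeries.X : PowerSeries K) ^ (a + 1)} := by
    rw [← Ideal.span_singleton_pow]
    refine Ideal.pow_right_mono h2 _ ?_
    rw [← Ideal.map_pow]
    exact Ideal.mem_map_of_mem _ h1
  have h4 : ρ (g0 : PS (d + 1) V) = PowerSeries.C (MvPolynomial.eval μ g) *
      PowerSeries.X ^ a := by
    have h5 : ρ.comp MvPolynomial.coeToMvPowerSeries.ringHom = (MvPolynomial.eval₂Hom PowerSeries.C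
        (fun j => PowerSeries.C (μ j) * PowerSeries.X)).comp (MvPolynomial.map φ) := by
      apply MvPolynomial.ringHom_ext
      · intro c; simp [hC]
      · intro j; simp [hX]
    have h6 := DFunLike.congr_fun h5 g0
    simp only [RingHom.comp_apply, MvPolynomial.coeToMvPowerSeries.ringHom_apply,
      MvPolynomial.coe_eval₂Hom, hgg] at h6
    rw [h6, AT.eval₂_hom_scale hg]
    congr 1
    rw [← MvPolynomial.eval₂_id, MvPolynomial.eval₂_comp_left]
    simp [Function.comp_def]
  rw [map_sub, h0, h4, zero_sub, Ideal.neg_mem_iff, Ideal.mem_span_singleton,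
    PowerSeries.X_pow_dvd_iff] at h3
  have := h3 a (Nat.lt_succ_self a)
  simpa [PowerSeries.coeff_X_pow] using this

/-- The substitution `X j ↦ X j + c j * X 0`. -/
noncomputable def lin {R : Type*} [CommRing R] {d : ℕ} (c : Fin (d + 1) → R) :
    PS (d + 1) R →ₐ[R] PS (d + 1) R :=
  substAlgHom (a := fun j => MvPowerSeries.X j + MvPowerSeries.C (c j) * MvPowerSeries.X 0)
    (hasSubst_of_constantCoeff_zero (by simp))

lemma lin_X {R : Type*} [CommRing R] {d : ℕ} (c : Fin (d + 1) → R) (j : Fin (d + 1)) :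
    lin c (MvPowerSeries.X j) = MvPowerSeries.X j + MvPowerSeries.C (c j) * MvPowerSeries.X 0 :=
  substAlgHom_X _ _

lemma lin_C {R : Type*} [CommRing R] {d : ℕ} (c : Fin (d + 1) → R) (r : R) :
    lin c (MvPowerSeries.C r) = MvPowerSeries.C r := (lin c).commutes r

lemma lin_lin {R : Type*} [CommRing R] {d : ℕ} (c c' : Fin (d + 1) → R) (hc : c 0 = 0)
    (hc' : ∀ j, c j + c' j = 0) (f : PS (d + 1) R) : lin c (lin c' f) = f := by
  have h1 : ∀ j, lin c (MvPowerSeries.X j + MvPowerSeries.C (c' j) * MvPowerSeries.X 0) =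
      MvPowerSeries.X j := by
    intro j
    rw [map_add, map_mul, lin_X, lin_X, lin_C, hc, map_zero, zero_mul, add_zero, add_assoc,
      ← add_mul, ← map_add, hc', map_zero, zero_mul, add_zero]
  simp only [lin, substAlgHom_apply] at h1 ⊢
  rw [subst_comp_subst_apply (hasSubst_of_constantCoeff_zero (by simp))
    (hasSubst_of_constantCoeff_zero (by simp))]
  simp only [h1]
  exact congr_fun subst_self f

/-- The change of variables as a ring isomorphism. -/
noncomputable def linE {R : Type*} [CommRing R] {d : ℕ} (c : Fin (d + 1) → R) (hc : c 0 = 0) :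
    PS (d + 1) R ≃+* PS (d + 1) R :=
  RingEquiv.ofBijective (lin c).toRingHom
    ⟨Function.LeftInverse.injective (g := lin (-c))
      (lin_lin (-c) c (by simp [hc]) (by simp)),
     Function.RightInverse.surjective (g := lin (-c)) (lin_lin c (-c) hc (by simp))⟩

lemma coord {V : Type*} [CommRing V] [IsLocalRing V] [Infinite (ResidueField V)] {n : ℕ}
    (F : PS (n + 1) V) (m : Fin (n + 1) →₀ ℕ) (hF : MvPowerSeries.coeff m F ∉ maximalIdeal V) :
    ∃ E : PS (n + 1) V ≃+* PowerSeries (PS n V), (E F).map (residue (PS n V)) ≠ 0 := by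
  let φ : V →+* ResidueField (PS n V) := (residue (PS n V)).comp MvPowerSeries.C
  have hφ : ∀ v, φ v = 0 → v ∈ maximalIdeal V := fun v hv => by
    rw [mem_maximalIdeal, mem_nonunits_iff]
    intro hu
    exact (hu.map φ).ne_zero hv
  have hφ' : ∀ v ∈ maximalIdeal V, φ v = 0 := fun v hv => by
    show residue (PS n V) (MvPowerSeries.C v) = 0
    rw [residue_eq_zero_iff, max_PSV]
    exact Ideal.mem_sup_left (Ideal.mem_map_of_mem _ hv)
  have hs : Surjective φ := fun x => by
    obtain ⟨f, rfl⟩ := residue_surjective x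
    obtain ⟨v, hv⟩ := res_PSV f
    refine ⟨v, ?_⟩
    rw [← residue_eq_zero_iff, map_sub, sub_eq_zero] at hv
    exact hv.symm
  have : Infinite (ResidueField (PS n V)) :=
    let ψ : ResidueField V →+* ResidueField (PS n V) := Ideal.Quotient.lift (maximalIdeal V) φ hφ'
    Infinite.of_injective ψ ψ.injective
  obtain ⟨μ, hμ⟩ := exists_line φ F (fun h => hF (hφ _ (by
    have := congrArg (MvPowerSeries.coeff m) h
    rwa [MvPowerSeries.coeff_map, map_zero] at this)))
  choose c hc using fun i => hs (μ i)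
  let E := (linE (Fin.cons 0 c : Fin (n + 1) → V) rfl).trans
    (MvPowerSeries.finSuccEquiv V n).toRingEquiv
  have hE : ∀ f, E f = MvPowerSeries.finSuccEquiv V n (lin (Fin.cons 0 c : Fin (n + 1) → V) f) :=
    fun f => rfl
  refine ⟨E, hμ ((PowerSeries.map (residue (PS n V))).comp E.toRingHom) (fun v => ?_) fun j => ?_⟩
  · show PowerSeries.map (residue (PS n V)) (E (MvPowerSeries.C v)) = _
    rw [hE, lin_C, finSuccEquiv_C, PowerSeries.map_C]
    rfl
  · show PowerSeries.map (residue (PS n V)) (E (MvPowerSeries.X j)) = _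
    rw [hE, lin_X, map_add, map_mul, finSuccEquiv_C, finSuccEquiv_X_zero]
    refine Fin.cases ?_ (fun i => ?_) j
    · simp [finSuccEquiv_X_zero]
    · have h0 : residue (PS n V) (MvPowerSeries.X i) = 0 := by
        rw [residue_eq_zero_iff, max_PSV]
        exact Ideal.mem_sup_right (Ideal.subset_span ⟨i, rfl⟩)
      rw [finSuccEquiv_X_succ, map_add, map_mul, PowerSeries.map_C, PowerSeries.map_C, h0,
        map_zero, zero_add, PowerSeries.map_X, Fin.cons_succ, Fin.cons_succ, ← hc]
      rfl

section W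
variable {P : Type*} [CommRing P] [IsLocalRing P] [IsAdicComplete (maximalIdeal P) P]

omit [IsLocalRing P] [IsAdicComplete (maximalIdeal P) P] in
lemma alg_eq (q : Ideal (PowerSeries P)) :
    algebraMap P (PowerSeries P ⧸ q) = (Ideal.Quotient.mk q).comp PowerSeries.C := rfl

omit [IsLocalRing P] [IsAdicComplete (maximalIdeal P) P] in
lemma aeval_mk (q : Ideal (PowerSeries P)) (r : P[X]) :
    Polynomial.aeval (Ideal.Quotient.mk q PowerSeries.X) r =
      Ideal.Quotient.mk q (r : PowerSeries P) := by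
  rw [Polynomial.aeval_def, alg_eq, ← Polynomial.hom_eval₂, Polynomial.eval₂_C_X_eq_coe]

lemma fin_of_W (q : Ideal (PowerSeries P)) {G : PowerSeries P} (hG : G ∈ q)
    (h0 : G.map (residue P) ≠ 0) : ((Ideal.Quotient.mk q).comp PowerSeries.C).Finite := by
  obtain ⟨g, u, H⟩ := PowerSeries.exists_isWeierstrassFactorization h0
  have hg : (g : PowerSeries P) ∈ q := by
    have := H.eq_mul
    rw [this] at hG
    exact (q.mul_unit_mem_iff_mem H.isUnit).1 hG
  have hev := aeval_mk q
  have hint : IsIntegral P (Ideal.Quotient.mk q PowerSeries.X) :=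
    ⟨g, H.isDistinguishedAt.monic, by
      rw [← Polynomial.aeval_def, hev, Ideal.Quotient.eq_zero_iff_mem]; exact hg⟩
  have htop : Algebra.adjoin P {Ideal.Quotient.mk q PowerSeries.X} = ⊤ := by
    rw [eq_top_iff]
    intro t _
    obtain ⟨f, rfl⟩ := Ideal.Quotient.mk_surjective t
    obtain ⟨v, r, -, e⟩ := PowerSeries.exists_isWeierstrassDivision f h0
    rw [Algebra.adjoin_singleton_eq_range_aeval]
    refine ⟨r, ?_⟩
    show Polynomial.aeval _ r = _
    rw [hev, e, map_add, map_mul, Ideal.Quotient.eq_zero_iff_mem.2 hG, zero_mul, zero_add]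
  have := hint.fg_adjoin_singleton
  rw [htop] at this
  rw [← alg_eq, RingHom.finite_algebraMap]
  exact ⟨this⟩

lemma prin_step [IsDomain P] [IsIntegrallyClosed P] (q : Ideal (PowerSeries P)) [q.IsPrime]
    (hfin : ((Ideal.Quotient.mk q).comp PowerSeries.C).Finite)
    (h0 : q.comap (PowerSeries.C (R := P)) = ⊥) : ∃ F, q = Ideal.span {F} := by
  have hev := aeval_mk q
  rw [← alg_eq, RingHom.finite_algebraMap] at hfin
  have hint : IsIntegral P (Ideal.Quotient.mk q PowerSeries.X) := IsIntegral.of_finite _ _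
  have hinj : Injective (algebraMap P (PowerSeries P ⧸ q)) := by
    rw [injective_iff_map_eq_zero]
    intro a ha
    have : a ∈ q.comap (PowerSeries.C (R := P)) :=
      (Ideal.Quotient.eq_zero_iff_mem (I := q) (a := PowerSeries.C a)).1 ha
    rwa [h0] at this
  have : Module.IsTorsionFree P (PowerSeries P ⧸ q) :=
    Module.isTorsionFree_iff_algebraMap_injective.2 hinj
  set μ := minpoly P (Ideal.Quotient.mk q PowerSeries.X)
  have hμ : (μ : PowerSeries P) ∈ q := by
    rw [← Ideal.Quotient.eq_zero_iff_mem, ← hev]; exact minpoly.aeval _ _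
  refine ⟨μ, le_antisymm (fun f hf => ?_) (by rwa [Ideal.span_singleton_le_iff_mem])⟩
  obtain ⟨u, r, -, e⟩ := PowerSeries.exists_isWeierstrassDivision f (g := (μ : PowerSeries P)) (by
    rw [← Polynomial.polynomial_map_coe, Ne, Polynomial.coe_eq_zero_iff]
    exact ((minpoly.monic hint).map _).ne_zero)
  have hr : (r : PowerSeries P) ∈ q := by
    rw [eq_sub_of_add_eq' e.symm]
    exact sub_mem hf (q.mul_mem_right _ hμ)
  obtain ⟨s, hs⟩ := minpoly.isIntegrallyClosed_dvd hint (p := r) (by
    rw [hev, Ideal.Quotient.eq_zero_iff_mem]; exact hr)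
  rw [Ideal.mem_span_singleton, e, hs, Polynomial.coe_mul]
  exact dvd_add (dvd_mul_right _ _) (dvd_mul_right _ _)

omit [IsLocalRing P] [IsAdicComplete (maximalIdeal P) P] in
lemma dim_step (q : Ideal (PowerSeries P))
    (hfin : ((Ideal.Quotient.mk q).comp PowerSeries.C).Finite) :
    ringKrullDim (P ⧸ q.comap (PowerSeries.C (R := P))) = ringKrullDim (PowerSeries P ⧸ q) := by
  let := (Ideal.quotientMap q (PowerSeries.C (R := P)) le_rfl).toAlgebra
  have h1 : (Ideal.quotientMap q (PowerSeries.C (R := P)) le_rfl).Finite := by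
    rw [← Ideal.quotientMap_comp_mk le_rfl] at hfin
    exact RingHom.Finite.of_comp_finite hfin
  have : Module.Finite (P ⧸ q.comap (PowerSeries.C (R := P))) (PowerSeries P ⧸ q) := h1
  exact (ringKrullDim_eq_of_integral Ideal.quotientMap_injective).symm

end W

section dvr
variable {V : Type*} [CommRing V] [IsDomain V] [IsDiscreteValuationRing V]

lemma dim_le_of_ne_bot {n : ℕ} {q : Ideal (PS n V)} (hq : q ≠ ⊥) :
    ringKrullDim (PS n V ⧸ q) ≤ n := by
  obtain ⟨a, ha, ha0⟩ := Submodule.exists_mem_ne_zero_of_ne_bot hq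
  refine (dim_quot_anti (I := ⊥ ⊔ Ideal.span {a}) ?_).trans (dim_nzd ⊥ a ?_ ?_)
  · rwa [bot_sup_eq, Ideal.span_singleton_le_iff_mem]
  · intro x hx
    rw [Ideal.mem_bot] at hx ⊢
    exact (mul_eq_zero.1 hx).resolve_left ha0
  · rw [ringKrullDim_eq_of_ringEquiv (RingEquiv.quotientBot _), dim_PSV]

/-- A nonzero prime whose members have no unit coefficient is generated by a uniformizer. -/
lemma eq_span_of_coeff {n : ℕ} (q : Ideal (PS n V)) [hq : q.IsPrime] (hq0 : q ≠ ⊥)
    (h : ∀ F ∈ q, ∀ m, MvPowerSeries.coeff m F ∈ maximalIdeal V) : ∃ F, q = Ideal.span {F} := by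
  obtain ⟨π, hπ⟩ := IsDiscreteValuationRing.exists_irreducible V
  have hd : ∀ F ∈ q, ∃ G, F = MvPowerSeries.C π * G := fun F hF => by
    have : ∀ m, ∃ b, MvPowerSeries.coeff m F = π * b := fun m => by
      have := h F hF m
      rwa [hπ.maximalIdeal_eq, Ideal.mem_span_singleton] at this
    choose b hb using this
    let G : PS n V := b
    refine ⟨G, ?_⟩
    ext m
    rw [MvPowerSeries.coeff_C_mul, hb]
    rfl
  refine ⟨MvPowerSeries.C π, le_antisymm (fun F hF => ?_) ?_⟩
  · obtain ⟨G, rfl⟩ := hd F hF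
    exact Ideal.mul_mem_right _ _ (Ideal.mem_span_singleton_self _)
  · rw [Ideal.span_singleton_le_iff_mem]
    by_contra hπq
    apply hq0
    refine Submodule.eq_bot_of_le_smul_of_le_jacobson_bot (maximalIdeal (PS n V)) q
      (IsNoetherian.noetherian _) (fun F hF => ?_) (maximalIdeal_le_jacobson _)
    obtain ⟨G, rfl⟩ := hd F hF
    refine Submodule.smul_mem_smul (I := maximalIdeal (PS n V)) ?_
      ((hq.mem_or_mem hF).resolve_left hπq)
    rw [max_PSV]
    exact Ideal.mem_sup_left (Ideal.mem_map_of_mem _ hπ.not_isUnit)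

omit [IsDomain V] [IsDiscreteValuationRing V] in
lemma coeff_zero_case [IsLocalRing V] (q : Ideal (PS 0 V)) [hq : q.IsPrime] :
    ∀ F ∈ q, ∀ m, MvPowerSeries.coeff m F ∈ maximalIdeal V := by
  intro F hF m
  obtain rfl : m = 0 := Subsingleton.elim _ _
  rw [mem_maximalIdeal, mem_nonunits_iff]
  intro hu
  exact hq.ne_top (q.eq_top_of_isUnit_mem hF (MvPowerSeries.isUnit_iff_constantCoeff.2 hu))

end dvr

end RegX

open RegX

section
variable {V : Type*} [CommRing V] [IsDomain V] [IsDiscreteValuationRing V]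
  [IsAdicComplete (maximalIdeal V) V] [Infinite (ResidueField V)]

/-- Localizations are regular. -/
theorem reg_PSV (n k δ : ℕ) (h : k + δ = n + 1) (q : Ideal (PS n V)) [q.IsPrime]
    (hq : (δ : WithBot ℕ∞) ≤ ringKrullDim (PS n V ⧸ q)) :
    ∃ v : Fin k → PS n V, (∀ i, v i ∈ q) ∧ q ≤ sat q (Ideal.span (Set.range v)) := by
  induction n generalizing k with
  | zero =>
    by_cases hq0 : q = ⊥
    · exact ⟨0, fun _ => q.zero_mem, fun f hf => by rw [hq0, Ideal.mem_bot] at hf; simp [hf]⟩
    have hδ : δ ≤ 0 := by exact_mod_cast hq.trans (dim_le_of_ne_bot hq0)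
    obtain ⟨F, hF⟩ := eq_span_of_coeff q hq0 (coeff_zero_case q)
    refine ⟨fun _ => F, fun _ => hF ▸ Ideal.mem_span_singleton_self F, hF.le.trans
      (le_trans (Ideal.span_mono ?_) le_sat)⟩
    rintro _ rfl
    exact ⟨⟨0, by omega⟩, rfl⟩
  | succ n ih =>
    by_cases hq0 : q = ⊥
    · exact ⟨0, fun _ => q.zero_mem, fun f hf => by rw [hq0, Ideal.mem_bot] at hf; simp [hf]⟩
    have hδ : δ ≤ n + 1 := by exact_mod_cast hq.trans (dim_le_of_ne_bot hq0)
    by_cases hc : ∀ F ∈ q, ∀ m, MvPowerSeries.coeff m F ∈ maximalIdeal V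
    · obtain ⟨F, hF⟩ := eq_span_of_coeff q hq0 hc
      refine ⟨fun _ => F, fun _ => hF ▸ Ideal.mem_span_singleton_self F, hF.le.trans
        (le_trans (Ideal.span_mono ?_) le_sat)⟩
      rintro _ rfl
      exact ⟨⟨0, by omega⟩, rfl⟩
    push Not at hc
    obtain ⟨G, hG, m, hm⟩ := hc
    obtain ⟨E, hE⟩ := coord G m hm
    obtain ⟨k, rfl⟩ : ∃ k', k = k' + 1 := ⟨k - 1, by omega⟩
    let q' : Ideal (PowerSeries (PS n V)) := q.comap E.symm.toRingHom
    have h2 : q' = q.map E.toRingHom := (Ideal.map_comap_of_equiv E).symm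
    have hfin := fin_of_W q' (show E G ∈ q' by simpa [q'] using hG) hE
    obtain ⟨y, hy, hy'⟩ := ih k (by omega) (q'.comap PowerSeries.C) (by
      rw [dim_step q' hfin, ← ringKrullDim_eq_of_ringEquiv (Ideal.quotientEquiv q q' E h2)]
      exact hq)
    obtain ⟨F, hF, hF'⟩ := gen_step q' hfin y hy'
    refine ⟨Fin.cons (E.symm F) fun i => E.symm (PowerSeries.C (y i)),
      fun i => Fin.cases hF hy i, fun g hg => ?_⟩
    obtain ⟨s, hs, h1⟩ := hF' (show E g ∈ q' by simpa [q'] using hg)
    refine ⟨E.symm s, hs, ?_⟩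
    have := Ideal.mem_map_of_mem E.symm h1
    rw [map_mul, E.symm_apply_apply, Ideal.map_span, Set.image_insert_eq, ← Set.range_comp] at this
    rw [Fin.range_cons]
    simpa only [Function.comp_def] using this

/-- Primes of codimension one are principal. -/
theorem prin_PSV (n : ℕ) (q : Ideal (PS n V)) [q.IsPrime] (hq0 : q ≠ ⊥)
    (hq : (n : WithBot ℕ∞) ≤ ringKrullDim (PS n V ⧸ q)) : ∃ F, q = Ideal.span {F} := by
  by_cases hc : ∀ F ∈ q, ∀ m, MvPowerSeries.coeff m F ∈ maximalIdeal V
  · exact eq_span_of_coeff q hq0 hc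
  cases n with
  | zero => exact absurd (coeff_zero_case q) hc
  | succ n =>
    push Not at hc
    obtain ⟨G, hG, m, hm⟩ := hc
    obtain ⟨E, hE⟩ := coord G m hm
    let q' : Ideal (PowerSeries (PS n V)) := q.comap E.symm.toRingHom
    have h2 : q' = q.map E.toRingHom := (Ideal.map_comap_of_equiv E).symm
    have hfin := fin_of_W q' (show E G ∈ q' by simpa [q'] using hG) hE
    have h0 : q'.comap (PowerSeries.C (R := PS n V)) = ⊥ := by
      by_contra h0
      have h1 := dim_le_of_ne_bot h0
      rw [dim_step q' hfin, ← ringKrullDim_eq_of_ringEquiv (Ideal.quotientEquiv q q' E h2)] at h1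
      have : n + 1 ≤ n := by exact_mod_cast hq.trans h1
      omega
    have := normal_PS (V := V) n
    obtain ⟨F, hF⟩ := prin_step q' hfin h0
    refine ⟨E.symm F, ?_⟩
    have h3 : q = q'.map E.symm.toRingHom :=
      (Ideal.map_comap_of_surjective _ E.symm.surjective q).symm
    rw [h3, hF, Ideal.map_span, Set.image_singleton]
    rfl

end

/-- Simple roots are unramified. -/
theorem etale_step {B T : Type*} [CommRing B] [CommRing T] [Algebra B T] (x : T) (h : B[X])
    (hm : h.Monic) (hh : aeval x h = 0) (hs : ∀ t : T, ∃ F : B[X], aeval x F = t)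
    (q : Ideal T) [q.IsPrime] (hq : aeval x (derivative h) ∉ q) :
    q ≤ sat q ((q.comap (algebraMap B T)).map (algebraMap B T)) := by
  have hqp : q.IsPrime := inferInstance
  set q0 := q.comap (algebraMap B T) with hq0
  have hq0p : q0.IsPrime := Ideal.comap_isPrime _ q
  obtain ⟨F, hF⟩ := exists_minimalFor_of_wellFoundedLT
    (fun F : B[X] => aeval x F ∈ q ∧ F.leadingCoeff ∉ q0) natDegree
    ⟨h, by rw [hh]; exact q.zero_mem, by rw [hm.leadingCoeff]; exact hq0p.one_notMem⟩
  have key : ∀ r : B[X], aeval x r ∈ q → ∃ s ∉ q0, ∃ G : B[X],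
      Polynomial.C s * r - F * G ∈ q0.map (Polynomial.C : B →+* B[X]) := by
    intro r
    induction hn : r.natDegree using Nat.strong_induction_on generalizing r with
    | _ n ih =>
      intro hr
      rcases Nat.eq_zero_or_pos n with rfl | hpos
      · rw [Polynomial.eq_C_of_natDegree_eq_zero hn] at hr ⊢
        rw [aeval_C] at hr
        refine ⟨1, hq0p.one_notMem, 0, ?_⟩
        rw [map_one, one_mul, mul_zero, sub_zero]
        exact Ideal.mem_map_of_mem _ hr
      by_cases hl : r.leadingCoeff ∈ q0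
      · have e := r.eraseLead_add_C_mul_X_pow
        have h1 : aeval x r.eraseLead ∈ q := by
          rw [eq_sub_of_add_eq e, map_sub, map_mul, aeval_C]
          exact sub_mem hr (q.mul_mem_right _ hl)
        obtain ⟨s, hs, G, hG⟩ := ih _ (by have := r.eraseLead_natDegree_le; omega) _ rfl h1
        refine ⟨s, hs, G, ?_⟩
        have h2 := add_mem hG (Ideal.mul_mem_left _ (Polynomial.C s * Polynomial.X ^ r.natDegree)
          (Ideal.mem_map_of_mem (Polynomial.C : B →+* B[X]) hl))
        refine (congrArg (· ∈ q0.map (Polynomial.C : B →+* B[X])) ?_).mp h2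
        linear_combination (Polynomial.C s) * e
      · have hle : F.natDegree ≤ r.natDegree := by
          by_contra hlt
          exact hlt (hF.le_of_le ⟨hr, hl⟩ (not_le.1 hlt).le)
        have e : F.cancelLeads r = Polynomial.C F.leadingCoeff * r - Polynomial.C r.leadingCoeff *
            Polynomial.X ^ (r.natDegree - F.natDegree) * F := by
          simp [cancelLeads, Nat.sub_eq_zero_of_le hle]
        obtain ⟨s, hs, G, hG⟩ := ih _
          (hn ▸ natDegree_cancelLeads_lt_of_natDegree_le_natDegree hle (hn ▸ hpos)) _ rfl (by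
            rw [e, map_sub, map_mul, map_mul _ _ F]
            exact sub_mem (q.mul_mem_left _ hr) (q.mul_mem_left _ hF.prop.1))
        refine ⟨s * F.leadingCoeff, fun e => (hq0p.mem_or_mem e).elim hs hF.prop.2,
          G + Polynomial.C s * Polynomial.C r.leadingCoeff *
            Polynomial.X ^ (r.natDegree - F.natDegree), ?_⟩
        refine (congrArg (· ∈ q0.map (Polynomial.C : B →+* B[X])) ?_).mp hG
        rw [e, map_mul]
        ring
  have hmap : ∀ R ∈ q0.map (Polynomial.C : B →+* B[X]), aeval x R ∈ q0.map (algebraMap B T) := by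
    intro R hR
    have := Ideal.mem_map_of_mem (aeval x : B[X] →ₐ[B] T).toRingHom hR
    rw [Ideal.map_map] at this
    have e : (aeval x : B[X] →ₐ[B] T).toRingHom.comp Polynomial.C = algebraMap B T := by
      ext b
      simp
    rwa [e] at this
  have hle : q0.map (algebraMap B T) ≤ q := Ideal.map_comap_le
  have hFJ : aeval x F ∈ sat q (q0.map (algebraMap B T)) := by
    obtain ⟨s, hs, G, hG⟩ := key h (by rw [hh]; exact q.zero_mem)
    have h1 := hmap _ hG
    rw [map_sub, map_mul, hh, mul_zero, zero_sub, Ideal.neg_mem_iff, map_mul, mul_comm] at h1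
    refine ⟨aeval x G, fun hGq => ?_, h1⟩
    have h2 : derivative (Polynomial.C s * h - F * G) ∈ q0.map (Polynomial.C : B →+* B[X]) := by
      rw [Ideal.mem_map_C_iff] at hG ⊢
      intro n
      rw [coeff_derivative]
      exact q0.mul_mem_right _ (hG _)
    have h3 := hle (hmap _ h2)
    rw [derivative_sub, derivative_C_mul, derivative_mul, map_sub, map_add, map_mul, map_mul,
      map_mul, aeval_C] at h3
    have h4 := add_mem h3 (add_mem (q.mul_mem_left (aeval x (derivative F)) hGq)
      (q.mul_mem_right (aeval x (derivative G)) hF.prop.1))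
    rw [sub_add_cancel] at h4
    exact (hqp.mem_or_mem h4).elim hs hq
  intro t ht
  obtain ⟨r, rfl⟩ := hs t
  obtain ⟨s, hs, G, hG⟩ := key r ht
  have h1 := add_mem (le_sat (q := q) (hmap _ hG)) (Ideal.mul_mem_right (aeval x G) _ hFJ)
  rw [map_sub, map_mul, map_mul, sub_add_cancel, aeval_C] at h1
  exact sat_of_mul hs h1

end Vale.Agent.P202
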