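import Vale.Agent.P202M.CMl

/-! Power series over a complete discrete valuation ring. -/

open IsLocalRing Filter Function MvPowerSeries
open scoped ENNReal

namespace Vale.Agent.P202

namespace PSVX

variable {V : Type*} [CommRing V] {n : ℕ}

theorem sub_trunc (f : PS n V) (N : ℕ) : f - (truncTotal N f : PS n V) ∈ xI n V ^ N :=
  (mem_xI_pow_iff N _).2 fun m hm => by simp [coeff_truncTotal _ hm]

theorem coeff_mem (I : Ideal V) (N : ℕ) (f : PS n V)
    (h : f ∈ (I.map (C : V →+* PS n V) ⊔ xI n V) ^ N) (m : Fin n →₀ ℕ) :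
    coeff m f ∈ I ^ (N - m.degree) := by
  classical
  have mul : ∀ (a b : ℕ) (f g : PS n V), (∀ m, coeff m f ∈ I ^ (a - m.degree)) →
      (∀ m, coeff m g ∈ I ^ (b - m.degree)) → ∀ m, coeff m (f * g) ∈ I ^ (a + b - m.degree) := by
    intro a b f g hf hg m
    rw [coeff_mul]
    refine Ideal.sum_mem _ fun p hp => Ideal.pow_le_pow_right ?_
      (pow_add I _ _ ▸ Ideal.mul_mem_mul (hf p.1) (hg p.2))
    rw [← Finset.HasAntidiagonal.mem_antidiagonal.1 hp, map_add]
    omega
  induction N generalizing f m with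
  | zero => simp
  | succ N ih =>
    rw [pow_succ] at h
    refine Submodule.mul_induction_on h (fun a ha b hb => mul N 1 a b (ih a ha) ?_ m)
      fun a b ha hb => by rw [map_add]; exact add_mem ha hb
    intro m
    rcases eq_or_ne m 0 with rfl | hm
    · obtain ⟨u, hu, v, hv, rfl⟩ := Submodule.mem_sup.1 hb
      have h1 : I.map (C : V →+* PS n V) ≤ I.comap constantCoeff :=
        Ideal.map_le_iff_le_comap.2 fun c hc => by simpa using hc
      simpa [(mem_xI_iff v).1 hv] using h1 hu
    · have : m.degree ≠ 0 := fun h => hm ((Finsupp.degree_eq_zero_iff m).1 h)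
      simp [show 1 - m.degree = 0 by omega]

theorem poly_mem (I : Ideal V) (N : ℕ) (g : MvPolynomial (Fin n) V)
    (h : ∀ m, g.coeff m ∈ I ^ (N - m.degree)) :
    g ∈ (I.map (MvPolynomial.C : V →+* MvPolynomial (Fin n) V) ⊔
      Ideal.span (Set.range MvPolynomial.X)) ^ N := by
  rw [g.as_sum]
  refine Ideal.sum_mem _ fun m _ => Ideal.pow_le_pow_right (by omega : N ≤ N - m.degree + m.degree) ?_
  rw [pow_add, ← mul_one (g.coeff m), ← MvPolynomial.C_mul_monomial]
  refine Ideal.mul_mem_mul (Ideal.pow_right_mono le_sup_left _ ?_)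
    (Ideal.pow_right_mono le_sup_right _ ?_)
  · exact Ideal.map_pow MvPolynomial.C I _ ▸ Ideal.mem_map_of_mem _ (h m)
  · refine (MvPolynomial.mem_pow_idealOfVars_iff' _ _).2 fun x hx => ?_
    classical
    rw [MvPolynomial.coeff_monomial, if_neg]
    rintro rfl
    exact lt_irrefl _ hx

theorem mem_pow_iff (I : Ideal V) (N : ℕ) (f : PS n V) :
    f ∈ (I.map (C : V →+* PS n V) ⊔ xI n V) ^ N ↔ ∀ m, coeff m f ∈ I ^ (N - m.degree) := by
  refine ⟨coeff_mem I N f, fun h => ?_⟩
  have h1 := Ideal.mem_map_of_mem MvPolynomial.coeToMvPowerSeries.ringHom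
    (poly_mem I N (truncTotal N f) fun m => by
      rw [coeff_truncTotal_eq_ite]
      split_ifs
      exacts [h m, zero_mem _])
  rw [Ideal.map_pow, Ideal.map_sup, Ideal.map_map, Ideal.map_span, ← Set.range_comp] at h1
  rw [← sub_add_cancel f (truncTotal N f)]
  refine add_mem (Ideal.pow_right_mono le_sup_right N (sub_trunc f N)) ?_
  have e1 : (MvPolynomial.coeToMvPowerSeries.ringHom.comp MvPolynomial.C : V →+* PS n V) = C :=
    RingHom.ext fun c => by simp
  have e2 : (MvPolynomial.coeToMvPowerSeries.ringHom ∘ MvPolynomial.X : Fin n → PS n V) = X :=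
    funext fun i => by simp
  rwa [e1, e2] at h1

theorem brk (π : V) (a : ℕ) (s : Set (Fin n)) (f : PS n V) :
    f ∈ Ideal.span {C π} ⊔ Ideal.span ((fun i => (X i : PS n V) ^ a) '' s) ↔
      ∀ m : Fin n →₀ ℕ, (∀ i ∈ s, m i < a) → π ∣ coeff m f := by
  classical
  rw [← Ideal.span_insert]
  constructor
  · intro hf m hm
    suffices ∀ g : PS n V, π ∣ coeff m (g * f) by simpa using this 1
    induction hf using Submodule.span_induction with
    | mem x hx =>
      intro g
      rcases hx with rfl | ⟨i, hi, rfl⟩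
      · rw [coeff_mul_C]
        exact dvd_mul_left _ _
      · rw [X_pow_dvd_iff.mp (dvd_mul_left _ _) m (hm i hi)]
        exact dvd_zero _
    | zero => simp
    | add x y _ _ hx hy => intro g; rw [mul_add, map_add]; exact dvd_add (hx g) (hy g)
    | smul c x _ hx => intro g; rw [smul_eq_mul, ← mul_assoc]; exact hx _
  · induction s, Set.toFinite s using Set.Finite.induction_on generalizing f with
    | empty =>
      intro hf
      choose c hc using fun m => hf m (by simp)
      refine Ideal.mem_of_dvd _ ⟨c, ?_⟩ (Ideal.subset_span (Set.mem_insert _ _))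
      ext m
      exact (hc m).trans (coeff_C_mul m c π).symm
    | @insert i s _ _ ih =>
      intro hf
      let r : PS n V := fun m => if m i < a then coeff m f else 0
      have hr : ∀ m, coeff m r = if m i < a then coeff m f else 0 := fun _ => rfl
      rw [← sub_add_cancel f r]
      refine Ideal.add_mem _ (Ideal.mem_of_dvd _ (X_pow_dvd_iff.mpr fun m hm => ?_)
        (Ideal.subset_span (Or.inr ⟨i, by simp, rfl⟩)))
        (Ideal.span_mono (Set.insert_subset_insert (Set.image_mono (Set.subset_insert _ _)))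
          (ih r fun m hm => ?_))
      · rw [map_sub, hr, if_pos hm, sub_self]
      · rw [hr]
        split_ifs with hi
        · exact hf m fun j hj => hj.elim (fun h => h ▸ hi) (hm j)
        · exact dvd_zero _

theorem reg (π : V) (a : ℕ) (s : Set (Fin n)) (j : Fin n) (hj : j ∉ s) (r : PS n V)
    (h : X j ^ a * r ∈ Ideal.span {C π} ⊔ Ideal.span ((fun i => (X i : PS n V) ^ a) '' s)) :
    r ∈ Ideal.span {C π} ⊔ Ideal.span ((fun i => (X i : PS n V) ^ a) '' s) := by
  rw [brk] at h ⊢
  intro m hm
  have := h (Finsupp.single j a + m) fun i hi => by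
    have h1 : i ≠ j := fun e => hj (e ▸ hi)
    simpa [h1] using hm i hi
  rwa [X_pow_eq, coeff_add_monomial_mul, one_mul] at this

end PSVX

theorem max_PSV {V : Type*} [CommRing V] [IsLocalRing V] (n : ℕ) :
    maximalIdeal (PS n V) = (maximalIdeal V).map (C : V →+* PS n V) ⊔ xI n V := by
  have h0 : ∀ f : PS n V, f ∈ maximalIdeal (PS n V) ↔ constantCoeff f ∈ maximalIdeal V := fun f => by
    rw [mem_maximalIdeal, mem_nonunits_iff, isUnit_iff_constantCoeff]
    rfl
  refine le_antisymm (fun f hf => ?_) (sup_le (Ideal.map_le_iff_le_comap.2 fun c hc => ?_)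
    fun f hf => ?_)
  · rw [← add_sub_cancel (C (constantCoeff f)) f]
    exact Submodule.add_mem_sup (Ideal.mem_map_of_mem _ ((h0 f).1 hf))
      ((mem_xI_iff _).2 (by simp))
  · simpa [h0] using hc
  · rw [h0, (mem_xI_iff f).1 hf]
    exact zero_mem _

theorem res_PSV {V : Type*} [CommRing V] [IsLocalRing V] {n : ℕ} (f : PS n V) :
    ∃ v : V, f - C v ∈ maximalIdeal (PS n V) := by
  exact ⟨constantCoeff f, by
    rw [max_PSV]
    exact Ideal.mem_sup_right ((mem_xI_iff _).2 (by simp))⟩

theorem exists_trunc {V : Type*} [CommRing V] {n : ℕ} (f : PS n V) (N : ℕ) :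
    ∃ g : MvPolynomial (Fin n) V, f - (g : PS n V) ∈ xI n V ^ N := by
  exact ⟨_, PSVX.sub_trunc f N⟩

/-- A polynomial lying in a power of `(I, X)` as a power series lies there as a polynomial. -/
theorem poly_mem_pow {V : Type*} [CommRing V] {n : ℕ} (I : Ideal V) (N : ℕ)
    (g : MvPolynomial (Fin n) V)
    (h : (g : PS n V) ∈ (I.map (C : V →+* PS n V) ⊔ xI n V) ^ N) :
    g ∈ (I.map (MvPolynomial.C : V →+* MvPolynomial (Fin n) V) ⊔
      Ideal.span (Set.range MvPolynomial.X)) ^ N := by
  exact PSVX.poly_mem I N g fun m => by simpa using PSVX.coeff_mem I N _ h m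

instance complete_PSV {V : Type*} [CommRing V] [IsLocalRing V] [IsNoetherianRing V]
    [IsAdicComplete (maximalIdeal V) V] (n : ℕ) :
    IsAdicComplete (maximalIdeal (PS n V)) (PS n V) := by
  have : IsPrecomplete (maximalIdeal (PS n V)) (PS n V) := ⟨fun f hf => by
    simp only [SModEq.sub_mem, smul_eq_mul, Ideal.mul_top, max_PSV, PSVX.mem_pow_iff] at hf ⊢
    choose L hL using fun m : Fin n →₀ ℕ => IsPrecomplete.prec (I := maximalIdeal V) inferInstance
      (f := fun k => coeff m (f (k + m.degree))) fun {a b} h => by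
        simpa [SModEq.sub_mem] using hf (Nat.add_le_add_right h m.degree) m
    refine ⟨L, fun k m => ?_⟩
    rcases le_total k m.degree with h | h
    · simp [Nat.sub_eq_zero_of_le h]
    · have := hL m (k - m.degree)
      rwa [Nat.sub_add_cancel h, SModEq.sub_mem, smul_eq_mul, Ideal.mul_top] at this⟩
  exact {}

instance isDomain_PSV {V : Type*} [CommRing V] [IsDomain V] (n : ℕ) : IsDomain (PS n V) := by
  exact NoZeroDivisors.to_isDomain _

/-- Finite modules over complete Noetherian rings are complete. -/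
theorem complete_of_finite {A : Type*} [CommRing A] [IsNoetherianRing A] (I : Ideal A)
    [IsAdicComplete I A] (M : Type*) [AddCommGroup M] [Module A M] [Module.Finite A M] :
    IsAdicComplete I M := by
  have h1 : IsHausdorff I M := IsHausdorff.of_le_jacobson I M (IsAdicComplete.le_jacobson_bot I)
  have h2 : IsPrecomplete I M := by
    obtain ⟨n, f, hf⟩ := Module.Finite.exists_fin' A M
    rw [← AdicCompletion.of_surjective_iff]
    intro y
    obtain ⟨x, rfl⟩ := AdicCompletion.map_surjective I hf y
    obtain ⟨x, rfl⟩ := AdicCompletion.of_surjective_iff.2 (isPrecomplete_pi I n) x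
    exact ⟨f x, (AdicCompletion.map_of _ _ _).symm⟩
  exact {}

/-- A local ring finite over a complete local ring is complete. -/
theorem complete_of_finite_local {A B : Type*} [CommRing A] [IsLocalRing A] [IsNoetherianRing A]
    [IsAdicComplete (maximalIdeal A) A] [CommRing B] [IsLocalRing B] [Algebra A B]
    [Module.Finite A B] : IsAdicComplete (maximalIdeal B) B := by
  have hN : IsNoetherianRing B := Algebra.FiniteType.isNoetherianRing A B
  have h1 : (maximalIdeal A).map (algebraMap A B) ≤ maximalIdeal B :=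
    Ideal.map_le_iff_le_comap.2 (eq_maximalIdeal
      (Ideal.isMaximal_comap_of_isIntegral_of_isMaximal (R := A) (maximalIdeal B))).ge
  have h2 : maximalIdeal B ≤ ((maximalIdeal A).map (algebraMap A B)).radical := by
    rw [Ideal.radical_eq_sInf]
    rintro _ hx
    refine Ideal.mem_sInf.2 fun {P} ⟨h, hP⟩ => ?_
    have h3 := (maximalIdeal.isMaximal A).eq_of_le (Ideal.comap_ne_top _ hP.ne_top)
      (Ideal.map_le_iff_le_comap.1 h)
    rwa [eq_maximalIdeal (Ideal.isMaximal_of_isIntegral_of_isMaximal_comap (R := A) P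
      (h3 ▸ maximalIdeal.isMaximal A))]
  obtain ⟨k, hk⟩ := Ideal.exists_pow_le_of_le_radical_of_fg h2 (IsNoetherian.noetherian _)
  have h3 := complete_of_finite (maximalIdeal A) B
  have h4 : IsPrecomplete ((maximalIdeal A).map (algebraMap A B)) B :=
    IsPrecomplete.map_algebraMap_iff.2 inferInstance
  have h5 : IsPrecomplete (maximalIdeal B) B := ⟨fun f hf => by
    have h6 : ∀ n, maximalIdeal B ^ ((k + 1) * n) ≤ (maximalIdeal A).map (algebraMap A B) ^ n :=
      fun n => by
        rw [pow_mul]
        exact Ideal.pow_right_mono ((Ideal.pow_le_pow_right k.le_succ).trans hk) n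
    obtain ⟨L, hL⟩ := h4.prec (f := fun n => f ((k + 1) * n)) fun {a b} h =>
      (hf (Nat.mul_le_mul_left _ h)).mono (Submodule.smul_mono_left (h6 a))
    exact ⟨L, fun n => (hf (Nat.le_mul_of_pos_left n k.succ_pos)).trans
      ((hL n).mono (Submodule.smul_mono_left (Ideal.pow_right_mono h1 n)))⟩⟩
  exact {}

/-- Complete Nakayama. -/
theorem finite_of_prim {A S : Type*} [CommRing A] [IsLocalRing A] [IsNoetherianRing A]
    [IsAdicComplete (maximalIdeal A) A] [CommRing S] [IsLocalRing S] [IsNoetherianRing S]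
    (φ : A →+* S) [IsLocalHom φ] (hres : ∀ b : S, ∃ a : A, b - φ a ∈ maximalIdeal S)
    (h : Prim (maximalIdeal S) ((maximalIdeal A).map φ)) : φ.Finite := by
  let := φ.toAlgebra
  have : IsLocalHom (algebraMap A S) := ‹IsLocalHom φ›
  have h1 : IsHausdorff (maximalIdeal A) S := IsHausdorff.of_map (J := maximalIdeal S)
    (map_maximalIdeal_le φ)
  have h2 : lm (maximalIdeal A) S ≠ ⊤ := by
    rw [lm_res hres]
    exact lm_ne_top (h.mono le_sup_left)
  have h3 := (isFiniteLength_iff_isNoetherian_isArtinian.1 (Module.length_ne_top_iff.1 h2)).1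
  obtain ⟨n, f, hf⟩ := Module.Finite.exists_fin' A (S ⧸ (maximalIdeal A • ⊤ : Submodule A S))
  obtain ⟨g, hg⟩ := Module.projective_lifting_property (Submodule.mkQ _) f
    (Submodule.mkQ_surjective _)
  have := isPrecomplete_pi (maximalIdeal A) n
  exact Module.Finite.of_surjective g
    (surjective_of_mkQ_comp_surjective (I := maximalIdeal A) (hg ▸ hf))

/-- A complete local ring with finitely generated maximal ideal over a complete coefficient
ring is a quotient of a power series ring. -/
theorem exists_surj_PS {V A : Type*} [CommRing V] [IsLocalRing V]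
    [CommRing A] [IsLocalRing A] [Algebra V A] [IsAdicComplete (maximalIdeal A) A]
    (hres : ∀ a : A, ∃ v : V, a - algebraMap V A v ∈ maximalIdeal A) {s : ℕ} (y : Fin s → A)
    (hy : maximalIdeal A = Ideal.span (Set.range y)) :
    ∃ φ : PS s V →ₐ[V] A, (∀ i, φ (X i) = y i) ∧ Surjective φ := by
  obtain ⟨φ, hφ⟩ := exists_evalPS (K := V) (maximalIdeal A) y fun i =>
    Ideal.le_radical (hy ▸ Submodule.subset_span ⟨i, rfl⟩)
  have e : (xI s V).map φ.toRingHom = maximalIdeal A := by
    rw [Ideal.map_span, ← Set.range_comp, hy]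
    exact congrArg (fun f => Ideal.span (Set.range f)) (funext hφ)
  refine ⟨φ, hφ, surjective_of_mk_map_comp_surjective (I := xI s V) φ.toRingHom
    (haus := by rw [e]; infer_instance) ?_⟩
  rw [e]
  intro x
  obtain ⟨a, rfl⟩ := Ideal.Quotient.mk_surjective x
  obtain ⟨v, hv⟩ := hres a
  exact ⟨algebraMap V _ v, (congrArg (Ideal.Quotient.mk _) (φ.commutes v)).trans
    (Ideal.Quotient.eq.2 hv).symm⟩

variable {V : Type*} [CommRing V] [IsDomain V] [IsDiscreteValuationRing V]

theorem dim_PSV (n : ℕ) : ringKrullDim (PS n V) = (n + 1 : ℕ) := by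
  apply le_antisymm
  · obtain ⟨π, hπ⟩ := IsDiscreteValuationRing.exists_irreducible V
    refine (ringKrullDim_le_spanFinrank_maximalIdeal _).trans ?_
    rw [max_PSV, hπ.maximalIdeal_eq, Ideal.map_span, Set.image_singleton, ← Ideal.span_insert,
      ← Fin.range_cons]
    have := Submodule.spanFinrank_span_le_ncard_of_finite (R := PS n V)
      (Set.finite_range (Fin.cons (C π) X : Fin (n + 1) → PS n V))
    have h2 : (Set.range (Fin.cons (C π) X : Fin (n + 1) → PS n V)).ncard ≤ n + 1 := by
      simpa using Set.ncard_image_le (f := (Fin.cons (C π) X : Fin (n + 1) → PS n V))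
        (s := Set.univ)
    exact_mod_cast this.trans h2
  · induction n with
    | zero =>
      rw [ringKrullDim_eq_of_ringEquiv (isEmptyEquiv (Fin 0) V).toRingEquiv,
        IsDiscreteValuationRing.ringKrullDim_eq_one]
      simp
    | succ d ih =>
      rw [ringKrullDim_eq_of_ringEquiv (MvPowerSeries.finSuccEquiv V d).toRingEquiv]
      refine le_trans ?_ ringKrullDim_succ_le_ringKrullDim_powerseries
      push_cast at ih ⊢
      gcongr

theorem cm_PSV (n : ℕ) : CM (maximalIdeal (PS n V)) (n + 1) := by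
  obtain ⟨π, hπ⟩ := IsDiscreteValuationRing.exists_irreducible V
  refine CM.of_regular (Fin.cons (C π) X) (fun i => ?_) fun a j r hr => ?_
  · rw [max_PSV]
    refine Fin.cases (Ideal.mem_sup_left (Ideal.mem_map_of_mem _ hπ.not_isUnit))
      (fun i => Ideal.mem_sup_right (Ideal.subset_span ⟨i, rfl⟩)) i
  rcases Fin.eq_zero_or_eq_succ j with rfl | ⟨j, rfl⟩
  · simp only [Fin.not_lt_zero, Set.ofPred_false, Set.image_empty, Ideal.span_empty, Ideal.mem_bot,
      Fin.cons_zero] at hr ⊢
    refine (mul_eq_zero.1 hr).resolve_left (pow_ne_zero _ fun h => hπ.ne_zero ?_)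
    simpa using congrArg constantCoeff h
  · have e : (fun i => (Fin.cons (C π) X : Fin (n + 1) → PS n V) i ^ a) '' {i | i < j.succ} =
        insert (C (π ^ a)) ((fun i => (X i : PS n V) ^ a) '' {i | i < j}) := by
      ext x
      simp [Fin.exists_fin_succ, eq_comm]
    rw [e, Ideal.span_insert] at hr ⊢
    exact PSVX.reg _ a _ j (lt_irrefl j) r hr

/-- The variables stay regular modulo the maximal ideal of the coefficient ring. -/
theorem PSV_regular_set {n : ℕ} (s : Set (Fin n)) (j : Fin n) (hj : j ∉ s) (r : PS n V)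
    (h : X j * r ∈ (maximalIdeal V).map (C : V →+* PS n V) ⊔ Ideal.span (X '' s)) :
    r ∈ (maximalIdeal V).map (C : V →+* PS n V) ⊔ Ideal.span (X '' s) := by
  obtain ⟨π, hπ⟩ := IsDiscreteValuationRing.exists_irreducible V
  rw [hπ.maximalIdeal_eq, Ideal.map_span, Set.image_singleton] at h ⊢
  simpa using PSVX.reg π 1 s j hj r (by simpa using h)

end Vale.Agent.P202
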