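import Vale.Agent.P202M.CohL
import Vale.Agent.P202M.PSV

/-! Symbolic powers and hypersurfaces. -/

open IsLocalRing Function MvPowerSeries
open scoped ENNReal

namespace Vale.Agent.P202

namespace ZNX

section
variable {P : Type*} [CommRing P] (q : Ideal P) [hq : q.IsPrime]

lemma le_sat' (J : Ideal P) : J ≤ sat q J := le_sat

lemma sat_anti {a b : ℕ} (h : a ≤ b) : sat q (q ^ b) ≤ sat q (q ^ a) :=
  fun _ ⟨s, hs, hx⟩ => ⟨s, hs, Ideal.pow_le_pow_right h hx⟩

lemma sat_mul {a b c : ℕ} (h : c ≤ a + b) {x y : P} (hx : x ∈ sat q (q ^ a))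
    (hy : y ∈ sat q (q ^ b)) : x * y ∈ sat q (q ^ c) := by
  obtain ⟨s, hs, hx⟩ := hx
  obtain ⟨t, ht, hy⟩ := hy
  refine ⟨s * t, fun e => (hq.mem_or_mem e).elim hs ht, Ideal.pow_le_pow_right h ?_⟩
  rw [mul_mul_mul_comm, pow_add]
  exact Ideal.mul_mem_mul hx hy

/-- Hasse derivatives lower the symbolic order by at most their degree. -/
lemma hasse {σ : Type*} (τ : P →+* MvPowerSeries σ P) (hτ : ∀ x, constantCoeff (τ x) = x)
    (e : ℕ) {F : P} (hF : F ∈ sat q (q ^ e)) (α : σ →₀ ℕ) :
    coeff α (τ F) ∈ sat q (q ^ (e - α.degree)) := by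
  classical
  have pw : ∀ e, ∀ x ∈ q ^ e, ∀ α : σ →₀ ℕ, coeff α (τ x) ∈ sat q (q ^ (e - α.degree)) := by
    intro e
    induction e with
    | zero => intro x _ α; exact le_sat' q _ (by simp)
    | succ e ih =>
      intro x hx
      rw [pow_succ] at hx
      refine Submodule.mul_induction_on hx (fun a ha b hb α => ?_) fun a b ha hb α => ?_
      · rw [map_mul, coeff_mul]
        refine Ideal.sum_mem _ fun z hz => ?_
        have hd : z.1.degree + z.2.degree = α.degree := by
          rw [← map_add, Finset.HasAntidiagonal.mem_antidiagonal.1 hz]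
        refine sat_mul q (b := 1 - z.2.degree) (by omega) (ih a ha z.1) ?_
        by_cases h0 : z.2 = 0
        · rw [h0, coeff_zero_eq_constantCoeff_apply, hτ]
          exact le_sat' q _ (by simpa using hb)
        · have : z.2.degree ≠ 0 := fun h => h0 ((Finsupp.degree_eq_zero_iff _).1 h)
          rw [show 1 - z.2.degree = 0 by omega]
          exact le_sat' q _ (by simp)
      · rw [map_add, map_add]
        exact add_mem (ha α) (hb α)
  obtain ⟨s, hs, hF⟩ := hF
  obtain ⟨k, hk⟩ : ∃ k, α.degree = k := ⟨_, rfl⟩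
  induction k using Nat.strong_induction_on generalizing α with
  | _ k ih =>
  have h1 := pw e _ hF α
  have hm : ((0 : σ →₀ ℕ), α) ∈ Finset.HasAntidiagonal.antidiagonal α := by simp
  rw [map_mul, coeff_mul, ← Finset.add_sum_erase _ _ hm, coeff_zero_eq_constantCoeff_apply,
    hτ] at h1
  refine sat_of_mul hs ((Submodule.add_mem_iff_left _ (Ideal.sum_mem _ fun z hz => ?_)).1 h1)
  obtain ⟨h2, h3⟩ := Finset.mem_erase.1 hz
  rw [Finset.HasAntidiagonal.mem_antidiagonal] at h3
  have hd : z.1.degree + z.2.degree = α.degree := by rw [← map_add, h3]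
  have h4 : z.1.degree ≠ 0 := fun h => by
    have h5 := (Finsupp.degree_eq_zero_iff _).1 h
    rw [h5, zero_add] at h3
    exact h2 (Prod.ext h5 h3)
  exact Ideal.mul_mem_left _ _ (sat_anti q (by omega) (ih _ (by omega) z.2 rfl))

/-- The `p`-derivation lowers the symbolic order by at most one. -/
lemma delta [IsDomain P] {p : ℕ} (hpp : p.Prime) (hp0 : (p : P) ≠ 0) (hp : (p : P) ∈ q)
    (φ : P →+* P) (hφ : ∀ x, ∃ y, φ x = x ^ p + p * y) (e : ℕ) {F : P}
    (hF : F ∈ sat q (q ^ (e + 1))) : ∃ y ∈ sat q (q ^ e), φ F = F ^ p + p * y := by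
  obtain ⟨r, hr⟩ : ∃ r, p = r + 1 := ⟨p - 1, by have := hpp.pos; omega⟩
  have pm : ∀ {J : Ideal P} {x : P}, x ∈ J → x ^ p ∈ J := fun hx =>
    Ideal.pow_mem_of_mem _ hx p hpp.pos
  have pw : ∀ e, ∀ x ∈ q ^ (e + 1), ∃ y ∈ q ^ e, φ x = x ^ p + p * y := by
    intro e
    induction e with
    | zero => intro x _; simpa using hφ x
    | succ e ih =>
      intro x hx
      rw [pow_succ] at hx
      refine (Submodule.mul_induction_on (C := fun x => x ∈ q ^ (e + 1) ∧
        ∃ y ∈ q ^ (e + 1), φ x = x ^ p + p * y) hx (fun a ha b hb => ?_) fun a b ha hb => ?_).2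
      · obtain ⟨y, hy, h1⟩ := ih a ha
        obtain ⟨z, h2⟩ := hφ b
        refine ⟨Ideal.mul_mem_right _ _ ha, a ^ p * z + y * (b ^ p + p * z),
          add_mem (Ideal.mul_mem_right _ _ (pm ha)) ?_, by rw [map_mul, h1, h2]; ring⟩
        rw [pow_succ]
        exact Ideal.mul_mem_mul hy (add_mem (pm hb) (Ideal.mul_mem_right _ _ hp))
      · obtain ⟨ha, y, hy, h1⟩ := ha
        obtain ⟨hb, z, hz, h2⟩ := hb
        obtain ⟨c, hc⟩ := exists_add_pow_prime_eq hpp a b
        refine ⟨add_mem ha hb, y + z - a * b * c, sub_mem (add_mem hy hz)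
          (Ideal.mul_mem_right _ _ (Ideal.mul_mem_right _ _ ha)), ?_⟩
        rw [map_add, h1, h2, hc]
        ring
  obtain ⟨s, hs, hF⟩ := hF
  obtain ⟨y, hy, h1⟩ := pw e _ hF
  obtain ⟨a, ha⟩ := hφ s
  obtain ⟨b, hb⟩ := hφ F
  have h2 : φ s * b = y - a * F ^ p := by
    refine mul_left_cancel₀ hp0 ?_
    rw [map_mul, hb, mul_pow] at h1
    rw [ha] at h1 ⊢
    linear_combination h1
  have h3 : φ s ∉ q := fun h => by
    rw [ha] at h
    exact hs (hq.mem_of_pow_mem p ((Submodule.add_mem_iff_left _ (Ideal.mul_mem_right _ _ hp)).1 h))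
  refine ⟨b, sat_of_mul h3 ⟨s, hs, ?_⟩, hb⟩
  rw [h2, show s * (y - a * F ^ p) = s * y - a * F ^ r * (s * F) by rw [hr]; ring]
  exact sub_mem (Ideal.mul_mem_left _ _ hy)
    (Ideal.mul_mem_left _ _ (Ideal.pow_le_pow_right e.le_succ hF))

end

/-- Frobenius lifts. -/
lemma exists_frob (p : ℕ) [hpp : Fact p.Prime] {V : Type*} [CommRing V] [IsDomain V]
    [IsDiscreteValuationRing V] [IsAdicComplete (maximalIdeal V) V]
    (hV : maximalIdeal V = Ideal.span {(p : V)}) (n : ℕ) :
    ∃ (ψ : V →+* V) (φ : PS n V →+* PS n V), (∀ x, ∃ y, ψ x = x ^ p + p * y) ∧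
      (∀ x, ∃ y, φ x = x ^ p + p * y) ∧ ∀ x, constantCoeff (φ x) = ψ (constantCoeff x) := by
  have hpV : (p : V) ∈ maximalIdeal V := hV ▸ Ideal.mem_span_singleton_self _
  have : CharP (V ⧸ maximalIdeal V) p := (CharP.charP_iff_prime_eq_zero hpp.out).2 (by
    rw [← map_natCast (Ideal.Quotient.mk (maximalIdeal V)), Ideal.Quotient.eq_zero_iff_mem]
    exact hpV)
  obtain ⟨ψ, hψ⟩ := cohen_lift p hV hpV (maximalIdeal V) le_rfl
    ((frobenius _ p).comp (Ideal.Quotient.mk (maximalIdeal V)))
  have hψ' : ∀ x, ∃ y, ψ x = x ^ p + p * y := fun x => by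
    have h1 := DFunLike.congr_fun hψ x
    rw [RingHom.comp_apply, RingHom.comp_apply, frobenius_def, ← map_pow, Ideal.Quotient.eq, hV,
      Ideal.mem_span_singleton] at h1
    obtain ⟨y, hy⟩ := h1
    exact ⟨y, by rw [← hy]; ring⟩
  have hX : ∀ i, (X i : PS n V) ∈ maximalIdeal (PS n V) := fun i hu => by
    have := hu.map constantCoeff
    rw [constantCoeff_X] at this
    exact not_isUnit_zero this
  obtain ⟨φ0, h0⟩ := exists_evalPS (K := V) (maximalIdeal (PS n V)) (fun i => X i ^ p) fun i =>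
    Ideal.le_radical (Ideal.pow_mem_of_mem _ (hX i) p hpp.out.pos)
  let φ : PS n V →+* PS n V := φ0.toRingHom.comp (MvPowerSeries.map ψ)
  have φC : ∀ c, φ (C c) = C (ψ c) := fun c => by
    change φ0 (MvPowerSeries.map ψ (C c)) = _
    rw [map_C]
    exact φ0.commutes (ψ c)
  have φX : ∀ i, φ (X i) = X i ^ p := fun i => by
    change φ0 (MvPowerSeries.map ψ (X i)) = _
    rw [map_X, h0]
  clear_value φ
  refine ⟨ψ, φ, hψ', fun x => ?_, fun x => ?_⟩
  · have hpP : (p : PS n V) ∈ maximalIdeal (PS n V) := fun hu => hpV (by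
      have := hu.map constantCoeff
      rwa [map_natCast] at this)
    let J : Ideal (PS n V) := Ideal.span {(p : PS n V)}
    have hJ : J ≤ maximalIdeal _ := (Ideal.span_singleton_le_iff_mem _).2 hpP
    have hJ0 : (p : PS n V ⧸ J) = 0 := by
      rw [← map_natCast (Ideal.Quotient.mk J), Ideal.Quotient.eq_zero_iff_mem]
      exact Ideal.mem_span_singleton_self _
    have : Nontrivial (PS n V ⧸ J) := Ideal.Quotient.nontrivial_iff.2 fun h =>
      (maximalIdeal.isMaximal _).ne_top (top_le_iff.1 (h ▸ hJ))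
    have : IsLocalRing (PS n V ⧸ J) :=
      IsLocalRing.of_surjective' (Ideal.Quotient.mk J) Ideal.Quotient.mk_surjective
    have : CharP (PS n V ⧸ J) p := (CharP.charP_iff_prime_eq_zero hpp.out).2 hJ0
    have : IsLocalHom (Ideal.Quotient.mk J) :=
      IsLocalHom.of_surjective _ Ideal.Quotient.mk_surjective
    have h1 := DFunLike.congr_fun (ringHom_PS_ext (maximalIdeal (PS n V ⧸ J))
      ((Ideal.Quotient.mk J).comp φ) ((frobenius _ p).comp (Ideal.Quotient.mk J))
      (fun c => ?_) (fun i => ?_) fun i => ?_) x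
    · rw [RingHom.comp_apply, RingHom.comp_apply, frobenius_def, ← map_pow, Ideal.Quotient.eq,
        Ideal.mem_span_singleton] at h1
      obtain ⟨y, hy⟩ := h1
      exact ⟨y, by rw [← hy]; ring⟩
    · obtain ⟨y, hy⟩ := hψ' c
      rw [RingHom.comp_apply, RingHom.comp_apply, frobenius_def, φC, hy]
      simp only [map_add, map_mul, map_pow, map_natCast, hJ0, zero_mul, add_zero]
    · rw [RingHom.comp_apply, RingHom.comp_apply, frobenius_def, φX, map_pow]
    · rw [RingHom.comp_apply, φX]
      exact map_nonunit _ _ (Ideal.pow_mem_of_mem _ (hX i) p hpp.out.pos)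
  · refine DFunLike.congr_fun (ringHom_PS_ext (maximalIdeal V) (constantCoeff.comp φ)
      (ψ.comp constantCoeff) (fun c => ?_) (fun i => ?_) fun i => ?_) x
    · rw [RingHom.comp_apply, RingHom.comp_apply, φC, constantCoeff_C, constantCoeff_C]
    · rw [RingHom.comp_apply, RingHom.comp_apply, φX, map_pow, constantCoeff_X, map_zero,
        zero_pow hpp.out.ne_zero]
    · rw [RingHom.comp_apply, φX, map_pow, constantCoeff_X, zero_pow hpp.out.ne_zero]
      exact zero_mem _

lemma card_sharp {h : ℕ} (μ : Fin (h + 1) →₀ ℕ) (N : ℕ) :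
    ∑ j ∈ Finset.range (N + 1), ((degL (h + 1) j).filter fun ν => ¬μ ≤ ν).card ≤
      (N + h).choose h * ∑ i, μ i := by
  classical
  rw [← Finset.card_biUnion]
  · set T := (Finset.range (N + 1)).biUnion (degL h) with hT
    have cT : T.card ≤ (N + h).choose h := Finset.card_biUnion_le.trans (sum_card_degL h N).le
    calc _ ≤ (Finset.univ.biUnion fun i : Fin (h + 1) => (Finset.range (μ i) ×ˢ T).image
            fun z => Finsupp.equivFunOnFinite.symm (Fin.insertNth i z.1 z.2)).card := by
          refine Finset.card_le_card fun ν hν => ?_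
          simp only [Finset.mem_biUnion, Finset.mem_filter, mem_degL, Finset.mem_range,
            Finsupp.le_def, not_forall, not_le] at hν
          obtain ⟨j, hj, hs, i, hi⟩ := hν
          refine Finset.mem_biUnion.2 ⟨i, Finset.mem_univ _, Finset.mem_image.2
            ⟨(ν i, Finsupp.equivFunOnFinite.symm (Fin.removeNth i ν)), Finset.mem_product.2
              ⟨Finset.mem_range.2 hi, Finset.mem_biUnion.2 ⟨j - ν i, Finset.mem_range.2 (by omega),
                mem_degL.2 ?_⟩⟩, ?_⟩⟩
          · rw [Fin.sum_univ_succAbove _ i] at hs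
            change ∑ l, ν (i.succAbove l) = _
            omega
          · rw [Equiv.symm_apply_eq]
            exact Fin.insertNth_self_removeNth i ν
      _ ≤ ∑ i : Fin (h + 1), (N + h).choose h * μ i := by
          refine Finset.card_biUnion_le.trans (Finset.sum_le_sum fun i _ => ?_)
          refine Finset.card_image_le.trans ?_
          rw [Finset.card_product, Finset.card_range, mul_comm]
          exact Nat.mul_le_mul_right _ cT
      _ = _ := by rw [Finset.mul_sum]
  · intro i _ j _ hij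
    refine Finset.disjoint_left.mpr fun ν h1 h2 => hij ?_
    rw [← mem_degL.mp (Finset.mem_filter.mp h1).1, ← mem_degL.mp (Finset.mem_filter.mp h2).1]

open Finset in
lemma len_sharp {A : Type*} [CommRing A] [IsLocalRing A] {h : ℕ} (y : Fin (h + 1) → A)
    (hy : maximalIdeal A = Ideal.span (Set.range y)) (γ : A) (s : ℕ)
    (hs0 : γ ∈ maximalIdeal A ^ s) (hs1 : γ ∉ maximalIdeal A ^ (s + 1)) (N : ℕ) :
    Module.length A (A ⧸ (Ideal.span {γ} ⊔ maximalIdeal A ^ (N + 1))) ≤
      ((N + h).choose h * s : ℕ) := by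
  classical
  obtain ⟨c, hc⟩ := (Submodule.mem_span_image_finset_iff_exists_fun' A).mp
    (pow_le_span_monL y s (hy ▸ hs0))
  have hmem : ∀ ν : Fin (h + 1) →₀ ℕ, monL y ν ∈ maximalIdeal A ^ (∑ i, ν i) := fun ν =>
    hy ▸ monL_mem y ν
  have hne : ((degL (h + 1) s).filter fun ν => c ν ∉ maximalIdeal A).Nonempty := by
    by_contra hcon
    apply hs1
    rw [← hc, pow_succ']
    refine Ideal.sum_mem _ fun ν hν => Ideal.mul_mem_mul ?_ (mem_degL.mp hν ▸ hmem ν)
    by_contra hh
    exact hcon ⟨ν, mem_filter.mpr ⟨hν, hh⟩⟩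
  let o : MonomialOrder (Fin (h + 1)) := MonomialOrder.lex
  obtain ⟨μ, hμ, hmax⟩ := exists_max_image _ (fun ν => o.toSyn ν) hne
  obtain ⟨hμs, hμu⟩ := mem_filter.mp hμ
  have hu : IsUnit (c μ) := by simpa using hμu
  refine le_trans (len_filtration y hy (Ideal.span {γ})
    (fun j => (degL (h + 1) j).filter fun ν => ¬μ ≤ ν) (fun j => filter_subset _ _) (fun j => ?_)
    (N + 1)) ?_
  · set J := Ideal.span {γ} ⊔ maximalIdeal A ^ (j + 1) ⊔
      Ideal.span (monL y '' ↑((degL (h + 1) j).filter fun ν => ¬μ ≤ ν)) with hJ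
    have key : ∀ t : o.syn, ∀ ν ∈ degL (h + 1) j, o.toSyn ν = t → monL y ν ∈ J := by
      intro t
      induction t using WellFoundedLT.induction with
      | _ t ih =>
      intro ν hν ht
      by_cases hle : μ ≤ ν
      swap
      · exact Submodule.mem_sup_right (Ideal.subset_span ⟨ν, mem_filter.mpr ⟨hν, hle⟩, rfl⟩)
      obtain ⟨κ, rfl⟩ := exists_add_of_le hle
      have hdeg : ∀ ν' ∈ degL (h + 1) s, ∑ i, (ν' + κ) i = j := fun ν' hν' => by
        have h1 := mem_degL.mp hν
        simp only [Finsupp.add_apply, sum_add_distrib, mem_degL.mp hν', mem_degL.mp hμs] at h1 ⊢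
        exact h1
      rw [← Ideal.unit_mul_mem_iff_mem _ hu]
      have e : c μ * monL y (μ + κ) =
          monL y κ * γ - ∑ ν' ∈ (degL (h + 1) s).erase μ, c ν' * monL y (ν' + κ) := by
        rw [← hc, ← add_sum_erase _ _ hμs, mul_add, mul_sum]
        simp only [monL_add, smul_eq_mul]
        rw [sum_congr rfl fun ν' _ => show monL y κ * (c ν' * monL y ν') =
          c ν' * (monL y ν' * monL y κ) by ring]
        ring
      rw [e]
      refine J.sub_mem (Submodule.mem_sup_left (Submodule.mem_sup_left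
        (Ideal.mul_mem_left _ _ (Ideal.mem_span_singleton_self γ)))) (J.sum_mem fun ν' hν' => ?_)
      have hν's := mem_of_mem_erase hν'
      by_cases hcm : c ν' ∈ maximalIdeal A
      · refine Submodule.mem_sup_left (Submodule.mem_sup_right ?_)
        rw [pow_succ']
        exact Ideal.mul_mem_mul hcm (hdeg ν' hν's ▸ hmem _)
      · refine J.mul_mem_left _ (ih _ ?_ _ (mem_degL.mpr (hdeg ν' hν's)) rfl)
        rw [← ht, map_add, map_add]
        refine add_lt_add_of_lt_of_le (lt_of_le_of_ne (hmax ν' (mem_filter.mpr ⟨hν's, hcm⟩))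
          fun heq => ne_of_mem_erase hν' (o.toSyn.injective heq)) le_rfl
    refine (hy ▸ pow_le_span_monL y j : maximalIdeal A ^ j ≤ _).trans (Ideal.span_le.mpr ?_)
    rintro _ ⟨ν, hν, rfl⟩
    exact key _ ν hν rfl
  · have := card_sharp μ N
    rw [mem_degL.mp hμs] at this
    exact_mod_cast this

end ZNX

theorem zariski_nagata (p : ℕ) [Fact p.Prime] {V : Type*} [CommRing V] [IsDomain V]
    [IsDiscreteValuationRing V] [IsAdicComplete (maximalIdeal V) V]
    (hV : maximalIdeal V = Ideal.span {(p : V)}) {n : ℕ} (q : Ideal (PS n V)) [q.IsPrime]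
    (hp : (p : PS n V) ∈ q) (e : ℕ) (F s : PS n V) (hs : s ∉ q) (h : s * F ∈ q ^ e) :
    F ∈ maximalIdeal (PS n V) ^ e := by
  classical
  have hpp : p.Prime := Fact.out
  have hp0 : (p : V) ≠ 0 := fun e => IsDiscreteValuationRing.not_a_field V (by
    rw [hV, e, Ideal.span_singleton_zero])
  have hp0' : (p : PS n V) ≠ 0 := fun e => hp0 (by
    have := congrArg constantCoeff e
    rwa [map_natCast, map_zero] at this)
  have hqm : q ≤ maximalIdeal _ := IsLocalRing.le_maximalIdeal Ideal.IsPrime.ne_top'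
  obtain ⟨ψ, φ, hψ, hφ, hc⟩ := ZNX.exists_frob p hV n
  have dv : ∀ c : V, (p : V) ∣ c ↔ c ∈ maximalIdeal V := fun c => by
    rw [hV, Ideal.mem_span_singleton]
  have const : ∀ e, ∀ G ∈ sat q (q ^ e), (p : V) ^ e ∣ constantCoeff G := by
    intro e
    induction e with
    | zero => intro G _; simp
    | succ e ih =>
      intro G hG
      obtain ⟨y, hy, h1⟩ := ZNX.delta q hpp hp0' hp φ hφ e hG
      obtain ⟨c, hc'⟩ := ih G (ZNX.sat_anti q e.le_succ hG)
      obtain ⟨z, hz⟩ := ih y hy
      have h2 : (p : V) ∣ constantCoeff G := by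
        obtain ⟨t, ht, h2⟩ := hG
        have h3 : G ∈ q := (Ideal.IsPrime.mem_or_mem ‹_›
          (Ideal.pow_le_self e.succ_ne_zero h2)).resolve_left ht
        exact (dv _).2 fun hu => hqm h3 (isUnit_iff_constantCoeff.2 hu)
      obtain ⟨w, hw⟩ := h2
      obtain ⟨r, hr⟩ := Nat.exists_eq_add_of_le' hpp.two_le
      have h3 := congrArg constantCoeff h1
      rw [hc, map_add, map_pow, map_mul, map_natCast, hz] at h3
      have h4 : constantCoeff G ^ p = p ^ e * (p * (constantCoeff G ^ r * c * w)) := by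
        conv_lhs => rw [hr, pow_add, sq]
        nth_rewrite 2 [hc']
        nth_rewrite 2 [hw]
        ring
      rw [h4, hc', map_mul, map_pow, map_natCast] at h3
      have h5 : ψ c = p * (constantCoeff G ^ r * c * w + z) := by
        refine mul_left_cancel₀ (pow_ne_zero e hp0) ?_
        rw [h3, hc']
        ring
      obtain ⟨u, hu⟩ := hψ c
      have h6 : c ^ p ∈ maximalIdeal V := (dv _).1
        ⟨constantCoeff G ^ r * c * w + z - u, by rw [mul_sub, ← h5, hu]; ring⟩
      obtain ⟨c', rfl⟩ := (dv _).2 (Ideal.IsPrime.mem_of_pow_mem inferInstance p h6)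
      exact ⟨c', by rw [hc']; ring⟩
  have hX : ∀ {K : Type _} [CommRing K] [IsLocalRing K] (i : Fin n),
      (X i : PS n K) ∈ maximalIdeal (PS n K) := fun i hu => by
    have := hu.map constantCoeff
    rw [constantCoeff_X] at this
    exact not_isUnit_zero this
  obtain ⟨τ, hτ⟩ := exists_evalPS (K := V) (maximalIdeal (PS n (PS n V)))
    (fun i => C (X i) + X i) fun i => Ideal.le_radical fun hu => hX i (by
      have := hu.map constantCoeff
      rwa [map_add, constantCoeff_C, constantCoeff_X, add_zero] at this)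
  have τC : ∀ c, τ (C c) = C (C c) := fun c => (τ.commutes c).trans (by
    rw [MvPowerSeries.algebraMap_apply, MvPowerSeries.algebraMap_apply]; rfl)
  have t1 : ∀ x, constantCoeff (τ.toRingHom x) = x := fun x =>
    (DFunLike.congr_fun (ringHom_PS_ext (maximalIdeal (PS n V)) (RingHom.id _)
      (constantCoeff.comp τ.toRingHom) (fun c => by
        change _ = constantCoeff (τ _)
        rw [τC, constantCoeff_C, RingHom.id_apply]) (fun i => by
        change _ = constantCoeff (τ _)
        rw [hτ, map_add, constantCoeff_C, constantCoeff_X, add_zero, RingHom.id_apply]) hX) x).symm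
  have t2 : ∀ x, MvPowerSeries.map constantCoeff (τ.toRingHom x) = x := fun x =>
    (DFunLike.congr_fun (ringHom_PS_ext (maximalIdeal (PS n V)) (RingHom.id _)
      ((MvPowerSeries.map constantCoeff).comp τ.toRingHom) (fun c => by
        change _ = MvPowerSeries.map constantCoeff (τ _)
        rw [τC, map_C, constantCoeff_C, RingHom.id_apply]) (fun i => by
        change _ = MvPowerSeries.map constantCoeff (τ _)
        rw [hτ, map_add, map_C, constantCoeff_X, map_zero, zero_add, map_X, RingHom.id_apply])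
      hX) x).symm
  have hco : ∀ α : Fin n →₀ ℕ, (p : V) ^ (e - α.degree) ∣ coeff α F := fun α => by
    have := const _ _ (ZNX.hasse q τ.toRingHom t1 e ⟨s, hs, h⟩ α)
    rwa [← coeff_map, t2] at this
  have hx : xI n V ≤ maximalIdeal _ := Ideal.span_le.2 (Set.range_subset_iff.2 hX)
  have h1 : F - (truncTotal e F : PS n V) ∈ xI n V ^ e :=
    (mem_xI_pow_iff _ _).2 fun m hm => by
      rw [map_sub, MvPolynomial.coeff_coe, coeff_truncTotal _ hm, sub_self]
  rw [← sub_add_cancel F (truncTotal e F : PS n V)]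
  refine add_mem (Ideal.pow_right_mono hx e h1) ?_
  rw [(truncTotal e F).as_sum, ← MvPolynomial.coeToMvPowerSeries.ringHom_apply, map_sum]
  refine Ideal.sum_mem _ fun α _ => ?_
  rw [MvPolynomial.coeToMvPowerSeries.ringHom_apply, MvPolynomial.coe_monomial]
  by_cases hα : α.degree < e
  · obtain ⟨c, hc⟩ := hco α
    have e1 : monomial α ((p : V) ^ (e - α.degree) * c) =
        (p : PS n V) ^ (e - α.degree) * monomial α c := by
      rw [← map_natCast (C : V →+* PS n V), ← map_pow, ← smul_eq_C_mul, ← smul_eq_mul, map_smul]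
    rw [coeff_truncTotal _ hα, hc, e1]
    refine Ideal.pow_le_pow_right (show e ≤ e - α.degree + α.degree by omega) ?_
    rw [pow_add]
    refine Ideal.mul_mem_mul (Ideal.pow_mem_pow (hqm hp) _) (Ideal.pow_right_mono hx _ ?_)
    refine (mem_xI_pow_iff _ _).2 fun m hm => coeff_monomial_ne ?_ _
    rintro rfl
    omega
  · refine Ideal.pow_right_mono hx _ ((mem_xI_pow_iff _ _).2 fun m hm => coeff_monomial_ne ?_ _)
    rintro rfl
    omega

theorem eU_hyp {A : Type*} [CommRing A] [IsLocalRing A] [IsNoetherianRing A] {h : ℕ}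
    (y : Fin (h + 1) → A) (hy : maximalIdeal A = Ideal.span (Set.range y)) (F : A) (e : ℕ)
    (hF : F ∉ maximalIdeal A ^ (e + 1)) :
    eU (maximalIdeal A) (A ⧸ Ideal.span {F}) h ≤ e := by
  classical
  have hex : ∃ n, F ∉ maximalIdeal A ^ (n + 1) := ⟨e, hF⟩
  have hs0 : F ∈ maximalIdeal A ^ Nat.find hex := by
    rcases hk : Nat.find hex with _ | k
    · simp
    · exact not_not.1 (Nat.find_min hex (by omega))
  have hle := Nat.find_min' hex hF
  refine le_trans (um_mono (g := fun j => ((j + h).choose h : ℕ) * (e : ℕ∞))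
    (Filter.Eventually.of_forall fun j => ?_)) (by exact_mod_cast um_choose (e : ℕ∞))
  rw [lm_quot]
  refine (len_quot_anti (sup_le_sup_left (Ideal.pow_le_pow_right j.le_succ) _)).trans
    ((ZNX.len_sharp y hy F _ hs0 (Nat.find_spec hex) j).trans ?_)
  exact_mod_cast Nat.mul_le_mul_left _ hle

end Vale.Agent.P202
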