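import Vale.Agent.P202M.Mod
import Vale.Agent.P202M.Reg
import Vale.Agent.P202M.ZN

/-! Existence of multiplicities and localization. -/

open IsLocalRing Function MvPowerSeries
open scoped ENNReal

namespace Vale.Agent.P202

universe u v

namespace DevX

lemma ann_loc {A N : Type*} [CommRing A] [AddCommGroup N] [Module A N] (S : Submonoid A)
    {K : Ideal A} (h : K ≤ Module.annihilator A N) : K.map (algebraMap A (Localization S)) ≤
      Module.annihilator (Localization S) (LocalizedModule S N) := by
  refine Ideal.map_le_iff_le_comap.2 fun a ha => Module.mem_annihilator.2 fun m => ?_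
  induction m using LocalizedModule.induction_on with
  | h n s => rw [algebraMap_smul, LocalizedModule.smul'_mk, Module.mem_annihilator.1 (h ha),
      LocalizedModule.zero_mk]

lemma lm_loc_le {P S : Type*} [CommRing P] [CommRing S] [Algebra P S] (Q : Ideal S) [Q.IsPrime]
    (j : ℕ) : lm (maximalIdeal (Localization.AtPrime Q) ^ j) (Localization.AtPrime Q) ≤
      lm (maximalIdeal (Localization.AtPrime (Q.comap (algebraMap P S))) ^ j)
        (LocalizedModule (Q.comap (algebraMap P S)).primeCompl S) := by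
  set q := Q.comap (algebraMap P S) with hq
  let φ := Localization.localRingHom q Q (algebraMap P S) rfl
  let _ := φ.toAlgebra
  have : IsLocalHom φ := Localization.isLocalHom_localRingHom _ _ _ _
  have : IsScalarTower P (Localization.AtPrime q) (Localization.AtPrime Q) :=
    IsScalarTower.of_algebraMap_eq fun x => by
      rw [IsScalarTower.algebraMap_apply P S]
      exact (Localization.localRingHom_to_map q Q _ rfl x).symm
  have hun : ∀ x : q.primeCompl, IsUnit (algebraMap P
      (Module.End P (Localization.AtPrime Q)) x) := fun x => by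
    rw [Module.End.isUnit_iff]
    have hu : IsUnit (algebraMap P (Localization.AtPrime Q) x) := by
      rw [IsScalarTower.algebraMap_apply P S]
      exact IsLocalization.map_units (Localization.AtPrime Q)
        (⟨algebraMap P S x, x.2⟩ : Q.primeCompl)
    have e : ⇑(algebraMap P (Module.End P (Localization.AtPrime Q)) x) =
        fun z => algebraMap P (Localization.AtPrime Q) x • z := funext fun z => by
      simp [Algebra.smul_def]
    exact e ▸ hu.smul_bijective
  let g0 : LocalizedModule q.primeCompl S →ₗ[P] Localization.AtPrime Q :=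
    IsLocalizedModule.lift q.primeCompl (LocalizedModule.mkLinearMap q.primeCompl S)
      (IsScalarTower.toAlgHom P S (Localization.AtPrime Q)).toLinearMap hun
  let g := g0.extendScalarsOfIsLocalization q.primeCompl (Localization.AtPrime q)
  have hg : ∀ s : S, g (LocalizedModule.mkLinearMap q.primeCompl S s) =
      algebraMap S (Localization.AtPrime Q) s := fun s =>
    IsLocalizedModule.lift_apply q.primeCompl _ _ hun s
  let Φ : Ideal (Localization.AtPrime Q) →
      Submodule (Localization.AtPrime q) (LocalizedModule q.primeCompl S) := fun J =>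
    (J.restrictScalars (Localization.AtPrime q)).comap g
  have hΦ : StrictMono Φ := fun J J' hJ => by
    refine lt_of_le_of_ne (fun z hz => hJ.le hz) fun heq => hJ.not_ge fun z hz => ?_
    obtain ⟨s, t, rfl⟩ := IsLocalization.exists_mk'_eq Q.primeCompl z
    rw [IsLocalization.mk'_mem_iff, ← hg] at hz ⊢
    have : LocalizedModule.mkLinearMap q.primeCompl S s ∈ Φ J' := hz
    rwa [← heq] at this
  rw [lm_self, ln, Module.length_quotient]
  refine (Order.coheight_le_coheight_apply_of_strictMono Φ hΦ _).trans ?_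
  rw [← Module.length_quotient]
  refine len_quot_anti (Submodule.smul_le.mpr fun a ha z _ => ?_)
  show g (a • z) ∈ maximalIdeal (Localization.AtPrime Q) ^ j
  rw [map_smul, Algebra.smul_def]
  refine Ideal.mul_mem_right _ _ (Ideal.pow_right_mono (IsLocalRing.map_maximalIdeal_le φ) _ ?_)
  rw [← Ideal.map_pow]
  exact Ideal.mem_map_of_mem _ ha

variable {p : ℕ} {V : Type*} [CommRing V] [IsDomain V] [IsDiscreteValuationRing V]
  (hV : maximalIdeal V = Ideal.span {(p : V)}) {D : ℕ}
include hV

lemma le_ln (j : ℕ) : (j : ℕ∞) ≤ ln (PS D V) (maximalIdeal (PS D V) ^ j ⊔ xI D V) := by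
  rw [ln, Module.length_quotient]
  induction j with
  | zero => exact zero_le
  | succ j ih =>
    have hp : (p : V) ∈ maximalIdeal V := hV ▸ Ideal.mem_span_singleton_self _
    have p0 : (p : V) ≠ 0 := fun h => IsDiscreteValuationRing.not_a_field V (by simp [hV, h])
    refine le_trans ?_ (Order.coheight_add_one_le (lt_of_le_of_ne
      (sup_le_sup_right (Ideal.pow_le_pow_right j.le_succ) _) fun e => ?_))
    · rw [Nat.cast_succ]
      exact add_le_add_left ih _
    have h1 : (p : PS D V) ^ j ∈ maximalIdeal (PS D V) ^ (j + 1) ⊔ xI D V :=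
      e.ge (Ideal.mem_sup_left (Ideal.pow_mem_pow (max_PSV (V := V) D ▸ Ideal.mem_sup_left
        (map_natCast (C : V →+* PS D V) p ▸ Ideal.mem_map_of_mem _ hp)) j))
    have hx : ∀ I : Ideal V, xI D V ≤ I.comap constantCoeff := fun I f hf => by
      rw [Ideal.mem_comap, (mem_xI_iff f).1 hf]; exact zero_mem _
    have h2 : maximalIdeal (PS D V) ≤ (maximalIdeal V).comap constantCoeff := by
      rw [max_PSV]
      exact sup_le (Ideal.map_le_iff_le_comap.2 fun a ha => by simpa using ha) (hx _)
    have h3 := sup_le ((Ideal.pow_right_mono h2 (j + 1)).trans (Ideal.le_comap_pow _ _)) (hx _) h1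
    rw [Ideal.mem_comap, map_pow, map_natCast, hV, Ideal.span_singleton_pow,
      Ideal.mem_span_singleton, pow_succ] at h3
    exact hp (isUnit_of_dvd_one ((mul_dvd_mul_iff_left (pow_ne_zero j p0)).1
      (h3.trans (mul_one _).symm.dvd)))

variable [Fact p.Prime] [IsAdicComplete (maximalIdeal V) V] [Infinite (ResidueField V)]

lemma prime_case {N : Type*} [AddCommGroup N] [Module (PS D V) N] [Module.Finite (PS D V) N]
    (pr : Ideal (PS D V)) [pr.IsPrime] (e : N ≃ₗ[PS D V] PS D V ⧸ pr) (h0 : pr ≠ ⊥)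
    (hpr : Prim (maximalIdeal _) (pr ⊔ xI D V)) :
    eU (xI D V) N D ≤ eL (xI D V) N D ∧ ∀ (q : Ideal (PS D V)) [q.IsPrime], (p : PS D V) ∈ q →
      ∀ h f : ℕ, h + f = D → (f : WithBot ℕ∞) ≤ ringKrullDim (PS D V ⧸ q) →
      eU (maximalIdeal (Localization.AtPrime q)) (LocalizedModule q.primeCompl N) h ≤
        eL (xI D V) N D := by
  have hann : pr ≤ Module.annihilator (PS D V) N := by
    rw [e.annihilator_eq, Ideal.annihilator_quotient]
  rcases lt_or_ge (ringKrullDim (PS D V ⧸ pr)) D with hd | hd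
  · refine ⟨(eU_eq_zero pr _ hann hpr hd).trans_le zero_le, fun q _ _ h f hf hq => ?_⟩
    refine (eU_eq_zero _ _ (ann_loc _ hann) ⟨1, by simp⟩ ?_).trans_le zero_le
    by_contra hc
    have := ((add_le_add (not_lt.1 hc) hq).trans (dim_loc_add_le pr q)).trans_lt hd
    rw [← Nat.cast_add, hf] at this
    exact this.false
  obtain ⟨F, rfl⟩ := prin_PSV D pr h0 hd
  have hcm : CM ((maximalIdeal (PS D V)).map (Ideal.Quotient.mk (Ideal.span {F}))) D :=
    CM.of_surj (r := 1) (add_comm D 1 ▸ cm_PSV D) (fun _ => F) _ Ideal.Quotient.mk_surjective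
      (by simp)
  have hz : (xI D V).map (algebraMap _ (PS D V ⧸ Ideal.span {F})) =
      Ideal.span (Set.range fun i => Ideal.Quotient.mk (Ideal.span {F}) (X i)) := by
    rw [Ideal.map_span, ← Set.range_comp]; rfl
  have h1 : (lm (xI D V) (PS D V ⧸ Ideal.span {F}) : ℝ≥0∞) ≤ eL (xI D V) N D := by
    rw [eL_congr _ e, (eU_surj (B := PS D V ⧸ Ideal.span {F}) Ideal.Quotient.mk_surjective _).2,
      lm_surj (B := PS D V ⧸ Ideal.span {F}) Ideal.Quotient.mk_surjective, lm_self, hz]
    refine hcm.le_eL (Fintype.card_fin D) _ (hpr.imp fun a ha => ?_)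
    rw [← Ideal.map_pow, ← hz]
    refine (Ideal.map_mono ha).trans_eq ?_
    rw [Ideal.map_sup, Ideal.map_quotient_self, bot_sup_eq]
    rfl
  refine ⟨((eU_congr _ e).trans_le (eU_sop _)).trans h1, fun q _ hq h f hf hd' => ?_⟩
  obtain ⟨n, hn⟩ := ENat.ne_top_iff_exists.1 (lm_ne_top (M := PS D V ⧸ Ideal.span {F})
    (I := xI D V) (by rwa [Ideal.annihilator_quotient, sup_comm]))
  have hF : F ∉ maximalIdeal (PS D V) ^ (n + 1) := fun hF => by
    have := (le_ln hV (n + 1)).trans (len_quot_anti
      (sup_le_sup_right ((Ideal.span_singleton_le_iff_mem _).2 hF) (xI D V)))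
    rw [lm_quot, ln] at hn
    rw [← hn, Nat.cast_le] at this
    omega
  obtain ⟨v, hv, hv'⟩ := reg_PSV D (h + 1) f (by omega) q hd'
  have hy : maximalIdeal (Localization.AtPrime q) =
      Ideal.span (Set.range fun i => algebraMap _ (Localization.AtPrime q) (v i)) := by
    rw [← Localization.AtPrime.map_eq_maximalIdeal, Set.range_comp' _ v, ← Ideal.map_span]
    exact le_antisymm (Ideal.map_le_iff_le_comap.2 fun x hx =>
      (IsLocalization.algebraMap_mem_map_algebraMap_iff q.primeCompl _ _ _).2 (hv' hx))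
      (Ideal.map_mono (Ideal.span_le.2 (Set.range_subset_iff.2 hv)))
  have h2 := eU_hyp _ hy (algebraMap _ _ F) n fun hF' => by
    rw [← Localization.AtPrime.map_eq_maximalIdeal, ← Ideal.map_pow,
      IsLocalization.algebraMap_mem_map_algebraMap_iff q.primeCompl] at hF'
    obtain ⟨s, hs, hs'⟩ := hF'
    exact hF (zariski_nagata p hV q hq _ F s hs hs')
  have h3 : Submodule.span (PS D V) {e.symm 1} = ⊤ := by
    refine eq_top_iff.2 fun x _ => ?_
    obtain ⟨a, ha⟩ := Ideal.Quotient.mk_surjective (e x)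
    refine Submodule.mem_span_singleton.2 ⟨a, ?_⟩
    rw [← map_smul, LinearEquiv.symm_apply_eq, ← ha, ← Algebra.algebraMap_eq_smul_one]
    rfl
  have h4 := eU_gen (d := h) (fun _ : Fin 1 => LocalizedModule.mkLinearMap q.primeCompl N (e.symm 1))
    (by
      rw [Set.range_const, ← Set.image_singleton]
      exact span_eq_top_of_isLocalizedModule _ q.primeCompl _ h3) _
    (maximalIdeal (Localization.AtPrime q)) (ann_loc _ hann)
  rw [Nat.cast_one, one_mul, Ideal.map_span, Set.image_singleton] at h4
  refine (h4.trans h2).trans (le_trans (le_of_eq ?_) h1)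
  rw [← hn]; rfl

lemma module_case (K : Ideal (PS D V)) (h0 : K ≠ ⊥) (hK : Prim (maximalIdeal _) (K ⊔ xI D V))
    (N : Type*) [AddCommGroup N] [Module (PS D V) N] [hN : Module.Finite (PS D V) N] :
    K ≤ Module.annihilator (PS D V) N →
    eU (xI D V) N D ≤ eL (xI D V) N D ∧ ∀ (q : Ideal (PS D V)) [q.IsPrime], (p : PS D V) ∈ q →
      ∀ h f : ℕ, h + f = D → (f : WithBot ℕ∞) ≤ ringKrullDim (PS D V ⧸ q) →
      eU (maximalIdeal (Localization.AtPrime q)) (LocalizedModule q.primeCompl N) h ≤
        eL (xI D V) N D := by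
  induction hN using IsNoetherianRing.induction_on_isQuotientEquivQuotientPrime with
  | subsingleton N =>
    exact fun _ => ⟨(eU_subsingleton _).trans_le zero_le,
      fun q _ _ h f _ _ => (eU_subsingleton _).trans_le zero_le⟩
  | quotient N pr e =>
    intro h
    rw [e.annihilator_eq, Ideal.annihilator_quotient] at h
    exact prime_case hV pr.1 e (ne_bot_of_le_ne_bot h0 h) (hK.mono (sup_le_sup_right h _))
  | exact N₁ N₂ N₃ f g hf hg hfg h₁ h₃ =>
    intro h
    obtain ⟨a1, a2⟩ := h₁ (h.trans (f.annihilator_le_of_injective hf))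
    obtain ⟨b1, b2⟩ := h₃ (h.trans (g.annihilator_le_of_surjective hg))
    have c := eL_add_le (d := D) (xI D V) f g hf hg hfg
    refine ⟨((eU_le_of_exact _ f g hg hfg).trans (add_le_add a1 b1)).trans c,
      fun q _ hq h f' hf' hd => le_trans ?_ ((add_le_add (a2 q hq h f' hf' hd)
        (b2 q hq h f' hf' hd)).trans c)⟩
    exact eU_le_of_exact _ (LocalizedModule.map q.primeCompl f) (LocalizedModule.map q.primeCompl g)
      (LocalizedModule.map_surjective _ _ hg) (LocalizedModule.map_exact _ f g hfg)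

end DevX

open DevX in
theorem devissage (p : ℕ) [Fact p.Prime] {V : Type*} [CommRing V] [IsDomain V]
    [IsDiscreteValuationRing V] [IsAdicComplete (maximalIdeal V) V] [Infinite (ResidueField V)]
    (hV : maximalIdeal V = Ideal.span {(p : V)})
    {S : Type*} [CommRing S] [IsLocalRing S] [IsNoetherianRing S]
    [IsAdicComplete (maximalIdeal S) S] [Algebra V S] [IsLocalHom (algebraMap V S)]
    (hres : ∀ b : S, ∃ v : V, b - algebraMap V S v ∈ maximalIdeal S)
    (D : ℕ) (hD : ringKrullDim S ≤ D) :
    eU (maximalIdeal S) S D ≤ eL (maximalIdeal S) S D ∧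
      ∀ (Q : Ideal S) [Q.IsPrime], (p : S) ∈ Q → ∀ h f : ℕ, h + f = D →
        (f : WithBot ℕ∞) ≤ ringKrullDim (S ⧸ Q) →
        eU (maximalIdeal (Localization.AtPrime Q)) (Localization.AtPrime Q) h ≤
          eL (maximalIdeal S) S D := by
  have : Infinite (ResidueField S) :=
    Infinite.of_injective _ (ResidueField.map (algebraMap V S)).injective
  obtain ⟨z, hz⟩ := exists_red (maximalIdeal S) le_rfl ⟨1, by simp⟩ hD
  obtain ⟨φ, hφ⟩ := exists_evalPS (K := V) (maximalIdeal S) z fun i =>
    Ideal.le_radical (hz.1 (Ideal.subset_span ⟨i, rfl⟩))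
  obtain ⟨c, hc⟩ := hz.pow_le
  let _ := φ.toRingHom.toAlgebra
  have hx : (xI D V).map (algebraMap (PS D V) S) = Ideal.span (Set.range z) := by
    rw [Ideal.map_span, ← Set.range_comp]
    exact congrArg (fun f => Ideal.span (Set.range f)) (funext hφ)
  have hC : ∀ v, algebraMap (PS D V) S (C v) = algebraMap V S v := φ.commutes
  have hl : IsLocalHom (algebraMap (PS D V) S) := isLocalHom_of_map_le (by
    rw [max_PSV, Ideal.map_sup, hx, Ideal.map_map]
    refine sup_le (Ideal.map_le_iff_le_comap.2 fun v hv => ?_) hz.1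
    rw [Ideal.mem_comap, RingHom.comp_apply, hC]
    exact map_nonunit (algebraMap V S) v hv)
  have hres' : ∀ b : S, ∃ a, b - algebraMap (PS D V) S a ∈ maximalIdeal S := fun b =>
    (hres b).elim fun v hv => ⟨C v, (hC v).symm ▸ hv⟩
  have : Module.Finite (PS D V) S := finite_of_prim (algebraMap (PS D V) S) hres' ⟨1 + c, by
    refine (hc 1).trans ?_
    rw [pow_one, ← hx, max_PSV]
    exact Ideal.map_mono le_sup_right⟩
  have h0 : (⊥ : Ideal S).comap (algebraMap (PS D V) S) ≠ ⊥ := fun e => by
    have h1 := dim_quot_comap (A := PS D V) (⊥ : Ideal S)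
    rw [e, ringKrullDim_eq_of_ringEquiv (RingEquiv.quotientBot (PS D V)),
      ringKrullDim_eq_of_ringEquiv (RingEquiv.quotientBot S), dim_PSV] at h1
    exact absurd (Nat.cast_le.1 (h1.trans_le hD)) (by omega)
  have hK : Prim (maximalIdeal _) ((⊥ : Ideal S).comap (algebraMap (PS D V) S) ⊔ xI D V) := by
    refine Ideal.exists_pow_le_of_le_radical_of_fg ?_ (IsNoetherian.noetherian _)
    rw [Ideal.radical_eq_sInf, le_sInf_iff]
    rintro J ⟨h1, h2⟩
    obtain ⟨Q, -, hQ, rfl⟩ := Ideal.exists_ideal_over_prime_of_isIntegral J (⊥ : Ideal S)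
      (le_sup_left.trans h1)
    have h3 := (hc 1).trans ((pow_one _).trans_le
      (hx.ge.trans (Ideal.map_le_iff_le_comap.2 (le_sup_right.trans h1))))
    exact (Ideal.map_le_iff_le_comap.1 (map_maximalIdeal_le _)).trans
      (Ideal.comap_mono (hQ.le_of_pow_le h3))
  obtain ⟨a1, a2⟩ := module_case hV _ h0 hK S fun a ha => Module.mem_annihilator.2 fun m => by
    rw [Algebra.smul_def, show algebraMap _ S a = 0 from ha, zero_mul]
  have a3 : eL (xI D V) S D ≤ eL (maximalIdeal S) S D := by
    rw [(eU_res hres' _).2, hx]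
    exact eL_le_of_pow c fun j => (hc j).trans le_sup_left
  refine ⟨le_trans ?_ (a1.trans a3), fun Q _ hQ h f hf hd => le_trans ?_
    ((a2 (Q.comap (algebraMap (PS D V) S)) (by rwa [Ideal.mem_comap, map_natCast]) h f hf
      (hd.trans_eq (dim_quot_comap Q).symm)).trans a3)⟩
  · rw [(eU_res hres' _).1, hx]
    exact eU_le_of_pow 0 fun j => (Ideal.pow_right_mono hz.1 j).trans le_sup_left
  · exact um_mono (Filter.Eventually.of_forall (lm_loc_le Q))

/-- The multiplicity exists. -/
theorem eU_le_eL (A : Type*) [CommRing A] [IsLocalRing A] [IsNoetherianRing A] (d : ℕ)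
    (hd : ringKrullDim A ≤ d) : eU (maximalIdeal A) A d ≤ eL (maximalIdeal A) A d := by
  rcases hd.lt_or_eq with hd | hd
  · refine (eU_eq_zero ⊥ _ bot_le ⟨1, by simp⟩ ?_).trans_le zero_le
    rwa [ringKrullDim_eq_of_ringEquiv (RingEquiv.quotientBot _)]
  obtain ⟨p, hp⟩ := CharP.exists (ResidueField A)
  rcases CharP.char_is_prime_or_zero (ResidueField A) p with h | rfl
  · have := Fact.mk h
    obtain ⟨V, _, _, _, B, _, _, _, _, _, _, hV, _, _, _, hres, _, hm⟩ := exists_model1 p A (by
      rw [← residue_eq_zero_iff, map_natCast, CharP.cast_eq_zero])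
    rw [(eU_eq_of_flat hm).1, (eU_eq_of_flat hm).2]
    exact (devissage p hV hres d ((hs_eq_of_flat A B hm).2.symm.trans hd).le).1
  · have := CharP.charP_to_charZero (ResidueField A)
    let _ : Algebra ℚ A := (IsLocalization.lift (M := nonZeroDivisors ℤ) (S := ℚ)
      (g := Int.castRingHom A) fun y => by
        rw [← notMem_maximalIdeal, ← residue_eq_zero_iff, eq_intCast, map_intCast, Int.cast_eq_zero]
        exact nonZeroDivisors.ne_zero y.2).toAlgebra
    obtain ⟨e, -, he⟩ := exists_isMult ℚ A d hd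
    exact (he.eU_eq.1.trans he.eU_eq.2.symm).le

theorem eU_le_eL_quot {A : Type*} [CommRing A] [IsLocalRing A] [IsNoetherianRing A] (K : Ideal A)
    (d : ℕ) (hd : ringKrullDim (A ⧸ K) ≤ d) :
    eU (maximalIdeal A) (A ⧸ K) d ≤ eL (maximalIdeal A) (A ⧸ K) d := by
  rcases subsingleton_or_nontrivial (A ⧸ K) with h | h
  · exact (eU_subsingleton _).trans_le zero_le
  have := IsLocalRing.of_surjective' _ (Ideal.Quotient.mk_surjective (I := K))
  have e := eU_surj (d := d) (M := A ⧸ K) (B := A ⧸ K) Ideal.Quotient.mk_surjective (maximalIdeal A)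
  rw [map_maximalIdeal_of_surjective _ (show Surjective (algebraMap A (A ⧸ K)) from
    Ideal.Quotient.mk_surjective)] at e
  rw [e.1, e.2]
  exact eU_le_eL _ d hd

theorem exists_fibre_reductionM (p : ℕ) [Fact p.Prime] (R : Type u) (S : Type v)
    [CommRing R] [IsLocalRing R] [IsNoetherianRing R]
    [CommRing S] [IsLocalRing S] [IsNoetherianRing S] [Algebra R S] [Module.Flat R S]
    [IsLocalHom (algebraMap R S)] (hp : (p : R) ∈ maximalIdeal R)
    (d D : ℕ) (hd : ringKrullDim R = d) (hD : ringKrullDim S = D) :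
    ∃ (S₁ : Type v) (_ : CommRing S₁) (_ : IsLocalRing S₁) (_ : IsNoetherianRing S₁)
      (_ : Algebra R S₁), Module.Flat R S₁ ∧ IsLocalHom (algebraMap R S₁) ∧
      Prim (maximalIdeal S₁) ((maximalIdeal R).map (algebraMap R S₁)) ∧
      eU (maximalIdeal S₁) S₁ d ≤ eL (maximalIdeal S) S D := by
  obtain ⟨V, _, _, _, B, _, _, _, _, _, _, hV, _, _, _, hres, hflat, hm⟩ := exists_model1 p S
    (map_natCast (algebraMap R S) p ▸ map_nonunit (algebraMap R S) _ hp)
  obtain ⟨-, h2⟩ := hs_eq_of_flat S B hm
  let _ : Algebra R B := ((algebraMap S B).comp (algebraMap R S)).toAlgebra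
  have : IsScalarTower R S B := IsScalarTower.of_algebraMap_eq fun _ => rfl
  have : Module.Flat R B := Module.Flat.trans R S B
  have := isLocalHom_of_map_le hm.le
  have : IsLocalHom (algebraMap R B) := RingHom.isLocalHom_comp _ _
  have hJ : (maximalIdeal R).map (algebraMap R B) ≤ maximalIdeal B :=
    IsLocalRing.map_maximalIdeal_le _
  obtain ⟨Q, hQ, hQd⟩ := exists_minimalPrime_dim _ hJ
  have := hQ.1.1
  have hQm : maximalIdeal R ≤ Q.comap (algebraMap R B) := Ideal.map_le_iff_le_comap.mp hQ.1.2
  have hmd : (maximalIdeal R).height = d := by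
    rw [← maximalIdeal_height_eq_ringKrullDim] at hd
    exact_mod_cast hd
  have h3 := Ideal.height_eq_height_add_of_liesOver_of_hasGoingDown (maximalIdeal R)
    (maximalIdeal B)
  have hBD : (maximalIdeal B).height = D := by
    rw [h2, ← maximalIdeal_height_eq_ringKrullDim] at hD
    exact_mod_cast hD
  rw [hmd, hBD] at h3
  obtain ⟨f, hf⟩ := ENat.ne_top_iff_exists.mp
    (ne_top_of_le_ne_top (ENat.natCast_ne_top D) (le_add_self.trans h3.ge))
  rw [← hf] at h3 hQd
  obtain rfl : D = d + f := by exact_mod_cast h3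
  have hmax : maximalIdeal (Localization.AtPrime Q) =
      ((maximalIdeal R).map (algebraMap R (Localization.AtPrime Q))).radical := by
    rw [IsScalarTower.algebraMap_eq R B (Localization.AtPrime Q), ← Ideal.map_map,
      IsLocalization.AtPrime.radical_map_of_mem_minimalPrimes _ Q _ hQ,
      Localization.AtPrime.map_eq_maximalIdeal]
  refine ⟨Localization.AtPrime Q, inferInstance, inferInstance, inferInstance, inferInstance,
    inferInstance, isLocalHom_of_map_le (hmax ▸ Ideal.le_radical),
    Ideal.exists_pow_le_of_le_radical_of_fg hmax.le (Ideal.fg_of_isNoetherianRing _), ?_⟩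
  rw [(eU_eq_of_flat hm).2]
  exact (devissage p hV hres _ (h2 ▸ hD).le).2 Q (map_natCast (algebraMap R B) p ▸ hQm hp) d f rfl
    hQd.le

end Vale.Agent.P202
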