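import Vale.Agent.P202M.UBa

/-! The upper bound. -/

open IsLocalRing Function
open scoped ENNReal

namespace Vale.Agent.P202

theorem ub {T' T : Type*} [CommRing T'] [IsLocalRing T'] [IsNoetherianRing T']
    [Infinite (ResidueField T')] [CommRing T] [IsLocalRing T] [Algebra T' T] [Module.Finite T' T]
    (hinj : Injective (algebraMap T' T))
    (hres : ∀ t : T, ∃ a : T', t - algebraMap T' T a ∈ maximalIdeal T)
    {s d : ℕ} (hCM : CM (maximalIdeal T') (s + (d + 1)))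
    (hdim : ringKrullDim T' ≤ (s + (d + 1) : ℕ))
    (g : T') (hg : ∀ t : T, ∃ a : T', algebraMap T' T a = algebraMap T' T g * t)
    (J : Ideal T) (hJ : ringKrullDim (T ⧸ J) ≤ (d + 1 : ℕ))
    (hreg : ∀ (q : Ideal T) [q.IsPrime], J ≤ q →
      ((d + 1 : ℕ) : WithBot ℕ∞) ≤ ringKrullDim (T ⧸ q) → algebraMap T' T g ∉ q ∧
        ∃ v : Fin s → T', (∀ i, algebraMap T' T (v i) ∈ q) ∧ q.comap (algebraMap T' T) ≤
          sat (q.comap (algebraMap T' T)) (Ideal.span (Set.range v)))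
    (hex : ∀ q : Ideal T, J ≤ q →
      eU (maximalIdeal T) (T ⧸ q) (d + 1) ≤ eL (maximalIdeal T) (T ⧸ q) (d + 1))
    (z : Fin (d + 1) → T) (hzm : ∀ i, z i ∈ maximalIdeal T) (c : ℕ)
    (hz : ∀ j, maximalIdeal T ^ (j + c) ≤ J ⊔ Ideal.span (Set.range z) ^ j)
    {lam : Ideal T → ℝ≥0∞} (hl : IsLam lam)
    (hsop : ∀ w : Fin (s + (d + 1)) → T', Prim (maximalIdeal T') (Ideal.span (Set.range w)) →
      lam ((Ideal.span (Set.range w)).map (algebraMap T' T)) ≤ ln T' (Ideal.span (Set.range w)))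
    (h3 : ∀ n : ℕ, 1 ≤ n → (n : ℝ≥0∞) ^ (d + 1) * lam (J ⊔ Ideal.span (Set.range z)) ≤
      lam (J ⊔ Ideal.span (Set.range fun i => z i ^ n))) :
    lam (J ⊔ Ideal.span (Set.range z)) ≤ eL (maximalIdeal T) (T ⧸ J) (d + 1) := by
  have : IsNoetherianRing T := IsNoetherianRing.of_finite T' T
  have : FaithfulSMul T' T := (faithfulSMul_iff_algebraMap_injective T' T).2 hinj
  have hm : lam (maximalIdeal T) ≠ ⊤ := by
    obtain ⟨w, hw, h1⟩ := exists_sop (⊥ : Ideal T') (n := s + (d + 1))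
      ((ringKrullDim_eq_of_ringEquiv (RingEquiv.quotientBot T')).trans_le hdim)
    rw [bot_sup_eq] at h1
    have h2 := lm_ne_top (M := T') (h1.mono le_sup_left)
    rw [lm_self] at h2
    refine ne_top_of_le_ne_top (by simpa using h2) (le_trans (hl.anti ?_) (hsop w h1))
    rw [Ideal.map_span, Ideal.span_le]
    rintro _ ⟨_, ⟨i, rfl⟩, rfl⟩
    exact map_nonunit _ _ (hw i)
  have prime : ∀ (q : Ideal T) [q.IsPrime], J ≤ q → ∃ K : ℝ≥0∞, K ≠ ⊤ ∧ ∀ n : ℕ, 1 ≤ n →
      lam (q ⊔ Ideal.span (Set.range fun i => z i ^ n)) ≤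
        (n : ℝ≥0∞) ^ (d + 1) * eL (maximalIdeal T) (T ⧸ q) (d + 1) + K * (n : ℝ≥0∞) ^ d := by
    intro q _ hq
    have hz' : ∀ j, maximalIdeal T ^ (j + c) ≤ q ⊔ Ideal.span (Set.range z) ^ j :=
      fun j => (hz j).trans (sup_le_sup_right hq _)
    by_cases hd : ((d + 1 : ℕ) : WithBot ℕ∞) ≤ ringKrullDim (T ⧸ q)
    · obtain ⟨h1, v, h2, h4⟩ := hreg q hq hd
      obtain ⟨K, hK, h⟩ := ub_top hinj hres hCM hdim g hg q ((dim_quot_anti hq).trans hJ) h1 v h2 h4
        z hzm c hz' hl.anti hsop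
      exact ⟨K, hK, fun n hn => (h n hn).trans (by gcongr; exact hex q hq)⟩
    · rw [not_le, Nat.cast_succ] at hd
      obtain ⟨w, hw, h1⟩ := exists_sop q (ENat.WithBot.lt_add_one_iff.1 hd)
      have h2 := lm_ne_top (M := T ⧸ q) (I := Ideal.span (Set.range w)) (h1.mono (by
        rw [Ideal.annihilator_quotient, sup_comm]))
      refine ⟨((d + 2 + c : ℕ) : ℝ≥0∞) ^ d * lm (Ideal.span (Set.range w)) (T ⧸ q) *
        lam (maximalIdeal T), ENNReal.mul_ne_top (ENNReal.mul_ne_top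
          (ENNReal.pow_ne_top (ENNReal.natCast_ne_top _)) (by simpa using h2)) hm,
        fun n hn => le_add_left ?_⟩
      have h4 : maximalIdeal T ^ ((d + 2 + c) * n) ≤
          q ⊔ Ideal.span (Set.range fun i => z i ^ n) := by
        have h5 := pow_le_bracket_pow z hn 1
        rw [pow_one] at h5
        refine (Ideal.pow_le_pow_right ?_).trans ((hz' _).trans (sup_le_sup_left h5 _))
        nlinarith
      have h5 : ln T (q ⊔ Ideal.span (Set.range fun i => z i ^ n)) ≤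
          (((d + 2 + c) * n) ^ d : ℕ) * lm (Ideal.span (Set.range w)) (T ⧸ q) := by
        have h6 := lm_bracket_le (M := T ⧸ q) w fun _ => (d + 2 + c) * n
        rw [lm_quot, Finset.prod_const, Finset.card_univ, Fintype.card_fin] at h6
        refine (len_anti T (sup_le le_sup_left (Ideal.span_le.2 ?_))).trans h6
        rintro _ ⟨i, rfl⟩
        exact h4 (Ideal.pow_mem_pow (hw i) _)
      refine (hl.le_len ⟨_, h4⟩).trans ?_
      have h6 := ENat.toENNReal_le.2 h5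
      rw [ENat.toENNReal_mul, ENat.toENNReal_coe, Nat.cast_pow, Nat.cast_mul, mul_pow] at h6
      refine (mul_le_mul_left h6 _).trans (le_of_eq ?_)
      ring
  have all : ∀ I : Ideal T, J ≤ I → ∃ K : ℝ≥0∞, K ≠ ⊤ ∧ ∀ n : ℕ, 1 ≤ n →
      lam (I ⊔ Ideal.span (Set.range fun i => z i ^ n)) ≤
        (n : ℝ≥0∞) ^ (d + 1) * eL (maximalIdeal T) (T ⧸ I) (d + 1) + K * (n : ℝ≥0∞) ^ d := by
    intro I
    induction I using WellFoundedGT.induction with
    | _ I ih =>
    intro hI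
    by_cases hI' : I = ⊤
    · refine ⟨0, ENNReal.zero_ne_top, fun n _ => ?_⟩
      rw [hI', top_sup_eq, hl.top]
      exact zero_le
    obtain ⟨w, h1, h2⟩ := exists_colon_prime hI'
    have hc : I ≤ I.colon {w} := fun x hx => by
      rw [Submodule.mem_colon_singleton]
      exact I.mul_mem_right _ hx
    obtain ⟨K1, hK1, a1⟩ := prime _ (hI.trans hc)
    obtain ⟨K2, hK2, a2⟩ := ih _ h2 (hI.trans le_sup_left)
    obtain ⟨f, g, b1, b2, b3⟩ := exact_colon T I w
    have b4 := eL_add_le (d := d + 1) (maximalIdeal T) f g b1 b2 b3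
    refine ⟨K1 + K2, ENNReal.add_ne_top.2 ⟨hK1, hK2⟩, fun n hn => (hl.sub _ w).trans ?_⟩
    rw [sup_right_comm]
    have b5 : I.colon {w} ⊔ Ideal.span (Set.range fun i => z i ^ n) ≤
        (I ⊔ Ideal.span (Set.range fun i => z i ^ n)).colon {w} :=
      sup_le (Submodule.colon_mono le_sup_left le_rfl) fun x hx => by
        rw [Submodule.mem_colon_singleton]
        exact Ideal.mem_sup_right (Ideal.mul_mem_right _ _ hx)
    refine (add_le_add ((hl.anti b5).trans (a1 n hn)) (a2 n hn)).trans ?_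
    rw [add_add_add_comm, ← mul_add, ← add_mul]
    gcongr
  obtain ⟨K, hK, h⟩ := all J le_rfl
  exact le_of_pow_le hK fun n hn => (h3 n hn).trans (h n hn)

end Vale.Agent.P202
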