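import Vale.Agent.P202M.LamM
import Vale.Agent.P202M.UBb
import Vale.Agent.P202M.Dev

/-! Auxiliary results for the main inequality. -/

open IsLocalRing Function Polynomial
open scoped ENNReal

namespace Vale.Agent.P202

namespace CoreX
open LamX

lemma infinite_res {V A : Type*} [CommRing V] [IsLocalRing V] [CommRing A] [IsLocalRing A]
    [Infinite (ResidueField V)] (φ : V →+* A) (h : ∀ v ∈ maximalIdeal V, φ v ∈ maximalIdeal A) :
    Infinite (ResidueField A) := by
  have : IsLocalHom φ := ⟨fun a ha => by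
    by_contra hc
    exact h a hc ha⟩
  exact Infinite.of_injective _ (ResidueField.map φ).injective

lemma comap_max {B T : Type*} [CommRing B] [IsLocalRing B] [CommRing T] [IsLocalRing T]
    [Algebra B T] [Algebra.IsIntegral B T] :
    (maximalIdeal T).comap (algebraMap B T) = maximalIdeal B :=
  eq_maximalIdeal (Ideal.isMaximal_comap_of_isIntegral_of_isMaximal _)

lemma prim_of_integral {B T : Type*} [CommRing B] [IsLocalRing B] [IsNoetherianRing B] [CommRing T]
    [IsLocalRing T] [Algebra B T] [Algebra.IsIntegral B T] (I : Ideal B)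
    (h : Prim (maximalIdeal T) (I.map (algebraMap B T))) :
    Prim (maximalIdeal B) (RingHom.ker (algebraMap B T) ⊔ I) := by
  obtain ⟨a, ha⟩ := h
  refine Ideal.exists_pow_le_of_le_radical_of_fg ?_ (IsNoetherian.noetherian _)
  rw [Ideal.radical_eq_sInf]
  refine le_sInf fun P ⟨h1, h2⟩ => ?_
  obtain ⟨Q, -, hQ, rfl⟩ := Ideal.exists_ideal_over_prime_of_isIntegral P (⊥ : Ideal T)
    (le_sup_left.trans h1)
  rw [← comap_max (T := T)]
  exact Ideal.comap_mono (hQ.le_of_pow_le
    (ha.trans (Ideal.map_le_iff_le_comap.mpr (le_sup_right.trans h1))))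

lemma span_le_span {B₀ B T : Type*} [CommRing B₀] [CommRing B] [CommRing T] [Algebra B₀ T]
    [Algebra B T] (h : ∀ b₀, ∃ b, algebraMap B T b = algebraMap B₀ T b₀) (s : Set T) {t : T}
    (ht : t ∈ Submodule.span B₀ s) : t ∈ Submodule.span B s := by
  refine Submodule.span_induction (fun _ hx => Submodule.subset_span hx) (Submodule.zero_mem _)
    (fun _ _ _ _ => add_mem) (fun b₀ x _ hx => ?_) ht
  obtain ⟨b, hb⟩ := h b₀
  rw [Algebra.smul_def, ← hb, ← Algebra.smul_def]
  exact Submodule.smul_mem _ _ hx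

lemma dvd_of_C_mul {B : Type*} [CommRing B] [IsDomain B] {h F : B[X]} (hm : h.Monic) {g : B}
    (hg : g ≠ 0) (hd : h ∣ C g * F) : h ∣ F := by
  rw [← modByMonic_eq_zero_iff_dvd hm] at hd ⊢
  rw [← smul_eq_C_mul, smul_modByMonic] at hd
  exact (smul_eq_zero.mp hd).resolve_left hg

lemma reg_T {B₀ T' T : Type*} [CommRing B₀] [CommRing T'] [CommRing T] [Algebra B₀ T']
    [Algebra T' T] [Algebra B₀ T] [IsScalarTower B₀ T' T] (hinj : Injective (algebraMap T' T))
    (x : T') (h : B₀[X]) (hm : h.Monic) (hh : aeval (algebraMap T' T x) h = 0)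
    (hs : ∀ t : T', ∃ F : B₀[X], aeval (algebraMap T' T x) F = algebraMap T' T t)
    (q : Ideal T) [q.IsPrime] (hq : aeval (algebraMap T' T x) (derivative h) ∉ q) {s : ℕ}
    (v : Fin s → B₀) (hv : ∀ i, v i ∈ q.comap (algebraMap B₀ T))
    (hsat : q.comap (algebraMap B₀ T) ≤
      sat (q.comap (algebraMap B₀ T)) (Ideal.span (Set.range v))) :
    ∃ v : Fin s → T', (∀ i, algebraMap T' T (v i) ∈ q) ∧ q.comap (algebraMap T' T) ≤
      sat (q.comap (algebraMap T' T)) (Ideal.span (Set.range v)) := by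
  have e : (q.comap (algebraMap T' T)).comap (algebraMap B₀ T') = q.comap (algebraMap B₀ T) := by
    rw [Ideal.comap_comap, ← IsScalarTower.algebraMap_eq]
  have h1 := etale_step x h hm (hinj (by rw [← aeval_algebraMap_apply, hh, map_zero]))
    (fun t => (hs t).imp fun F hF => hinj (by rw [← aeval_algebraMap_apply, hF]))
    (q.comap (algebraMap T' T)) (by rwa [Ideal.mem_comap, ← aeval_algebraMap_apply])
  refine ⟨fun i => algebraMap B₀ T' (v i), fun i => by
    rw [← IsScalarTower.algebraMap_apply]; exact hv i, fun a ha => ?_⟩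
  obtain ⟨u, hu, hua⟩ := h1 ha
  have h2 : ((q.comap (algebraMap T' T)).comap (algebraMap B₀ T')).map (algebraMap B₀ T') ≤
      sat (q.comap (algebraMap T' T))
        (Ideal.span (Set.range fun i => algebraMap B₀ T' (v i))) := by
    rw [Ideal.map_le_iff_le_comap, e]
    intro b hb
    obtain ⟨u', hu', hb'⟩ := hsat hb
    refine ⟨algebraMap B₀ T' u', by rw [← e] at hu'; exact hu', ?_⟩
    rw [← map_mul, ← map_span_range]
    exact Ideal.mem_map_of_mem _ hb'
  obtain ⟨u', hu', h3⟩ := h2 hua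
  exact ⟨u' * u, fun hc => ((Ideal.IsPrime.mem_or_mem inferInstance hc).elim hu' hu),
    by rwa [mul_assoc]⟩

lemma ub_quot {B₀ B T : Type*} [CommRing B₀] [CommRing B] [IsLocalRing B] [IsNoetherianRing B]
    [Infinite (ResidueField B)] [CommRing T] [IsLocalRing T] [Algebra B T] [Module.Finite B T]
    [Algebra B₀ T] (ι : B₀ →+* B) (hι : ∀ b, algebraMap B T (ι b) = algebraMap B₀ T b)
    (hres : ∀ t : T, ∃ a : B, t - algebraMap B T a ∈ maximalIdeal T) {r s d : ℕ} {f : Fin r → B}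
    (hker : RingHom.ker (algebraMap B T) = Ideal.span (Set.range f))
    (hCM : CM (maximalIdeal B) (r + (s + (d + 1))))
    (hdim : ringKrullDim (B ⧸ Ideal.span (Set.range f)) ≤ (s + (d + 1) : ℕ))
    (g : B) (hg : ∀ t : T, ∃ a : B, algebraMap B T a = algebraMap B T g * t)
    (x : B) (h : B₀[X]) (hm : h.Monic) (hh : aeval (algebraMap B T x) h = 0)
    (hs : ∀ t : B, ∃ F : B₀[X], aeval (algebraMap B T x) F = algebraMap B T t)
    (J : Ideal T) (hJ : ringKrullDim (T ⧸ J) ≤ (d + 1 : ℕ))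
    (hreg : ∀ (q : Ideal T) [q.IsPrime], J ≤ q →
      ((d + 1 : ℕ) : WithBot ℕ∞) ≤ ringKrullDim (T ⧸ q) → algebraMap B T g ∉ q ∧
        aeval (algebraMap B T x) (derivative h) ∉ q ∧
        ∃ v : Fin s → B₀, (∀ i, v i ∈ q.comap (algebraMap B₀ T)) ∧ q.comap (algebraMap B₀ T) ≤
          sat (q.comap (algebraMap B₀ T)) (Ideal.span (Set.range v)))
    (z : Fin (d + 1) → T) (hzm : ∀ i, z i ∈ maximalIdeal T) (c : ℕ)
    (hz : ∀ j, maximalIdeal T ^ (j + c) ≤ J ⊔ Ideal.span (Set.range z) ^ j)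
    {lam : Ideal T → ℝ≥0∞} (hl : IsLam lam)
    (hsop : ∀ w : Fin (s + (d + 1)) → B,
      Prim (maximalIdeal B) (Ideal.span (Set.range f) ⊔ Ideal.span (Set.range w)) →
      lam ((Ideal.span (Set.range w)).map (algebraMap B T)) ≤
        ln B (Ideal.span (Set.range f) ⊔ Ideal.span (Set.range w)))
    (h3 : ∀ n : ℕ, 1 ≤ n → (n : ℝ≥0∞) ^ (d + 1) * lam (J ⊔ Ideal.span (Set.range z)) ≤
      lam (J ⊔ Ideal.span (Set.range fun i => z i ^ n))) :
    lam (J ⊔ Ideal.span (Set.range z)) ≤ eL (maximalIdeal T) (T ⧸ J) (d + 1) := by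
  have : IsNoetherianRing T := IsNoetherianRing.of_finite B T
  set K := RingHom.ker (algebraMap B T) with hK
  have : Nontrivial (B ⧸ K) := Ideal.Quotient.nontrivial_iff.mpr (RingHom.ker_ne_top _)
  have : IsLocalRing (B ⧸ K) :=
    IsLocalRing.of_surjective' (Ideal.Quotient.mk K) Ideal.Quotient.mk_surjective
  have hmax : (maximalIdeal B).map (Ideal.Quotient.mk K) = maximalIdeal (B ⧸ K) :=
    map_maximalIdeal_of_surjective _ Ideal.Quotient.mk_surjective
  have : Infinite (ResidueField (B ⧸ K)) := infinite_res (Ideal.Quotient.mk K) fun v hv =>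
    hmax ▸ Ideal.mem_map_of_mem _ hv
  let : Algebra (B ⧸ K) T := (RingHom.kerLift (algebraMap B T)).toAlgebra
  have e : ∀ b, algebraMap (B ⧸ K) T (Ideal.Quotient.mk K b) = algebraMap B T b := fun b => rfl
  have : IsScalarTower B (B ⧸ K) T := IsScalarTower.of_algebraMap_eq fun b => rfl
  have : Module.Finite (B ⧸ K) T := Module.Finite.of_restrictScalars_finite B _ _
  let : Algebra B₀ (B ⧸ K) := ((Ideal.Quotient.mk K).comp ι).toAlgebra
  have : IsScalarTower B₀ (B ⧸ K) T := IsScalarTower.of_algebraMap_eq fun b => (hι b).symm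
  have hinj : Injective (algebraMap (B ⧸ K) T) := RingHom.kerLift_injective _
  refine ub (T' := B ⧸ K) (s := s) hinj (fun t => ?_)
    (hmax ▸ hCM.of_surj f _ Ideal.Quotient.mk_surjective (by rw [Ideal.mk_ker, hker]))
    (by rwa [hker]) (Ideal.Quotient.mk K g) (fun t => ?_) J hJ (fun q _ h1 h2 => ?_)
    (fun q hq => eU_le_eL_quot q _ ((dim_quot_anti hq).trans hJ)) z hzm c hz hl (fun w hw => ?_) h3
  · obtain ⟨a, ha⟩ := hres t
    exact ⟨Ideal.Quotient.mk K a, ha⟩
  · obtain ⟨a, ha⟩ := hg t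
    exact ⟨Ideal.Quotient.mk K a, ha⟩
  · obtain ⟨k1, k2, v, k3, k4⟩ := hreg q h1 h2
    refine ⟨k1, reg_T hinj (Ideal.Quotient.mk K x) h hm hh (fun t => ?_) q k2 v k3 k4⟩
    obtain ⟨t, rfl⟩ := Ideal.Quotient.mk_surjective t
    exact hs t
  · choose w' hw' using fun i => Ideal.Quotient.mk_surjective (w i)
    have e1 : Ideal.span (Set.range w) = (Ideal.span (Set.range w')).map (Ideal.Quotient.mk K) := by
      rw [map_span_range]; simp only [hw']
    rw [e1, ln_quot, Ideal.map_map]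
    rw [← hker] at hsop
    refine hsop w' ?_
    obtain ⟨a, ha⟩ := hw
    refine ⟨a, fun b hb => ?_⟩
    rw [sup_comm, ← Ideal.mem_quotient_iff_mem_sup, ← e1]
    refine ha ?_
    rw [← hmax, ← Ideal.map_pow]
    exact Ideal.mem_map_of_mem _ hb

end CoreX

end Vale.Agent.P202
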