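import Vale.Agent.P202M.Nrm
import Vale.Agent.P202M.CohL

/-! Cohen factorizations in mixed characteristic. -/

open IsLocalRing Function Polynomial
open scoped ENNReal

namespace Vale.Agent.P202

universe u v

variable (p : ℕ) [Fact p.Prime] {C : Type*} [CommRing C] [IsDomain C]
  [IsDiscreteValuationRing C] [IsAdicComplete (maximalIdeal C) C]
  (hC : maximalIdeal C = Ideal.span {(p : C)})
  {V : Type v} [CommRing V] [IsDomain V] [IsDiscreteValuationRing V]
  [IsAdicComplete (maximalIdeal V) V] (hV : maximalIdeal V = Ideal.span {(p : V)})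
  {S : Type*} [CommRing S] [IsLocalRing S] [IsNoetherianRing S]
  [IsAdicComplete (maximalIdeal S) S] [Algebra V S] [IsLocalHom (algebraMap V S)]
  (hresS : ∀ b : S, ∃ v : V, b - algebraMap V S v ∈ maximalIdeal S)
include hC hV hresS

theorem exists_factorM {d : ℕ} (φ : PS d C →+* S)
    (hφ : ∀ j, φ (MvPowerSeries.X j) ∈ maximalIdeal S) :
    ∃ (s : ℕ) (ι : PS d C →+* PS (s + d) V) (ev : PS (s + d) V →+* S), ι.Flat ∧ Injective ι ∧
      (∀ j, ι (MvPowerSeries.X j) = MvPowerSeries.X (Fin.natAdd s j)) ∧ Surjective ev ∧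
      (∀ i, ev (MvPowerSeries.X i) ∈ maximalIdeal S) ∧ ∀ f, ev (ι f) = φ f := by
  obtain ⟨s, y, hy⟩ := Submodule.fg_iff_exists_fin_generating_family.1
    (maximalIdeal S).fg_of_isNoetherianRing
  have hym : ∀ i, y i ∈ maximalIdeal S := fun i => hy ▸ Submodule.subset_span ⟨i, rfl⟩
  obtain ⟨ev0, hev0, hsurj⟩ := exists_surj_PS (V := V) hresS y hy.symm
  have hpV : (p : V) ∈ maximalIdeal V := hV ▸ Ideal.mem_span_singleton_self _
  have hp0 : (p : V) ≠ 0 := fun e => IsDiscreteValuationRing.not_a_field V (by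
    rw [hV, e, Ideal.span_singleton_zero])
  have hpP : (p : PS s V) ∈ maximalIdeal (PS s V) := fun hu => hpV (by
    have := hu.map MvPowerSeries.constantCoeff
    rwa [map_natCast] at this)
  let q := RingHom.quotientKerEquivOfSurjective (f := ev0.toRingHom) hsurj
  obtain ⟨σ, hσ⟩ := cohen_lift p hC hpP (RingHom.ker ev0.toRingHom)
    (IsLocalRing.le_maximalIdeal (RingHom.ker_ne_top _))
    (q.symm.toRingHom.comp (φ.comp MvPowerSeries.C))
  have hσ' : ∀ c, ev0 (σ c) = φ (MvPowerSeries.C c) := fun c => by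
    have h1 : Ideal.Quotient.mk _ (σ c) = q.symm (φ (MvPowerSeries.C c)) :=
      DFunLike.congr_fun hσ c
    exact (RingEquiv.eq_symm_apply q).1 h1
  haveI : IsLocalHom σ := isLocalHom_of_map_le (by
    rw [hC, Ideal.map_span, Set.image_singleton, map_natCast, Ideal.span_singleton_le_iff_mem]
    exact hpP)
  have hinj : Injective σ := by
    rw [RingHom.injective_iff_ker_eq_bot]
    by_contra hne
    have hk := IsLocalRing.eq_maximalIdeal
      (Ideal.IsPrime.isMaximal (RingHom.ker_isPrime σ) hne)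
    have h1 : (p : C) ∈ RingHom.ker σ := by rw [hk, hC]; exact Ideal.mem_span_singleton_self _
    rw [RingHom.mem_ker, map_natCast] at h1
    have h2 := congrArg MvPowerSeries.constantCoeff h1
    rw [map_natCast, map_zero] at h2
    exact hp0 h2
  obtain ⟨ι, hι, hιi, hιX, hιC⟩ := exists_flat_PSV s d σ hinj
  have hz : ∀ i, Fin.append y (fun j => φ (MvPowerSeries.X j)) i ∈ maximalIdeal S := fun i => by
    refine Fin.addCases (fun i => ?_) (fun j => ?_) i
    · rw [Fin.append_left]; exact hym i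
    · rw [Fin.append_right]; exact hφ j
  obtain ⟨ev, hev⟩ := exists_evalPS (K := V) (maximalIdeal S) _ fun i => Ideal.le_radical (hz i)
  have h0 : ev.toRingHom.comp (MvPowerSeries.rename (R := V) (Fin.castAdd d)).toRingHom =
      ev0.toRingHom := by
    refine (ringHom_PS_ext (maximalIdeal S) _ _ (fun c => ?_) (fun j => ?_) fun j => ?_).symm
    · exact (ev0.commutes c).trans
        ((ev.comp (MvPowerSeries.rename (R := V) (Fin.castAdd d))).commutes c).symm
    · show ev0 _ = ev (MvPowerSeries.rename _ _)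
      rw [MvPowerSeries.rename_X, hev, hev0, Fin.append_left]
    · show ev0 _ ∈ _
      rw [hev0]; exact hym j
  have h1 : ∀ x, ev (MvPowerSeries.rename (Fin.castAdd d) x) = ev0 x :=
    fun x => DFunLike.congr_fun h0 x
  refine ⟨s, ι, ev.toRingHom, hι, hιi, hιX, fun x => ?_, fun i => ?_, fun f => ?_⟩
  · obtain ⟨w, hw⟩ := hsurj x
    exact ⟨_, (h1 w).trans hw⟩
  · show ev _ ∈ _
    rw [hev]; exact hz i
  · refine (DFunLike.congr_fun (ringHom_PS_ext (maximalIdeal S) φ (ev.toRingHom.comp ι)
      (fun c => ?_) (fun j => ?_) hφ) f).symm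
    · show _ = ev (ι _)
      rw [hιC, h1]
      exact (hσ' c).symm
    · show _ = ev (ι _)
      rw [hιX, hev, Fin.append_right]

end Vale.Agent.P202
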