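import Vale.Agent.P202M.Hyp
import Vale.Agent.P202M.Fac

/-! Cohen factorizations in mixed characteristic. -/

open IsLocalRing Function Polynomial
open scoped ENNReal

namespace Vale.Agent.P202

universe u v

namespace TTX

section
variable {A R B T : Type*} [CommRing A] [CommRing R] [CommRing B] [CommRing T] [Algebra A R]
  [Algebra A B] [Algebra A T] [Algebra R T] [Algebra B T] [IsScalarTower A R T]
  [IsScalarTower A B T] (h : Algebra.IsPushout A R B T)
include h

omit h in
lemma aeval_map' (x : R) (F : A[X]) : aeval (algebraMap R T x) (F.map (algebraMap A B)) =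
    algebraMap R T (aeval x F) := by
  rw [aeval_map_algebraMap, aeval_algebraMap_apply]

lemma po_onto (x : R) (g : A) (hg : ∀ r : R, ∃ F : A[X], aeval x F = algebraMap A R g * r) (t : T) :
    ∃ G : B[X], aeval (algebraMap R T x) G = algebraMap B T (algebraMap A B g) * t := by
  refine po_ind h (fun t => ∃ G : B[X], aeval (algebraMap R T x) G =
    algebraMap B T (algebraMap A B g) * t) ⟨0, by simp⟩ (fun r b => ?_) ?_ t
  · obtain ⟨F, hF⟩ := hg r
    refine ⟨C b * F.map (algebraMap A B), ?_⟩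
    rw [map_mul, aeval_C, aeval_map', hF, map_mul, po_comm (B := B)]
    ring
  · rintro x y ⟨F, hF⟩ ⟨G, hG⟩
    exact ⟨F + G, by rw [map_add, hF, hG, mul_add]⟩

lemma po_ker [IsDomain B] (x : R) {k : A[X]} (hm : k.Monic) (hk : ∀ F, aeval x F = 0 ↔ k ∣ F)
    (g : A) (hg0 : algebraMap A B g ≠ 0)
    (hg : ∀ r : R, ∃ F : A[X], aeval x F = algebraMap A R g * r) (G : B[X]) :
    aeval (algebraMap R T x) G = 0 ↔ k.map (algebraMap A B) ∣ G := by
  refine ⟨fun hG => ?_, ?_⟩
  swap
  · rintro ⟨G, rfl⟩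
    rw [map_mul, aeval_map', (hk k).2 dvd_rfl, map_zero, zero_mul]
  choose F hF using hg
  let μ := modByMonicHom (k.map (algebraMap A B))
  have key : ∀ r F', aeval x F' = algebraMap A R g * r →
      μ ((F r).map (algebraMap A B)) = μ (F'.map (algebraMap A B)) := fun r F' e => by
    refine modByMonic_eq_of_dvd_sub (hm.map _) ?_
    rw [← Polynomial.map_sub]
    exact Polynomial.map_dvd _ ((hk _).1 (by rw [map_sub, hF, e, sub_self]))
  let l : R →ₗ[A] B[X] :=
    { toFun := fun r => μ ((F r).map (algebraMap A B))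
      map_add' := fun r r' => by
        rw [key _ (F r + F r') (by rw [map_add, hF, hF, mul_add]), Polynomial.map_add, map_add]
      map_smul' := fun a r => by
        rw [key _ (C a * F r) (by rw [map_mul, aeval_C, hF, Algebra.smul_def, mul_left_comm]),
          Polynomial.map_mul, map_C, ← smul_eq_C_mul, map_smul, algebraMap_smul]
        rfl }
  let Λ : T →ₗ[B] B[X] := h.symm.out.lift l
  have hΛ : ∀ r, Λ (algebraMap R T r) = l r := fun r => h.symm.out.lift_eq _ r
  have e : ∀ G : B[X], Λ (aeval (algebraMap R T x) G) = algebraMap A B g • μ G := fun G => by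
    induction G using Polynomial.induction_on' with
    | add F G hF hG => rw [map_add, map_add, hF, hG, map_add, smul_add]
    | monomial n b =>
      rw [aeval_monomial, ← Algebra.smul_def, map_smul, ← map_pow, hΛ, ← smul_X_eq_monomial,
        map_smul, smul_comm, ← map_smul μ]
      refine congrArg _ ((key _ (C g * X ^ n) (by simp)).trans ?_)
      rw [Polynomial.map_mul, map_C, Polynomial.map_pow, map_X, smul_eq_C_mul]
  have e2 := e G
  rw [hG, map_zero] at e2
  exact (modByMonic_eq_zero_iff_dvd (hm.map _)).1 ((smul_eq_zero.1 e2.symm).resolve_left hg0)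

variable [IsLocalRing R] (hres : ∀ r : R, ∃ f : A, r - algebraMap A R f ∈ maximalIdeal R)
include hres

lemma decomp (t : T) : ∃ b, t - algebraMap B T b ∈ (maximalIdeal R).map (algebraMap R T) := by
  refine po_ind h (fun t => ∃ b, t - algebraMap B T b ∈
    (maximalIdeal R).map (algebraMap R T)) ⟨0, by simp⟩ (fun r b => ?_) ?_ t
  · obtain ⟨f, hf⟩ := hres r
    refine ⟨b * algebraMap _ _ f, ?_⟩
    rw [map_mul, ← mul_sub, ← po_comm (R := R), ← map_sub]
    exact Ideal.mul_mem_left _ _ (Ideal.mem_map_of_mem _ hf)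
  · rintro x y ⟨b, hb⟩ ⟨b', hb'⟩
    exact ⟨b + b', by rw [map_add, add_sub_add_comm]; exact add_mem hb hb'⟩

variable [IsLocalRing A] [IsLocalHom (algebraMap A R)]

omit h hres in
lemma map_le (S : Set B) :
    ((maximalIdeal A).map (algebraMap A B) ⊔ Ideal.span S).map (algebraMap B T) ≤
      (maximalIdeal R).map (algebraMap R T) ⊔ Ideal.span (algebraMap B T '' S) := by
  rw [Ideal.map_sup, Ideal.map_span, Ideal.map_map, ← IsScalarTower.algebraMap_eq,
    IsScalarTower.algebraMap_eq A R T, ← Ideal.map_map]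
  exact sup_le_sup_right (Ideal.map_mono (map_maximalIdeal_le _)) _

lemma po_local [Nontrivial T] [IsLocalRing B] [Module.Finite A R] [IsNoetherianRing R] (S : Set B)
    (hB : maximalIdeal B = (maximalIdeal A).map (algebraMap A B) ⊔ Ideal.span S) :
    ∃ _ : IsLocalRing T, maximalIdeal T = (maximalIdeal R).map (algebraMap R T) ⊔
      Ideal.span (algebraMap B T '' S) := by
  have := po_finite h
  obtain ⟨a, ha⟩ := exists_pow_le_of_finite (A := A) (T := R)
  have h2 : (maximalIdeal R).map (algebraMap R T) ⊔ Ideal.span (algebraMap B T '' S) ≤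
      Ideal.jacobson ⊥ := by
    refine sup_le (Ideal.map_le_iff_le_comap.2 fun r hr => map_le_jacobson (A := B) (n := a) ?_)
      fun t ht => map_le_jacobson (A := B) (n := 1) ?_
    · have := Ideal.mem_map_of_mem (algebraMap R T) (ha (Ideal.pow_mem_pow hr a))
      rw [map_pow, Ideal.map_map, ← IsScalarTower.algebraMap_eq,
        IsScalarTower.algebraMap_eq A B T, ← Ideal.map_map] at this
      exact Ideal.map_mono (hB ▸ le_sup_left) this
    · rw [← Ideal.map_span] at ht
      rw [pow_one]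
      exact Ideal.map_mono (hB ▸ le_sup_right) ht
  refine isLocal_of_ideal _ (fun h => ?_) fun t ht => ?_
  · exact bot_ne_top (Ideal.jacobson_eq_top_iff.mp (eq_top_iff.mpr (h ▸ h2)))
  · obtain ⟨b, hb⟩ := decomp h hres t
    have hb' : b ∉ maximalIdeal _ := fun hm => ht (by
      rw [← sub_add_cancel t (algebraMap _ T b)]
      exact add_mem (Ideal.mem_sup_left hb) (map_le S (Ideal.mem_map_of_mem _ (hB ▸ hm))))
    obtain ⟨u, hu⟩ := (notMem_maximalIdeal.mp hb').map (algebraMap _ T)
    have := Ideal.mem_jacobson_bot.mp (h2 (Ideal.mem_sup_left hb)) (↑u⁻¹)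
    rw [← hu, sub_mul, Units.mul_inv, sub_add_cancel] at this
    exact isUnit_of_mul_isUnit_left this

lemma po_reg (S : Set B) (y : B)
    (hy : ∀ b, y * b ∈ (maximalIdeal A).map (algebraMap A B) ⊔ Ideal.span S →
      b ∈ (maximalIdeal A).map (algebraMap A B) ⊔ Ideal.span S) (t : T)
    (ht : algebraMap B T y * t ∈
      (maximalIdeal R).map (algebraMap R T) ⊔ Ideal.span (algebraMap B T '' S)) :
    t ∈ (maximalIdeal R).map (algebraMap R T) ⊔ Ideal.span (algebraMap B T '' S) := by
  let I : Ideal B := (maximalIdeal A).map (algebraMap A B) ⊔ Ideal.span S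
  obtain ⟨ψ₀, hψ₀⟩ := exists_desc ((residue R).comp (algebraMap A R)) (fun r => by
      obtain ⟨r, rfl⟩ := residue_surjective r
      obtain ⟨f, hf⟩ := hres r
      exact ⟨f, (Ideal.Quotient.eq.mpr hf).symm⟩)
    ((Ideal.Quotient.mk I).comp (algebraMap A B)) fun f hf =>
      Ideal.Quotient.eq_zero_iff_mem.mpr (Ideal.mem_sup_left (Ideal.mem_map_of_mem _
        fun hu => (residue_eq_zero_iff (algebraMap _ R f)).mp hf (hu.map _)))
  obtain ⟨ε, h1, h2⟩ := po_lift h (ψ₀.comp (residue R)) (Ideal.Quotient.mk I) hψ₀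
  have h3 : (maximalIdeal R).map (algebraMap R T) ≤ RingHom.ker ε :=
    Ideal.map_le_iff_le_comap.mpr fun r hr => by
      rw [Ideal.mem_comap, RingHom.mem_ker, h1, RingHom.comp_apply,
        (residue_eq_zero_iff _).mpr hr, map_zero]
  obtain ⟨b, hb⟩ := decomp h hres t
  have h4 : ε (algebraMap B T y * t) = 0 := by
    refine SetLike.le_def.mp (sup_le h3 (Ideal.span_le.mpr ?_)) ht
    rintro _ ⟨i, hi, rfl⟩
    rw [SetLike.mem_coe, RingHom.mem_ker, h2, Ideal.Quotient.eq_zero_iff_mem]
    exact Ideal.mem_sup_right (Ideal.subset_span hi)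
  have h5 := h3 hb
  rw [RingHom.mem_ker, map_sub, sub_eq_zero] at h5
  rw [map_mul, h5, h2, h2, ← map_mul, Ideal.Quotient.eq_zero_iff_mem] at h4
  rw [← sub_add_cancel t (algebraMap _ T b)]
  exact add_mem (Ideal.mem_sup_left hb) (map_le S (Ideal.mem_map_of_mem _ (hy b h4)))

end

lemma ln_dvr {p : ℕ} {C V : Type*} [CommRing C] [IsDomain C] [IsDiscreteValuationRing C]
    [CommRing V] [IsDomain V] [IsDiscreteValuationRing V]
    (hC : maximalIdeal C = Ideal.span {(p : C)}) (hV : maximalIdeal V = Ideal.span {(p : V)})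
    (σ : C →+* V) (a : C) : ln V (Ideal.span {σ a}) = ln C (Ideal.span {a}) := by
  have hm : (maximalIdeal C).map σ = maximalIdeal V := by
    rw [hC, hV, Ideal.map_span, Set.image_singleton, map_natCast]
  have hinj : Injective σ := by
    rw [RingHom.injective_iff_ker_eq_bot]
    by_contra hne
    have hk := eq_maximalIdeal (Ideal.IsPrime.isMaximal (RingHom.ker_isPrime σ) hne)
    refine IsDiscreteValuationRing.not_a_field V ?_
    rw [← hm, ← hk, Ideal.map_eq_bot_iff_le_ker]
  let _ := σ.toAlgebra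
  have : FaithfulSMul C V := (faithfulSMul_iff_algebraMap_injective C V).2 hinj
  have : IsLocalHom (algebraMap C V) := isLocalHom_of_map_le hm.le
  have := len_flat (B := V) (Ideal.span {a})
  rw [Ideal.map_span, Set.image_singleton, show (maximalIdeal C).map (algebraMap C V) = _ from hm,
    len_residue_one, mul_one] at this
  exact this

end TTX

variable (p : ℕ) [Fact p.Prime] {C : Type*} [CommRing C] [IsDomain C]
  [IsDiscreteValuationRing C] [IsAdicComplete (maximalIdeal C) C]
  (hC : maximalIdeal C = Ideal.span {(p : C)})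
  {V : Type v} [CommRing V] [IsDomain V] [IsDiscreteValuationRing V]
  [IsAdicComplete (maximalIdeal V) V] (hV : maximalIdeal V = Ideal.span {(p : V)})
  {S : Type*} [CommRing S] [IsLocalRing S] [IsNoetherianRing S]
  [IsAdicComplete (maximalIdeal S) S] [Algebra V S] [IsLocalHom (algebraMap V S)]
  (hresS : ∀ b : S, ∃ v : V, b - algebraMap V S v ∈ maximalIdeal S)
include hC hV hresS

open TTX in
/-- The ring `T` of the factorization `R → T → S`, with a birational hypersurface model. -/
theorem exists_T [Infinite (ResidueField C)]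
    {R : Type u} [CommRing R] [IsDomain R] [IsLocalRing R] [IsNoetherianRing R]
    [IsAdicComplete (maximalIdeal R) R] [Algebra C R] [IsLocalHom (algebraMap C R)]
    (hres : ∀ r : R, ∃ v : C, r - algebraMap C R v ∈ maximalIdeal R) (hp0 : (p : R) ≠ 0)
    [Algebra R S] [Module.Flat R S] [IsLocalHom (algebraMap R S)]
    (ha : Prim (maximalIdeal S) ((maximalIdeal R).map (algebraMap R S)))
    (d : ℕ) (hd : ringKrullDim R = (d + 1 : ℕ)) :
    ∃ (s : ℕ) (T : Type (max u v)) (_ : CommRing T) (_ : IsLocalRing T) (_ : IsNoetherianRing T)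
      (_ : Algebra (PS (s + d) V) T) (π : T →+* S) (x : T) (h : (PS (s + d) V)[X])
      (g : PS (s + d) V) (c : ℕ) (ι : Type) (_ : Fintype ι) (_ : DecidableEq ι)
      (F : Rs T s (RingHom.ker π) ι),
      Module.Finite (PS (s + d) V) T ∧ IsLocalHom (algebraMap (PS (s + d) V) T) ∧
      (∀ t : T, ∃ v : V,
        t - algebraMap (PS (s + d) V) T (MvPowerSeries.C v) ∈ maximalIdeal T) ∧
      Surjective π ∧ x ∈ maximalIdeal T ∧ h.Monic ∧
      (∀ G : (PS (s + d) V)[X], aeval x G = 0 ↔ h ∣ G) ∧ g ≠ 0 ∧ g ∈ maximalIdeal _ ∧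
      (∀ t : T, ∃ G : (PS (s + d) V)[X], aeval x G = algebraMap (PS (s + d) V) T g * t) ∧
      (∀ j, maximalIdeal T ^ (j + c) ≤ (Ideal.span {x} ⊔ Ideal.span (Set.range fun i =>
        algebraMap (PS (s + d) V) T (MvPowerSeries.X i))) ^ j) ∧
      (∀ μ ν, F.D μ ν ∈ maximalIdeal T) ∧
      (∀ q : Ideal T, q.IsPrime → RingHom.ker π ≤ q →
        ((d + 1 : ℕ) : WithBot ℕ∞) ≤ ringKrullDim (T ⧸ q) →
        algebraMap (PS (s + d) V) T g ∉ q ∧ aeval x (derivative h) ∉ q) ∧
      eU (maximalIdeal R) R (d + 1) ≤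
        ln V (Ideal.span {MvPowerSeries.constantCoeff (h.coeff 0)}) := by
  classical
  obtain ⟨φ, x, k, g, c, φC, φX, φfin, φinj, hx, hm, hk, hk', hg0, hg, hpow, hlen⟩ :=
    exists_hyp p hC hres hp0 d hd
  obtain ⟨s, ι, ev, hιf, hιi, hι, hev, -, hevι⟩ := exists_factorM p hC hV hresS
    ((algebraMap R S).comp φ) fun j => map_nonunit (algebraMap R S) _ (φX j)
  let _ := φ.toAlgebra
  let _ := ι.toAlgebra
  have : Module.Finite (PS d C) R := φfin
  have : Module.Flat (PS d C) (PS (s + d) V) := hιf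
  have hmA : maximalIdeal (PS d C) = Ideal.span {(p : PS d C)} ⊔ xI d C := by
    rw [max_PSV, hC, Ideal.map_span, Set.image_singleton, map_natCast]
  have hVp : (maximalIdeal V).map (MvPowerSeries.C : V →+* PS (s + d) V) =
      Ideal.span {(p : PS (s + d) V)} := by
    rw [hV, Ideal.map_span, Set.image_singleton, map_natCast]
  have hmap : ∀ σ : Set (Fin s), (maximalIdeal (PS d C)).map (algebraMap _ (PS (s + d) V)) ⊔
      Ideal.span ((fun i => MvPowerSeries.X (Fin.castAdd d i)) '' σ) =
      (maximalIdeal V).map (MvPowerSeries.C : V →+* PS (s + d) V) ⊔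
        Ideal.span (MvPowerSeries.X '' (Set.range (Fin.natAdd s) ∪ Fin.castAdd d '' σ)) := by
    intro σ
    rw [hmA, hVp, Ideal.map_sup, Ideal.map_span, Ideal.map_span, Set.image_singleton, map_natCast,
      Set.image_union, Ideal.span_union, ← Set.range_comp, ← Set.range_comp, Set.image_image,
      sup_assoc]
    congr 4
    exact funext hι
  have hB : maximalIdeal (PS (s + d) V) =
      (maximalIdeal (PS d C)).map (algebraMap _ (PS (s + d) V)) ⊔
        Ideal.span ((fun i => MvPowerSeries.X (Fin.castAdd d i)) '' Set.univ) := by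
    rw [hmap, max_PSV, xI, ← Set.image_univ]
    congr 3
    exact (Set.eq_univ_of_forall fun i => Fin.addCases (fun i => Or.inr ⟨i, trivial, rfl⟩)
      (fun i => Or.inl ⟨i, rfl⟩) i).symm
  have : IsLocalHom (algebraMap (PS d C) R) := isLocalHom_of_map_le (Ideal.map_le_iff_le_comap.2
    (eq_maximalIdeal (Ideal.isMaximal_comap_of_isIntegral_of_isMaximal _)).ge)
  have hres' : ∀ r : R, ∃ f : PS d C, r - algebraMap _ R f ∈ maximalIdeal R := fun r =>
    (hres r).elim fun v hv => ⟨MvPowerSeries.C v, (φC v).symm ▸ hv⟩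
  obtain ⟨T, _, _, _, _, _, _, h⟩ := exists_po (PS d C) R (PS (s + d) V)
  obtain ⟨π, hπR, hπB⟩ := po_lift h (algebraMap R S) ev fun f => (hevι f).symm
  have hπ : Surjective π := fun y => by
    obtain ⟨b, rfl⟩ := hev y
    exact ⟨_, hπB b⟩
  have : Nontrivial T := π.domain_nontrivial
  have hfin := po_finite h
  have := po_flat h
  have : IsNoetherianRing T := IsNoetherianRing.of_finite (PS (s + d) V) T
  obtain ⟨_, hn⟩ := po_local h hres' _ hB
  have hBT : (maximalIdeal (PS (s + d) V)).map (algebraMap _ T) ≤ maximalIdeal T := by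
    rw [hB, hn]; exact map_le _
  have hRT : (maximalIdeal R).map (algebraMap R T) ≤ maximalIdeal T := hn ▸ le_sup_left
  rw [Set.image_image, Set.image_univ] at hn
  have : Module.Flat R (T ⧸ RingHom.ker π) := Module.Flat.of_linearEquiv
    (Ideal.quotientKerAlgEquivOfSurjective (f := ({ π with commutes' := hπR } : T →ₐ[R] S))
      hπ).toLinearEquiv
  obtain ⟨ι', _, _, deg, D, μ₀, a1, a2, a3, a4, a5, a6, a7⟩ :=
    exists_res (maximalIdeal R) _ hn (fun j t ht => by
      rw [← Set.image_image] at ht ⊢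
      refine po_reg h hres' _ _ (fun b hb => ?_) t ht
      rw [hmap] at hb ⊢
      refine PSV_regular_set _ _ ?_ b hb
      rintro (⟨i, hi⟩ | ⟨i, hi, hi'⟩)
      · have := congrArg Fin.val hi
        simp at this; omega
      · exact (show i < j from hi).ne (Fin.castAdd_injective _ _ hi'))
      (RingHom.ker π) (RingHom.ker_ne_top π)
  have hpg : (p : PS d C) * g ≠ 0 :=
    mul_ne_zero (fun e => hp0 (by rw [← map_natCast φ, e, map_zero])) hg0
  have hg' : ∀ r : R, ∃ F : (PS d C)[X], aeval x F = algebraMap _ R (p * g) * r := fun r => by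
    obtain ⟨F, hF⟩ := hg (p * r)
    exact ⟨F, hF.trans (by rw [map_mul, map_natCast, mul_left_comm, mul_assoc]; rfl)⟩
  have hq : ∀ q : Ideal T, RingHom.ker π ≤ q → ((d + 1 : ℕ) : WithBot ℕ∞) ≤ ringKrullDim (T ⧸ q) →
      ∀ r : R, r ≠ 0 → algebraMap R T r ∉ q := fun q h1 h2 r hr hrq => by
    have e : ringKrullDim (T ⧸ RingHom.ker π) = (d + 1 : ℕ) := by
      rw [ringKrullDim_eq_of_ringEquiv (RingHom.quotientKerEquivOfSurjective hπ),
        dim_eq_of_flat ha, hd]
    have h3 := (h2.trans (dim_quot_anti (sup_le h1 ((Ideal.span_singleton_le_iff_mem _).2 hrq)))).trans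
      (dim_nzd _ _ (fun t ht => by
        rw [RingHom.mem_ker, map_mul, hπR, ← Algebra.smul_def] at ht
        exact (smul_eq_zero.1 ht).resolve_left hr) e.le)
    exact absurd (Nat.cast_le.1 h3) (by omega)
  refine ⟨s, T, _, _, ‹_›, _, π, algebraMap R T x, k.map ι, ι (p * g), c, ι', _, _,
    ⟨deg, D, μ₀, a1, a2, a3, a5, a6, a7⟩, hfin, isLocalHom_of_map_le hBT, fun t => ?_, hπ,
    hRT (Ideal.mem_map_of_mem _ hx), hm.map _,
    po_ker h x hm hk _ ((map_ne_zero_iff _ hιi).2 hpg) hg', (map_ne_zero_iff _ hιi).2 hpg, ?_,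
    po_onto h x _ hg', hn ▸ sup_pow_le (fun j => ?_) ?_, a4,
    fun q _ h1 h2 => ⟨?_, ?_⟩, hlen.trans (le_of_eq ?_)⟩
  · obtain ⟨b, hb⟩ := decomp h hres' t
    obtain ⟨v, hv⟩ := res_PSV b
    refine ⟨v, ?_⟩
    have := add_mem (hRT hb) (hBT (Ideal.mem_map_of_mem _ hv))
    rwa [map_sub, sub_add_sub_cancel] at this
  · rw [map_mul, map_natCast, max_PSV, hVp]
    exact Ideal.mem_sup_left (Ideal.mul_mem_right _ _ (Ideal.mem_span_singleton_self _))
  · rw [← Ideal.map_pow]
    refine (Ideal.map_mono (hpow j)).trans ?_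
    rw [Ideal.map_pow, Ideal.map_sup, Ideal.map_span, Ideal.map_span, Set.image_singleton]
    refine Ideal.pow_right_mono (sup_le_sup_left (Ideal.span_mono ?_) _) _
    rintro _ ⟨_, ⟨i, rfl⟩, rfl⟩
    exact ⟨_, (congrArg _ (hι i).symm).trans (po_comm (R := R) _).symm⟩
  · refine le_sup_of_le_right (Ideal.span_mono ?_)
    rintro _ ⟨i, rfl⟩
    exact ⟨_, rfl⟩
  · exact po_comm (R := R) (B := PS (s + d) V) (T := T) ((p : PS d C) * g) ▸
      hq q h1 h2 _ ((map_ne_zero_iff _ φinj).2 hpg)
  · rw [derivative_map]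
    exact aeval_map' (B := PS (s + d) V) (T := T) x (derivative k) ▸ hq q h1 h2 _ hk'
  · rw [← ln_dvr hC hV (MvPowerSeries.constantCoeff.comp (ι.comp MvPowerSeries.C)), coeff_map]
    congr 4
    have e : (xI d C).map ι ≤ xI (s + d) V := by
      rw [Ideal.map_span, Ideal.span_le]
      rintro _ ⟨_, ⟨i, rfl⟩, rfl⟩
      exact hι i ▸ Ideal.subset_span ⟨_, rfl⟩
    have := (mem_xI_iff _).1 (e (Ideal.mem_map_of_mem ι ((mem_xI_iff
      (k.coeff 0 - MvPowerSeries.C (MvPowerSeries.constantCoeff (k.coeff 0)))).2 (by simp))))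
    rw [map_sub, map_sub, sub_eq_zero] at this
    exact this.symm

end Vale.Agent.P202
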