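import Vale.Agent.P202M.CoreA
import Vale.Agent.P202M.AddV
import Vale.Agent.P202M.TT

/-! The inequality for complete domains of mixed characteristic. -/

open IsLocalRing Function Polynomial
open scoped ENNReal

namespace Vale.Agent.P202

open LamX CoreX

namespace CoreX

lemma range_cons_comp {A α : Type*} {n : ℕ} (u : α → A) (a : α) (b : Fin n → α) :
    (Set.range fun i => u ((Fin.cons a b : Fin (n + 1) → α) i)) =
      insert (u a) (Set.range fun i => u (b i)) := by
  rw [← Fin.range_cons]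
  congr 1
  ext1 i
  refine Fin.cases rfl (fun i => rfl) i

theorem core_T (p : ℕ) [Fact p.Prime] {V : Type*} [CommRing V] [IsDomain V]
    [IsDiscreteValuationRing V] [IsAdicComplete (maximalIdeal V) V] [IsAlgClosed (ResidueField V)]
    (hV : maximalIdeal V = Ideal.span {(p : V)}) {s d : ℕ} {T : Type*} [CommRing T] [IsLocalRing T]
    [Algebra (PS (s + d) V) T] [Module.Finite (PS (s + d) V) T]
    [IsLocalHom (algebraMap (PS (s + d) V) T)] {J : Ideal T} {x : T} {h : (PS (s + d) V)[X]}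
    {g : PS (s + d) V} {c c' : ℕ} {ι : Type} [Fintype ι] [DecidableEq ι] (F : Rs T s J ι)
    (hres : ∀ t : T, ∃ v : V,
      t - algebraMap (PS (s + d) V) T (MvPowerSeries.C v) ∈ maximalIdeal T)
    (hx : x ∈ maximalIdeal T) (hm : h.Monic)
    (hker : ∀ G : (PS (s + d) V)[X], aeval x G = 0 ↔ h ∣ G) (hg0 : g ≠ 0)
    (hgm : g ∈ maximalIdeal _)
    (hg : ∀ t : T, ∃ G : (PS (s + d) V)[X], aeval x G = algebraMap (PS (s + d) V) T g * t)
    (hn : ∀ j, maximalIdeal T ^ (j + c) ≤ (Ideal.span {x} ⊔ Ideal.span (Set.range fun i =>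
      algebraMap (PS (s + d) V) T (MvPowerSeries.X i))) ^ j)
    (hF : ∀ μ ν, F.D μ ν ∈ maximalIdeal T)
    (hreg : ∀ q : Ideal T, q.IsPrime → J ≤ q →
      ((d + 1 : ℕ) : WithBot ℕ∞) ≤ ringKrullDim (T ⧸ q) →
      algebraMap (PS (s + d) V) T g ∉ q ∧ aeval x (derivative h) ∉ q)
    (hJ : ringKrullDim (T ⧸ J) ≤ (d + 1 : ℕ)) (z : Fin (d + 1) → T)
    (hzm : ∀ i, z i ∈ maximalIdeal T)
    (hz : ∀ j, maximalIdeal T ^ (j + c') ≤ J ⊔ Ideal.span (Set.range z) ^ j) :
    (ln V (Ideal.span {MvPowerSeries.constantCoeff (h.coeff 0)}) : ℝ≥0∞) ≤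
      eL (maximalIdeal T) (T ⧸ J) (d + 1) := by
  obtain ⟨m, ρ, hρ⟩ := Module.Finite.exists_fin (R := PS (s + d) V) (M := T)
  obtain ⟨k, ν, hν⟩ := Submodule.fg_iff_exists_fin_generating_family.mp
    (IsNoetherian.noetherian ((maximalIdeal T).restrictScalars (PS (s + d) V)))
  set γ := algebraMap (PS (s + d) V) T g with hγ
  have hγm : γ ∈ maximalIdeal T := map_nonunit _ _ hgm
  let e : Fin (m + k + 1 + 1) → T :=
    Fin.cons x (Fin.cons γ (Fin.append (fun i => γ * ρ i) fun i => γ * ν i))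
  have he : ∀ i, e i = x ∨ ∃ t, e i = γ * t := fun i => by
    refine Fin.cases (Or.inl rfl) (fun i => Or.inr ?_) i
    refine Fin.cases ⟨1, by simp [e]⟩ (fun i => ?_) i
    refine Fin.addCases (fun i => ⟨ρ i, by simp [e]⟩) (fun i => ⟨ν i, by simp [e]⟩) i
  obtain ⟨χ, f, c1, c2, c3, c4, c5⟩ := add_vars x h hm hker e rfl (fun i => by
      rcases he i with h | ⟨t, h⟩
      · rwa [h]
      · rw [h]; exact Ideal.mul_mem_right _ _ hγm) (fun i => by
      rcases he i with h | ⟨t, h⟩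
      · exact ⟨X, by rw [h, aeval_X]⟩
      · rw [h]; exact hg t)
  let : Algebra (PS (s + d + (m + k + 1 + 1)) V) T := χ.toAlgebra
  have hχ : algebraMap (PS (s + d + (m + k + 1 + 1)) V) T = χ := rfl
  have hsp := span_le_span (B₀ := PS (s + d) V) (B := PS (s + d + (m + k + 1 + 1)) V) (T := T)
    fun b => ⟨_, c1 b⟩
  have hρ' : Submodule.span (PS (s + d + (m + k + 1 + 1)) V) (Set.range ρ) = ⊤ :=
    eq_top_iff.mpr fun t _ => hsp _ (by rw [hρ]; trivial)
  have hfin : Module.Finite (PS (s + d + (m + k + 1 + 1)) V) T :=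
    ⟨Submodule.fg_iff_exists_fin_generating_family.mpr ⟨m, ρ, hρ'⟩⟩
  have hν' : Submodule.span (PS (s + d + (m + k + 1 + 1)) V) (Set.range ν) =
      (maximalIdeal T).restrictScalars _ := by
    refine le_antisymm (Submodule.span_le.mpr ?_) fun t ht => hsp _ (by rw [hν]; exact ht)
    rintro _ ⟨i, rfl⟩
    exact hν.le (Submodule.subset_span ⟨i, rfl⟩)
  let G : Fin (s + d + (m + k + 1 + 1)) := Fin.natAdd (s + d) (Fin.succ 0)
  have hG : χ (MvPowerSeries.X G) = γ := by rw [c2]; simp [e]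
  have hx0 : χ (MvPowerSeries.X (Fin.natAdd (s + d) 0)) = x := by rw [c2]; rfl
  let y : Fin (s + d + 1) → Fin (s + d + (m + k + 1 + 1)) :=
    Fin.cons (Fin.natAdd (s + d) 0) (Fin.castAdd _)
  have hy : Injective y := by
    refine Fin.cons_injective_iff.mpr ⟨?_, Fin.castAdd_injective _ _⟩
    rintro ⟨i, hi⟩
    have := congrArg Fin.val hi
    simp at this
    omega
  have hyG : ∀ i, y i ≠ G := fun i => by
    refine Fin.cases (fun hi => ?_) (fun i hi => ?_) i
    · simpa [y, G] using congrArg Fin.val hi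
    · have := congrArg Fin.val hi
      simp [y, G] at this
      omega
  have hpoly : ∀ F : (PS (s + d) V)[X], ∃ b, χ b = aeval x F := fun F => by
    induction F using Polynomial.induction_on' with
    | add F F' h h' =>
      obtain ⟨b, hb⟩ := h
      obtain ⟨b', hb'⟩ := h'
      exact ⟨b + b', by rw [map_add, map_add, hb, hb']⟩
    | monomial n a =>
      exact ⟨_ * MvPowerSeries.X (Fin.natAdd (s + d) 0) ^ n, by
        rw [map_mul, c1 a, map_pow, hx0, aeval_monomial]⟩
  have hg' : ∀ t : T, ∃ b, χ b = χ (MvPowerSeries.X G) * t := fun t => by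
    obtain ⟨F, hF⟩ := hg t
    obtain ⟨b, hb⟩ := hpoly F
    exact ⟨b, by rw [hb, hF, hG]⟩
  have hn' : ∀ j, maximalIdeal T ^ (j + c) ≤
      Ideal.span (Set.range fun i => χ (MvPowerSeries.X (y i))) ^ j := fun j => by
    rw [range_cons_comp fun i => χ (MvPowerSeries.X i), Ideal.span_insert, hx0]
    simp only [← c1, MvPowerSeries.rename_X] at hn
    exact hn j
  have hXm : ∀ i, (MvPowerSeries.X i : PS (s + d + (m + k + 1 + 1)) V) ∈ maximalIdeal _ :=
    fun i => by rw [max_PSV]; exact Ideal.mem_sup_right (Ideal.subset_span ⟨i, rfl⟩)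
  have hprim : Prim (maximalIdeal (PS (s + d + (m + k + 1 + 1)) V)) (Ideal.span (Set.range f) ⊔
      Ideal.span (Set.range fun i => MvPowerSeries.X (y i))) := by
    rw [← c3]
    refine prim_of_integral (T := T) _ ⟨1 + c, ?_⟩
    rw [map_span_range]
    exact (hn' 1).trans (pow_one _).le
  have hdim := dim_le_of_prim _ _ (fun i => hXm (y i)) hprim
  obtain ⟨ξ, hξm, hξ⟩ := exists_sop _ (dim_nzd _ (MvPowerSeries.X G) (fun b hb => by
    rw [← c3, RingHom.mem_ker] at hb ⊢
    obtain ⟨F, hF⟩ := c4 b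
    rw [map_mul, hG, ← hF, hγ, ← aeval_C x, ← map_mul, hker] at hb
    rw [← hF, hker]
    exact dvd_of_C_mul hm hg0 hb) hdim)
  rw [sup_assoc] at hξ
  have hyT : ∀ i, χ (MvPowerSeries.X (y i)) ^ (1 + c') ∈ J ⊔ Ideal.span (Set.range z) := fun i => by
    have := hz 1 (Ideal.pow_mem_pow (show χ (MvPowerSeries.X (y i)) ∈ maximalIdeal T from
      Ideal.mem_comap.mp ((comap_max (T := T)).ge (hXm (y i)))) _)
    rwa [pow_one] at this
  have : Infinite (ResidueField (PS (s + d + (m + k + 1 + 1)) V)) :=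
    infinite_res (MvPowerSeries.C : V →+* _) fun v hv => by
      rw [max_PSV]; exact Ideal.mem_sup_left (Ideal.mem_map_of_mem _ hv)
  refine le_trans ?_ (le_of_sub_pow_le (d := s + (d + 1)) (s + (d + 1) + 1)
    (x := ln (PS (s + d + (m + k + 1 + 1)) V) (Ideal.span (Set.range f) ⊔
      Ideal.span (Set.range fun i => MvPowerSeries.X (y i)))) fun q hq => ?_)
  · rw [range_cons_comp MvPowerSeries.X, Ideal.span_insert, sup_comm (Ideal.span {_})]
    exact ENat.toENNReal_le.mpr c5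
  obtain ⟨lam, l1, l2, l3, l4⟩ := exists_lambda p hV (s := s) (d := d + 1) (D' := s + d)
    (r := m + k + 1 + 1) (by omega) rfl f c3 G y hy hyG hprim ξ hξ hξm hg' ρ hρ'
    (fun i => ⟨Fin.natAdd (s + d) (Fin.castAdd k i).succ.succ, by rw [hχ, c2, hG]; simp [e]⟩)
    (maximalIdeal T) ν hν'
    (fun i => ⟨Fin.natAdd (s + d) (Fin.natAdd m i).succ.succ, by rw [hχ, c2, hG]; simp [e]⟩)
    c hn' F z hF hzm (1 + c') hyT q hq
  refine l4.trans (mul_le_mul_right ?_ _)
  refine ub_quot (s := s) (d := d) (MvPowerSeries.rename (Fin.castAdd (m + k + 1 + 1))).toRingHom c1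
    (fun t => (hres t).elim fun v hv => ⟨_, by rwa [← c1] at hv⟩) c3
    (by
      rw [show m + k + 1 + 1 + (s + (d + 1)) = s + d + (m + k + 1 + 1) + 1 by omega]
      exact cm_PSV _) hdim (MvPowerSeries.X G) hg' (MvPowerSeries.X (Fin.natAdd (s + d) 0)) h hm
    (by rw [hχ, hx0, hker]) (by rw [hχ, hx0]; exact c4) J hJ (fun Q _ h1 h2 => ?_) z hzm c' hz
    l1 l2 l3
  obtain ⟨k1, k2⟩ := hreg Q ‹_› h1 h2
  rw [hχ, hG, hx0]
  exact ⟨k1, k2, reg_PSV (s + d) s (d + 1) rfl _ (by rwa [dim_quot_comap])⟩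

end CoreX

theorem core_mixed (p : ℕ) [Fact p.Prime] {C : Type*} [CommRing C] [IsDomain C]
    [IsDiscreteValuationRing C] [IsAdicComplete (maximalIdeal C) C] [Infinite (ResidueField C)]
    (hC : maximalIdeal C = Ideal.span {(p : C)})
    {V : Type*} [CommRing V] [IsDomain V] [IsDiscreteValuationRing V]
    [IsAdicComplete (maximalIdeal V) V] [IsAlgClosed (ResidueField V)]
    (hV : maximalIdeal V = Ideal.span {(p : V)})
    {S : Type*} [CommRing S] [IsLocalRing S] [IsNoetherianRing S]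
    [IsAdicComplete (maximalIdeal S) S] [Algebra V S] [IsLocalHom (algebraMap V S)]
    (hresS : ∀ b : S, ∃ v : V, b - algebraMap V S v ∈ maximalIdeal S)
    {R : Type*} [CommRing R] [IsDomain R] [IsLocalRing R] [IsNoetherianRing R]
    [IsAdicComplete (maximalIdeal R) R] [Algebra C R] [IsLocalHom (algebraMap C R)]
    (hres : ∀ r : R, ∃ v : C, r - algebraMap C R v ∈ maximalIdeal R) (hp0 : (p : R) ≠ 0)
    [Algebra R S] [Module.Flat R S] [IsLocalHom (algebraMap R S)]
    (ha : Prim (maximalIdeal S) ((maximalIdeal R).map (algebraMap R S)))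
    (d : ℕ) (hd : ringKrullDim R = d) :
    eU (maximalIdeal R) R d ≤ eL (maximalIdeal S) S d := by
  have hpm : (p : R) ∈ maximalIdeal R := by
    have := map_nonunit (algebraMap C R) (p : C) (hC ▸ Ideal.mem_span_singleton_self _)
    rwa [map_natCast] at this
  obtain _ | d := d
  · have : Ring.KrullDimLE 0 R := ringKrullDimZero_iff_ringKrullDim_eq_zero.mpr hd
    rw [(isField_iff_maximalIdeal_eq.mp Ring.KrullDimLE.isField_of_isDomain)] at hpm
    exact absurd hpm hp0
  obtain ⟨s, T, _, _, _, _, π, x, h, g, c, ι, _, _, F, t1, t2, t3, t4, t5, t6, t7, t8, t9, t10, t11,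
    t12, t13, t14⟩ := exists_T p hC hV hresS hres hp0 ha d hd
  have : Infinite (ResidueField S) := infinite_res (algebraMap V S) (map_nonunit _)
  have hdS : ringKrullDim S = (d + 1 : ℕ) := (dim_eq_of_flat ha).trans hd
  obtain ⟨w, hw⟩ := exists_red (maximalIdeal S) le_rfl ⟨1, (pow_one _).le⟩ hdS.le
  choose z hz using fun i => t4 (w i)
  have hmap : (maximalIdeal T).map π = maximalIdeal S := map_maximalIdeal_of_surjective _ t4
  have : IsLocalHom π := IsLocalHom.of_surjective _ t4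
  obtain ⟨c', hc'⟩ := hw.pow_le
  refine t14.trans ((core_T p hV F t3 t5 t6 t7 t8 t9 t10 t11 t12 t13 ?_ z (fun i => ?_) (c' := c')
    fun j => ?_).trans ?_)
  · rw [ringKrullDim_eq_of_ringEquiv (RingHom.quotientKerEquivOfSurjective t4), hdS]
  · have : π (z i) ∈ maximalIdeal S := hz i ▸ hw.1 (Ideal.subset_span ⟨i, rfl⟩)
    exact fun hu => this (hu.map π)
  · rw [sup_comm, RingHom.ker_eq_comap_bot, ← Ideal.comap_map_of_surjective π t4,
      ← Ideal.map_le_iff_le_comap, Ideal.map_pow, Ideal.map_pow, hmap, map_span_range]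
    simp only [hz]
    exact hc' j
  · let : Algebra T S := π.toAlgebra
    refine (eL_congr _ (Ideal.quotientKerAlgEquivOfSurjective
      (f := Algebra.ofId T S) t4).toLinearEquiv).le.trans ?_
    rw [(eU_surj (M := S) (show Surjective (algebraMap T S) from t4) _).2]
    exact hmap ▸ le_rfl

end Vale.Agent.P202
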