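import Vale.Agent.P202M.Mul

/-! Dimension theory and reductions. -/

open IsLocalRing Filter Function
open scoped ENNReal

namespace Vale.Agent.P202

namespace DimX

variable {A : Type*} [CommRing A]

lemma sup_pow_le {I J K : Ideal A} {N : ℕ} (h : ∀ i j, i + j = N → I ^ i * J ^ j ≤ K) :
    (I ⊔ J) ^ N ≤ K := by
  rw [← Ideal.add_eq_sup, add_pow]
  refine Finset.sum_induction _ (fun L => L ≤ K) (fun a b ha hb => sup_le ha hb) bot_le ?_
  intro m hm
  exact Ideal.mul_le_left.trans (h m (N - m) (by have := Finset.mem_range.1 hm; omega))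

lemma sup_pow_le' (K I : Ideal A) (N : ℕ) : (K ⊔ I) ^ N ≤ K ⊔ I ^ N := by
  refine sup_pow_le fun i j hij => ?_
  rcases i with _ | i
  · rw [pow_zero, one_mul, ← hij, zero_add]; exact le_sup_right
  · exact (Ideal.mul_le_left.trans (Ideal.pow_le_self (by omega))).trans le_sup_left

lemma brk {ι : Type*} (w : ι → A) (n : ℕ) (s : Finset ι) : ∀ N, s.card * n ≤ N →
    Ideal.span (w '' s) ^ (N + n) ≤
      Ideal.span ((fun i => w i ^ n) '' s) * Ideal.span (w '' s) ^ N ∨ (n = 0 ∧ s = ∅) := by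
  classical
  rcases Nat.eq_zero_or_pos n with rfl | hn
  · intro N _
    rcases s.eq_empty_or_nonempty with rfl | ⟨a, ha⟩
    · exact Or.inr ⟨rfl, rfl⟩
    · left
      rw [(Ideal.eq_top_iff_one (Ideal.span ((fun i => w i ^ 0) '' s))).2
        (Ideal.subset_span ⟨a, ha, pow_zero _⟩)]
      simp
  intro N hN
  left
  induction s using Finset.induction_on generalizing N with
  | empty =>
    refine (Ideal.pow_le_self (by omega)).trans ?_
    rw [Finset.coe_empty, Set.image_empty, Ideal.span_empty]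
    exact bot_le
  | insert a s ha ih =>
    rw [Finset.card_insert_of_notMem ha, add_mul, one_mul] at hN
    rw [Finset.coe_insert, Set.image_insert_eq, Set.image_insert_eq, Ideal.span_insert,
      Ideal.span_insert]
    refine sup_pow_le fun i j hij => ?_
    by_cases hi : n ≤ i
    · obtain ⟨i, rfl⟩ := Nat.exists_eq_add_of_le hi
      rw [pow_add, mul_assoc, Ideal.span_singleton_pow, show N = i + j by omega, pow_add]
      gcongr
      · exact le_sup_left
      · exact le_sup_left
      · exact le_sup_right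
    · obtain ⟨j, rfl⟩ : ∃ k, j = k + n := ⟨j - n, by omega⟩
      refine (Ideal.mul_mono_right (ih j (by omega))).trans ?_
      rw [mul_left_comm, show N = i + j by omega, pow_add]
      gcongr
      · exact le_sup_right
      · exact le_sup_left
      · exact le_sup_right

lemma brk' {ι : Type*} [Fintype ι] (w : ι → A) {n : ℕ} (hn : 0 < n) {N : ℕ}
    (h : Fintype.card ι * n ≤ N) : Ideal.span (Set.range w) ^ (N + n) ≤
      Ideal.span (Set.range fun i => w i ^ n) * Ideal.span (Set.range w) ^ N := by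
  rcases brk w n Finset.univ N h with h | h
  · simpa only [Finset.coe_univ, Set.image_univ] using h
  · omega

lemma dim_le_iff (I : Ideal A) (c : WithBot ℕ∞) : ringKrullDim (A ⧸ I) ≤ c ↔
    ∀ P : PrimeSpectrum A, I ≤ P.asIdeal → (Order.coheight P : WithBot ℕ∞) ≤ c := by
  rw [ringKrullDim_quotient]
  constructor
  · intro h P hP
    rw [Order.coheight_eq_krullDim_Ici]
    refine le_trans (Order.krullDim_le_of_strictMono
      (Set.inclusion (show Set.Ici P ⊆ PrimeSpectrum.zeroLocus (I : Set A) from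
        fun Q hQ => fun x hx => hQ (hP hx))) fun _ _ h => h) h
  · intro h
    refine iSup_le fun l => ?_
    let l' : LTSeries (PrimeSpectrum A) := l.map Subtype.val fun _ _ h => h
    refine le_trans ?_ (h l'.head l.head.2)
    exact_mod_cast Order.length_le_coheight_head (p := l')

lemma step {I J : Ideal A} {n : ℕ} (hI : ringKrullDim (A ⧸ I) ≤ (n + 1 : ℕ))
    (h : ∀ P ∈ I.minimalPrimes, J ≤ P → ringKrullDim (A ⧸ P) ≤ n) :
    ringKrullDim (A ⧸ (I ⊔ J)) ≤ n := by
  rw [dim_le_iff] at hI ⊢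
  intro Q hQ
  obtain ⟨P, hP, hPQ⟩ := Ideal.exists_minimalPrimes_le (le_sup_left.trans hQ)
  by_cases hJ : J ≤ P
  · exact (dim_le_iff _ _).1 (h P hP hJ) Q hPQ
  · have h1 := Order.coheight_add_one_le (show (⟨P, hP.1.1⟩ : PrimeSpectrum A) < Q from
      lt_of_le_of_ne hPQ fun e => hJ (by
        have := le_sup_right.trans hQ
        rwa [← e] at this))
    have h2 := hI ⟨P, hP.1.1⟩ hP.1.2
    have h3 : Order.coheight Q + 1 ≤ (n : ℕ∞) + 1 := h1.trans (by exact_mod_cast h2)
    exact_mod_cast (ENat.add_le_add_iff_right ENat.one_ne_top).1 h3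

lemma coset (q : Ideal A) (x : A) (s : Finset (Ideal A)) (h : ∀ P ∈ s, P.IsPrime ∧ ¬ q ≤ P)
    (h' : ∀ P ∈ s, ∀ Q ∈ s, P ≤ Q → P = Q) : ∃ b ∈ q, ∀ P ∈ s, x + b ∉ P := by
  classical
  induction s using Finset.induction_on with
  | empty => exact ⟨0, q.zero_mem, by simp⟩
  | insert P s hP ih =>
    obtain ⟨b, hb, hb'⟩ := ih (fun Q hQ => h Q (Finset.mem_insert_of_mem hQ))
      fun Q hQ R hR => h' Q (Finset.mem_insert_of_mem hQ) R (Finset.mem_insert_of_mem hR)
    by_cases hx : x + b ∈ P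
    · obtain ⟨p1, p2⟩ := h P (Finset.mem_insert_self _ _)
      have : ¬ q ⊓ s.inf id ≤ P := by
        rw [p1.inf_le, p1.inf_le']
        rintro (e | ⟨Q, hQ, e⟩)
        · exact p2 e
        · exact hP (h' Q (Finset.mem_insert_of_mem hQ) P (Finset.mem_insert_self _ _) e ▸ hQ)
      obtain ⟨c, hc, hc'⟩ := SetLike.not_le_iff_exists.1 this
      refine ⟨b + c, q.add_mem hb hc.1, fun Q hQ e => ?_⟩
      rw [← add_assoc] at e
      rcases Finset.mem_insert.1 hQ with rfl | hQ
      · exact hc' ((Q.add_mem_iff_right hx).1 e)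
      · exact hb' Q hQ ((Q.add_mem_iff_left (Finset.inf_le (f := id) hQ hc.2)).1 e)
    · exact ⟨b, hb, fun Q hQ => by
        rcases Finset.mem_insert.1 hQ with rfl | hQ
        exacts [hx, hb' Q hQ]⟩

lemma len_add {α : Type*} [Preorder α] (l : LTSeries α) :
    (l.length : ℕ∞) + Order.coheight l.last ≤ Order.coheight l.head := by
  have : ∀ i : Fin (l.length + 1), ((i : ℕ) : ℕ∞) + Order.coheight (l i) ≤
      Order.coheight l.head := by
    intro i
    induction i using Fin.induction with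
    | zero => simp [RelSeries.head]
    | succ i ih =>
      refine le_trans ?_ ih
      have := Order.coheight_add_one_le (l.step i)
      rw [Fin.val_succ, Fin.val_castSucc, Nat.cast_succ, add_assoc, add_comm 1]
      gcongr
  simpa [RelSeries.last] using this (Fin.last _)

lemma avoid [IsNoetherianRing A] {n : ℕ} (I q : Ideal A) (x : A)
    (hI : ringKrullDim (A ⧸ I) ≤ (n + 1 : ℕ)) (hq : ringKrullDim (A ⧸ (I ⊔ q)) ≤ n) :
    ∃ b ∈ q, ringKrullDim (A ⧸ (I ⊔ Ideal.span {x + b})) ≤ n := by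
  classical
  obtain ⟨b, hb, hb'⟩ := coset q x ((I.finite_minimalPrimes_of_isNoetherianRing A).toFinset.filter
    fun P => ¬ q ≤ P) (fun P hP => by
      simp only [Finset.mem_filter, Set.Finite.mem_toFinset] at hP
      exact ⟨hP.1.1.1, hP.2⟩) (fun P hP Q hQ e => by
      simp only [Finset.mem_filter, Set.Finite.mem_toFinset] at hP hQ
      exact le_antisymm e (hQ.1.2 hP.1.1 e))
  refine ⟨b, hb, step hI fun P hP hJ => ?_⟩
  by_cases h : q ≤ P
  · rw [dim_le_iff] at hq ⊢
    exact fun Q hQ => hq Q ((sup_le hP.1.2 h).trans hQ)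
  · exact (hb' P (by simp [hP, h]) (hJ (Ideal.mem_span_singleton_self _))).elim

end DimX

open DimX

section red
variable {A : Type*} [CommRing A]

theorem IsRed.refl' (I : Ideal A) : IsRed I I := by
  exact ⟨le_rfl, 0, by simp⟩

theorem IsRed.trans' {I J K : Ideal A} (h : IsRed I J) (h' : IsRed J K) : IsRed I K := by
  obtain ⟨h1, c, hc⟩ := h
  obtain ⟨h2, e, he⟩ := h'
  have key : ∀ j, K ^ (j + e) ≤ J ^ j * K ^ e := by
    intro j
    induction j with
    | zero => simp
    | succ j ih =>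
      calc K ^ (j + 1 + e) = K ^ (j + e) * K := by ring
        _ ≤ J ^ j * K ^ e * K := Ideal.mul_mono_left ih
        _ = J ^ j * K ^ (e + 1) := by ring
        _ ≤ J ^ j * (J * K ^ e) := Ideal.mul_mono_right he
        _ = J ^ (j + 1) * K ^ e := by ring
  refine ⟨h1.trans h2, c + e, ?_⟩
  calc K ^ (c + e + 1) = K ^ (c + 1 + e) := by ring
    _ ≤ J ^ (c + 1) * K ^ e := key _
    _ ≤ I * K ^ c * K ^ e :=
        Ideal.mul_mono_left (hc.trans (Ideal.mul_mono_right (Ideal.pow_right_mono h2 c)))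
    _ = I * K ^ (c + e) := by ring

theorem IsRed.sup_right {I J : Ideal A} (h : IsRed I J) (K : Ideal A) :
    IsRed (I ⊔ K) (J ⊔ K) := by
  obtain ⟨h1, c, hc⟩ := h
  refine ⟨sup_le_sup_right h1 K, c, DimX.sup_pow_le fun i j hij => ?_⟩
  rcases j with _ | j
  · rw [pow_zero, mul_one, show i = c + 1 by omega]
    exact hc.trans (Ideal.mul_mono le_sup_left (Ideal.pow_right_mono le_sup_left c))
  · rw [pow_succ', mul_left_comm, show c = i + j by omega, pow_add]
    exact Ideal.mul_mono le_sup_right (Ideal.mul_mono (Ideal.pow_right_mono le_sup_left _)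
      (Ideal.pow_right_mono le_sup_right _))

/-- A larger ideal between `I` and `J` is again a reduction. -/
theorem IsRed.of_le {I I' J : Ideal A} (h : IsRed I J) (h1 : I ≤ I') (h2 : I' ≤ J) :
    IsRed I' J := by
  obtain ⟨-, c, hc⟩ := h
  exact ⟨h2, c, hc.trans (Ideal.mul_mono_left h1)⟩

theorem isRed_bracket {ι : Type*} [Finite ι] (w : ι → A) {n : ℕ} (hn : 0 < n) :
    IsRed (Ideal.span (Set.range fun i => w i ^ n)) (Ideal.span (Set.range w) ^ n) := by
  have := Fintype.ofFinite ι
  refine ⟨Ideal.span_le.2 ?_, Fintype.card ι, ?_⟩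
  · rintro _ ⟨i, rfl⟩
    exact Ideal.pow_mem_pow (Ideal.subset_span (Set.mem_range_self i)) n
  · rw [← pow_mul, ← pow_mul, mul_add, mul_one]
    exact brk' w hn (mul_comm _ _).le

theorem pow_le_bracket_pow {d : ℕ} (w : Fin d → A) {n : ℕ} (hn : 0 < n) (j : ℕ) :
    Ideal.span (Set.range w) ^ (n * j + d * n) ≤
      Ideal.span (Set.range fun i => w i ^ n) ^ j := by
  induction j with
  | zero => simp
  | succ j ih =>
    rw [show n * (j + 1) + d * n = n * j + d * n + n by ring, pow_succ']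
    exact (brk' w hn (by simp)).trans (Ideal.mul_mono_right ih)

/-- Nakayama for reductions. -/
theorem isRed_of_nak [IsLocalRing A] [IsNoetherianRing A] {I J : Ideal A} (h : I ≤ J)
    (h' : IsRed (I ⊔ maximalIdeal A * J) J) : IsRed I J := by
  obtain ⟨-, c, hc⟩ := h'
  refine ⟨h, c, Submodule.le_of_le_smul_of_le_jacobson_bot (I := maximalIdeal A)
    (IsNoetherian.noetherian _) (maximalIdeal_le_jacobson _) ?_⟩
  rwa [Ideal.sup_mul, mul_assoc, ← pow_succ'] at hc

theorem Prim.span_pow {m K : Ideal A} {ι : Type*} [Finite ι] {w : ι → A}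
    (h : Prim m (K ⊔ Ideal.span (Set.range w))) (e : ι → ℕ) :
    Prim m (K ⊔ Ideal.span (Set.range fun i => w i ^ e i)) := by
  obtain ⟨a, ha⟩ := h
  obtain ⟨N, hN⟩ := Ideal.exists_pow_le_of_le_radical_of_fg
    (I := Ideal.span (Set.range w)) (J := Ideal.span (Set.range fun i => w i ^ e i))
    (Ideal.span_le.2 (by
      rintro _ ⟨i, rfl⟩
      exact ⟨e i, Ideal.subset_span ⟨i, rfl⟩⟩))
    (Submodule.fg_span (Set.finite_range w))
  refine ⟨a * N, ?_⟩
  rw [pow_mul]
  exact (Ideal.pow_right_mono ha N).trans ((sup_pow_le' _ _ _).trans (sup_le_sup_left hN K))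

end red

variable {A : Type*} [CommRing A] [IsLocalRing A] [IsNoetherianRing A] {n : ℕ}

theorem exists_sop (K : Ideal A) (h : ringKrullDim (A ⧸ K) ≤ n) :
    ∃ w : Fin n → A, (∀ i, w i ∈ maximalIdeal A) ∧
      Prim (maximalIdeal A) (K ⊔ Ideal.span (Set.range w)) := by
  induction n generalizing K with
  | zero =>
    refine ⟨Fin.elim0, fun i => i.elim0, Prim.mono ?_ le_sup_left⟩
    refine Ideal.exists_pow_le_of_le_radical_of_fg ?_ (IsNoetherian.noetherian _)
    rw [Ideal.radical_eq_sInf]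
    refine le_sInf fun P hP => ?_
    have h1 := (dim_le_iff _ _).1 h ⟨P, hP.2⟩ hP.1
    have h2 : IsMax (⟨P, hP.2⟩ : PrimeSpectrum A) := by
      rw [← Order.coheight_eq_zero, ← nonpos_iff_eq_zero]
      exact_mod_cast h1
    exact h2 (show (⟨P, hP.2⟩ : PrimeSpectrum A) ≤ closedPoint A from
      le_maximalIdeal hP.2.ne_top)
  | succ n ih =>
    obtain ⟨b, hb, h1⟩ := avoid K (maximalIdeal A) 0 h (by
      rw [dim_le_iff]
      intro P hP
      have : IsMax P := fun Q _ => (le_maximalIdeal Q.2.ne_top).trans (le_sup_right.trans hP)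
      rw [Order.coheight_eq_zero.2 this]
      exact_mod_cast Nat.zero_le n)
    obtain ⟨w, hw, h2⟩ := ih _ h1
    refine ⟨Fin.cons b w, fun i => Fin.cases hb hw i, ?_⟩
    rwa [Fin.range_cons, Ideal.span_insert, ← sup_assoc, ← zero_add b]

theorem dim_le_of_prim (K : Ideal A) (w : Fin n → A) (hw : ∀ i, w i ∈ maximalIdeal A)
    (h : Prim (maximalIdeal A) (K ⊔ Ideal.span (Set.range w))) : ringKrullDim (A ⧸ K) ≤ n := by
  by_cases hK : K = ⊤
  · have : Subsingleton (A ⧸ K) := Ideal.Quotient.subsingleton_iff.2 hK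
    rw [ringKrullDim_eq_bot_of_subsingleton]
    exact bot_le
  have : Nontrivial (A ⧸ K) := Ideal.Quotient.nontrivial_iff.2 hK
  have := IsLocalRing.of_surjective' (Ideal.Quotient.mk K) Ideal.Quotient.mk_surjective
  have hm : (maximalIdeal A).map (Ideal.Quotient.mk K) = maximalIdeal (A ⧸ K) :=
    map_maximalIdeal_of_surjective _ Ideal.Quotient.mk_surjective
  obtain ⟨a, ha⟩ := h
  have h1 := Ideal.map_mono (f := Ideal.Quotient.mk K) ha
  rw [Ideal.map_pow, hm, Ideal.map_sup, Ideal.map_quotient_self, bot_sup_eq, Ideal.map_span,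
    ← Set.range_comp] at h1
  have h2 : maximalIdeal (A ⧸ K) ∈
      (Ideal.span (Set.range (Ideal.Quotient.mk K ∘ w))).minimalPrimes := by
    refine ⟨⟨inferInstance, Ideal.span_le.2 ?_⟩, fun P hP _ => ?_⟩
    · rintro _ ⟨i, rfl⟩
      rw [← hm]
      exact Ideal.mem_map_of_mem _ (hw i)
    · exact hP.1.le_of_pow_le (h1.trans hP.2)
  have h3 := Ideal.height_le_card_of_mem_minimalPrimes_span (Set.finite_range _) h2
  have h4 : (Set.range (Ideal.Quotient.mk K ∘ w)).ncard ≤ n := by
    simpa [Function.comp_def] using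
      Set.ncard_image_le (f := Ideal.Quotient.mk K ∘ w) (s := Set.univ)
  rw [← maximalIdeal_height_eq_ringKrullDim]
  exact_mod_cast h3.trans (Nat.cast_le.2 h4)

omit [IsLocalRing A] [IsNoetherianRing A] in
theorem dim_quot_anti {I J : Ideal A} (h : I ≤ J) :
    ringKrullDim (A ⧸ J) ≤ ringKrullDim (A ⧸ I) := by
  exact (dim_le_iff _ _).2 fun P hP => (dim_le_iff _ _).1 le_rfl P (h.trans hP)

omit [IsLocalRing A] [IsNoetherianRing A] in
theorem dim_quot_of_le_radical {I J : Ideal A} (h : I ≤ J.radical) :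
    ringKrullDim (A ⧸ J) ≤ ringKrullDim (A ⧸ I) := by
  exact (dim_le_iff _ _).2 fun P hP => (dim_le_iff _ _).1 le_rfl P
    (h.trans (P.2.radical_le_iff.2 hP))

omit [IsLocalRing A] in
theorem exists_avoid (I q : Ideal A) (x : A) (hI : ringKrullDim (A ⧸ I) ≤ (n + 1 : ℕ))
    (hq : ringKrullDim (A ⧸ (I ⊔ q)) ≤ n) :
    ∃ b ∈ q, ringKrullDim (A ⧸ (I ⊔ Ideal.span {x + b})) ≤ n := by
  exact avoid I q x hI hq

omit [IsLocalRing A] [IsNoetherianRing A] in
theorem dim_nzd (K : Ideal A) (a : A) (ha : ∀ x, a * x ∈ K → x ∈ K)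
    (h : ringKrullDim (A ⧸ K) ≤ (n + 1 : ℕ)) :
    ringKrullDim (A ⧸ (K ⊔ Ideal.span {a})) ≤ n := by
  refine DimX.step h fun P hP hJ => ?_
  obtain ⟨y, hy, hy'⟩ := Ideal.exists_mul_mem_of_mem_minimalPrimes hP
    (hJ (Ideal.mem_span_singleton_self a))
  exact (hy (ha y hy')).elim

omit [IsLocalRing A] [IsNoetherianRing A] in
theorem dim_loc_add_le (K q : Ideal A) [q.IsPrime] :
    ringKrullDim (Localization.AtPrime q ⧸ K.map (algebraMap A (Localization.AtPrime q))) +
      ringKrullDim (A ⧸ q) ≤ ringKrullDim (A ⧸ K) := by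
  rw [ringKrullDim_quotient]
  rcases isEmpty_or_nonempty (PrimeSpectrum.zeroLocus (R := Localization.AtPrime q)
    (K.map (algebraMap A (Localization.AtPrime q)))) with h | h
  · rw [Order.krullDim_eq_bot, WithBot.bot_add]
    exact bot_le
  have h1 : ringKrullDim (A ⧸ q) ≤ Order.coheight (⟨q, ‹_›⟩ : PrimeSpectrum A) :=
    (dim_le_iff _ _).2 fun P hP => WithBot.coe_le_coe.2 (Order.coheight_anti hP)
  have h2 : ∀ l : LTSeries (PrimeSpectrum.zeroLocus (R := Localization.AtPrime q)
      (K.map (algebraMap A (Localization.AtPrime q)))),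
      (((l.length : ℕ∞) + Order.coheight (⟨q, ‹_›⟩ : PrimeSpectrum A) : ℕ∞) : WithBot ℕ∞) ≤
        ringKrullDim (A ⧸ K) := by
    intro l
    let l' : LTSeries (PrimeSpectrum A) := l.map
      (fun P => PrimeSpectrum.comap (algebraMap A (Localization.AtPrime q)) P.1)
      (Monotone.strictMono_of_injective (fun P Q h => Ideal.comap_mono h)
        ((PrimeSpectrum.localization_comap_injective _ q.primeCompl).comp Subtype.val_injective))
    refine le_trans ?_ ((dim_le_iff K _).1 le_rfl l'.head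
      (Ideal.map_le_iff_le_comap.1 l.head.2))
    refine WithBot.coe_le_coe.2 (le_trans ?_ (len_add l'))
    refine add_le_add le_rfl (Order.coheight_anti ?_)
    change (l.last.1.asIdeal).comap (algebraMap A (Localization.AtPrime q)) ≤ q
    refine (Ideal.comap_mono (le_maximalIdeal l.last.1.2.ne_top)).trans ?_
    exact (Localization.AtPrime.under_maximalIdeal (I := q)).le
  refine (add_le_add le_rfl h1).trans ?_
  rw [Order.krullDim_eq_iSup_length, ← WithBot.coe_add, ENat.iSup_add]
  obtain ⟨l₀⟩ := (inferInstance : Nonempty (LTSeries (PrimeSpectrum.zeroLocus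
    (R := Localization.AtPrime q) (K.map (algebraMap A (Localization.AtPrime q))))))
  obtain ⟨c, hc⟩ := WithBot.ne_bot_iff_exists.1 (ne_bot_of_le_ne_bot WithBot.coe_ne_bot (h2 l₀))
  rw [← hc] at h2 ⊢
  exact WithBot.coe_le_coe.2 (iSup_le fun l => WithBot.coe_le_coe.1 (h2 l))

omit [IsLocalRing A] [IsNoetherianRing A] in
theorem dim_quot_comap {B : Type*} [CommRing B] [Algebra A B] [Algebra.IsIntegral A B]
    (q : Ideal B) : ringKrullDim (A ⧸ q.comap (algebraMap A B)) = ringKrullDim (B ⧸ q) := by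
  exact (ringKrullDim_eq_of_integral Ideal.algebraMap_quotient_injective).symm

theorem dim_eq_of_flat {B : Type*} [CommRing B] [IsLocalRing B] [IsNoetherianRing B] [Algebra A B]
    [Module.Flat A B] [IsLocalHom (algebraMap A B)]
    (h : Prim (maximalIdeal B) ((maximalIdeal A).map (algebraMap A B))) :
    ringKrullDim B = ringKrullDim A := by
  have h1 := Ideal.height_eq_height_add_of_liesOver_of_hasGoingDown (maximalIdeal A)
    (maximalIdeal B)
  have h2 := dim_le_of_prim (n := 0) ((maximalIdeal A).map (algebraMap A B)) Fin.elim0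
    (fun i => i.elim0) (h.mono le_sup_left)
  have h3 : ((maximalIdeal B).map (Ideal.Quotient.mk
      ((maximalIdeal A).map (algebraMap A B)))).height = 0 := by
    rw [← nonpos_iff_eq_zero]
    exact_mod_cast (Ideal.height_le_ringKrullDim_of_isPrime).trans h2
  rw [h3, add_zero] at h1
  rw [← maximalIdeal_height_eq_ringKrullDim, ← maximalIdeal_height_eq_ringKrullDim, h1]

variable {M : Type*} [AddCommGroup M] [Module A M] [Module.Finite A M]

theorem eU_ne_top (K I : Ideal A) (hK : K ≤ Module.annihilator A M)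
    (hI : Prim (maximalIdeal A) (K ⊔ I)) (h : ringKrullDim (A ⧸ K) ≤ n) : eU I M n ≠ ⊤ := by
  obtain ⟨w, hw, h1⟩ := exists_sop K h
  obtain ⟨a, ha⟩ := hI
  have h2 : Ideal.span (Set.range w) ≤ maximalIdeal A := Ideal.span_le.2 (by
    rintro _ ⟨i, rfl⟩; exact hw i)
  have h3 := eU_scale (M := M) (d := n) (I := I) (J := Ideal.span (Set.range w)) a.succ_pos 0
    fun j => by
      rw [add_zero, pow_mul, sup_comm]
      refine (Ideal.pow_right_mono ((Ideal.pow_le_pow_right (Nat.le_succ a)).trans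
        ((Ideal.pow_right_mono h2 a).trans ha)) j).trans ?_
      exact (sup_pow_le' _ _ _).trans (sup_le_sup_right hK _)
  have h4 := lm_ne_top (M := M) (I := Ideal.span (Set.range w))
    (h1.mono (by rw [sup_comm]; exact sup_le_sup_left hK _))
  refine ne_top_of_le_ne_top ?_ (h3.trans (mul_le_mul_right (eU_sop w) _))
  exact ENNReal.mul_ne_top (ENNReal.pow_ne_top (ENNReal.natCast_ne_top _))
    (by simpa using h4)

theorem eU_eq_zero (K I : Ideal A) (hK : K ≤ Module.annihilator A M)
    (hI : Prim (maximalIdeal A) (K ⊔ I)) (h : ringKrullDim (A ⧸ K) < n) : eU I M n = 0 := by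
  rcases n with _ | n
  · have h2 : K = ⊤ := by
      by_contra hK'
      have : Nontrivial (A ⧸ K) := Ideal.Quotient.nontrivial_iff.2 hK'
      exact absurd (ringKrullDim_nonneg_of_nontrivial (R := A ⧸ K)) (not_le.2 h)
    have : Subsingleton M := Module.annihilator_eq_top_iff.1 (top_le_iff.1 (h2 ▸ hK))
    exact eU_subsingleton I
  · refine um_succ_eq_zero (eU_ne_top K I hK hI ?_)
    rw [Nat.cast_succ] at h
    exact ENat.WithBot.lt_add_one_iff.1 h

end Vale.Agent.P202
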