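import Vale.Agent.P202M.CoreB

/-! Lech's inequality. -/

open IsLocalRing Function
open scoped ENNReal

namespace Vale.Agent.P202

universe u v

namespace FinX

theorem prime (p : ℕ) [hpp : Fact p.Prime] {C : Type*} [CommRing C] [IsDomain C]
    [IsDiscreteValuationRing C] [IsAdicComplete (maximalIdeal C) C] [Infinite (ResidueField C)]
    (hC : maximalIdeal C = Ideal.span {(p : C)})
    {V : Type*} [CommRing V] [IsDomain V] [IsDiscreteValuationRing V]
    [IsAdicComplete (maximalIdeal V) V] [IsAlgClosed (ResidueField V)]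
    (hV : maximalIdeal V = Ideal.span {(p : V)})
    {S : Type*} [CommRing S] [IsLocalRing S] [IsNoetherianRing S]
    [IsAdicComplete (maximalIdeal S) S] [Algebra V S] [IsLocalHom (algebraMap V S)]
    (hresS : ∀ b : S, ∃ v : V, b - algebraMap V S v ∈ maximalIdeal S)
    {R : Type*} [CommRing R] [IsLocalRing R] [IsNoetherianRing R]
    [IsAdicComplete (maximalIdeal R) R] [Algebra C R] [IsLocalHom (algebraMap C R)]
    (hres : ∀ r : R, ∃ v : C, r - algebraMap C R v ∈ maximalIdeal R)
    [Algebra R S] [Module.Flat R S] [IsLocalHom (algebraMap R S)]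
    (ha : Prim (maximalIdeal S) ((maximalIdeal R).map (algebraMap R S)))
    (d : ℕ) (hd : ringKrullDim R = d) (I : Ideal R) [hI : I.IsPrime] :
    eU (maximalIdeal R) (R ⧸ I) d ≤ eL (maximalIdeal S) (S ⧸ I.map (algebraMap R S)) d := by
  rcases lt_or_eq_of_le (hd ▸ ringKrullDim_quotient_le I) with h | h
  · rw [eU_eq_zero I _ Ideal.annihilator_quotient.ge ⟨1, by rw [pow_one]; exact le_sup_right⟩ h]
    exact zero_le
  have : IsLocalRing (R ⧸ I) := .of_surjective' _ Ideal.Quotient.mk_surjective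
  have : Nontrivial (S ⧸ I.map (algebraMap R S)) := Ideal.Quotient.nontrivial_iff.mpr fun h =>
    (map_maximalIdeal_lt_top (algebraMap R S)).ne
      (eq_top_iff.mpr (h ▸ Ideal.map_mono (le_maximalIdeal hI.ne_top)))
  have : IsLocalRing (S ⧸ I.map (algebraMap R S)) :=
    .of_surjective' _ Ideal.Quotient.mk_surjective
  have : Module.Flat (R ⧸ I) (S ⧸ I.map (algebraMap R S)) := Module.Flat.of_linearEquiv
    (Algebra.TensorProduct.quotIdealMapEquivQuotTensor S I).toLinearEquiv
  have mR := map_maximalIdeal_of_surjective (Ideal.Quotient.mk I) Ideal.Quotient.mk_surjective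
  have mS := map_maximalIdeal_of_surjective (Ideal.Quotient.mk (I.map (algebraMap R S)))
    Ideal.Quotient.mk_surjective
  have e : (maximalIdeal (R ⧸ I)).map (algebraMap (R ⧸ I) (S ⧸ I.map (algebraMap R S))) =
      ((maximalIdeal R).map (algebraMap R S)).map (Ideal.Quotient.mk _) := by
    rw [← mR, Ideal.map_map, Ideal.map_map]
    rfl
  have : IsLocalHom (algebraMap (R ⧸ I) (S ⧸ I.map (algebraMap R S))) :=
    isLocalHom_of_map_le (by rw [e, ← mS]; exact Ideal.map_mono (map_maximalIdeal_le _))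
  have ha' : Prim (maximalIdeal (S ⧸ I.map (algebraMap R S)))
      ((maximalIdeal (R ⧸ I)).map (algebraMap (R ⧸ I) (S ⧸ I.map (algebraMap R S)))) := by
    obtain ⟨a, ha⟩ := ha
    exact ⟨a, by rw [e, ← mS, ← Ideal.map_pow]; exact Ideal.map_mono ha⟩
  rw [(eU_surj (B := R ⧸ I) Ideal.Quotient.mk_surjective _).1,
    (eU_surj (B := S ⧸ I.map (algebraMap R S)) Ideal.Quotient.mk_surjective _).2,
    Ideal.Quotient.algebraMap_eq, Ideal.Quotient.algebraMap_eq, mR, mS]
  by_cases hp : (p : R ⧸ I) = 0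
  · have : CharP (R ⧸ I) p := (CharP.charP_iff_prime_eq_zero hpp.out).2 hp
    let _ : Algebra (ZMod p) (R ⧸ I) := ZMod.algebra _ p
    obtain ⟨a, b, h1, h2, h3⟩ := lech_equichar (ZMod p) (R ⧸ I) (S ⧸ I.map (algebraMap R S)) d d h
      ((dim_eq_of_flat ha').trans h)
    rw [h1.eU_eq.1, h2.eU_eq.2]
    exact ENNReal.ofReal_le_ofReal h3
  · have := complete_of_finite_local (A := R) (B := R ⧸ I)
    have := complete_of_finite_local (A := S) (B := S ⧸ I.map (algebraMap R S))
    have : IsLocalHom (algebraMap C (R ⧸ I)) := isLocalHom_of_map_le (by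
      rw [← mR, ← Ideal.Quotient.mk_comp_algebraMap, ← Ideal.map_map]
      exact Ideal.map_mono (map_maximalIdeal_le _))
    have : IsLocalHom (algebraMap V (S ⧸ I.map (algebraMap R S))) := isLocalHom_of_map_le (by
      rw [← mS, ← Ideal.Quotient.mk_comp_algebraMap, ← Ideal.map_map]
      exact Ideal.map_mono (map_maximalIdeal_le _))
    refine core_mixed p hC hV (fun b => ?_) (fun b => ?_) hp ha' d h
    · obtain ⟨b, rfl⟩ := Ideal.Quotient.mk_surjective b
      obtain ⟨v, hv⟩ := hresS b
      refine ⟨v, ?_⟩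
      rw [← mS, ← Ideal.Quotient.mk_algebraMap, ← map_sub]
      exact Ideal.mem_map_of_mem _ hv
    · obtain ⟨b, rfl⟩ := Ideal.Quotient.mk_surjective b
      obtain ⟨v, hv⟩ := hres b
      refine ⟨v, ?_⟩
      rw [← mR, ← Ideal.Quotient.mk_algebraMap, ← map_sub]
      exact Ideal.mem_map_of_mem _ hv

theorem ind {R S : Type*} [CommRing R] [IsLocalRing R] [IsNoetherianRing R] [CommRing S]
    [IsLocalRing S] [IsNoetherianRing S] [Algebra R S] [Module.Flat R S] (d : ℕ)
    (h : ∀ (I : Ideal R) [I.IsPrime],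
      eU (maximalIdeal R) (R ⧸ I) d ≤ eL (maximalIdeal S) (S ⧸ I.map (algebraMap R S)) d) :
    eU (maximalIdeal R) R d ≤ eL (maximalIdeal S) S d := by
  have all : ∀ I : Ideal R,
      eU (maximalIdeal R) (R ⧸ I) d ≤ eL (maximalIdeal S) (S ⧸ I.map (algebraMap R S)) d := by
    intro I
    induction I using WellFoundedGT.induction with
    | _ I ih =>
    by_cases hI : I = ⊤
    · have : Subsingleton (R ⧸ I) := Ideal.Quotient.subsingleton_iff.2 hI
      rw [eU_subsingleton]
      exact zero_le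
    obtain ⟨w, h1, h2⟩ := exists_colon_prime hI
    obtain ⟨f, g, -, b2, b3⟩ := exact_colon R I w
    obtain ⟨f', g', c1, c2, c3⟩ := exact_colon S (I.map (algebraMap R S)) (algebraMap R S w)
    have e1 : (I.colon {w}).map (algebraMap R S) =
        (I.map (algebraMap R S)).colon {algebraMap R S w} := by
      refine le_antisymm (Ideal.map_le_iff_le_comap.2 fun x hx => ?_) fun t ht => ?_
      · rw [Ideal.mem_comap, Submodule.mem_colon_singleton, smul_eq_mul, ← map_mul]
        exact Ideal.mem_map_of_mem _ (Submodule.mem_colon_singleton.1 hx)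
      · rw [Submodule.mem_colon_singleton, smul_eq_mul, mul_comm] at ht
        exact colon_of_flat I w t ht
    have e2 : (I ⊔ Ideal.span {w}).map (algebraMap R S) =
        I.map (algebraMap R S) ⊔ Ideal.span {algebraMap R S w} := by
      rw [Ideal.map_sup, Ideal.map_span, Set.image_singleton]
    have a1 := h (I.colon {w})
    have a2 := ih _ h2
    rw [e1] at a1
    rw [e2] at a2
    exact (eU_le_of_exact _ f g b2 b3).trans ((add_le_add a1 a2).trans
      (eL_add_le _ f' g' c1 c2 c3))
  have := all ⊥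
  rwa [Ideal.map_bot, eU_congr _ (Submodule.quotEquivOfEqBot _ rfl),
    eL_congr _ (Submodule.quotEquivOfEqBot _ rfl)] at this

end FinX

theorem lech_art (p : ℕ) [Fact p.Prime] (R : Type u) (S : Type v)
    [CommRing R] [IsLocalRing R] [IsNoetherianRing R]
    [CommRing S] [IsLocalRing S] [IsNoetherianRing S] [Algebra R S] [Module.Flat R S]
    [IsLocalHom (algebraMap R S)] (hp : (p : R) ∈ maximalIdeal R)
    (ha : Prim (maximalIdeal S) ((maximalIdeal R).map (algebraMap R S)))
    (d : ℕ) (hd : ringKrullDim R = d) :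
    eU (maximalIdeal R) R d ≤ eL (maximalIdeal S) S d := by
  obtain ⟨C, _, _, _, R', _, _, _, _, _, V, _, _, _, S', _, _, _, _, _, _,
    ⟨_, a1, _, _, _, a2, _, a3⟩, ⟨_, b1, _, _, _, b2, _, b3⟩, _, _, c⟩ :=
    exists_model2 p R S hp ha
  have : IsLocalHom (algebraMap R R') := isLocalHom_of_map_le a3.le
  have hd' : ringKrullDim R' = d :=
    (dim_eq_of_flat (A := R) ⟨1, by rw [pow_one, a3]⟩).trans hd
  rw [(eU_eq_of_flat a3).1, (eU_eq_of_flat b3).2]
  exact FinX.ind d fun I _ => FinX.prime p a1 b1 b2 a2 c d hd' I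

theorem lech_all (R : Type u) (S : Type v)
    [CommRing R] [IsLocalRing R] [IsNoetherianRing R]
    [CommRing S] [IsLocalRing S] [IsNoetherianRing S] [Algebra R S] [Module.Flat R S]
    [IsLocalHom (algebraMap R S)] (d D : ℕ) (hd : ringKrullDim R = d) (hD : ringKrullDim S = D) :
    ∃ eR eS : ℝ, IsMult R d eR ∧ IsMult S D eS ∧ eR ≤ eS := by
  obtain ⟨p, hp⟩ := CharP.exists (ResidueField R)
  rcases CharP.char_is_prime_or_zero (ResidueField R) p with h | rfl
  · have := Fact.mk h
    have hpm : (p : R) ∈ maximalIdeal R := by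
      rw [← residue_eq_zero_iff, map_natCast, CharP.cast_eq_zero]
    obtain ⟨S₁, _, _, _, _, _, _, h1, h2⟩ := exists_fibre_reductionM p R S hpm d D hd hD
    have fin : ∀ (A : Type _) [CommRing A] [IsLocalRing A] [IsNoetherianRing A] (n : ℕ),
        ringKrullDim A = n → eU (maximalIdeal A) A n ≠ ⊤ := fun A _ _ _ n hn =>
      eU_ne_top ⊥ _ bot_le ⟨1, by rw [pow_one]; exact le_sup_right⟩
        ((ringKrullDim_eq_of_ringEquiv (RingEquiv.quotientBot A)).trans_le hn.le)
    have hS : eU (maximalIdeal S) S D ≠ ⊤ :=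
      eU_ne_top ⊥ _ bot_le ⟨1, by rw [pow_one]; exact le_sup_right⟩
        ((ringKrullDim_eq_of_ringEquiv (RingEquiv.quotientBot S)).trans_le hD.le)
    exact ⟨_, _, isMult_of_le (eU_le_eL R d hd.le) (fin R d hd),
      isMult_of_le (eU_le_eL S D hD.le) hS, ENNReal.toReal_mono hS
        ((lech_art p R S₁ hpm h1 d hd).trans ((eL_le_eU _).trans (h2.trans (eL_le_eU _))))⟩
  · have := CharP.charP_to_charZero (ResidueField R)
    have hu : ∀ y : nonZeroDivisors ℤ, IsUnit (Int.castRingHom R y) := fun y => by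
      by_contra hy
      have h1 : residue R (Int.castRingHom R y) = 0 := (residue_eq_zero_iff _).2 hy
      rw [eq_intCast, map_intCast, Int.cast_eq_zero] at h1
      exact nonZeroDivisors.ne_zero y.2 h1
    let _ : Algebra ℚ R := (IsLocalization.lift (S := ℚ) hu).toAlgebra
    exact lech_equichar ℚ R S d D hd hD

end Vale.Agent.P202
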