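import Vale.Agent.P202M.Nrm

/-! A birational hypersurface model of a complete domain of mixed characteristic. -/

open IsLocalRing Function Polynomial
open scoped ENNReal

namespace Vale.Agent.P202

namespace HypX

open IntermediateField in
theorem prim (D A : Type*) [CommRing D] [IsDomain D] [IsIntegrallyClosed D] [CharZero D]
    [CommRing A] [IsDomain A] [Algebra D A] [FaithfulSMul D A] [Module.Finite D A] (x₀ : A)
    (t : ℕ → D) (ht : Injective t) :
    ∃ (k : ℕ) (θ x : A), x = x₀ + algebraMap D A (t k) * θ ∧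
      aeval x (derivative (minpoly D x)) ≠ 0 ∧
      ∀ a : A, ∃ δ : D, δ ≠ 0 ∧ ∃ u : D[X], aeval x u = algebraMap D A δ * a := by
  obtain ⟨θ, -, -, hθ⟩ := AT.prim D A
  let K := FractionRing D
  let L := FractionRing A
  let _ : Algebra K L := FractionRing.liftAlgebra D L
  have : IsScalarTower D K L := FractionRing.isScalarTower_liftAlgebra D L
  have hDL : Algebra.IsAlgebraic D L := (IsFractionRing.isAlgebraic_iff' D A L).mp inferInstance
  have hKL : Algebra.IsAlgebraic K L :=
    ⟨fun x => (IsFractionRing.isAlgebraic_iff D K L).mp (hDL.1 x)⟩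
  have : CharZero K := IsFractionRing.charZero_of_isFractionRing D
  have hinj : Function.Injective (algebraMap A L) := IsFractionRing.injective A L
  have hc : ∀ (F : IntermediateField K L) (δ : D) (y : L), δ ≠ 0 → algebraMap D L δ * y ∈ F →
      y ∈ F := fun F δ y hδ h => by
    have h0 : algebraMap D K δ ≠ 0 := by
      rwa [Ne, map_eq_zero_iff _ (IsFractionRing.injective D K)]
    have := F.smul_mem h (x := (algebraMap D K δ)⁻¹)
    rwa [IsScalarTower.algebraMap_apply D K L, ← Algebra.smul_def, smul_smul, inv_mul_cancel₀ h0,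
      one_smul] at this
  have key : ∀ F : IntermediateField K L, algebraMap A L θ ∈ F → F = ⊤ := fun F hF => by
    have h1 : ∀ a : A, algebraMap A L a ∈ F := fun a => by
      obtain ⟨δ, hδ, u, hu⟩ := hθ a
      refine hc F δ _ hδ ?_
      rw [IsScalarTower.algebraMap_apply D A L, ← map_mul, hu, ← aeval_algebraMap_apply,
        ← aeval_map_algebraMap K]
      exact Algebra.adjoin_le (S := F.toSubalgebra) (Set.singleton_subset_iff.2 hF)
        (aeval_mem_adjoin_singleton K _)
    refine eq_top_iff.2 fun z _ => ?_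
    obtain ⟨a, b, -, rfl⟩ := IsFractionRing.div_surjective A z
    exact div_mem (h1 a) (h1 b)
  have := Field.finite_intermediateField_of_exists_primitive_element K L
    ⟨_, key _ (mem_adjoin_simple_self K _)⟩
  obtain ⟨k, k', hk, e⟩ := Finite.exists_ne_map_eq_of_infinite
    fun k => K⟮algebraMap A L (x₀ + algebraMap D A (t k) * θ)⟯
  obtain ⟨x, hx⟩ : ∃ x, x = x₀ + algebraMap D A (t k) * θ := ⟨_, rfl⟩
  have h1 : K⟮algebraMap A L x⟯ = ⊤ := by
    refine key _ (hc _ (t k - t k') _ (sub_ne_zero.2 (ht.ne hk)) ?_)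
    have h2 := mem_adjoin_simple_self K (algebraMap A L (x₀ + algebraMap D A (t k') * θ))
    rw [← e, ← hx] at h2
    have h3 := sub_mem (mem_adjoin_simple_self K (algebraMap A L x)) h2
    rwa [← map_sub, show x - (x₀ + algebraMap D A (t k') * θ) = algebraMap D A (t k - t k') * θ by
      rw [hx, map_sub]; ring, map_mul, ← IsScalarTower.algebraMap_apply] at h3
  have htop : Algebra.adjoin K {algebraMap A L x} = ⊤ := by
    rw [← IntermediateField.adjoin_simple_toSubalgebra_of_isAlgebraic (hKL.1 _), h1]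
    rfl
  refine ⟨k, θ, x, hx, ?_, fun a => ?_⟩
  · have hsep : (minpoly K (algebraMap A L x)).Separable := Algebra.IsSeparable.isSeparable K _
    have h1 := hsep.aeval_derivative_ne_zero (minpoly.aeval K (algebraMap A L x))
    rw [minpoly.isIntegrallyClosed_eq_field_fractions K L
      (Algebra.IsIntegral.isIntegral (R := D) x),
      derivative_map, aeval_map_algebraMap, aeval_algebraMap_apply] at h1
    intro h
    exact h1 (by rw [h, map_zero])
  · have ha : algebraMap A L a ∈ Algebra.adjoin K {algebraMap A L x} := by rw [htop]; trivial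
    rw [Algebra.adjoin_singleton_eq_range_aeval] at ha
    obtain ⟨p, hp⟩ := ha
    obtain ⟨δ, hδ, hq⟩ := IsLocalization.integerNormalization_spec (nonZeroDivisors D) p
    refine ⟨δ, nonZeroDivisors.ne_zero hδ,
      IsLocalization.integerNormalization (nonZeroDivisors D) p, (hinj ?_).symm⟩
    rw [← aeval_algebraMap_apply, ← aeval_map_algebraMap K, hq, map_mul,
      ← IsScalarTower.algebraMap_apply, ← algebraMap_smul K, map_smul, Algebra.smul_def,
      ← IsScalarTower.algebraMap_apply]
    congr 1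
    exact hp.symm

theorem denom {D A : Type*} [CommRing D] [IsDomain D] [CommRing A] [Algebra D A]
    [Module.Finite D A] {x : A}
    (h : ∀ a : A, ∃ δ : D, δ ≠ 0 ∧ ∃ u : D[X], aeval x u = algebraMap D A δ * a) :
    ∃ g : D, g ≠ 0 ∧ ∀ a : A, ∃ u : D[X], aeval x u = algebraMap D A g * a := by
  choose δ hδ u hu using h
  obtain ⟨S, hS⟩ := Module.Finite.fg_top (R := D) (M := A)
  refine ⟨∏ a ∈ S, δ a, Finset.prod_ne_zero_iff.2 fun a _ => hδ a, fun a => ?_⟩
  have ha : a ∈ Submodule.span D (S : Set A) := hS ▸ Submodule.mem_top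
  induction ha using Submodule.span_induction with
  | mem a ha =>
    obtain ⟨c, hc⟩ := Finset.dvd_prod_of_mem δ ha
    exact ⟨C c * u a, by rw [map_mul, aeval_C, hu, hc, map_mul]; ring⟩
  | zero => exact ⟨0, by simp⟩
  | add a b _ _ ha hb =>
    obtain ⟨v, hv⟩ := ha
    obtain ⟨w, hw⟩ := hb
    exact ⟨v + w, by rw [map_add, hv, hw, mul_add]⟩
  | smul c a _ ha =>
    obtain ⟨v, hv⟩ := ha
    exact ⟨C c * v, by rw [map_mul, aeval_C, hv, Algebra.smul_def]; ring⟩

theorem prim_comap {B R : Type*} [CommRing B] [IsLocalRing B] [IsNoetherianRing B] [CommRing R]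
    [IsLocalRing R] [Algebra B R] [Algebra.IsIntegral B R] [IsLocalHom (algebraMap B R)]
    (hinj : Injective (algebraMap B R)) {I : Ideal B}
    (h : Prim (maximalIdeal R) (I.map (algebraMap B R))) : Prim (maximalIdeal B) I := by
  refine Ideal.exists_pow_le_of_le_radical_of_fg ?_ (IsNoetherian.noetherian _)
  rw [Ideal.radical_eq_sInf, le_sInf_iff]
  rintro J ⟨h1, h2⟩
  obtain ⟨Q, -, hQ, rfl⟩ := Ideal.exists_ideal_over_prime_of_isIntegral (S := R) J ⊥ (by
    rw [← RingHom.ker_eq_comap_bot, (RingHom.injective_iff_ker_eq_bot _).1 hinj]; exact bot_le)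
  obtain ⟨a, ha⟩ := h
  exact fun b hb => Ideal.IsPrime.le_of_pow_le (ha.trans (Ideal.map_le_iff_le_comap.2 h1))
    (map_nonunit _ b hb)

theorem mult {C A R : Type*} [CommRing C] [IsLocalRing C] [CommRing A] [IsNoetherianRing A]
    [CommRing R] [IsDomain R] [IsLocalRing R] [Algebra C A] [Algebra A R] [Module.Finite A R]
    [IsLocalHom ((algebraMap A R).comp (algebraMap C A))]
    (hres : ∀ r : R, ∃ v : C, r - algebraMap A R (algebraMap C A v) ∈ maximalIdeal R)
    {d : ℕ} (hd : ringKrullDim R ≤ (d + 1 : ℕ)) (x : R) (h : A[X])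
    (hker : ∀ F : A[X], eval₂ (algebraMap A R) x F = 0 ↔ h ∣ F) {g : A}
    (hg0 : algebraMap A R g ≠ 0)
    (hg : ∀ r : R, ∃ F : A[X], eval₂ (algebraMap A R) x F = algebraMap A R g * r) (ξ : Fin d → A)
    (ε : A → C) (hε : ∀ a, a - algebraMap C A (ε a) ∈ Ideal.span (Set.range ξ))
    (h1 : Ideal.span {x} ⊔ Ideal.span (Set.range fun i => algebraMap A R (ξ i)) ≤ maximalIdeal R)
    (h2 : Prim (maximalIdeal R)
      (Ideal.span {x} ⊔ Ideal.span (Set.range fun i => algebraMap A R (ξ i)))) :
    eU (maximalIdeal R) R (d + 1) ≤ ln C (Ideal.span {ε (h.coeff 0)}) := by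
  let ψ := AdjoinRoot.lift (algebraMap A R) x ((hker h).2 dvd_rfl)
  have hψ : ∀ F, ψ (AdjoinRoot.mk h F) = eval₂ (algebraMap A R) x F := fun F =>
    AdjoinRoot.lift_mk _ F
  have hof : ∀ a, ψ (AdjoinRoot.of h a) = algebraMap A R a := fun a => AdjoinRoot.lift_of _
  have hinj : Injective ψ := (injective_iff_map_eq_zero ψ).2 fun b hb => by
    obtain ⟨F, rfl⟩ := AdjoinRoot.mk_surjective b
    exact AdjoinRoot.mk_eq_zero.2 ((hker F).1 (hψ F ▸ hb))
  let _ := ψ.toAlgebra
  have : IsScalarTower A (AdjoinRoot h) R := IsScalarTower.of_algebraMap_eq fun a => (hof a).symm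
  have : Module.Finite (AdjoinRoot h) R := Module.Finite.of_restrictScalars_finite A _ _
  have : IsLocalHom (algebraMap (AdjoinRoot h) R) :=
    (algebraMap_isIntegral_iff.mpr inferInstance).isLocalHom hinj
  have : IsLocalRing (AdjoinRoot h) := (algebraMap (AdjoinRoot h) R).domain_isLocalRing
  have hC : (algebraMap (AdjoinRoot h) R).comp (algebraMap C (AdjoinRoot h)) =
      (algebraMap A R).comp (algebraMap C A) := RingHom.ext fun c => hof _
  have : IsLocalHom (algebraMap C (AdjoinRoot h)) := by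
    have : IsLocalHom ((algebraMap (AdjoinRoot h) R).comp (algebraMap C (AdjoinRoot h))) :=
      hC ▸ inferInstance
    exact isLocalHom_of_comp _ (algebraMap (AdjoinRoot h) R)
  obtain ⟨z, hz⟩ : ∃ z : Fin (d + 1) → AdjoinRoot h,
    z = Fin.cons (AdjoinRoot.root h) fun i => AdjoinRoot.of h (ξ i) := ⟨_, rfl⟩
  have hzs : Ideal.span (Set.range z) = Ideal.span {AdjoinRoot.root h} ⊔
      (Ideal.span (Set.range ξ)).map (AdjoinRoot.of h) := by
    rw [hz, Fin.range_cons, Ideal.span_insert, Ideal.map_span, ← Set.range_comp]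
    rfl
  have hmap : (Ideal.span (Set.range z)).map (algebraMap (AdjoinRoot h) R) =
      Ideal.span {x} ⊔ Ideal.span (Set.range fun i => algebraMap A R (ξ i)) := by
    rw [hzs, Ideal.map_sup, Ideal.map_map, Ideal.map_span, Ideal.map_span, Set.image_singleton,
      ← Set.range_comp]
    congr 3
    · exact AdjoinRoot.lift_root _
    · exact funext fun i => hof _
  have hdec : ∀ F : A[X], AdjoinRoot.mk h F - algebraMap C (AdjoinRoot h) (ε (F.coeff 0)) ∈
      Ideal.span (Set.range z) := fun F => by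
    have e : AdjoinRoot.mk h F - algebraMap C (AdjoinRoot h) (ε (F.coeff 0)) =
        AdjoinRoot.mk h F.divX * AdjoinRoot.root h +
          AdjoinRoot.of h (F.coeff 0 - algebraMap C A (ε (F.coeff 0))) := by
      conv_lhs => rw [← divX_mul_X_add F]
      rw [map_add, map_mul, AdjoinRoot.mk_X, AdjoinRoot.mk_C, map_sub, add_sub_assoc, divX_mul_X_add]
      rfl
    rw [e, hzs]
    exact Submodule.add_mem_sup (Ideal.mem_span_singleton'.2 ⟨_, rfl⟩)
      (Ideal.mem_map_of_mem _ (hε _))
  have hp : Prim (maximalIdeal (AdjoinRoot h)) (Ideal.span (Set.range z)) :=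
    prim_comap hinj (hmap ▸ h2)
  have hzm : Ideal.span (Set.range z) ≤ maximalIdeal (AdjoinRoot h) := fun b hb =>
    fun hu => h1 (hmap ▸ Ideal.mem_map_of_mem _ hb) (hu.map _)
  have e1 := (eU_res (A := AdjoinRoot h) (B := R) (M := R) (d := d + 1) (fun r => by
    obtain ⟨v, hv⟩ := hres r
    exact ⟨algebraMap C _ v, by rwa [← RingHom.comp_apply, hC]⟩) (Ideal.span (Set.range z))).1
  have e2 := eU_le_of_exact (d := d + 1) (Ideal.span (Set.range z))
    (Algebra.linearMap (AdjoinRoot h) R) _ (Submodule.mkQ_surjective _)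
    (LinearMap.exact_map_mkQ_range _)
  have hdom := hinj.isDomain ψ
  have e3 := eU_eq_zero (M := R ⧸ LinearMap.range (Algebra.linearMap (AdjoinRoot h) R))
    (n := d + 1) (⊥ ⊔ Ideal.span {AdjoinRoot.of h g}) (Ideal.span (Set.range z)) (by
      rw [bot_sup_eq, Ideal.span_singleton_le_iff_mem, Module.mem_annihilator]
      intro r
      obtain ⟨r, rfl⟩ := Submodule.Quotient.mk_surjective _ r
      obtain ⟨F, hF⟩ := hg r
      rw [← Submodule.Quotient.mk_smul, Submodule.Quotient.mk_eq_zero]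
      exact ⟨AdjoinRoot.mk h F, ((hψ F).trans hF).trans (by rw [← hof]; rfl)⟩)
    (hp.mono le_sup_right) ((dim_nzd (n := d) ⊥ _ (fun b hb => Ideal.mem_bot.2
      ((mul_eq_zero.1 (Ideal.mem_bot.1 hb)).resolve_left
      fun h0 => hg0 (by rw [← hof, h0, map_zero]))) ((ringKrullDim_quotient_le _).trans
        ((ringKrullDim_eq_of_integral hinj).ge.trans hd))).trans_lt
          (by exact_mod_cast d.lt_succ_self))
  rw [e3, add_zero, e1, hmap] at e2
  refine (eU_le_of_pow 0 fun j => le_sup_of_le_left (Ideal.pow_right_mono h1 j)).trans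
    (e2.trans ((eU_sop z).trans (ENat.toENNReal_le.2 ?_)))
  rw [lm_self, ln, ln, ← len_eq_of_res (A := C) (B := AdjoinRoot h) fun b => ?_]
  · refine Module.length_le_of_surjective (Ideal.quotientMapₐ (R₁ := C) (Ideal.span (Set.range z))
      (Algebra.ofId C (AdjoinRoot h)) (I := Ideal.span {ε (h.coeff 0)}) ?_).toLinearMap fun b => ?_
    · rw [Ideal.span_singleton_le_iff_mem, Ideal.mem_comap]
      simpa using hdec h
    · obtain ⟨b, rfl⟩ := Ideal.Quotient.mk_surjective b
      obtain ⟨F, rfl⟩ := AdjoinRoot.mk_surjective b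
      exact ⟨Ideal.Quotient.mk _ (ε (F.coeff 0)), (Ideal.Quotient.eq.2 (hdec F)).symm⟩
  · obtain ⟨F, rfl⟩ := AdjoinRoot.mk_surjective b
    exact ⟨_, (Ideal.Quotient.eq.2 (hzm (hdec F))).symm⟩

theorem charZero (p : ℕ) [hp : Fact p.Prime] {C : Type*} [CommRing C] [IsDomain C] [IsLocalRing C]
    (h : (p : C) ∈ maximalIdeal C) (h0 : (p : C) ≠ 0) : CharZero C := by
  obtain ⟨l, hl⟩ := CharP.exists C
  rcases CharP.char_is_prime_or_zero C l with hl' | rfl
  · refine absurd ?_ h
    have := Fact.mk hl'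
    refine (CharP.isUnit_natCast_iff hl').2 fun e => h0 ?_
    exact (CharP.cast_eq_zero_iff C l p).2 e
  · exact CharP.charP_to_charZero C

end HypX

theorem exists_hyp (p : ℕ) [Fact p.Prime] {C : Type*} [CommRing C] [IsDomain C]
    [IsDiscreteValuationRing C] [IsAdicComplete (maximalIdeal C) C] [Infinite (ResidueField C)]
    (hC : maximalIdeal C = Ideal.span {(p : C)})
    {R : Type*} [CommRing R] [IsDomain R] [IsLocalRing R] [IsNoetherianRing R]
    [IsAdicComplete (maximalIdeal R) R] [Algebra C R] [IsLocalHom (algebraMap C R)]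
    (hres : ∀ r : R, ∃ v : C, r - algebraMap C R v ∈ maximalIdeal R) (hp0 : (p : R) ≠ 0)
    (d : ℕ) (hd : ringKrullDim R = (d + 1 : ℕ)) :
    ∃ (φ : PS d C →+* R) (x : R) (h : (PS d C)[X]) (g : PS d C) (c : ℕ),
      (∀ v, φ (MvPowerSeries.C v) = algebraMap C R v) ∧
      (∀ i, φ (MvPowerSeries.X i) ∈ maximalIdeal R) ∧ φ.Finite ∧ Injective φ ∧
      x ∈ maximalIdeal R ∧ h.Monic ∧ (∀ F : (PS d C)[X], eval₂ φ x F = 0 ↔ h ∣ F) ∧
      eval₂ φ x (derivative h) ≠ 0 ∧ g ≠ 0 ∧ (∀ r : R, ∃ F : (PS d C)[X], eval₂ φ x F = φ g * r) ∧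
      (∀ j, maximalIdeal R ^ (j + c) ≤
        (Ideal.span {x} ⊔ Ideal.span (Set.range fun i => φ (MvPowerSeries.X i))) ^ j) ∧
      eU (maximalIdeal R) R (d + 1) ≤
        ln C (Ideal.span {MvPowerSeries.constantCoeff (h.coeff 0)}) := by
  have hpC : (p : C) ∈ maximalIdeal C := hC ▸ Ideal.mem_span_singleton_self _
  have hpR : (p : R) ∈ maximalIdeal R := map_natCast (algebraMap C R) p ▸ map_nonunit _ _ hpC
  have hp1 : (p : C) ≠ 0 := fun e => hp0 (by rw [← map_natCast (algebraMap C R), e, map_zero])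
  have : Infinite (ResidueField R) :=
    Infinite.of_injective _ (ResidueField.map (algebraMap C R)).injective
  obtain ⟨w, hw⟩ := exists_red (maximalIdeal R) le_rfl ⟨1, (pow_one _).le⟩ hd.le
  have hwm : ∀ i, w i ∈ maximalIdeal R := fun i => hw.1 (Ideal.subset_span ⟨i, rfl⟩)
  obtain ⟨e, he⟩ := hw.pow_le
  obtain ⟨i₀, c, k, hk⟩ := red_step (⊥ ⊔ Ideal.span {(p : R)}) w hwm
    ⟨1 + e, le_sup_of_le_right ((he 1).trans_eq (pow_one _))⟩
    (dim_nzd ⊥ _ (fun b hb => (mul_eq_zero.1 hb).resolve_left hp0)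
      ((ringKrullDim_quotient_le _).trans hd.le))
  obtain ⟨y, hy⟩ : ∃ y : Fin d → R, y = fun i => w (i₀.succAbove i) - c i * w i₀ := ⟨_, rfl⟩
  rw [← hy, bot_sup_eq] at hk
  have hym : ∀ i, y i ∈ maximalIdeal R := fun i =>
    hy ▸ sub_mem (hwm _) (Ideal.mul_mem_left _ _ (hwm _))
  obtain ⟨φ, hφ⟩ := exists_evalPS (K := C) (maximalIdeal R) y fun i => Ideal.le_radical (hym i)
  have hφC : ∀ v, φ (MvPowerSeries.C v) = algebraMap C R v := fun v => φ.commutes v
  have hmap : (maximalIdeal (PS d C)).map (φ : PS d C →+* R) =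
      Ideal.span {(p : R)} ⊔ Ideal.span (Set.range y) := by
    rw [max_PSV, hC, Ideal.map_sup, Ideal.map_span, Ideal.map_span, Ideal.map_span,
      ← Set.range_comp, Set.image_singleton, Set.image_singleton, map_natCast, map_natCast]
    exact congrArg (fun f => _ ⊔ Ideal.span (Set.range f)) (funext hφ)
  have := isLocalHom_of_map_le (hmap.le.trans (sup_le ((Ideal.span_singleton_le_iff_mem _).2 hpR)
    (Ideal.span_le.2 (Set.range_subset_iff.2 hym))))
  have hfin := finite_of_prim (φ : PS d C →+* R) (fun b => by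
    obtain ⟨v, hv⟩ := hres b
    exact ⟨MvPowerSeries.C v, by rwa [← hφC] at hv⟩) ⟨k + 1 + e, by
      rw [hmap]
      exact (he _).trans (hk.trans (sup_le_sup_left Ideal.mul_le_left _))⟩
  let _ := (φ : PS d C →+* R).toAlgebra
  have : Module.Finite (PS d C) R := hfin
  have hinj : Injective (algebraMap (PS d C) R) := by
    refine (injective_iff_map_eq_zero _).2 fun a ha => by_contra fun ha0 => ?_
    have h1 := (dim_quot_anti (J := (⊥ : Ideal R).comap (algebraMap (PS d C) R))
      (sup_le bot_le ((Ideal.span_singleton_le_iff_mem _).2 ha))).trans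
      (dim_nzd (n := d) ⊥ a (fun b hb => (mul_eq_zero.1 hb).resolve_left ha0)
        ((ringKrullDim_quotient_le _).trans (dim_PSV d).le))
    rw [dim_quot_comap, ringKrullDim_eq_of_ringEquiv (RingEquiv.quotientBot R), hd] at h1
    exact absurd (by exact_mod_cast h1) d.not_succ_le_self
  have := (faithfulSMul_iff_algebraMap_injective _ _).2 hinj
  have := normal_PS (V := C) d
  have := HypX.charZero p hpC hp1
  have : CharZero (PS d C) := charZero_of_injective_ringHom (f := MvPowerSeries.C)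
    MvPowerSeries.C_injective
  obtain ⟨l, θ, x, hx, h1, h2⟩ := HypX.prim (PS d C) R (w i₀) (fun l => (p ^ (l + 2) : ℕ))
    fun a b h => by
      simpa using Nat.pow_right_injective (Fact.out : p.Prime).two_le (Nat.cast_injective h)
  obtain ⟨g, hg0, hg⟩ := HypX.denom h2
  have hxm : x - w i₀ ∈ maximalIdeal R * maximalIdeal R := by
    rw [hx, add_sub_cancel_left, map_natCast, Nat.cast_pow, pow_add, sq, mul_comm ((p : R) ^ l),
      mul_assoc]
    exact Ideal.mul_mem_right _ _ (Ideal.mul_mem_mul hpR hpR)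
  have hx1 : x ∈ maximalIdeal R := by simpa using add_mem (Ideal.mul_le_left hxm) (hwm i₀)
  have hle : Ideal.span {x} ⊔ Ideal.span (Set.range y) ≤ maximalIdeal R :=
    sup_le ((Ideal.span_singleton_le_iff_mem _).2 hx1)
      (Ideal.span_le.2 (Set.range_subset_iff.2 hym))
  have hred : IsRed (Ideal.span {x} ⊔ Ideal.span (Set.range y)) (maximalIdeal R) := by
    refine isRed_of_nak hle (hw.of_le (Ideal.span_le.2 (Set.range_subset_iff.2 fun i => ?_))
      (sup_le hle Ideal.mul_le_left))
    have h3 : w i₀ ∈ Ideal.span {x} ⊔ Ideal.span (Set.range y) ⊔ maximalIdeal R * maximalIdeal R := by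
      simpa using sub_mem (Ideal.mem_sup_left (Ideal.mem_sup_left (Ideal.mem_span_singleton_self x)))
        (Ideal.mem_sup_right hxm)
    refine Fin.succAboveCases i₀ h3 (fun i => ?_) i
    have h4 := add_mem (Ideal.mem_sup_left (Ideal.mem_sup_right
      (Ideal.subset_span (Set.mem_range_self (f := y) i)))) (Ideal.mul_mem_left _ (c i) h3)
    rwa [hy, sub_add_cancel, ← hy] at h4
  obtain ⟨c', hc'⟩ := hred.pow_le
  have hint : IsIntegral (PS d C) x := Algebra.IsIntegral.isIntegral x
  have ey : y = fun i => algebraMap (PS d C) R (MvPowerSeries.X i) := (funext hφ).symm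
  rw [ey] at hc' hle
  have : IsLocalHom ((algebraMap (PS d C) R).comp (algebraMap C (PS d C))) := by
    rw [show (algebraMap (PS d C) R).comp (algebraMap C (PS d C)) = algebraMap C R from
      φ.comp_algebraMap]
    infer_instance
  exact ⟨φ, x, minpoly (PS d C) x, g, c', hφC, fun i => hφ i ▸ hym i, hfin, hinj, hx1,
    minpoly.monic hint, minpoly.isIntegrallyClosed_dvd_iff hint, h1, hg0, hg, hc',
    HypX.mult (C := C) (fun r => by
      obtain ⟨v, hv⟩ := hres r
      exact ⟨v, by rwa [← φ.commutes] at hv⟩) hd.le x _ (minpoly.isIntegrallyClosed_dvd_iff hint)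
      (fun e => hg0 (hinj (e.trans (map_zero _).symm))) hg MvPowerSeries.X
      MvPowerSeries.constantCoeff (fun a => (mem_xI_iff _).2 (by simp [MvPowerSeries.algebraMap_apply]))
      hle ⟨1 + c', (hc' 1).trans_eq (pow_one _)⟩⟩

end Vale.Agent.P202
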