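import Vale.Agent.P202M.Bas
import Vale.Agent.P202M.LBaX

/-! The ring carrying the chase over a ring with a regular sequence. -/

namespace Vale.Agent.P202

/-- Laurent polynomials in `w, u_1, ..., u_d`. -/
abbrev Om (d : ℕ) (D : Type*) [CommRing D] := AddMonoidAlgebra D (ℤ × (Fin d → ℤ))

variable {d : ℕ} {D : Type*} [CommRing D]

/-- Laurent polynomials with support in a set of monomials. -/
def SupO (D : Type*) [CommRing D] (p : ℤ → (Fin d → ℤ) → Prop) : Submodule D (Om d D) where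
  carrier := {f | ∀ t a, f.coeff (t, a) ≠ 0 → p t a}
  zero_mem' := by simp
  add_mem' := by
    intro f g hf hg t a h
    by_cases h1 : f.coeff (t, a) = 0
    · exact hg t a (by simpa [h1] using h)
    · exact hf t a h1
  smul_mem' := by
    intro c f hf t a h
    refine hf t a fun h0 => h ?_
    simp [h0]

/-- Monomials. -/
noncomputable def monO (D : Type*) [CommRing D] (t : ℤ) (a : Fin d → ℤ) : Om d D :=
  AddMonoidAlgebra.single (t, a) 1

/-- The element `w e_j(u)`. -/
noncomputable def eO (D : Type*) [CommRing D] (j : Fin d) : Om d D :=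
  ∑ A ∈ Finset.powersetCard (j + 1) (Finset.univ : Finset (Fin d)),
    monO D 1 (∑ i ∈ A, Pi.single i 1)

/-- The relations `x_j = w e_j(u)`. -/
noncomputable def relO (x : Fin d → D) : Ideal (Om d D) :=
  Ideal.span (Set.range fun j => algebraMap D (Om d D) (x j) - eO D j)

/-- The quotient ring. -/
abbrev La (x : Fin d → D) := Om d D ⧸ relO x

/-- The span of a set of monomials in the quotient ring. -/
noncomputable def SupL (x : Fin d → D) (p : ℤ → (Fin d → ℤ) → Prop) : Submodule D (La x) :=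
  (SupO D p).map (Ideal.Quotient.mkₐ D (relO x)).toLinearMap

/-- Regular sequences. -/
def IsReg (x : Fin d → D) : Prop :=
  ∀ (j : Fin d) (r : D), x j * r ∈ Ideal.span (x '' {i | i < j}) →
    r ∈ Ideal.span (x '' {i | i < j})

variable {x : Fin d → D} {p q r : ℤ → (Fin d → ℤ) → Prop}

namespace LBaX

lemma mem_SupO {f : Om d D} : f ∈ SupO D p ↔ ∀ t a, f.coeff (t, a) ≠ 0 → p t a := Iff.rfl

lemma SupO_mono (h : ∀ t a, p t a → q t a) {f : Om d D} (hf : f ∈ SupO D p) : f ∈ SupO D q :=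
  fun t a h' => h t a (hf t a h')

lemma coeff_eq_zero {f : Om d D} (hf : f ∈ SupO D p) {t : ℤ} {a : Fin d → ℤ} (h : ¬ p t a) :
    f.coeff (t, a) = 0 := by
  by_contra h'
  exact h (hf t a h')

lemma mul_mem_SupO (h : ∀ t a t' a', p t a → q t' a' → r (t + t') (a + a')) {f g : Om d D}
    (hf : f ∈ SupO D p) (hg : g ∈ SupO D q) : f * g ∈ SupO D r := by
  classical
  intro t a hne
  have := AddMonoidAlgebra.support_coeff_mul_subset f g (Finsupp.mem_support_iff.mpr hne)
  obtain ⟨⟨t₁, a₁⟩, h₁, ⟨t₂, a₂⟩, h₂, ha⟩ := Finset.mem_add.mp this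
  obtain ⟨rfl, rfl⟩ := Prod.mk.inj ha
  exact h _ _ _ _ (hf _ _ (Finsupp.mem_support_iff.mp h₁)) (hg _ _ (Finsupp.mem_support_iff.mp h₂))

lemma singleO_mem {t : ℤ} {a : Fin d → ℤ} (h : p t a) (c : D) :
    (AddMonoidAlgebra.single (t, a) c : Om d D) ∈ SupO D p := by
  classical
  intro t' a' hne
  rw [AddMonoidAlgebra.coeff_single, Finsupp.single_apply] at hne
  split_ifs at hne with h'
  · obtain ⟨rfl, rfl⟩ := Prod.mk.inj h'
    exact h
  · exact absurd rfl hne

lemma monO_mem {t : ℤ} {a : Fin d → ℤ} (h : p t a) : monO D t a ∈ SupO D p := singleO_mem h 1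

lemma monO_mul (s s' : ℤ) (b b' : Fin d → ℤ) :
    monO D s b * monO D s' b' = monO D (s + s') (b + b') := by
  simp [monO, AddMonoidAlgebra.single_mul_single]

lemma monO_zero : monO D 0 (0 : Fin d → ℤ) = 1 := rfl

lemma mon_prod {α : Type*} (B : Finset α) (b : α → Fin d → ℤ) :
    ∏ i ∈ B, monO D 0 (b i) = monO D 0 (∑ i ∈ B, b i) := by
  classical
  induction B using Finset.induction_on with
  | empty => simp [monO_zero]
  | insert i s hi ih => rw [Finset.prod_insert hi, Finset.sum_insert hi, ih, monO_mul, add_zero]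

lemma single_eq (t : ℤ) (a : Fin d → ℤ) (c : D) :
    (AddMonoidAlgebra.single (t, a) c : Om d D) = monO D t a * algebraMap D (Om d D) c := by
  rw [mul_comm, ← Algebra.smul_def, monO, AddMonoidAlgebra.smul_single, smul_eq_mul, mul_one]

lemma eO_mem (j : Fin d) : eO D j ∈ SupO D fun t a => t = 1 ∧ ∀ i, 0 ≤ a i ∧ a i ≤ 1 := by
  classical
  refine Submodule.sum_mem _ fun A _ => monO_mem ⟨rfl, fun i => ?_⟩
  simp only [Finset.sum_apply, Pi.single_apply, Finset.sum_ite_eq]
  split_ifs <;> simp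

open Classical in
/-- Projection onto a set of monomials. -/
noncomputable def projO (p : ℤ → (Fin d → ℤ) → Prop) (f : Om d D) : Om d D :=
  AddMonoidAlgebra.ofCoeff (f.coeff.filter fun g => p g.1 g.2)

open Classical in
lemma coeff_projO (p : ℤ → (Fin d → ℤ) → Prop) (f : Om d D) (t a) :
    (projO p f).coeff (t, a) = if p t a then f.coeff (t, a) else 0 := by
  simp [projO, Finsupp.filter_apply]

lemma projO_mem {f : Om d D} (hf : f ∈ SupO D q) : projO p f ∈ SupO D fun t a => p t a ∧ q t a := by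
  intro t a h
  rw [coeff_projO] at h
  split_ifs at h with h'
  · exact ⟨h', hf t a h⟩
  · exact absurd rfl h

lemma sub_projO_mem {f : Om d D} (hf : f ∈ SupO D q) :
    f - projO p f ∈ SupO D fun t a => ¬ p t a ∧ q t a := by
  intro t a h
  rw [AddMonoidAlgebra.coeff_sub, Finsupp.sub_apply, coeff_projO] at h
  split_ifs at h with h'
  · exact absurd (sub_self _) h
  · exact ⟨h', hf t a (by simpa using h)⟩

lemma mk_mem {f : Om d D} (hf : f ∈ SupO D p) : Ideal.Quotient.mk (relO x) f ∈ SupL x p :=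
  ⟨f, hf, rfl⟩

lemma exists_mk {f : La x} (hf : f ∈ SupL x p) :
    ∃ g ∈ SupO D p, Ideal.Quotient.mk (relO x) g = f := hf

lemma mk_eO (j : Fin d) : Ideal.Quotient.mk (relO x) (eO D j) = algebraMap D (La x) (x j) :=
  (Ideal.Quotient.eq.2 (show algebraMap D (Om d D) (x j) - eO D j ∈ relO x from
    Ideal.subset_span ⟨j, rfl⟩)).symm

lemma mem_of_coeff {f : Om d D} (h : ∀ t a, f.coeff (t, a) ≠ 0 →
    Ideal.Quotient.mk (relO x) (AddMonoidAlgebra.single (t, a) (f.coeff (t, a))) ∈ SupL x p) :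
    Ideal.Quotient.mk (relO x) f ∈ SupL x p := by
  rw [← AddMonoidAlgebra.sum_coeff_single f, Finsupp.sum, map_sum]
  exact Submodule.sum_mem _ fun g hg => h g.1 g.2 (Finsupp.mem_support_iff.1 hg)

lemma exists_lower {α : Type*} [Fintype α] (f : α → Om d D) (s : ℤ) :
    ∃ n : ℕ, ∀ j, f j ∈ SupO D fun t _ => s - n ≤ t := by
  classical
  obtain ⟨b, hb⟩ := (Finset.univ.biUnion fun j => (f j).coeff.support.image Prod.fst).bddBelow
  refine ⟨(s - b).toNat, fun j t a h => ?_⟩
  have : b ≤ t := hb (Finset.mem_coe.2 (Finset.mem_biUnion.2 ⟨j, Finset.mem_univ _,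
    Finset.mem_image.2 ⟨(t, a), Finsupp.mem_support_iff.2 h, rfl⟩⟩))
  omega

end LBaX

open LBaX

theorem SupL_mono (h : ∀ t a, p t a → q t a) {f : La x} (hf : f ∈ SupL x p) : f ∈ SupL x q := by
  obtain ⟨g, hg, rfl⟩ := exists_mk hf
  exact mk_mem (SupO_mono h hg)

theorem mul_mem_SupL (h : ∀ t a t' a', p t a → q t' a' → r (t + t') (a + a')) {f g : La x}
    (hf : f ∈ SupL x p) (hg : g ∈ SupL x q) : f * g ∈ SupL x r := by
  obtain ⟨f', hf', rfl⟩ := exists_mk hf
  obtain ⟨g', hg', rfl⟩ := exists_mk hg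
  rw [← map_mul]
  exact mk_mem (mul_mem_SupO h hf' hg')

theorem monL_mem_SupL {t : ℤ} {a : Fin d → ℤ} (h : p t a) :
    Ideal.Quotient.mk (relO x) (monO D t a) ∈ SupL x p := mk_mem (monO_mem h)

theorem SupL_or {f : La x} (hf : f ∈ SupL x fun t a => p t a ∨ q t a) :
    ∃ g ∈ SupL x p, ∃ h ∈ SupL x q, f = g + h := by
  obtain ⟨f', hf', rfl⟩ := exists_mk hf
  refine ⟨_, mk_mem (SupO_mono (fun t a h => h.1) (projO_mem (p := p) hf')), _,
    mk_mem (SupO_mono (fun t a h => Or.resolve_left h.2 h.1) (sub_projO_mem (p := p) hf')), ?_⟩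
  rw [← map_add, add_sub_cancel]

theorem alg_mem_SupL {n : ℕ} {c : D} (hc : c ∈ Ideal.span (Set.range x) ^ n) :
    algebraMap D (La x) c ∈ SupL x (pP n) := by
  induction n generalizing c with
  | zero =>
    rw [Algebra.algebraMap_eq_smul_one]
    exact Submodule.smul_mem _ _ (monL_mem_SupL (t := 0) (a := 0) ⟨le_rfl, by simp⟩)
  | succ n ih =>
    rw [pow_succ] at hc
    refine Submodule.mul_induction_on hc (fun a ha b hb => ?_) fun a b ha hb => ?_
    · rw [map_mul]
      refine mul_mem_SupL pP_add (ih ha) ?_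
      refine Submodule.span_induction ?_ ?_ ?_ ?_ hb
      · rintro _ ⟨j, rfl⟩
        rw [← mk_eO]
        refine mk_mem (SupO_mono ?_ (eO_mem j))
        rintro t a ⟨rfl, h⟩
        exact ⟨le_rfl, h⟩
      · simp
      · intro a b _ _ ha hb
        rw [map_add]
        exact add_mem ha hb
      · intro a b _ hb
        rw [smul_eq_mul, map_mul, ← Algebra.smul_def]
        exact Submodule.smul_mem _ _ hb
    · rw [map_add]
      exact add_mem ha hb

namespace LBaX

/-- A monomial whose coefficient lies in the ideal moves up one level. -/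
lemma single_up (hp : ∀ t a t' a', pP 0 t a → p t' a' → p (t + t') (a + a')) {t : ℤ}
    {a : Fin d → ℤ} (h : p t a) {c : D} (hc : c ∈ Ideal.span (Set.range x)) :
    Ideal.Quotient.mk (relO x) (AddMonoidAlgebra.single (t, a) c) ∈
      SupL x fun t' a' => p t' a' ∧ t < t' := by
  rw [single_eq, mul_comm, map_mul]
  refine mul_mem_SupL (p := pP 1) (q := fun t' a' => p t' a' ∧ t' = t) ?_
    (alg_mem_SupL (by simpa using hc)) (monL_mem_SupL ⟨h, rfl⟩)
  intro t₁ a₁ t₂ a₂ h₁ h₂
  have h3 : (1 : ℤ) ≤ t₁ := h₁.1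
  exact ⟨hp _ _ _ _ ⟨by simp; omega, h₁.2⟩ h₂.1, by omega⟩

/-- The trivial relations. -/
def kos (x : Fin d → D) : Submodule D (Fin d → D) :=
  Submodule.span D {v | ∃ j k, v = Pi.single j (x k) - Pi.single k (x j)}

lemma kos_rel {v : Fin d → D} (hv : v ∈ kos x) : ∑ i, v i * x i = 0 := by
  classical
  refine Submodule.span_induction ?_ ?_ ?_ ?_ hv
  · rintro _ ⟨j, k, rfl⟩
    simp only [Pi.sub_apply, sub_mul, Finset.sum_sub_distrib, Pi.single_apply, ite_mul, zero_mul,
      Finset.sum_ite_eq', Finset.mem_univ, if_true]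
    ring
  · simp
  · intro a b _ _ ha hb
    simp [add_mul, Finset.sum_add_distrib, ha, hb]
  · intro c a _ ha
    simp [mul_assoc, ← Finset.mul_sum, ha]

lemma mem_kos (hx : IsReg x) (n : ℕ) : ∀ v : Fin d → D, (∀ i : Fin d, n ≤ i.val → v i = 0) →
    ∑ i, v i * x i = 0 → v ∈ kos x := by
  classical
  induction n with
  | zero =>
    intro v hv _
    rw [show v = 0 from funext fun i => hv i (Nat.zero_le _)]
    exact zero_mem _
  | succ n ih =>
    intro v hv h0
    by_cases hn : n < d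
    swap
    · exact ih v (fun i hi => absurd i.2 (by omega)) h0
    set j : Fin d := ⟨n, hn⟩ with hj
    have h1 : x j * v j ∈ Ideal.span (x '' {i | i < j}) := by
      rw [← Finset.add_sum_erase _ _ (Finset.mem_univ j), add_eq_zero_iff_eq_neg] at h0
      rw [mul_comm, h0]
      refine neg_mem (Ideal.sum_mem _ fun i hi => ?_)
      rcases lt_or_gt_of_ne (Finset.mem_erase.1 hi).1 with h | h
      · exact Ideal.mul_mem_left _ _ (Ideal.subset_span ⟨i, h, rfl⟩)
      · rw [hv i h, zero_mul]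
        exact zero_mem _
    have h2 : ∃ κ ∈ kos x, κ j = v j ∧ ∀ i, j < i → κ i = 0 := by
      refine Submodule.span_induction (p := fun r _ => ∃ κ ∈ kos x, κ j = r ∧ ∀ i, j < i → κ i = 0)
        ?_ ?_ ?_ ?_ (hx j _ h1)
      · rintro _ ⟨k, hk, rfl⟩
        have hk' : k < j := hk
        refine ⟨_, Submodule.subset_span ⟨j, k, rfl⟩, by simp [hk'.ne'], fun i hi => ?_⟩
        simp [hi.ne', (hk'.trans hi).ne']
      · exact ⟨0, zero_mem _, rfl, fun _ _ => rfl⟩
      · rintro a b _ _ ⟨κ, h1, h2, h3⟩ ⟨κ', h1', h2', h3'⟩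
        exact ⟨κ + κ', add_mem h1 h1', by simp [h2, h2'], fun i hi => by simp [h3 i hi, h3' i hi]⟩
      · rintro c a _ ⟨κ, h1, h2, h3⟩
        exact ⟨c • κ, Submodule.smul_mem _ _ h1, by simp [h2], fun i hi => by simp [h3 i hi]⟩
    obtain ⟨κ, h3, h4, h5⟩ := h2
    have h6 := ih (v - κ) (fun i hi => by
      rcases eq_or_lt_of_le hi with h | h
      · rw [show i = j from Fin.ext h.symm, Pi.sub_apply, h4, sub_self]
      · rw [Pi.sub_apply, hv i h, h5 i h, sub_self]) (by
      simp [sub_mul, Finset.sum_sub_distrib, h0, kos_rel h3])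
    simpa using add_mem h6 h3

lemma kos_lift (s : ℤ) (b : Fin d → ℤ) {v : Fin d → D} (hv : v ∈ kos x) :
    ∃ w : Fin d → Om d D, ∑ j, w j * (algebraMap D (Om d D) (x j) - eO D j) = 0 ∧
      ∀ j, w j - AddMonoidAlgebra.single (s, b) (v j) ∈ SupO D fun t _ => s < t := by
  classical
  have he : ∀ j, monO D s b * eO D j ∈ SupO D fun t (_ : Fin d → ℤ) => s < t := fun j =>
    mul_mem_SupO (p := fun t _ => t = s) (fun t a t' a' h h' => by omega) (monO_mem rfl) (eO_mem j)
  refine Submodule.span_induction (p := fun v _ => ∃ w : Fin d → Om d D,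
    ∑ j, w j * (algebraMap D (Om d D) (x j) - eO D j) = 0 ∧
      ∀ j, w j - AddMonoidAlgebra.single (s, b) (v j) ∈ SupO D fun t _ => s < t) ?_ ?_ ?_ ?_ hv
  · rintro _ ⟨j, k, rfl⟩
    refine ⟨Pi.single j (monO D s b * (algebraMap D (Om d D) (x k) - eO D k)) -
      Pi.single k (monO D s b * (algebraMap D (Om d D) (x j) - eO D j)), ?_, fun i => ?_⟩
    · simp only [Pi.sub_apply, sub_mul, Finset.sum_sub_distrib, Pi.single_apply, ite_mul, zero_mul,
        Finset.sum_ite_eq', Finset.mem_univ, if_true]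
      ring
    · have h1 : ∀ j k : Fin d, (Pi.single j (monO D s b * (algebraMap D (Om d D) (x k) - eO D k)) :
          Fin d → Om d D) i - AddMonoidAlgebra.single (s, b) ((Pi.single j (x k) : Fin d → D) i) ∈
          SupO D fun t _ => s < t := by
        intro j k
        by_cases h : i = j
        · subst h
          rw [Pi.single_eq_same, Pi.single_eq_same, single_eq, mul_sub, sub_sub_cancel_left]
          exact neg_mem (he k)
        · simp [Pi.single_eq_of_ne h]
      rw [Pi.sub_apply, Pi.sub_apply, AddMonoidAlgebra.single_sub, sub_sub_sub_comm]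
      exact sub_mem (h1 j k) (h1 k j)
  · exact ⟨0, by simp, fun j => by simp⟩
  · rintro v v' _ _ ⟨w, h1, h2⟩ ⟨w', h1', h2'⟩
    refine ⟨w + w', by
      simp only [Pi.add_apply, add_mul, Finset.sum_add_distrib, h1, h1', add_zero], fun j => ?_⟩
    rw [Pi.add_apply, Pi.add_apply, AddMonoidAlgebra.single_add, add_sub_add_comm]
    exact add_mem (h2 j) (h2' j)
  · rintro c v _ ⟨w, h1, h2⟩
    refine ⟨c • w, by
      simp only [Pi.smul_apply, smul_mul_assoc, ← Finset.smul_sum, h1, smul_zero], fun j => ?_⟩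
    rw [Pi.smul_apply, Pi.smul_apply, ← AddMonoidAlgebra.smul_single, ← smul_sub]
    exact Submodule.smul_mem _ _ (h2 j)

lemma coeff_rel {s : ℤ} {a : Fin d → Om d D} (ha : ∀ j, a j ∈ SupO D fun t _ => s ≤ t)
    (b : Fin d → ℤ) : (∑ j, a j * (algebraMap D (Om d D) (x j) - eO D j)).coeff (s, b) =
      ∑ j, (a j).coeff (s, b) * x j := by
  rw [AddMonoidAlgebra.coeff_sum, Finsupp.finsetSum_apply]
  refine Finset.sum_congr rfl fun j _ => ?_
  have h1 : a j * eO D j ∈ SupO D fun t (_ : Fin d → ℤ) => s < t :=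
    mul_mem_SupO (fun t a t' a' h h' => by omega) (ha j) (eO_mem j)
  rw [mul_sub, AddMonoidAlgebra.coeff_sub, Finsupp.sub_apply, coeff_eq_zero h1 (lt_irrefl s),
    sub_zero, mul_comm, ← Algebra.smul_def, AddMonoidAlgebra.coeff_smul_apply, smul_eq_mul,
    mul_comm]

lemma raise (hx : IsReg x) (t₀ : ℤ) (n : ℕ) : ∀ a : Fin d → Om d D,
    (∀ j, a j ∈ SupO D fun t _ => t₀ - n ≤ t) →
    (∑ j, a j * (algebraMap D (Om d D) (x j) - eO D j) ∈ SupO D fun t _ => t₀ ≤ t) →
    ∃ a' : Fin d → Om d D, (∀ j, a' j ∈ SupO D fun t _ => t₀ ≤ t) ∧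
      ∑ j, a' j * (algebraMap D (Om d D) (x j) - eO D j) =
        ∑ j, a j * (algebraMap D (Om d D) (x j) - eO D j) := by
  classical
  induction n with
  | zero => exact fun a ha _ => ⟨a, by simpa using ha, rfl⟩
  | succ n ih =>
    intro a ha h
    set s : ℤ := t₀ - (n + 1 : ℕ) with hs
    have hs' : s < t₀ - n := by rw [hs]; push_cast; omega
    have h1 : ∀ b, (fun j => (a j).coeff (s, b)) ∈ kos x := fun b =>
      mem_kos hx d _ (fun i hi => absurd i.2 (by omega)) (by
        rw [← coeff_rel ha, coeff_eq_zero h (by omega)])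
    choose w hw1 hw2 using fun b => kos_lift s b (h1 b)
    set S := Finset.univ.biUnion fun j => (a j).coeff.support.image Prod.snd with hS
    have h2 : ∑ j, (a j - ∑ b ∈ S, w b j) * (algebraMap D (Om d D) (x j) - eO D j) =
        ∑ j, a j * (algebraMap D (Om d D) (x j) - eO D j) := by
      simp only [sub_mul (a _), Finset.sum_sub_distrib, Finset.sum_mul]
      rw [Finset.sum_comm, Finset.sum_congr rfl fun b _ => hw1 b, Finset.sum_const_zero, sub_zero]
    obtain ⟨a', h3, h4⟩ := ih (fun j => a j - ∑ b ∈ S, w b j) (fun j => by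
      have e : a j - ∑ b ∈ S, w b j =
          (a j - ∑ b ∈ S, AddMonoidAlgebra.single (s, b) ((a j).coeff (s, b))) -
          ∑ b ∈ S, (w b j - AddMonoidAlgebra.single (s, b) ((a j).coeff (s, b))) := by
        rw [Finset.sum_sub_distrib]
        abel
      rw [e]
      refine SupO_mono (p := fun t _ => s < t) (fun t _ h => by rw [hs] at h; push_cast at h; omega)
        (sub_mem ?_ (Submodule.sum_mem _ fun b _ => hw2 b j))
      intro t b hne
      by_contra hlt
      apply hne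
      rw [AddMonoidAlgebra.coeff_sub, Finsupp.sub_apply, AddMonoidAlgebra.coeff_sum,
        Finsupp.finsetSum_apply]
      simp only [AddMonoidAlgebra.coeff_single, Finsupp.single_apply, Prod.mk.injEq]
      by_cases ht : s = t
      · subst ht
        simp only [true_and, Finset.sum_ite_eq']
        split_ifs with hb
        · exact sub_self _
        · rw [sub_zero]
          by_contra h0
          exact hb (Finset.mem_biUnion.2 ⟨j, Finset.mem_univ _,
            Finset.mem_image.2 ⟨(s, b), Finsupp.mem_support_iff.2 h0, rfl⟩⟩)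
      · rw [coeff_eq_zero (ha j) (by omega)]
        simp [ht]) (h2 ▸ h)
    exact ⟨a', h3, h4.trans h2⟩

end LBaX

/-- Leading coefficients. -/
theorem lead_mem (hx : IsReg x) {t₀ : ℤ} {f : Om d D} (hf : f ∈ SupO D fun t _ => t₀ ≤ t)
    (h : Ideal.Quotient.mk (relO x) f ∈ SupL x fun t _ => t₀ < t) (a : Fin d → ℤ) :
    f.coeff (t₀, a) ∈ Ideal.span (Set.range x) := by
  obtain ⟨g, hg, hgf⟩ := exists_mk h
  obtain ⟨c, hc⟩ := Ideal.mem_span_range_iff_exists_fun.1 (Ideal.Quotient.eq.1 hgf.symm)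
  obtain ⟨n, hn⟩ := exists_lower c t₀
  obtain ⟨c', h1, h2⟩ := raise hx t₀ n c hn
    (hc ▸ sub_mem hf (SupO_mono (fun t _ h => le_of_lt h) hg))
  have h3 := coeff_rel (x := x) h1 a
  rw [h2, hc, AddMonoidAlgebra.coeff_sub, Finsupp.sub_apply, coeff_eq_zero hg (lt_irrefl t₀),
    sub_zero] at h3
  rw [h3]
  exact Ideal.sum_mem _ fun j _ => Ideal.mul_mem_left _ _ (Ideal.subset_span ⟨j, rfl⟩)

/-- Normal forms. -/
theorem nf_mem (hx : IsReg x) (hp : ∀ t a t' a', pP 0 t a → p t' a' → p (t + t') (a + a'))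
    {s : ℤ} {f : La x} (h1 : f ∈ SupL x p) (h2 : f ∈ SupL x fun t _ => s ≤ t) :
    f ∈ SupL x fun t a => p t a ∧ s ≤ t := by
  have key : ∀ n : ℕ, (f ∈ SupL x fun t a => p t a ∧ s - n ≤ t) →
      f ∈ SupL x fun t a => p t a ∧ s ≤ t := by
    intro n
    induction n with
    | zero => simp
    | succ n ih =>
      intro h
      obtain ⟨g, hg, rfl⟩ := exists_mk h
      refine ih (mem_of_coeff fun t a hne => ?_)
      obtain ⟨h3, h4⟩ := hg t a hne
      rcases eq_or_lt_of_le h4 with h5 | h5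
      · have h6 := lead_mem hx (t₀ := t) (SupO_mono (fun t' _ h => h5.ge.trans h.2) hg)
          (SupL_mono (fun t' _ h => by push_cast at h5; omega) h2) a
        refine SupL_mono (fun t' a' h => ⟨h.1, ?_⟩) (single_up hp h3 h6)
        have := h.2
        push_cast at h5
        omega
      · push_cast at h5
        exact mk_mem (singleO_mem ⟨h3, by omega⟩ _)
  obtain ⟨g, hg, rfl⟩ := exists_mk h1
  obtain ⟨n, hn⟩ := exists_lower (fun _ : Unit => g) s
  exact key n (mk_mem fun t a h => ⟨hg t a h, hn () t a h⟩)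

namespace LBaX

/-- The subring attached to a submonoid of monomials. -/
def SupR (D : Type*) [CommRing D] (p : ℤ → (Fin d → ℤ) → Prop) (h0 : p 0 0)
    (h : ∀ t a t' a', p t a → p t' a' → p (t + t') (a + a')) : Subring (Om d D) where
  carrier := SupO D p
  mul_mem' := mul_mem_SupO h
  one_mem' := monO_mem h0
  add_mem' := fun h1 h2 => (SupO D p).add_mem h1 h2
  zero_mem' := (SupO D p).zero_mem
  neg_mem' := by intro x hx; exact (SupO D p).neg_mem hx

lemma mon_mul_eO (j : Fin d) : monO D (-1) 0 * eO D j =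
    ∑ A ∈ Finset.powersetCard (j + 1) (Finset.univ : Finset (Fin d)),
      ∏ i ∈ A, monO D 0 (Pi.single i 1) := by
  rw [eO, Finset.mul_sum]
  refine Finset.sum_congr rfl fun A _ => ?_
  rw [monO_mul, mon_prod, neg_add_cancel, zero_add]

lemma chart_unitO {A : Finset (Fin d)} (hA : A.Nonempty) (n : ℕ) :
    ∃ l : Fin d → Om d D, (∀ j, l j ∈ SupO D (pCh A)) ∧ ∑ j, l j * eO D j ^ n = 1 := by
  classical
  let Λ : Subring (Om d D) := SupR D (pCh A) ⟨by simp, by simp⟩ (pCh_add A)
  let x : Fin d → Λ := fun j => ⟨eO D j, SupO_mono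
    (fun t a h => ⟨fun i _ => (h.2 i).1, fun i _ => h.1 ▸ (h.2 i).2⟩) (eO_mem j)⟩
  suffices h : Ideal.span (Set.range x) = ⊤ by
    have h2 := Ideal.span_pow_eq_top _ h n
    have h3 : (1 : Λ) ∈ Ideal.span (Set.range fun j => x j ^ n) := by
      have : Set.range (fun j => x j ^ n) = (fun y => y ^ n) '' Set.range x := by
        rw [← Set.range_comp]; rfl
      rw [this, h2]; trivial
    obtain ⟨l, hl⟩ := Ideal.mem_span_range_iff_exists_fun.mp h3
    refine ⟨fun j => l j, fun j => (l j).2, ?_⟩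
    have := congrArg Λ.subtype hl
    simpa [x] using this
  let I := Ideal.span (Set.range x)
  let u : Fin d → Om d D := fun i => monO D 0 (Pi.single i 1)
  let v : Fin d → Om d D := fun i => monO D 0 (-Pi.single i 1)
  have huv : ∀ i, v i * u i = 1 := fun i => by simp [u, v, monO_mul, monO_zero]
  have hu : ∀ i ∉ A, u i ∈ Λ := fun i hi => monO_mem ⟨fun j _ => by
      by_cases h : j = i <;> simp [h], fun j hj => by
      have : j ≠ i := fun h => hi (h ▸ hj)
      simp [this]⟩
  have hv : ∀ i ∈ A, v i ∈ Λ := fun i hi => monO_mem ⟨fun j hj => by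
      have : j ≠ i := fun h => hj (h ▸ hi)
      simp [this], fun j _ => by
      by_cases h : j = i <;> simp [h]⟩
  let f : Fin d → Polynomial Λ := fun i =>
    if h : i ∈ A then Polynomial.C ⟨v i, hv i h⟩ * Polynomial.X + 1
    else Polynomial.X + Polynomial.C ⟨u i, hu i h⟩
  let vA : Om d D := ∏ i ∈ A, v i
  have hmap : (∏ i, f i).map Λ.subtype =
      Polynomial.C vA * ∏ i, (Polynomial.X + Polynomial.C (u i)) := by
    have : Polynomial.C vA = ∏ i, Polynomial.C (if i ∈ A then v i else 1) := by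
      rw [← map_prod, Finset.prod_ite_mem, Finset.univ_inter]
    rw [this, ← Finset.prod_mul_distrib, Polynomial.map_prod]
    refine Finset.prod_congr rfl fun i _ => ?_
    by_cases h : i ∈ A
    · simp only [f, h, dif_pos, if_pos, mul_add, ← Polynomial.C_mul, huv]
      simp
    · simp [f, h]
  have hτ : monO D (-1) 0 * vA ∈ Λ := by
    simp only [vA, v]
    rw [mon_prod, monO_mul]
    refine monO_mem ⟨fun j hj => ?_, fun j hj => ?_⟩
    · simp [Finset.sum_apply, Pi.single_apply, hj]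
    · simp [Finset.sum_apply, Pi.single_apply, hj]
  have hcoeff : ∀ m < d, (∏ i, f i).coeff m ∈ I := by
    intro m hm
    have h1 : (∏ i, f i).coeff m = ⟨_, hτ⟩ * x ⟨d - m - 1, by omega⟩ := by
      apply Subtype.ext
      have h2 := congrArg (fun p => Polynomial.coeff p m) hmap
      simp only [Polynomial.coeff_map, Polynomial.coeff_C_mul, Subring.coe_subtype] at h2
      rw [h2, Finset.prod_X_add_C_coeff _ _ (by simp; omega)]
      simp only [x, Subring.coe_mul, Finset.card_univ, Fintype.card_fin]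
      rw [mul_comm (monO D (-1) 0), mul_assoc, mon_mul_eO]
      simp only [show d - m - 1 + 1 = d - m by omega, u]
    rw [h1]
    exact I.mul_mem_left _ (Ideal.subset_span ⟨_, rfl⟩)
  exact top_of_coeff_mem I hA f (fun i hi => ⟨_, dif_pos hi⟩) (fun i hi => ⟨_, dif_neg hi⟩) hcoeff

lemma eO_pow_mem (j : Fin d) (n : ℕ) : eO D j ^ n ∈ SupO D fun t (_ : Fin d → ℤ) => t = n := by
  induction n with
  | zero => exact pow_zero (eO D j) ▸ monO_mem (t := 0) (a := 0) rfl
  | succ n ih =>
    rw [pow_succ]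
    exact mul_mem_SupO (fun t a t' a' h h' => by push_cast; omega) ih (eO_mem j)

end LBaX

theorem chart_unitL (x : Fin d → D) {A : Finset (Fin d)} (hA : A.Nonempty) (n : ℕ) :
    ∃ l : Fin d → La x, (∀ j, l j ∈ SupL x fun t a => pCh A t a ∧ -(n : ℤ) ≤ t) ∧
      ∑ j, l j * algebraMap D (La x) (x j) ^ n = 1 := by
  obtain ⟨l, hl, h⟩ := chart_unitO (D := D) hA n
  refine ⟨fun j => Ideal.Quotient.mk (relO x) (projO (fun t _ => t = -(n : ℤ)) (l j)),
    fun j => mk_mem (SupO_mono (fun t a h => ⟨h.2, h.1.ge⟩) (projO_mem (hl j))), ?_⟩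
  have h1 : 1 - ∑ j, projO (fun t _ => t = -(n : ℤ)) (l j) * eO D j ^ n ∈
      SupO D fun t (_ : Fin d → ℤ) => t = 0 :=
    sub_mem (monO_mem (t := 0) (a := 0) rfl) (Submodule.sum_mem _ fun j _ =>
      mul_mem_SupO (fun t a t' a' h h' => by omega) (projO_mem (hl j)) (eO_pow_mem j n))
  have h2 : 1 - ∑ j, projO (fun t _ => t = -(n : ℤ)) (l j) * eO D j ^ n ∈
      SupO D fun t (_ : Fin d → ℤ) => t ≠ 0 := by
    rw [← h, ← Finset.sum_sub_distrib]
    refine Submodule.sum_mem _ fun j _ => ?_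
    rw [← sub_mul]
    exact mul_mem_SupO (fun t a t' a' h h' => by omega) (sub_projO_mem (hl j)) (eO_pow_mem j n)
  have h3 : 1 - ∑ j, projO (fun t _ => t = -(n : ℤ)) (l j) * eO D j ^ n = 0 := by
    ext ⟨t, a⟩
    by_contra hne
    exact h2 t a hne (h1 t a hne)
  have h4 := congrArg (Ideal.Quotient.mk (relO x)) (sub_eq_zero.1 h3)
  simpa only [map_one, map_sum, map_mul, map_pow, mk_eO] using h4.symm

theorem exists_coinvL (x : Fin d → D) :
    ∃ b : Fin d.factorial → La x, (∀ k, b k ∈ SupL x fun t a => t = 0 ∧ ∀ i, 0 ≤ a i) ∧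
      ∀ a : Fin d → ℤ, (∀ i, 0 ≤ a i) → ∃ (c : Fin d.factorial → D) (ρ : Fin d → La x),
        (∀ j, ρ j ∈ SupL x fun t a => t = -1 ∧ ∀ i, 0 ≤ a i) ∧
        Ideal.Quotient.mk (relO x) (monO D 0 a) =
          ∑ k, c k • b k + ∑ j, ρ j * algebraMap D (La x) (x j) := by
  obtain ⟨b, hb⟩ := exists_coinvR d D
  let φ : MvPolynomial (Fin d) D →ₐ[D] Om d D :=
    MvPolynomial.aeval fun i => monO D 0 (Pi.single i 1)
  have hφ : ∀ g, φ g ∈ SupO D fun t (a : Fin d → ℤ) => t = 0 ∧ ∀ i, 0 ≤ a i := by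
    intro g
    induction g using MvPolynomial.induction_on with
    | C c =>
      rw [MvPolynomial.aeval_C, Algebra.algebraMap_eq_smul_one]
      exact Submodule.smul_mem _ _ (monO_mem (t := 0) (a := 0) ⟨rfl, by simp⟩)
    | add f g hf hg => rw [map_add]; exact add_mem hf hg
    | mul_X f j hf =>
      rw [map_mul, MvPolynomial.aeval_X]
      refine mul_mem_SupO (q := fun t (a : Fin d → ℤ) => t = 0 ∧ ∀ i, 0 ≤ a i)
        (fun t a t' a' h h' => ⟨by omega, fun i => add_nonneg (h.2 i) (h'.2 i)⟩) hf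
        (monO_mem ⟨rfl, fun i => ?_⟩)
      by_cases h : i = j <;> simp [h]
  have hes : ∀ j, φ (es d D j) = monO D (-1) 0 * eO D j := fun j => by
    rw [mon_mul_eO, es, MvPolynomial.esymm, map_sum]
    simp only [map_prod, φ, MvPolynomial.aeval_X]
  refine ⟨fun k => Ideal.Quotient.mk (relO x) (φ (b k)), fun k => mk_mem (hφ _), fun a ha => ?_⟩
  obtain ⟨c, ρ, h⟩ := hb (∏ i, MvPolynomial.X i ^ (a i).toNat)
  refine ⟨c, fun j => Ideal.Quotient.mk (relO x) (φ (ρ j) * monO D (-1) 0), fun j => mk_mem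
    (mul_mem_SupO (q := fun t (a : Fin d → ℤ) => t = -1 ∧ ∀ i, 0 ≤ a i)
      (fun t a t' a' h h' => ⟨by omega, fun i => add_nonneg (h.2 i) (h'.2 i)⟩) (hφ _)
      (monO_mem ⟨rfl, by simp⟩)), ?_⟩
  have h1 : φ (∏ i, MvPolynomial.X i ^ (a i).toNat) = monO D 0 a := by
    have h2 : ∀ i, φ (MvPolynomial.X i ^ (a i).toNat) = monO D 0 (Pi.single i (a i)) := fun i => by
      rw [map_pow, MvPolynomial.aeval_X, ← Finset.card_range (a i).toNat, ← Finset.prod_const,
        mon_prod, Finset.sum_const, Finset.card_range, ← Pi.single_smul, nsmul_eq_mul, mul_one,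
        Int.toNat_of_nonneg (ha i)]
    rw [map_prod, Finset.prod_congr rfl fun i _ => h2 i, mon_prod, Finset.univ_sum_single]
  rw [← h1, h]
  simp only [map_add, map_sum, map_smul, map_mul, hes, mk_eO, mul_assoc]
  rfl

end Vale.Agent.P202
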