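import Vale.Agent.P202M.LBa

/-! The chase in a window. -/

open Matrix

namespace Vale.Agent.P202

variable {d : ℕ} {D : Type*} [CommRing D] {x : Fin d → D}

namespace LBbX

open LBaX

lemma pP_pNum (A : Finset (Fin d)) (t a t' a') (h : pP 0 t a) (h' : pNum A t' a') :
    pNum A (t + t') (a + a') := pCh_pNum A _ _ _ _ (pP_pCh A _ _ h) h'

lemma pP_pDO0 (q : ℕ) (A : Finset (Fin d)) (s : ℤ) (t a t' a') (h : pP 0 t a)
    (h' : pDO q A s t' a') : pDO q A s (t + t') (a + a') := by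
  simpa using pP_pDO q 0 A s t a t' a' h h'

lemma pDO_mono {q : ℕ} {A : Finset (Fin d)} {s s' : ℤ} (h : s' ≤ s) (t a) (h' : pDO q A s t a) :
    pDO q A s' t a := ⟨h'.1, h'.2.imp id fun h'' => h.trans_lt h''⟩

lemma pDO_erase (q : ℕ) (A : Finset (Fin d)) (i : Fin d) (s : ℤ) (t a)
    (h : pDO q (A.erase i) s t a) : pDO q A s t a :=
  ⟨pNum_erase A i t a h.1, h.2.imp (fun ⟨j, hj, h2⟩ => ⟨j, Finset.mem_of_mem_erase hj, h2⟩) id⟩

lemma map_wd {M N : Type*} [AddCommGroup M] [AddCommGroup N] (φ : M →+ N)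
    (η : Finset (Fin d) → M) (A) : φ (wd η A) = wd (fun B => φ (η B)) A := by
  simp only [wd_apply, map_sum, map_zsmul]

/-- A coefficient as an additive map. -/
noncomputable def cfO (t : ℤ) (a : Fin d → ℤ) : Om d D →+ D where
  toFun f := f.coeff (t, a)
  map_zero' := by simp
  map_add' f g := by simp

lemma cfO_apply (t : ℤ) (a : Fin d → ℤ) (f : Om d D) : cfO t a f = f.coeff (t, a) := rfl

lemma cfO_Ct (j) (η : Finset (Fin d) → Om d D) (A t a) :
    cfO t a (Ct j η A) = Ct j (fun B => cfO t a (η B)) A := by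
  by_cases hj : j ∈ A <;> simp [Ct, hj, -zsmul_eq_mul]

/-- The contracting homotopy of the rows. -/
noncomputable def zetaO (q n : ℕ) (η : Finset (Fin d) → Om d D) (B : Finset (Fin d)) : Om d D :=
  ∑ j, projO (pJ q n j) (Ct j η B)

lemma zetaO_mem {q n : ℕ} {L : ℤ} {η : Finset (Fin d) → Om d D} {B : Finset (Fin d)}
    (h : ∀ j ∉ B, η (insert j B) ∈ SupO D fun t a => pNum (insert j B) t a ∧ L ≤ t) :
    zetaO q n η B ∈ SupO D fun t a => pNum B t a ∧ L ≤ t := by
  refine Submodule.sum_mem _ fun j _ => ?_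
  by_cases hj : j ∈ B
  · intro t a hne
    simp [coeff_projO, Ct, hj] at hne
  · have h1 : Ct j η B ∈ SupO D fun t a => pNum (insert j B) t a ∧ L ≤ t := by
      simp only [Ct, hj, if_false]
      exact zsmul_mem (h j hj) _
    refine SupO_mono (fun t a h2 => ⟨fun i hi => ?_, h2.2.2⟩) (projO_mem h1)
    by_cases hij : i = j
    · rw [hij]; exact h2.1.2.2.1
    · exact h2.2.1 i (by simp [hij, hi])

/-- One level of the row exactness. -/
lemma row_step (hx : IsReg x) {q n : ℕ} {L : ℤ} (hL : L ≤ -(n * q : ℕ)) (hn : n ≤ d)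
    {η : Finset (Fin d) → La x}
    (h1 : ∀ B : Finset (Fin d), B.card + 1 = n → η B ∈ SupL x fun t a => pNum B t a ∧ L ≤ t)
    (h2 : ∀ B : Finset (Fin d), B.card = n → wd η B ∈ SupL x (pDO q B (-(n * q : ℕ)))) :
    ∃ ζ : Finset (Fin d) → La x,
      (∀ B : Finset (Fin d), B.card + 2 = n → ζ B ∈ SupL x fun t a => pNum B t a ∧ L ≤ t) ∧
      ∀ A : Finset (Fin d), A.card + 1 = n → η A - wd ζ A ∈ SupL x (pDO q A L) := by
  classical
  choose! E hE hEη using fun B hB => exists_mk (h1 B hB)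
  have hmk : ∀ (F : Finset (Fin d) → Om d D) A, Ideal.Quotient.mk (relO x) (wd F A) =
      wd (fun B => Ideal.Quotient.mk (relO x) (F B)) A := fun F A =>
    map_wd (Ideal.Quotient.mk (relO x)).toAddMonoidHom F A
  have hlead : ∀ B : Finset (Fin d), B.card = n → ∀ a, ¬ pDO q B (-(n * q : ℕ)) L a →
      cfO L a (wd E B) ∈ Ideal.span (Set.range x) := by
    intro B hB a ha
    have h3 : wd E B ∈ SupO D fun t (_ : Fin d → ℤ) => L ≤ t := by
      rw [wd_apply]
      exact Submodule.sum_mem _ fun i hi => zsmul_mem (SupO_mono (fun t a h => h.2)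
        (hE _ (by rw [Finset.card_erase_add_one hi, hB]))) _
    have h4 : Ideal.Quotient.mk (relO x) (wd E B) = wd η B := by
      rw [hmk]
      exact wd_congr fun C hC => hEη C (by omega)
    obtain ⟨F, hF, hF'⟩ := exists_mk (nf_mem hx (pP_pDO0 q B _) (h2 B hB) (h4 ▸ mk_mem h3))
    have h5 := lead_mem hx (sub_mem h3 (SupO_mono (fun t a h => h.2) hF))
      (by rw [map_sub, h4, hF', sub_self]; exact zero_mem _) a
    rwa [AddMonoidAlgebra.coeff_sub, Finsupp.sub_apply, coeff_eq_zero hF fun h => ha h.1,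
      sub_zero] at h5
  have hZ : ∀ B : Finset (Fin d), B.card + 2 = n →
      zetaO q n E B ∈ SupO D fun t a => pNum B t a ∧ L ≤ t := fun B hB =>
    zetaO_mem fun j hj => hE _ (by rw [Finset.card_insert_of_notMem hj]; omega)
  refine ⟨fun B => Ideal.Quotient.mk (relO x) (zetaO q n E B), fun B hB => mk_mem (hZ B hB),
    fun A hA => ?_⟩
  rw [← hEη A hA, ← hmk, ← map_sub]
  have hnum : E A - wd (zetaO q n E) A ∈ SupO D fun t a => pNum A t a ∧ L ≤ t := by
    refine sub_mem (hE A hA) ?_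
    rw [wd_apply]
    exact Submodule.sum_mem _ fun i hi => zsmul_mem (SupO_mono
      (fun t a h => ⟨pNum_erase A i t a h.1, h.2⟩)
      (hZ _ (by have := Finset.card_erase_add_one hi; omega))) _
  refine mem_of_coeff fun t a hne => ?_
  obtain ⟨hA1, hA2⟩ := hnum t a hne
  by_cases hcon : (∃ i ∈ A, a i ≤ t + bb q i) ∨ L < t
  · exact mk_mem (singleO_mem ⟨hA1, hcon⟩ _)
  push Not at hcon
  obtain ⟨hc1, hc2⟩ := hcon
  obtain rfl : t = L := le_antisymm hc2 hA2
  refine SupL_mono (fun t' a' h => ⟨h.1, Or.inr h.2⟩) (single_up (pP_pNum A) hA1 ?_)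
  have hex : (Finset.univ.filter fun j : Fin d => j.val < n ∧ 0 ≤ a j).Nonempty := by
    have : ∃ j : Fin d, j.val < n ∧ j ∉ A := by
      by_contra h
      push Not at h
      have hsub : (Finset.univ.image fun i : Fin n => (Fin.castLE hn i)) ⊆ A := by
        intro j hj
        obtain ⟨i, -, rfl⟩ := Finset.mem_image.mp hj
        exact h _ i.2
      have := Finset.card_le_card hsub
      rw [Finset.card_image_of_injective _ (Fin.castLE_injective hn)] at this
      simp at this; omega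
    obtain ⟨j, hj1, hj2⟩ := this
    exact ⟨j, by simpa using ⟨hj1, hA1 j hj2⟩⟩
  set j := Finset.min' _ hex with hj
  have hjm := Finset.min'_mem _ hex
  rw [← hj] at hjm
  simp only [Finset.mem_filter, Finset.mem_univ, true_and] at hjm
  have hJ : pJ q n j t a := by
    refine ⟨hL, hjm.1, hjm.2, fun j' hj' => ?_⟩
    by_contra h
    have := Finset.min'_le (Finset.univ.filter fun j : Fin d => j.val < n ∧ 0 ≤ a j) j'
      (by simpa using ⟨lt_trans hj' hjm.1, not_lt.mp h⟩)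
    exact absurd hj' (not_lt.mpr this)
  have hz : ∀ B, cfO t a (zetaO q n E B) = Ct j (fun B => cfO t a (E B)) B := by
    intro B
    rw [zetaO, map_sum, Finset.sum_eq_single j, cfO_apply, coeff_projO, if_pos hJ, ← cfO_apply,
      cfO_Ct]
    · intro i _ hi
      rw [cfO_apply, coeff_projO, if_neg]
      intro hI
      rcases lt_or_gt_of_ne hi with h | h
      · exact absurd (hJ.2.2.2 i h) (not_lt.mpr hI.2.2.1)
      · exact absurd (hI.2.2.2 j h) (not_lt.mpr hJ.2.2.1)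
    · simp
  rw [← cfO_apply, map_sub, map_wd, funext hz]
  have h3 := congrFun (wd_Ct j (fun B => cfO t a (E B))) A
  rw [Pi.add_apply] at h3
  rw [← h3, add_sub_cancel_left]
  by_cases hjA : j ∈ A
  · simp [Ct, hjA]
  · simp only [Ct, hjA, if_false]
    rw [← map_wd]
    refine zsmul_mem (hlead _ (by rw [Finset.card_insert_of_notMem hjA, hA]) a fun h => ?_) _
    rcases h.2 with ⟨i, hi, hle⟩ | hlt
    · rcases Finset.mem_insert.mp hi with rfl | hi
      · have h5 := hjm.2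
        have h6 : ((j : ℕ) + 1) * q ≤ n * q := Nat.mul_le_mul_right _ hjm.1
        have h7 : (((j : ℕ) + 1) * q : ℤ) ≤ (n * q : ℕ) := by exact_mod_cast h6
        simp only [bb] at hle
        omega
      · exact absurd hle (not_le.mpr (hc1 i hi))
    · exact absurd hlt (not_lt.mpr hL)

lemma wd_add {M : Type*} [AddCommGroup M] (η η' : Finset (Fin d) → M) (A : Finset (Fin d)) :
    wd (fun B => η B + η' B) A = wd η A + wd η' A := by
  simp only [wd_apply, smul_add, Finset.sum_add_distrib]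

lemma row_ind (hx : IsReg x) {q n : ℕ} (hn : n ≤ d) (m : ℕ) : ∀ (L : ℤ), -(n * q : ℕ) < L + m →
    ∀ {η : Finset (Fin d) → La x},
    (∀ B : Finset (Fin d), B.card + 1 = n → η B ∈ SupL x fun t a => pNum B t a ∧ L ≤ t) →
    (∀ B : Finset (Fin d), B.card = n → wd η B ∈ SupL x (pDO q B (-(n * q : ℕ)))) →
    ∃ ζ : Finset (Fin d) → La x,
      (∀ B : Finset (Fin d), B.card + 2 = n → ζ B ∈ SupL x fun t a => pNum B t a ∧ L ≤ t) ∧
      ∀ A : Finset (Fin d), A.card + 1 = n →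
        η A - wd ζ A ∈ SupL x (pDO q A (-(n * q : ℕ))) := by
  have base : ∀ (L : ℤ), -(n * q : ℕ) < L → ∀ {η : Finset (Fin d) → La x},
      (∀ B : Finset (Fin d), B.card + 1 = n → η B ∈ SupL x fun t a => pNum B t a ∧ L ≤ t) →
      ∃ ζ : Finset (Fin d) → La x,
      (∀ B : Finset (Fin d), B.card + 2 = n → ζ B ∈ SupL x fun t a => pNum B t a ∧ L ≤ t) ∧
      ∀ A : Finset (Fin d), A.card + 1 = n →
        η A - wd ζ A ∈ SupL x (pDO q A (-(n * q : ℕ))) := by
    intro L hL η h1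
    refine ⟨fun _ => 0, fun _ _ => zero_mem _, fun A hA => ?_⟩
    simp only [wd_apply, smul_zero, Finset.sum_const_zero, sub_zero]
    exact SupL_mono (fun t a h => ⟨h.1, Or.inr (hL.trans_le h.2)⟩) (h1 A hA)
  induction m with
  | zero => exact fun L hL η h1 _ => base L (by simpa using hL) h1
  | succ m ih =>
    intro L hL η h1 h2
    by_cases hL' : -(n * q : ℕ) < L
    · exact base L hL' h1
    obtain ⟨ζ, g1, g2⟩ := row_step hx (not_lt.1 hL') hn h1 h2
    choose! δ hδ ε hε hδε using fun A hA => SupL_or (p := pDen q A)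
      (q := fun t a => pNum A t a ∧ L + 1 ≤ t)
      (SupL_mono (fun t a h => h.2.imp (fun h' => ⟨h.1, h'⟩) fun h' => ⟨h.1, h'⟩) (g2 A hA))
    obtain ⟨ζ', g3, g4⟩ := ih (L + 1) (by push_cast at hL ⊢; omega) hε fun B hB => by
      have e : wd ε B = wd η B - wd δ B := by
        rw [wd_congr (η' := fun A => η A - wd ζ A - δ A) fun A hA => by
          rw [hδε A (by omega), add_sub_cancel_left], wd_sub, wd_sub,
          show wd (fun B => wd ζ B) B = 0 from congrFun (wd_wd ζ) B, sub_zero]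
      rw [e]
      refine sub_mem (h2 B hB) ?_
      rw [wd_apply]
      refine Submodule.sum_mem _ fun i hi => zsmul_mem (SupL_mono (fun t a h => ?_)
        (hδ _ (by rw [Finset.card_erase_add_one hi, hB]))) _
      exact ⟨(pDen_erase q B i t a h).1, Or.inl (pDen_erase q B i t a h).2⟩
    refine ⟨fun B => ζ B + ζ' B, fun B hB => add_mem (g1 B hB)
      (SupL_mono (fun t a h => ⟨h.1, by omega⟩) (g3 B hB)), fun A hA => ?_⟩
    rw [wd_add, ← sub_sub, hδε A hA, add_sub_assoc]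
    exact add_mem (SupL_mono (fun t a h => ⟨h.1, Or.inl h.2⟩) (hδ A hA)) (g4 A hA)

/-- Vectors with entries in the span of a set of monomials. -/
def VL (x : Fin d → D) {ι : Type*} (p : ℤ → (Fin d → ℤ) → Prop) (y : ι → La x) : Prop :=
  ∀ μ, y μ ∈ SupL x p

section VL
variable {ι : Type*} {p q r : ℤ → (Fin d → ℤ) → Prop}

lemma VL.zero : VL x p (0 : ι → La x) := fun _ => zero_mem _
lemma VL.add {y z : ι → La x} (hy : VL x p y) (hz : VL x p z) : VL x p (y + z) :=
  fun μ => add_mem (hy μ) (hz μ)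
lemma VL.sub {y z : ι → La x} (hy : VL x p y) (hz : VL x p z) : VL x p (y - z) :=
  fun μ => sub_mem (hy μ) (hz μ)
lemma VL.zsmul {y : ι → La x} (hy : VL x p y) (n : ℤ) : VL x p (n • y) :=
  fun μ => zsmul_mem (hy μ) n
lemma VL.sum {α : Type*} (s : Finset α) {y : α → ι → La x} (hy : ∀ a ∈ s, VL x p (y a)) :
    VL x p (∑ a ∈ s, y a) := fun μ => by
  rw [Finset.sum_apply]; exact sum_mem fun a ha => hy a ha μ
lemma VL.mono (h : ∀ t a, p t a → q t a) {y : ι → La x} (hy : VL x p y) : VL x q y :=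
  fun μ => SupL_mono h (hy μ)
lemma VL.smul (h : ∀ t a t' a', p t a → q t' a' → r (t + t') (a + a')) {c : La x}
    (hc : c ∈ SupL x p) {y : ι → La x} (hy : VL x q y) : VL x r (c • y) :=
  fun μ => mul_mem_SupL h hc (hy μ)
lemma VL.mulVec [Fintype ι] (h : ∀ t a t' a', p t a → q t' a' → r (t + t') (a + a'))
    {B : Matrix ι ι (La x)} (hB : ∀ μ ν, B μ ν ∈ SupL x p) {y : ι → La x} (hy : VL x q y) :
    VL x r (B *ᵥ y) := fun μ => sum_mem fun ν _ => mul_mem_SupL h (hB μ ν) (hy ν)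
end VL

lemma inDeg_mulVec {R ι : Type*} [CommRing R] [Fintype ι] {deg : ι → ℕ} {B : Matrix ι ι R}
    {n n' : ℕ} (h : ∀ μ ν, B μ ν ≠ 0 → deg ν = n → deg μ = n') {y : ι → R} (hy : InDeg deg n y) :
    InDeg deg n' (B *ᵥ y) := by
  intro μ hμ
  refine Finset.sum_eq_zero fun ν _ => ?_
  by_cases h1 : B μ ν = 0
  · simp [h1]
  · rw [hy ν fun h2 => hμ (h μ ν h1 h2), mul_zero]

lemma pP_low (A : Finset (Fin d)) (n : ℕ) (L : ℤ) (t a t' a') (h : pP n t a)
    (h' : pNum A t' a' ∧ L ≤ t') : pNum A (t + t') (a + a') ∧ L + n ≤ t + t' :=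
  ⟨pCh_pNum A _ _ _ _ (pP_pCh A _ _ h) h'.1, by have := h.1; omega⟩

lemma pP_low0 (A : Finset (Fin d)) (n : ℕ) (L : ℤ) (t a t' a') (h : pP n t a)
    (h' : pNum A t' a' ∧ L ≤ t') : pNum A (t + t') (a + a') ∧ L ≤ t + t' :=
  ⟨pCh_pNum A _ _ _ _ (pP_pCh A _ _ h) h'.1, by have := h.1; omega⟩

section chain
variable {ι : Type*} [Fintype ι] [DecidableEq ι] {deg : ι → ℕ} {Dm : Matrix ι ι (La x)}
  {H : Fin d → Matrix ι ι (La x)} {c : La x} {a q M L : ℕ}

lemma exact_chart (hH : ∀ j μ ν, H j μ ν ∈ SupL x (pP 0))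
    (hH1 : ∀ j μ ν, H j μ ν ≠ 0 → deg μ = deg ν + 1)
    (hom : ∀ j μ ν, (Dm * H j + H j * Dm -
      (c * algebraMap D (La x) (x j) ^ a) • (1 : Matrix ι ι (La x))) μ ν ∈ SupL x (pP M))
    {A : Finset (Fin d)} (hA : A.Nonempty) {n : ℕ} {y : ι → La x} {s : ℤ}
    (hy : VL x (fun t b => pNum A t b ∧ s ≤ t) y) (hn : InDeg deg n y)
    (hDy : VL x (pDO q A (M + s - 1)) (Dm *ᵥ y)) :
    ∃ η, VL x (fun t b => pNum A t b ∧ s - a ≤ t) η ∧ InDeg deg (n + 1) η ∧
      VL x (pDO q A (M + (s - a) - 1)) (Dm *ᵥ η - c • y) := by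
  obtain ⟨l, hl, hsum⟩ := chart_unitL x hA a
  have hlow : ∀ (s : ℤ) t b t' b', (pCh A t b ∧ -(a : ℤ) ≤ t) → (pNum A t' b' ∧ s ≤ t') →
      pNum A (t + t') (b + b') ∧ s - a ≤ t + t' := fun s t b t' b' h h' =>
    ⟨pCh_pNum A _ _ _ _ h.1 h'.1, by omega⟩
  refine ⟨∑ j, l j • H j *ᵥ y, VL.sum _ fun j _ => VL.smul (hlow s) (hl j)
    (VL.mulVec (pP_low0 A 0 s) (hH j) hy), InDeg.sum _ fun j _ =>
      (inDeg_mulVec (fun μ ν h h' => h' ▸ hH1 j μ ν h) hn).smul _, ?_⟩
  have : Dm *ᵥ (∑ j, l j • H j *ᵥ y) - c • y =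
      ∑ j, l j • (Dm * H j + H j * Dm -
        (c * algebraMap D (La x) (x j) ^ a) • (1 : Matrix ι ι (La x))) *ᵥ y -
        ∑ j, l j • H j *ᵥ (Dm *ᵥ y) := by
    rw [mulVec_sum]
    simp only [mulVec_smul, sub_mulVec, add_mulVec, smul_mulVec, one_mulVec, smul_sub, smul_add,
      Finset.sum_sub_distrib, Finset.sum_add_distrib, smul_smul, ← Finset.sum_smul, mulVec_mulVec]
    have : ∑ j, l j * (c * algebraMap D (La x) (x j) ^ a) = c := by
      conv_rhs => rw [← mul_one c, ← hsum, Finset.mul_sum]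
      exact Finset.sum_congr rfl fun j _ => by ring
    rw [this]; abel
  rw [this]
  refine VL.sub (VL.sum _ fun j _ => VL.mono (p := fun t b => pNum A t b ∧ s + M - a ≤ t)
    (fun t b h => ⟨h.1, Or.inr (by omega)⟩) (VL.smul (hlow (s + M)) (hl j)
    (VL.mulVec (r := fun t b => pNum A t b ∧ s + M ≤ t) (pP_low A M s) (hom j) hy)))
    (VL.sum _ fun j _ => VL.smul (fun t b t' b' h h' => ?_) (hl j)
      (VL.mulVec (pP_pDO0 q A _) (hH j) hDy))
  exact ⟨pCh_pNum A _ _ _ _ h.1 h'.1, h'.2.imp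
    (fun h'' => (pCh_pDen q A _ _ _ _ h.1 ⟨h'.1, h''⟩).2) fun h'' => by omega⟩

lemma build_chain (hH : ∀ j μ ν, H j μ ν ∈ SupL x (pP 0))
    (hH1 : ∀ j μ ν, H j μ ν ≠ 0 → deg μ = deg ν + 1)
    (hom : ∀ j μ ν, (Dm * H j + H j * Dm -
      (c * algebraMap D (La x) (x j) ^ a) • (1 : Matrix ι ι (La x))) μ ν ∈ SupL x (pP M))
    {η₀ : ι → La x} (h1 : ∀ μ, η₀ μ ∈ SupL x fun t b => pNum ∅ t b ∧ -(L : ℤ) ≤ t)
    (h2 : InDeg deg 1 η₀)
    (h3 : ∀ μ, (Dm *ᵥ η₀) μ ∈ SupL x fun t b => pGl q t b ∨ (pNum ∅ t b ∧ (M : ℤ) - L ≤ t))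
    (m : ℕ) :
    ∃ η : Finset (Fin d) → ι → La x, η ∅ = η₀ ∧ ∀ A : Finset (Fin d), A.card ≤ m →
      VL x (fun t b => pNum A t b ∧ -(L : ℤ) - A.card * a ≤ t) (η A) ∧
      InDeg deg (A.card + 1) (η A) ∧
      (A.Nonempty → VL x (pDO q A (M + (-(L : ℤ) - A.card * a) - 1)) (Dm *ᵥ η A - c • wd η A)) := by
  induction m with
  | zero =>
    refine ⟨fun _ => η₀, rfl, fun A hA => ?_⟩
    obtain rfl : A = ∅ := Finset.card_eq_zero.mp (by omega)
    exact ⟨fun μ => by simpa using h1 μ, h2, fun h => absurd h (by simp)⟩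
  | succ m ih =>
    obtain ⟨η, hη0, hη⟩ := ih
    have key : ∀ A : Finset (Fin d), A.card = m + 1 → ∃ ξ,
        VL x (fun t b => pNum A t b ∧ -(L : ℤ) - A.card * a ≤ t) ξ ∧ InDeg deg (A.card + 1) ξ ∧
        VL x (pDO q A (M + (-(L : ℤ) - A.card * a) - 1)) (Dm *ᵥ ξ - c • wd η A) := by
      intro A hA
      have hcard : ∀ i ∈ A, (A.erase i).card = m := fun i hi => by
        have := Finset.card_erase_add_one hi; omega
      have e0 : -(L : ℤ) - A.card * a = -(L : ℤ) - m * a - a := by rw [hA]; push_cast; ring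
      rw [e0]
      refine exact_chart hH hH1 hom (Finset.card_pos.mp (by omega)) ?_ ?_ ?_
      · rw [wd_apply]
        exact VL.sum _ fun i hi => ((hη _ (hcard i hi).le).1.mono fun t b h =>
          ⟨pNum_erase A i t b h.1, hcard i hi ▸ h.2⟩).zsmul _
      · rw [wd_apply]
        refine InDeg.sum _ fun i hi => InDeg.smul ?_ _
        have := (hη _ (hcard i hi).le).2.1
        rwa [hcard i hi, ← hA] at this
      · have e : Dm *ᵥ wd η A = wd (fun B => Dm *ᵥ η B - c • wd η B) A := by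
          have e1 : wd (fun B => c • wd η B) A = c • wd (fun B => wd η B) A := wd_smul c _ A
          rw [wd_sub, e1, mulVec_wd]
          have : wd (fun B => wd η B) A = 0 := congrFun (wd_wd η) A
          rw [this, smul_zero, sub_zero]
        rw [e, wd_apply]
        refine VL.sum _ fun i hi => VL.zsmul ?_ _
        rcases (A.erase i).eq_empty_or_nonempty with h | h
        · have hm : m = 0 := by rw [← hcard i hi, h, Finset.card_empty]
          rw [h, hη0, wd_apply, Finset.sum_empty, smul_zero, sub_zero]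
          refine VL.mono (fun t b h => ?_) h3
          rcases h with h | h
          · exact ⟨fun j _ => (h j).1, Or.inl ⟨i, hi, (h i).2⟩⟩
          · exact ⟨fun j _ => h.1 j (by simp), Or.inr (by subst hm; push_cast; omega)⟩
        · have := ((hη _ (hcard i hi).le).2.2 h).mono (pDO_erase q A i _)
          rwa [hcard i hi] at this
    choose! ξ hξ using key
    refine ⟨fun A => if A.card = m + 1 then ξ A else η A, by simp [hη0], fun A hA => ?_⟩
    have e : wd (fun A => if A.card = m + 1 then ξ A else η A) A = wd η A :=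
      wd_congr fun B hB => if_neg (by omega)
    rw [e]
    by_cases h : A.card = m + 1
    · simp only [if_pos h]
      exact ⟨(hξ A h).1, (hξ A h).2.1, fun _ => (hξ A h).2.2⟩
    · simp only [if_neg h]
      exact hη A (by omega)

end chain

end LBbX

open LBbX

/-- Exactness of the rows in low order. -/
theorem row_exactL (hx : IsReg x) {q n : ℕ} (L : ℤ) (hn : n ≤ d) {η : Finset (Fin d) → La x}
    (h1 : ∀ B : Finset (Fin d), B.card + 1 = n → η B ∈ SupL x fun t a => pNum B t a ∧ L ≤ t)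
    (h2 : ∀ B : Finset (Fin d), B.card = n → wd η B ∈ SupL x (pDO q B (-(n * q : ℕ)))) :
    ∃ ζ : Finset (Fin d) → La x,
      (∀ B : Finset (Fin d), B.card + 2 = n → ζ B ∈ SupL x fun t a => pNum B t a ∧ L ≤ t) ∧
      ∀ A : Finset (Fin d), A.card + 1 = n →
        η A - wd ζ A ∈ SupL x (pDO q A (-(n * q : ℕ))) :=
  row_ind hx hn (1 - (n * q : ℕ) - L).toNat L (by omega) h1 h2

theorem chaseL (hx : IsReg x) {ι : Type*} [Fintype ι] [DecidableEq ι] (deg : ι → ℕ)
    (hdeg : ∀ μ, deg μ ≤ d) (Dm : Matrix ι ι (La x)) (H : Fin d → Matrix ι ι (La x)) (c : La x)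
    {a q M L : ℕ} (hc : c ∈ SupL x (pP 0)) (hD : ∀ μ ν, Dm μ ν ∈ SupL x (pP q))
    (hH : ∀ j μ ν, H j μ ν ∈ SupL x (pP 0))
    (hD1 : ∀ μ ν, Dm μ ν ≠ 0 → deg ν = deg μ + 1)
    (hH1 : ∀ j μ ν, H j μ ν ≠ 0 → deg μ = deg ν + 1)
    (hDD : ∀ μ ν, (Dm * Dm) μ ν ∈ SupL x (pP M))
    (hom : ∀ j μ ν, (Dm * H j + H j * Dm -
      (c * algebraMap D (La x) (x j) ^ a) • (1 : Matrix ι ι (La x))) μ ν ∈ SupL x (pP M))
    (hM : L + d * a < M) {η₀ : ι → La x}
    (h1 : ∀ μ, η₀ μ ∈ SupL x fun t b => pNum ∅ t b ∧ -(L : ℤ) ≤ t) (h2 : InDeg deg 1 η₀)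
    (h3 : ∀ μ, (Dm *ᵥ η₀) μ ∈ SupL x fun t b => pGl q t b ∨ (pNum ∅ t b ∧ (M : ℤ) - L ≤ t))
    (μ : ι) : (c ^ d • Dm *ᵥ η₀) μ ∈ SupL x fun t _ => 0 < t := by
  have hz : ∀ {n : ℕ} {y : ι → La x}, d < n → InDeg deg n y → y = 0 := fun hn hy =>
    funext fun μ => hy μ (by have := hdeg μ; omega)
  rcases Nat.eq_zero_or_pos d with hd | hd
  · rw [hz (by omega) h2, mulVec_zero, smul_zero]
    exact zero_mem _
  obtain ⟨η, hη0, hη⟩ := LBbX.build_chain hH hH1 hom h1 h2 h3 d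
  have hcard : ∀ A : Finset (Fin d), A.card ≤ d := fun A => by simpa using A.card_le_univ
  have hcpow : ∀ n : ℕ, c ^ n ∈ SupL x (pP 0) := by
    intro n
    induction n with
    | zero => exact pow_zero c ▸ monL_mem_SupL (t := 0) (a := 0) ⟨le_rfl, by simp⟩
    | succ n ih => exact pow_succ c n ▸ mul_mem_SupL (pP_add (n := 0) (m := 0)) ih hc
  obtain ⟨s, hs⟩ : ∃ s : ℤ, s = -(L : ℤ) - d * a := ⟨_, rfl⟩
  have hsM : 0 < s + M := by
    have : ((L + d * a : ℕ) : ℤ) < M := by exact_mod_cast hM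
    push_cast at this
    omega
  have hsA : ∀ A : Finset (Fin d), s ≤ -(L : ℤ) - A.card * a := fun A => by
    have : ((A.card * a : ℕ) : ℤ) ≤ (d * a : ℕ) := by
      exact_mod_cast Nat.mul_le_mul_right a (hcard A)
    push_cast at this
    omega
  let P : ℕ → Prop := fun n => ∃ ξ : Finset (Fin d) → ι → La x,
    VL x (fun t _ => 0 < t) (Dm *ᵥ ξ ∅ - c ^ d • Dm *ᵥ η₀) ∧
    (∀ A : Finset (Fin d), A.card + 1 ≤ n → VL x (fun t b => pNum A t b ∧ s ≤ t) (ξ A) ∧
      InDeg deg (A.card + 1) (ξ A) ∧ (A.Nonempty → VL x (pDO q A 0) (Dm *ᵥ ξ A - wd ξ A))) ∧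
    ∀ A : Finset (Fin d), A.card = n → VL x (pDO q A (-(n * q : ℕ))) (wd ξ A)
  have hrow : ∀ n, n ≤ d → ∀ ξ : Finset (Fin d) → ι → La x,
      (∀ A : Finset (Fin d), A.card + 1 = n → VL x (fun t b => pNum A t b ∧ s ≤ t) (ξ A) ∧
        InDeg deg n (ξ A)) →
      (∀ A : Finset (Fin d), A.card = n → VL x (pDO q A (-(n * q : ℕ))) (wd ξ A)) →
      ∃ ζ : Finset (Fin d) → ι → La x, (∀ B : Finset (Fin d), InDeg deg n (ζ B)) ∧
        (∀ B : Finset (Fin d), B.card + 2 = n → VL x (fun t b => pNum B t b ∧ s ≤ t) (ζ B)) ∧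
        ∀ A : Finset (Fin d), A.card + 1 = n → VL x (pDO q A (-(n * q : ℕ))) (ξ A - wd ζ A) := by
    intro n hn ξ g1 g2
    have key : ∀ μ, ∃ ζ : Finset (Fin d) → La x, (deg μ ≠ n → ∀ B, ζ B = 0) ∧
        (∀ B : Finset (Fin d), B.card + 2 = n → ζ B ∈ SupL x fun t a => pNum B t a ∧ s ≤ t) ∧
        ∀ A : Finset (Fin d), A.card + 1 = n →
          ξ A μ - wd ζ A ∈ SupL x (pDO q A (-(n * q : ℕ))) := by
      intro μ
      by_cases hμ : deg μ = n
      · obtain ⟨ζ, g3⟩ := row_exactL hx s hn (η := fun B => ξ B μ) (fun B hB => (g1 B hB).1 μ)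
          fun B hB => by rw [← wd_apply_apply]; exact g2 B hB μ
        exact ⟨ζ, fun h => absurd hμ h, g3⟩
      · refine ⟨fun _ => 0, fun _ _ => rfl, fun _ _ => zero_mem _, fun A hA => ?_⟩
        simp [wd_apply, (g1 A hA).2 μ hμ]
    choose ζ g3 g4 g5 using key
    refine ⟨fun B μ => ζ μ B, fun B μ h => g3 μ h B, fun B hB μ => g4 μ B hB, fun A hA μ => ?_⟩
    rw [Pi.sub_apply, wd_apply_apply]
    exact g5 μ A hA
  have hstart : P d := by
    have hsc : ∀ A : Finset (Fin d), A.Nonempty →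
        VL x (pDO q A 0) (Dm *ᵥ (c ^ (d - A.card) • η A) -
          wd (fun A => c ^ (d - A.card) • η A) A) := by
      intro A hA
      have e : wd (fun A => c ^ (d - A.card) • η A) A = c ^ (d - A.card) • c • wd η A := by
        rw [smul_smul, ← pow_succ, ← wd_smul]
        refine wd_congr fun B hB => ?_
        have := hcard A
        rw [show d - B.card = d - A.card + 1 by omega]
      rw [e, mulVec_smul, ← smul_sub]
      exact VL.smul (pP_pDO0 q A 0) (hcpow _) (((hη A (hcard A)).2.2 hA).mono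
        (pDO_mono (by have := hsA A; omega)))
    refine ⟨fun A => c ^ (d - A.card) • η A, by simpa [hη0, mulVec_smul] using VL.zero, fun A _ =>
      ⟨VL.smul (pP_low0 A 0 s) (hcpow _) ((hη A (hcard A)).1.mono fun t b h =>
        ⟨h.1, (hsA A).trans h.2⟩), (hη A (hcard A)).2.1.smul _, hsc A⟩, fun A hA => ?_⟩
    have h4 := hsc A (Finset.card_pos.mp (by omega))
    rw [hz (by omega) (hη A (hcard A)).2.1, smul_zero, mulVec_zero] at h4
    have h5 := VL.zero.sub h4
    rw [sub_sub_cancel] at h5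
    exact h5.mono (pDO_mono (by omega))
  have hstep : ∀ n, 1 ≤ n → n + 1 ≤ d → P (n + 1) → P n := by
    rintro n hn1 hn ⟨ξ, g0, g1, g2⟩
    obtain ⟨ζ, hζdeg, hζnum, hζ⟩ := hrow (n + 1) hn ξ
      (fun B hB => ⟨(g1 B hB.le).1, hB ▸ (g1 B hB.le).2.1⟩) g2
    let ξ' : Finset (Fin d) → ι → La x := fun B =>
      if B.card + 1 = n then ξ B - Dm *ᵥ ζ B else ξ B
    have hD' : ∀ B, VL x (pDO q B 0) (Dm *ᵥ ξ' B - Dm *ᵥ ξ B) := by
      intro B
      simp only [ξ']
      split_ifs with h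
      · rw [mulVec_sub, sub_sub_cancel_left, mulVec_mulVec, ← zero_sub]
        exact VL.zero.sub (VL.mono (p := fun t b => pNum B t b ∧ s + M ≤ t)
          (fun t b h => ⟨h.1, Or.inr (by omega)⟩)
          (VL.mulVec (pP_low B M s) hDD (hζnum B (by omega))))
      · rw [sub_self]
        exact VL.zero
    refine ⟨ξ', ?_, fun A hA => ⟨?_, ?_, fun hne => ?_⟩, fun A hA => ?_⟩
    · rw [← sub_add_sub_cancel _ (Dm *ᵥ ξ ∅)]
      exact ((hD' ∅).mono fun t b h => h.2.resolve_left (by simp)).add g0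
    · simp only [ξ']
      split_ifs with h
      · exact (g1 A (by omega)).1.sub (VL.mulVec (pP_low0 A q s) hD (hζnum A (by omega)))
      · exact (g1 A (by omega)).1
    · simp only [ξ']
      split_ifs with h
      · exact (g1 A (by omega)).2.1.sub (inDeg_mulVec
          (fun μ ν h' h'' => by have := hD1 μ ν h'; omega) (hζdeg A))
      · exact (g1 A (by omega)).2.1
    · have e : wd ξ' A = wd ξ A := wd_congr fun B hB => if_neg (by omega)
      rw [e, ← sub_add_sub_cancel _ (Dm *ᵥ ξ A)]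
      exact (hD' A).add ((g1 A (by omega)).2.2 hne)
    · have e : wd ξ' A = wd (fun B => ξ B - Dm *ᵥ ζ B) A :=
        wd_congr fun B hB => if_pos (by omega)
      have e2 : wd ξ' A = Dm *ᵥ (ξ A - wd ζ A) - (Dm *ᵥ ξ A - wd ξ A) := by
        rw [e, wd_sub, ← mulVec_wd, mulVec_sub]; abel
      rw [e2]
      refine VL.sub ?_ (((g1 A (by omega)).2.2 (Finset.card_pos.mp (by omega))).mono
        (pDO_mono (by omega)))
      have h5 := VL.mulVec (pP_pDO q q A _) hD (hζ A (by omega))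
      have e3 : -(((n + 1) * q : ℕ) : ℤ) + q = -((n * q : ℕ) : ℤ) := by push_cast; ring
      rwa [e3] at h5
  have hall : ∀ m n, n + m = d → 1 ≤ n → P n := by
    intro m
    induction m with
    | zero => intro n hn _; rw [show n = d by omega]; exact hstart
    | succ m ih => intro n hn h; exact hstep n h (by omega) (ih (n + 1) (by omega) (by omega))
  obtain ⟨ξ, g0, g1, g2⟩ := hall (d - 1) 1 (by omega) le_rfl
  obtain ⟨ζ, -, -, hζ⟩ := hrow 1 hd ξ (fun B hB => ⟨(g1 B hB.le).1, hB ▸ (g1 B hB.le).2.1⟩) g2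
  have h5 := VL.mulVec (pP_pDO q q ∅ _) hD (hζ ∅ (by simp))
  rw [wd_apply, Finset.sum_empty, sub_zero] at h5
  have h6 := (h5.mono (q := fun t _ => 0 < t) fun t b h => by
    simpa using h.2.resolve_left (by simp)).sub g0
  rw [sub_sub_cancel] at h6
  exact h6 μ

end Vale.Agent.P202
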