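import Vale.Agent.P202M.LBb

/-! The lower bound over a ring with a regular sequence. -/

open Matrix

namespace Vale.Agent.P202

namespace LBcX

open LBaX LBbX

section len
variable {A : Type*} [CommRing A]

lemma len_add_le {P M Q : Type*} [AddCommGroup P] [Module A P] [AddCommGroup M] [Module A M]
    [AddCommGroup Q] [Module A Q] (f : P →ₗ[A] M) (g : M →ₗ[A] Q) (hf : Function.Injective f)
    (hg : Function.Surjective g) (h : ∀ y, g (f y) = 0) :
    Module.length A P + Module.length A Q ≤ Module.length A M := by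
  rw [Module.length_eq_add_of_exact (LinearMap.ker g).subtype g (Submodule.subtype_injective _) hg
    (LinearMap.exact_subtype_ker_map g)]
  gcongr
  exact Module.length_le_of_injective (f.codRestrict _ h) fun a b hab => hf (congrArg Subtype.val hab)

lemma len_tri {N Q : Type*} [AddCommGroup N] [Module A N] [AddCommGroup Q] [Module A Q]
    (g : N →ₗ[A] Q) (hg : Function.Surjective g) (W : ℕ) : ∀ K : Submodule A (Fin W → N),
    (∀ v ∈ K, ∀ t₀, (∀ t < t₀, v t = 0) → g (v t₀) = 0) →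
    W * Module.length A Q ≤ Module.length A ((Fin W → N) ⧸ K) := by
  induction W with
  | zero => simp
  | succ W ih =>
    intro K hK
    let e : (Fin W → N) →ₗ[A] (Fin (W + 1) → N) :=
      LinearMap.pi (Fin.cases 0 fun i => LinearMap.proj i)
    have e0 : ∀ v, e v 0 = 0 := fun v => rfl
    have e1 : ∀ v i, e v (Fin.succ i) = v i := fun v i => rfl
    have h1 := ih (K.comap e) fun v hv t₀ ht => hK _ hv t₀.succ fun t =>
      Fin.cases (fun _ => e0 v) (fun i hi => ht i (Fin.succ_lt_succ_iff.1 hi)) t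
    have h2 := len_add_le ((K.comap e).mapQ K e le_rfl)
      (K.liftQ (g ∘ₗ LinearMap.proj 0) fun v hv => hK v hv 0 fun t ht => absurd ht (by simp))
      (by
        rw [← LinearMap.ker_eq_bot, Submodule.mapQ, Submodule.ker_liftQ_eq_bot]
        rw [LinearMap.ker_comp, Submodule.ker_mkQ])
      (fun y => by
        obtain ⟨y, rfl⟩ := hg y
        exact ⟨Submodule.Quotient.mk fun _ => y, rfl⟩)
      (fun y => by
        obtain ⟨y, rfl⟩ := Submodule.Quotient.mk_surjective _ y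
        exact (congrArg g (e0 y)).trans (map_zero g))
    refine le_trans ?_ h2
    rw [Nat.cast_succ, add_mul, one_mul]
    gcongr

lemma len_range_le {M P κ : Type*} [AddCommGroup M] [Module A M] [AddCommGroup P] [Module A P]
    [Fintype κ] (Φ : P →ₗ[A] M) (I : Ideal A) (z : κ → M) (hz : ∀ k, ∀ r ∈ I, r • z k = 0)
    (h : LinearMap.range Φ ≤ Submodule.span A (Set.range z)) :
    Module.length A (P ⧸ LinearMap.ker Φ) ≤ Fintype.card κ * ln A I := by
  classical
  let Ψ : (κ → A ⧸ I) →ₗ[A] M := LinearMap.lsum A (fun _ => A ⧸ I) A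
    fun k => I.liftQ (LinearMap.toSpanSingleton A M (z k)) fun r hr => hz k r hr
  have h1 : LinearMap.range Φ ≤ LinearMap.range Ψ := by
    refine h.trans (Submodule.span_le.2 ?_)
    rintro _ ⟨k, rfl⟩
    refine ⟨Pi.single k (Submodule.Quotient.mk 1), ?_⟩
    simp only [Ψ, LinearMap.lsum_piSingle]
    exact one_smul A (z k)
  rw [Φ.quotKerEquivRange.length_eq]
  refine (Module.length_le_of_injective _ (Submodule.inclusion_injective h1)).trans
    ((Module.length_le_of_surjective _ Ψ.surjective_rangeRestrict).trans (le_of_eq ?_))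
  rw [Module.length_pi_of_fintype, Finset.sum_const, Finset.card_univ, nsmul_eq_mul]
  rfl

lemma exists_lift (E J : Ideal A) {α : Type*} (y : α → A ⧸ E)
    (hy : ∀ i, y i ∈ J.map (Ideal.Quotient.mk E)) :
    ∃ y' : α → A, ∀ i, y' i ∈ J ∧ Ideal.Quotient.mk E (y' i) = y i ∧ (y i = 0 → y' i = 0) := by
  have : ∀ i, ∃ y', y' ∈ J ∧ Ideal.Quotient.mk E y' = y i ∧ (y i = 0 → y' = 0) := by
    intro i
    by_cases h : y i = 0
    · exact ⟨0, zero_mem _, by simp [h], fun _ => rfl⟩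
    · obtain ⟨y', h1, h2⟩ := (Ideal.mem_map_iff_of_surjective _ Ideal.Quotient.mk_surjective).1 (hy i)
      exact ⟨y', h1, h2, fun h' => absurd h' h⟩
  exact ⟨_, fun i => (this i).choose_spec⟩

lemma mem_map_top (E : Ideal A) (y : A ⧸ E) : y ∈ (⊤ : Ideal A).map (Ideal.Quotient.mk E) := by
  rw [Ideal.map_top]
  trivial

end len

variable {d : ℕ} {D : Type*} [CommRing D] {x : Fin d → D}

lemma smul_mem_SupL {p r : ℤ → (Fin d → ℤ) → Prop} {n : ℕ}
    (h : ∀ t a t' a', pP n t a → p t' a' → r (t + t') (a + a')) {c : D}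
    (hc : c ∈ Ideal.span (Set.range x) ^ n) {f : La x} (hf : f ∈ SupL x p) : c • f ∈ SupL x r := by
  have e : c • f = algebraMap D (La x) c * f := Algebra.smul_def c f
  rw [e]
  exact mul_mem_SupL h (alg_mem_SupL hc) hf

lemma map_smul_one {R ι : Type*} [CommRing R] [Fintype ι] [DecidableEq ι] (φ : D →+* R) (s : D) :
    φ.mapMatrix (s • (1 : Matrix ι ι D)) = φ s • (1 : Matrix ι ι R) := by
  ext μ ν
  by_cases h : μ = ν <;> simp [h]

/-- The key step: the leading coefficients of an element of `I • N`. -/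
lemma lead_colon (hx : IsReg x) (E : Ideal D) {a q L M : ℕ}
    (hE : E ≤ Ideal.span (Set.range x) ^ M) (hM : L + d * a < M) (c : D)
    {ι : Type*} [Fintype ι] [DecidableEq ι]
    (X : Cx (D ⧸ E) d (fun j => Ideal.Quotient.mk E (c * x j ^ a)) ι)
    (hD : ∀ μ ν, X.D μ ν ∈ (Ideal.span (Set.range x) ^ q).map (Ideal.Quotient.mk E))
    (μ₀ : ι) (I : Ideal D)
    (hI : ∀ r ∈ I, ∃ η, InDeg X.deg 1 η ∧
      X.D *ᵥ η = Pi.single μ₀ (Ideal.Quotient.mk E (c * r)))
    {F : Om d D} (hF : F ∈ SupO D fun t b => pGl q t b ∧ 0 ≤ t)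
    (hF' : Ideal.Quotient.mk (relO x) F ∈ I • SupL x fun t b => pNum ∅ t b ∧ -(L : ℤ) ≤ t)
    (b : Fin d → ℤ) : c ^ (d + 1) * F.coeff (0, b) ∈ Ideal.span (Set.range x) := by
  obtain ⟨D₀, hD₀⟩ := exists_lift E _ (fun p : ι × ι => X.D p.1 p.2) fun p => hD _ _
  obtain ⟨H₀, hH₀⟩ := exists_lift E ⊤ (fun p : Fin d × ι × ι => X.H p.1 p.2.1 p.2.2)
    fun p => mem_map_top E _
  let D₁ : Matrix ι ι D := of fun μ ν => D₀ (μ, ν)
  let H₁ : Fin d → Matrix ι ι D := fun j => of fun μ ν => H₀ (j, μ, ν)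
  have eD : (Ideal.Quotient.mk E).mapMatrix D₁ = X.D := by
    ext μ ν; exact (hD₀ (μ, ν)).2.1
  have eH : ∀ j, (Ideal.Quotient.mk E).mapMatrix (H₁ j) = X.H j := fun j => by
    ext μ ν; exact (hH₀ (j, μ, ν)).2.1
  have hker : ∀ B : Matrix ι ι D, (Ideal.Quotient.mk E).mapMatrix B = 0 →
      ∀ μ ν, (algebraMap D (La x)).mapMatrix B μ ν ∈ SupL x (pP M) := fun B h μ ν =>
    alg_mem_SupL (hE (Ideal.Quotient.eq_zero_iff_mem.1 (congrFun (congrFun h μ) ν)))
  have key : ∀ G ∈ I • SupL x fun t b => pNum ∅ t b ∧ -(L : ℤ) ≤ t, ∃ η₀ : ι → La x,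
      VL x (fun t b => pNum ∅ t b ∧ -(L : ℤ) ≤ t) η₀ ∧ InDeg X.deg 1 η₀ ∧
      VL x (fun t b => pNum ∅ t b ∧ (M : ℤ) - L ≤ t)
        ((algebraMap D (La x)).mapMatrix D₁ *ᵥ η₀ - Pi.single μ₀ (c • G)) := by
    intro G hG
    refine Submodule.smul_induction_on hG (fun r hr f hf => ?_) ?_
    · obtain ⟨η, h1, h2⟩ := hI r hr
      obtain ⟨η₁, hη₁⟩ := exists_lift E ⊤ η fun p => mem_map_top E _
      refine ⟨fun μ => η₁ μ • f, fun μ => Submodule.smul_mem _ _ hf,
        fun μ hμ => by simp [(hη₁ μ).2.2 (h1 μ hμ)], fun μ => ?_⟩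
      have h3 : (D₁ *ᵥ η₁ - Pi.single μ₀ (c * r) : ι → D) μ ∈ E := by
        rw [Pi.sub_apply, ← Ideal.Quotient.eq, RingHom.map_mulVec]
        rw [show (Ideal.Quotient.mk E) ∘ η₁ = η from funext fun μ => (hη₁ μ).2.1]
        rw [show D₁.map (Ideal.Quotient.mk E) = X.D from eD, h2]
        by_cases h : μ = μ₀ <;> simp [h]
      have h4 : ((algebraMap D (La x)).mapMatrix D₁ *ᵥ (fun μ => η₁ μ • f) -
          Pi.single μ₀ (c • r • f) : ι → La x) μ =
          (D₁ *ᵥ η₁ - Pi.single μ₀ (c * r) : ι → D) μ • f := by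
        rw [Pi.sub_apply, Pi.sub_apply, sub_smul]
        congr 1
        · simp only [mulVec, dotProduct, RingHom.mapMatrix_apply, map_apply, Finset.sum_smul,
            ← Algebra.smul_def, mul_smul]
        · by_cases h : μ = μ₀ <;> simp [h, mul_smul]
      rw [h4]
      exact smul_mem_SupL (fun t b t' b' h h' => ⟨(pP_low ∅ M _ t b t' b' h h').1, by
        have := (pP_low ∅ M _ t b t' b' h h').2; omega⟩) (hE h3) hf
    · rintro G G' ⟨η, h1, h2, h3⟩ ⟨η', h1', h2', h3'⟩
      refine ⟨η + η', h1.add h1', h2.add h2', ?_⟩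
      rw [mulVec_add, smul_add, Pi.single_add, add_sub_add_comm]
      exact h3.add h3'
  obtain ⟨η₀, h1, h2, h3⟩ := key _ hF'
  have h4 := chaseL hx X.deg X.deg_le ((algebraMap D (La x)).mapMatrix D₁)
    (fun j => (algebraMap D (La x)).mapMatrix (H₁ j)) (algebraMap D (La x) c) (q := q)
    (alg_mem_SupL (by simp)) (fun μ ν => alg_mem_SupL (hD₀ (μ, ν)).1)
    (fun j μ ν => alg_mem_SupL (by simp))
    (fun μ ν h => X.hD μ ν fun h' => h (by simp [D₁, (hD₀ (μ, ν)).2.2 h']))
    (fun j μ ν h => X.hH j μ ν fun h' => h (by simp [H₁, (hH₀ (j, μ, ν)).2.2 h']))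
    (by
      rw [← map_mul]
      exact hker _ (by rw [map_mul, eD, X.DD]))
    (fun j => by
      have e := hker (D₁ * H₁ j + H₁ j * D₁ - (c * x j ^ a) • 1)
        (by rw [map_sub, map_add, map_mul, map_mul, eD, eH, X.hom, map_smul_one, sub_self])
      rwa [map_sub, map_add, map_mul, map_mul, map_smul_one, map_mul, map_pow] at e)
    hM h1 h2 (fun μ => by
      rw [← sub_add_cancel (_ *ᵥ η₀) (Pi.single μ₀ (c • Ideal.Quotient.mk (relO x) F)), Pi.add_apply]
      refine add_mem (SupL_mono (fun t b h => Or.inr h) (h3 μ)) ?_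
      by_cases h : μ = μ₀
      · rw [h, Pi.single_eq_same]
        exact Submodule.smul_mem _ _ (mk_mem (SupO_mono (fun t b h => Or.inl h.1) hF))
      · rw [Pi.single_eq_of_ne h]
        exact zero_mem _) μ₀
  have h5 := Submodule.smul_mem _ (c ^ d) (SupL_mono (q := fun t _ => 0 < t)
    (fun t b h => by have := h.2; omega) (h3 μ₀))
  rw [Pi.smul_apply, ← map_pow, algebraMap_smul] at h4
  have h6 := sub_mem h4 h5
  rw [Pi.sub_apply, Pi.single_eq_same, smul_sub, sub_sub_cancel, smul_smul, ← pow_succ] at h6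
  exact lead_mem hx (f := c ^ (d + 1) • F)
    (Submodule.smul_mem _ _ (SupO_mono (fun t b h => h.2) hF)) h6 b

lemma coinv_ind (I : Ideal D) {n W : ℕ} (hn : Ideal.span (Set.range x) ^ n ≤ I) :
    ∃ z : Fin (W + n) × Fin d.factorial → La x,
      (∀ k, z k ∈ SupL x fun t b => pNum ∅ t b ∧ -(n : ℤ) ≤ t) ∧ ∀ s : ℤ, 0 ≤ s → s < W →
      ∀ f ∈ SupL x fun t (b : Fin d → ℤ) => t = s ∧ ∀ i, 0 ≤ b i,
      f ∈ Submodule.span D (Set.range z) ⊔ I • SupL x fun t b => pNum ∅ t b ∧ -(n : ℤ) ≤ t := by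
  obtain ⟨b, hb, h⟩ := exists_coinvL x
  let z : Fin (W + n) × Fin d.factorial → La x := fun k =>
    Ideal.Quotient.mk (relO x) (monO D ((k.1 : ℕ) - n) 0) * b k.2
  have hsh : ∀ (s s' : ℤ) (f : La x), (f ∈ SupL x fun t (b : Fin d → ℤ) => t = s' ∧ ∀ i, 0 ≤ b i) →
      Ideal.Quotient.mk (relO x) (monO D s 0) * f ∈
        SupL x fun t (b : Fin d → ℤ) => t = s + s' ∧ ∀ i, 0 ≤ b i := fun s s' f hf =>
    mul_mem_SupL (p := fun t (b : Fin d → ℤ) => t = s ∧ ∀ i, 0 ≤ b i)
      (fun t a t' a' h h' => ⟨by omega, fun i => add_nonneg (h.2 i) (h'.2 i)⟩)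
      (monL_mem_SupL ⟨rfl, by simp⟩) hf
  refine ⟨z, fun k => SupL_mono (fun t a h => ⟨fun i _ => h.2 i, by omega⟩) (hsh _ _ _ (hb k.2)),
    fun s h1 h2 f hf => ?_⟩
  have key : ∀ k m : ℕ, m + k = n → ∀ s : ℤ, -(m : ℤ) ≤ s → s < W →
      ∀ y ∈ Ideal.span (Set.range x) ^ m,
      ∀ f ∈ SupL x fun t (b : Fin d → ℤ) => t = s ∧ ∀ i, 0 ≤ b i,
      y • f ∈ Submodule.span D (Set.range z) ⊔ I • SupL x fun t b => pNum ∅ t b ∧ -(n : ℤ) ≤ t := by
    intro k
    induction k with
    | zero =>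
      rintro m rfl s h1 _ y hy f hf
      exact Submodule.mem_sup_right (Submodule.smul_mem_smul (hn hy)
        (SupL_mono (fun t a h => ⟨fun i _ => h.2 i, by omega⟩) hf))
    | succ k ih =>
      intro m hm s h1 h2 y hy f hf
      obtain ⟨F, hF, rfl⟩ := exists_mk hf
      rw [← AddMonoidAlgebra.sum_coeff_single F, Finsupp.sum, map_sum, Finset.smul_sum]
      refine Submodule.sum_mem _ fun ⟨t, a⟩ hg => ?_
      obtain ⟨rfl, ha⟩ := hF t a (Finsupp.mem_support_iff.1 hg)
      obtain ⟨c, ρ, hρ, e⟩ := h a ha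
      have e1 : monO D t a = monO D t 0 * monO D 0 a := by rw [monO_mul, add_zero, zero_add]
      rw [single_eq, mul_comm, ← Algebra.smul_def, ← Ideal.Quotient.mkₐ_eq_mk D, map_smul,
        smul_comm, Ideal.Quotient.mkₐ_eq_mk, e1, map_mul, e, mul_add, smul_add, Finset.mul_sum,
        Finset.mul_sum, Finset.smul_sum, Finset.smul_sum]
      refine Submodule.smul_mem _ _ (add_mem (Submodule.sum_mem _ fun k _ => ?_)
        (Submodule.sum_mem _ fun j _ => ?_))
      · rw [mul_smul_comm]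
        refine Submodule.mem_sup_left (Submodule.smul_mem _ _ (Submodule.smul_mem _ _
          (Submodule.subset_span ⟨(⟨(t + n).toNat, by omega⟩, k), ?_⟩)))
        simp only [z]
        rw [show (((t + n).toNat : ℕ) : ℤ) - n = t by omega]
      · rw [← mul_assoc, mul_comm, ← Algebra.smul_def, smul_smul]
        refine ih (m + 1) (by omega) (t + -1) (by push_cast; omega) (by omega) _ ?_ _
          (hsh _ _ _ (hρ j))
        rw [pow_succ]
        exact Ideal.mul_mem_mul hy (Ideal.subset_span ⟨j, rfl⟩)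
  simpa using key n 0 (by omega) s (by simpa using h1) h2 1 (by simp) f hf

/-- Laurent polynomials supported in a box. -/
noncomputable def box (D : Type*) [CommRing D] (d q W : ℕ) (s : ℤ) :
    (Fin W → ((i : Fin d) → Fin ((i + 1) * q)) → D) →ₗ[D] Om d D where
  toFun v := ∑ t, ∑ b, v t b • monO D ((t : ℕ) - s) fun i => (b i : ℕ)
  map_add' v w := by simp only [Pi.add_apply, add_smul, Finset.sum_add_distrib]
  map_smul' c v := by
    simp only [Pi.smul_apply, smul_eq_mul, mul_smul, RingHom.id_apply, Finset.smul_sum]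

lemma box_apply {q W : ℕ} (s : ℤ) (v : Fin W → ((i : Fin d) → Fin ((i + 1) * q)) → D) :
    box D d q W s v = ∑ t, ∑ b, v t b • monO D ((t : ℕ) - s) fun i => (b i : ℕ) := rfl

lemma box_shift {q W : ℕ} (s : ℤ) (v : Fin W → ((i : Fin d) → Fin ((i + 1) * q)) → D) :
    box D d q W s v = monO D (-s) 0 * box D d q W 0 v := by
  simp only [box_apply, Finset.mul_sum, mul_smul_comm, monO_mul, zero_add, sub_zero, neg_add_eq_sub]

lemma coeff_box {q W : ℕ} (t₀ : Fin W) (v : Fin W → ((i : Fin d) → Fin ((i + 1) * q)) → D) (b₀) :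
    (box D d q W (t₀ : ℕ) v).coeff (0, fun i => (b₀ i : ℕ)) = v t₀ b₀ := by
  classical
  rw [← cfO_apply, box_apply, map_sum, Finset.sum_eq_single t₀, map_sum, Finset.sum_eq_single b₀]
  · simp [cfO_apply, monO]
  · intro b _ hb
    have : (fun i => ((b i : ℕ) : ℤ)) ≠ fun i => ((b₀ i : ℕ) : ℤ) := fun h =>
      hb (funext fun i => Fin.ext (by exact_mod_cast congrFun h i))
    simp [cfO_apply, monO, this]
  · simp
  · intro t _ ht
    have : ((t : ℕ) : ℤ) - (t₀ : ℕ) ≠ 0 := fun h => ht (Fin.ext (by omega))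
    simp [cfO_apply, monO, this]
  · simp

end LBcX

open LBaX LBcX in
theorem lbD {D : Type*} [CommRing D] {d : ℕ} (x : Fin d → D) (hx : IsReg x) (E : Ideal D)
    {a q n W M : ℕ} (hE : E ≤ Ideal.span (Set.range x) ^ M) (hM : n + W + d * a < M) (c : D)
    {ι : Type*} [Fintype ι] [DecidableEq ι]
    (X : Cx (D ⧸ E) d (fun j => Ideal.Quotient.mk E (c * x j ^ a)) ι)
    (hD : ∀ μ ν, X.D μ ν ∈ (Ideal.span (Set.range x) ^ q).map (Ideal.Quotient.mk E))
    (μ₀ : ι) (I : Ideal D) (hn : Ideal.span (Set.range x) ^ n ≤ I)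
    (hI : ∀ r ∈ I, ∃ η, InDeg X.deg 1 η ∧
      X.D *ᵥ η = Pi.single μ₀ (Ideal.Quotient.mk E (c * r))) :
    (W * ∏ i : Fin d, ((i + 1) * q) : ℕ) *
        ln D ((Ideal.span (Set.range x)).colon {c ^ (d + 1)}) ≤
      ((W + n) * d.factorial : ℕ) * ln D I := by
  obtain ⟨z, hz, hsp⟩ := coinv_ind (W := W) I hn
  set U := I • SupL x fun t b => pNum ∅ t b ∧ -(n : ℤ) ≤ t with hU
  set J := (Ideal.span (Set.range x)).colon {c ^ (d + 1)} with hJ
  let Φ := U.mkQ ∘ₗ (Ideal.Quotient.mkₐ D (relO x)).toLinearMap ∘ₗ box D d q W 0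
  have h1 := len_range_le Φ I (fun k => U.mkQ (z k)) (fun k r hr => by
    rw [← map_smul]
    exact (Submodule.Quotient.mk_eq_zero _).2 (Submodule.smul_mem_smul hr (hz k))) (by
    rintro _ ⟨v, rfl⟩
    simp only [Φ, LinearMap.comp_apply, box_apply, map_sum, map_smul]
    refine Submodule.sum_mem _ fun t _ => Submodule.sum_mem _ fun b _ => Submodule.smul_mem _ _ ?_
    obtain ⟨y, hy, w, hw, e⟩ := Submodule.mem_sup.1 (hsp ((t : ℕ) - 0) (by omega)
      (by have := t.2; omega) _ (monL_mem_SupL (a := fun i => (b i : ℕ)) ⟨rfl, fun i => Int.natCast_nonneg _⟩))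
    change U.mkQ (Ideal.Quotient.mk (relO x) _) ∈ _
    rw [← e, map_add, show U.mkQ w = 0 from (Submodule.Quotient.mk_eq_zero _).2 hw, add_zero,
      Set.range_comp' U.mkQ z, ← Submodule.map_span]
    exact Submodule.mem_map_of_mem hy)
  have h2 := len_tri (J.mkQ.compLeft ((i : Fin d) → Fin ((i + 1) * q)))
    (J.mkQ_surjective.comp_left) W (LinearMap.ker Φ) fun v hv t₀ ht => by
    funext b
    refine (Submodule.Quotient.mk_eq_zero _).2 ?_
    rw [hJ, Submodule.mem_colon_singleton, smul_eq_mul, mul_comm, ← coeff_box t₀ v b]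
    refine lead_colon hx E hE hM c X hD μ₀ I hI ?_ ?_ _
    · rw [box_apply]
      refine Submodule.sum_mem _ fun t _ => Submodule.sum_mem _ fun b _ => ?_
      by_cases h : t < t₀
      · rw [ht t h, Pi.zero_apply, zero_smul]
        exact zero_mem _
      · have h' : (t₀ : ℕ) ≤ t := not_lt.1 h
        refine Submodule.smul_mem _ _ (monO_mem ⟨fun i => ⟨Int.natCast_nonneg _, ?_⟩, by omega⟩)
        have h3 : ((b i : ℕ) : ℤ) < (((i : ℕ) + 1) * q : ℕ) := by exact_mod_cast (b i).2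
        push_cast at h3
        simp only [bb]
        omega
    · rw [box_shift, map_mul]
      have h3 : Ideal.Quotient.mk (relO x) (box D d q W 0 v) ∈ U :=
        (Submodule.Quotient.mk_eq_zero _).1 hv
      refine Submodule.smul_induction_on h3 (fun r hr f hf => ?_) fun f g hf hg => ?_
      · rw [mul_smul_comm]
        refine Submodule.smul_mem_smul hr (mul_mem_SupL
          (p := fun t (b : Fin d → ℤ) => -(W : ℤ) ≤ t ∧ b = 0) (fun t a t' a' h h' => ?_)
          (monL_mem_SupL ⟨by have := t₀.2; omega, rfl⟩) hf)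
        exact ⟨by simpa [h.2, pNum] using h'.1, by push_cast; omega⟩
      · rw [mul_add]
        exact add_mem hf hg
  rw [Module.length_pi_of_fintype, Finset.sum_const, Finset.card_univ, Fintype.card_pi,
    nsmul_eq_mul, ← mul_assoc] at h2
  simp only [Fintype.card_prod, Fintype.card_fin] at h1 h2
  rw [Nat.cast_mul W]
  exact h2.trans h1

end Vale.Agent.P202
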