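import Vale.Agent.P202M.TiltC

/-! The model at a finite level. -/

open IsLocalRing Function MvPowerSeries
open scoped ENNReal

namespace Vale.Agent.P202

namespace LamX

lemma span_elim {A α β : Type*} [CommRing A] (u : α → A) (v : β → A) :
    Ideal.span (Set.range (Sum.elim u v)) = Ideal.span (Set.range u) ⊔ Ideal.span (Set.range v) := by
  rw [Set.Sum.elim_range, Ideal.span_union]

lemma map_span_range {A B α : Type*} [CommRing A] [CommRing B] (φ : A →+* B) (u : α → A) :
    (Ideal.span (Set.range u)).map φ = Ideal.span (Set.range fun i => φ (u i)) := by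
  rw [Ideal.map_span, ← Set.range_comp]; rfl

lemma Prim.trans {A : Type*} [CommRing A] {m I J : Ideal A} (h : Prim m I) (N : ℕ)
    (h' : I ^ N ≤ J) : Prim m J := by
  obtain ⟨a, ha⟩ := h
  exact ⟨a * N, by rw [pow_mul]; exact (Ideal.pow_right_mono ha N).trans h'⟩

section
variable {B B' : Type*} [CommRing B] [IsLocalRing B] [CommRing B'] [IsLocalRing B']
  [IsNoetherianRing B'] [Algebra B B'] {r n : ℕ} {f : Fin r → B} {ψ : Fin r → B'} {Q N : ℕ}
  {K : Ideal B'}

lemma nk (hQ : 0 < Q)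
    (hK : K ≤ Ideal.span (Set.range ψ) ⊔ (maximalIdeal B ^ N).map (algebraMap B B'))
    (hf : ∀ j, algebraMap B B' (f j) - ψ j ^ Q ∈ maximalIdeal B' * K) (I : Ideal B)
    (hI : maximalIdeal B ^ N ≤ Ideal.span (Set.range f) ⊔ I) :
    (maximalIdeal B ^ N).map (algebraMap B B') ≤
        Ideal.span (Set.range ψ) ⊔ I.map (algebraMap B B') ∧
      (Ideal.span (Set.range f)).map (algebraMap B B') ≤
        Ideal.span (Set.range ψ) ⊔ I.map (algebraMap B B') := by
  have h1 : (Ideal.span (Set.range f)).map (algebraMap B B') ≤ Ideal.span (Set.range ψ) ⊔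
      maximalIdeal B' • (maximalIdeal B ^ N).map (algebraMap B B') := by
    rw [map_span_range, Ideal.span_le]
    rintro _ ⟨j, rfl⟩
    have h2 := Ideal.mul_mono_right (I := maximalIdeal B') hK (hf j)
    rw [Ideal.mul_sup] at h2
    have h3 : ψ j ^ Q ∈ Ideal.span (Set.range ψ) :=
      Ideal.pow_mem_of_mem _ (Ideal.subset_span (Set.mem_range_self j)) _ hQ
    have h4 : algebraMap B B' (f j) - ψ j ^ Q ∈ Ideal.span (Set.range ψ) ⊔
      maximalIdeal B' * (maximalIdeal B ^ N).map (algebraMap B B') :=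
      SetLike.le_def.mp (sup_le_sup_right Ideal.mul_le_right _) h2
    have := add_mem h4 (Ideal.mem_sup_left h3)
    simpa using this
  have h2 : (maximalIdeal B ^ N).map (algebraMap B B') ≤
      Ideal.span (Set.range ψ) ⊔ I.map (algebraMap B B') := by
    refine Submodule.le_of_le_smul_of_le_jacobson_bot (I := maximalIdeal B')
      (IsNoetherian.noetherian _) (maximalIdeal_le_jacobson _) ?_
    refine (Ideal.map_mono hI).trans ?_
    rw [Ideal.map_sup]
    exact sup_le (h1.trans (sup_le_sup_right le_sup_left _)) (le_sup_right.trans le_sup_left)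
  exact ⟨h2, h1.trans (sup_le le_sup_left (Ideal.mul_le_right.trans h2))⟩

lemma k1 (hCM : CM (maximalIdeal B') (r + n))
    (hp : Prim (maximalIdeal B') ((maximalIdeal B).map (algebraMap B B')))
    (hred : IsRed (Ideal.span (Set.range fun j => ψ j ^ Q) ⊔
      (maximalIdeal B ^ N).map (algebraMap B B')) K)
    (hf : ∀ j, algebraMap B B' (f j) - ψ j ^ Q ∈ maximalIdeal B' * K) (hQ : 0 < Q)
    (hK : K ≤ Ideal.span (Set.range ψ) ⊔ (maximalIdeal B ^ N).map (algebraMap B B'))
    (w : Fin n → B)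
    (hw : maximalIdeal B ^ N ≤ Ideal.span (Set.range f) ⊔ Ideal.span (Set.range w)) :
    ((Q ^ r : ℕ) : ℕ∞) * ln B' (Ideal.span (Set.range ψ) ⊔
      (Ideal.span (Set.range w)).map (algebraMap B B')) =
      ln B' ((Ideal.span (Set.range f) ⊔ Ideal.span (Set.range w)).map (algebraMap B B')) := by
  set W := (Ideal.span (Set.range w)).map (algebraMap B B') with hW
  set P := Ideal.span (Set.range fun j => ψ j ^ Q)
  set F := (Ideal.span (Set.range f)).map (algebraMap B B') with hF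
  set Mn := (maximalIdeal B ^ N).map (algebraMap B B') with hMn
  have hc : Prim (maximalIdeal B') (K ⊔ W) :=
    Prim.trans hp N (by rw [← Ideal.map_pow]; exact (le_sup_right.trans hred.1).trans le_sup_left)
  have hmK : maximalIdeal B' * K ≤ maximalIdeal B' * (K ⊔ W) := Ideal.mul_mono_right le_sup_left
  have hFP : F ≤ P ⊔ maximalIdeal B' * K := by
    rw [hF, map_span_range, Ideal.span_le]
    rintro _ ⟨j, rfl⟩
    have := Submodule.add_mem_sup (Ideal.subset_span ⟨j, rfl⟩ : ψ j ^ Q ∈ P) (hf j)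
    simpa using this
  have hPF : P ≤ F ⊔ maximalIdeal B' * K := by
    rw [Ideal.span_le]
    rintro _ ⟨j, rfl⟩
    have := Submodule.add_mem_sup (Ideal.mem_map_of_mem (algebraMap B B')
      (Ideal.subset_span ⟨j, rfl⟩ : f j ∈ Ideal.span (Set.range f))) (neg_mem (hf j))
    simpa using this
  have hM : Mn ≤ F ⊔ W := by rw [hF, hW, ← Ideal.map_sup]; exact Ideal.map_mono hw
  have hPK : P ≤ K := le_sup_left.trans hred.1
  have hFK : F ≤ K := hFP.trans (sup_le hPK Ideal.mul_le_right)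
  have r0 := hred.sup_right W
  have r1 : IsRed (P ⊔ W) (K ⊔ W) := by
    refine isRed_of_nak (sup_le_sup_right hPK _) (r0.of_le ?_ ?_)
    · refine sup_le (sup_le (le_sup_left.trans le_sup_left) (hM.trans (sup_le (hFP.trans ?_)
        (le_sup_right.trans le_sup_left)))) (le_sup_right.trans le_sup_left)
      exact sup_le_sup le_sup_left hmK
    · exact sup_le (sup_le_sup_right hPK _) Ideal.mul_le_right
  have r2 : IsRed (F ⊔ W) (K ⊔ W) := by
    refine isRed_of_nak (sup_le_sup_right hFK _) (r0.of_le ?_ ?_)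
    · exact sup_le (sup_le (hPF.trans (sup_le_sup le_sup_left hmK)) (hM.trans le_sup_left))
        (le_sup_right.trans le_sup_left)
    · exact sup_le (sup_le_sup_right hFK _) Ideal.mul_le_right
  have hcard : Fintype.card (Fin r ⊕ Fin n) = r + n := by simp
  have e1 := hCM.ln_eq hcard hcard (Sum.elim (fun j => ψ j ^ Q) fun i => algebraMap B B' (w i))
    (Sum.elim (fun j => algebraMap B B' (f j)) fun i => algebraMap B B' (w i)) hc
    (by rwa [span_elim, ← map_span_range]) (by rwa [span_elim, ← map_span_range, ← map_span_range])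
  rw [span_elim, span_elim, ← map_span_range, ← map_span_range] at e1
  have e2 := hCM.bracket B' hcard (Sum.elim ψ fun i => algebraMap B B' (w i)) (by
    rw [span_elim, ← map_span_range]
    exact Prim.trans hp N (by rw [← Ideal.map_pow]; exact (nk hQ hK hf _ hw).1))
    (Sum.elim (fun _ => Q) fun _ => 1)
  have e3 : (fun i => Sum.elim ψ (fun i => algebraMap B B' (w i)) i ^
      Sum.elim (fun _ => Q) (fun _ => 1) i) =
      Sum.elim (fun j => ψ j ^ Q) fun i => algebraMap B B' (w i) := by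
    ext (i | i) <;> simp
  rw [e3, span_elim, span_elim, ← map_span_range] at e2
  rw [Ideal.map_sup, ← e1, e2]
  simp [hW]

end

universe v

lemma level_abs {P : Type*} {B : Type v} [CommRing P] [IsLocalRing P] [CommRing B] [IsLocalRing B]
    [IsNoetherianRing B] [Algebra P B] [IsLocalHom (algebraMap P B)] {r D : ℕ} {f : Fin r → P}
    (hfm : ∀ j, f j ∈ maximalIdeal P) {ψ : Fin r → B} {Q N lam Q' q q' : ℕ} {K : Ideal B} {κ : B}
    {x : Fin D → B} {G : P} {y : Fin D → P} {H₁ H₂ : Set P}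
    (hCM : CM (maximalIdeal B) (r + D))
    (hp : Prim (maximalIdeal B) ((maximalIdeal P).map (algebraMap P B))) (hlam : 0 < lam)
    (hln : ∀ I : Ideal P, ln B (I.map (algebraMap P B)) = ln P I * lam) (hQ : 0 < Q)
    (hκ : κ ^ Q' = algebraMap P B G) (hx : ∀ i, x i ^ q = algebraMap P B (y i))
    (hred : IsRed (Ideal.span (Set.range fun j => ψ j ^ Q) ⊔
      (maximalIdeal P ^ N).map (algebraMap P B)) K)
    (hK : K ≤ Ideal.span (Set.range ψ) ⊔ (maximalIdeal P ^ N).map (algebraMap P B))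
    (hf : ∀ j, algebraMap P B (f j) - ψ j ^ Q ∈ maximalIdeal B * K)
    (k₁ : ∀ H ∈ H₁, κ * algebraMap P B H ∈ Ideal.span {algebraMap P B G} ⊔
      Ideal.span (Set.range ψ) ⊔ (maximalIdeal P ^ N).map (algebraMap P B))
    (k₂ : ∀ H ∈ H₂, κ * algebraMap P B H ∈ Ideal.span {algebraMap P B G} *
      Ideal.span (Set.range x) ^ q' ⊔
      Ideal.span (Set.range ψ) ⊔ (maximalIdeal P ^ N).map (algebraMap P B)) :
    ∃ (A : Type v) (_ : CommRing A) (_ : IsLocalRing A) (_ : IsNoetherianRing A)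
      (_ : Algebra P A) (c : ℝ≥0∞) (κ : A) (x : Fin D → A),
      IsLocalHom (algebraMap P A) ∧ CM (maximalIdeal A) D ∧
      Prim (maximalIdeal A) ((maximalIdeal P).map (algebraMap P A)) ∧
      κ ^ Q' = algebraMap P A G ∧ (∀ i, x i ^ q = algebraMap P A (y i)) ∧
      (∀ I : Ideal P, maximalIdeal P ^ N ≤ Ideal.span (Set.range f) ⊔ I →
        (maximalIdeal P ^ N ⊔ Ideal.span (Set.range f)).map (algebraMap P A) ≤
          I.map (algebraMap P A)) ∧
      (∀ w : Fin D → P,
        maximalIdeal P ^ N ≤ Ideal.span (Set.range f) ⊔ Ideal.span (Set.range w) →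
        c * ln A ((Ideal.span (Set.range w)).map (algebraMap P A)) =
          ln P (Ideal.span (Set.range f) ⊔ Ideal.span (Set.range w))) ∧
      (∀ H ∈ H₁, κ * algebraMap P A H ∈ Ideal.span {algebraMap P A G} ⊔
        (maximalIdeal P ^ N).map (algebraMap P A)) ∧
      (∀ H ∈ H₂, κ * algebraMap P A H ∈ Ideal.span {algebraMap P A G} *
        Ideal.span (Set.range x) ^ q' ⊔ (maximalIdeal P ^ N).map (algebraMap P A)) := by
  set Ψ := Ideal.span (Set.range ψ) with hΨ
  have hΨm : Ψ ≤ maximalIdeal B := by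
    rw [hΨ, Ideal.span_le]
    rintro _ ⟨j, rfl⟩
    refine (maximalIdeal.isMaximal B).isPrime.mem_of_pow_mem Q ?_
    have := sub_mem (map_nonunit (algebraMap P B) _ (hfm j)) (Ideal.mul_le_left (hf j))
    simpa using this
  have : Nontrivial (B ⧸ Ψ) := Ideal.Quotient.nontrivial_iff.mpr
    (fun h => (maximalIdeal.isMaximal B).ne_top (top_le_iff.mp (h ▸ hΨm)))
  have : IsLocalRing (B ⧸ Ψ) :=
    IsLocalRing.of_surjective' (Ideal.Quotient.mk Ψ) Ideal.Quotient.mk_surjective
  have : IsLocalHom (Ideal.Quotient.mk Ψ) :=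
    IsLocalHom.of_surjective _ Ideal.Quotient.mk_surjective
  have hmax : (maximalIdeal B).map (Ideal.Quotient.mk Ψ) = maximalIdeal (B ⧸ Ψ) :=
    map_maximalIdeal_of_surjective _ Ideal.Quotient.mk_surjective
  have halg : algebraMap P (B ⧸ Ψ) =
      (Ideal.Quotient.mk Ψ).comp (algebraMap P B) := rfl
  have hmap : ∀ I : Ideal P, I.map (algebraMap P (B ⧸ Ψ)) =
      (I.map (algebraMap P B)).map (Ideal.Quotient.mk Ψ) := fun I => by
    rw [Ideal.map_map, halg]
  have hsup : ∀ I : Ideal B, (Ψ ⊔ I).map (Ideal.Quotient.mk Ψ) = I.map (Ideal.Quotient.mk Ψ) :=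
    fun I => by rw [Ideal.map_sup, Ideal.map_quotient_self, bot_sup_eq]
  refine ⟨B ⧸ Ψ, inferInstance, inferInstance, inferInstance, inferInstance,
    ((Q ^ r : ℕ) : ℝ≥0∞) / lam, Ideal.Quotient.mk Ψ κ, fun i => Ideal.Quotient.mk Ψ (x i),
    by rw [halg]; infer_instance, hmax ▸ hCM.quot ψ, ?_, by rw [← map_pow, hκ]; rfl,
    fun i => by rw [← map_pow, hx]; rfl, fun I hI => ?_, fun w hw => ?_, fun H hH => ?_,
    fun H hH => ?_⟩
  · obtain ⟨a, ha⟩ := hp
    exact ⟨a, by rw [← hmax, ← Ideal.map_pow, hmap]; exact Ideal.map_mono ha⟩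
  · have := nk hQ hK hf I hI
    rw [hmap, hmap I, ← hsup (I.map _), Ideal.map_sup]
    exact Ideal.map_mono (sup_le this.1 this.2)
  · have h1 := k1 hCM hp hred hf hQ hK w hw
    rw [hln] at h1
    have h2 : ln (B ⧸ Ψ) ((Ideal.span (Set.range w)).map (algebraMap P (B ⧸ Ψ))) =
        ln B (Ψ ⊔ (Ideal.span (Set.range w)).map (algebraMap P B)) := by
      rw [hmap, ← ln_map_mk]
      exact (Module.length_eq_of_surjective Ideal.Quotient.mk_surjective).symm
    have h3 := congrArg (fun t : ℕ∞ => (t : ℝ≥0∞)) h1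
    simp only [ENat.toENNReal_mul, ENat.toENNReal_coe] at h3
    have h4 : (lam : ℝ≥0∞) ≠ 0 := by exact_mod_cast hlam.ne'
    rw [h2, div_eq_mul_inv, mul_right_comm, h3, mul_assoc,
      ENNReal.mul_inv_cancel h4 (ENNReal.natCast_ne_top _), mul_one]
  · have := Ideal.mem_map_of_mem (Ideal.Quotient.mk Ψ) (k₁ H hH)
    rw [sup_right_comm, sup_comm, hsup, Ideal.map_sup, ← hmap, Ideal.map_span, Set.image_singleton,
      map_mul] at this
    exact this
  · have := Ideal.mem_map_of_mem (Ideal.Quotient.mk Ψ) (k₂ H hH)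
    rw [sup_right_comm, sup_comm, hsup, Ideal.map_sup, ← hmap, Ideal.map_mul, Ideal.map_pow,
      Ideal.map_span, Set.image_singleton, map_mul, map_span_range] at this
    exact this

end LamX

open LamX

universe v

/-- The model ring at level `N`. -/
theorem exists_level (p : ℕ) [Fact p.Prime] (V : Type v) [CommRing V] [IsDomain V]
    [IsDiscreteValuationRing V] [PerfectField (ResidueField V)]
    (hV : maximalIdeal V = Ideal.span {(p : V)}) {M D r : ℕ} (hM : M + 1 = r + D) (G : Fin M)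
    (y : Fin D → Fin M) (hy : Injective y) (hG : ∀ i, y i ≠ G) (f : Fin r → PS M V)
    (hfm : ∀ j, f j ∈ maximalIdeal (PS M V)) (H₁ H₂ : Finset (Fin M)) (n₀ : ℕ)
    (h₁ : ∀ H ∈ H₁, ∀ m, (X H : PS M V) ^ (m + n₀) ∈ Ideal.span {X G} ^ m ⊔
      Ideal.span (Set.range f))
    (h₂ : ∀ H ∈ H₂, ∀ m, (X H : PS M V) ^ (m + n₀) ∈ (Ideal.span {X G} *
      Ideal.span (Set.range fun i => X (y i))) ^ m ⊔ Ideal.span (Set.range f))
    (N Q' q : ℕ) (hQ' : 0 < Q') (hq : 0 < q) :
    ∃ (A : Type v) (_ : CommRing A) (_ : IsLocalRing A) (_ : IsNoetherianRing A)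
      (_ : Algebra (PS M V) A) (c : ℝ≥0∞) (κ : A) (x : Fin D → A),
      IsLocalHom (algebraMap (PS M V) A) ∧ CM (maximalIdeal A) D ∧
      Prim (maximalIdeal A) ((maximalIdeal (PS M V)).map (algebraMap (PS M V) A)) ∧
      κ ^ Q' = algebraMap (PS M V) A (X G) ∧
      (∀ i, x i ^ q = algebraMap (PS M V) A (X (y i))) ∧
      (∀ I : Ideal (PS M V), maximalIdeal (PS M V) ^ N ≤ Ideal.span (Set.range f) ⊔ I →
        (maximalIdeal (PS M V) ^ N ⊔ Ideal.span (Set.range f)).map (algebraMap (PS M V) A) ≤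
          I.map (algebraMap (PS M V) A)) ∧
      (∀ w : Fin D → PS M V,
        maximalIdeal (PS M V) ^ N ≤ Ideal.span (Set.range f) ⊔ Ideal.span (Set.range w) →
        c * ln A ((Ideal.span (Set.range w)).map (algebraMap (PS M V) A)) =
          ln (PS M V) (Ideal.span (Set.range f) ⊔ Ideal.span (Set.range w))) ∧
      (∀ H ∈ H₁, κ * algebraMap (PS M V) A (X H) ∈ Ideal.span {algebraMap (PS M V) A (X G)} ⊔
        (maximalIdeal (PS M V) ^ N).map (algebraMap (PS M V) A)) ∧
      (∀ H ∈ H₂, κ * algebraMap (PS M V) A (X H) ∈ Ideal.span {algebraMap (PS M V) A (X G)} *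
        Ideal.span (Set.range x) ^ (q - D - 1) ⊔
        (maximalIdeal (PS M V) ^ N).map (algebraMap (PS M V) A)) := by
  obtain ⟨B, _, _, _, _, lam, ψ, Q, κ, x, K, hloc, hCM, hp, hlam, hln, hQ, hκ, hx, hred, hK, hf,
    k₁, k₂⟩ := tiltC p V hV G y hy hG f H₁ H₂ n₀ h₁ h₂ N Q' q hQ' hq
  rw [hM] at hCM
  obtain ⟨A, _, _, _, _, c, κ, x, a1, a2, a3, a4, a5, a6, a7, a8, a9⟩ :=
    level_abs (H₁ := X '' H₁) (H₂ := X '' H₂) hfm hCM hp hlam hln hQ hκ hx hred hK hf
      (by rintro _ ⟨H, hH, rfl⟩; exact k₁ H hH) (by rintro _ ⟨H, hH, rfl⟩; exact k₂ H hH)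
  exact ⟨A, _, _, ‹_›, _, c, κ, x, a1, a2, a3, a4, a5, a6, a7, fun H hH => a8 _ ⟨H, hH, rfl⟩,
    fun H hH => a9 _ ⟨H, hH, rfl⟩⟩

end Vale.Agent.P202
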