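import Vale.Agent.P202M.Bas

/-! Almost quasi-regularity with truncation errors, and honest algebras. -/

open Matrix Function
open scoped TensorProduct

namespace Vale.Agent.P202

namespace TrX

theorem acyc {R : Type*} [CommRing R] {d : ℕ} {s : Fin d → R} {ι : Type*} [Fintype ι]
    [DecidableEq ι] (X : Cx R d s ι) (g : R) (E : ℕ → Ideal R) (hE : Monotone E)
    (hg : ∀ (m : ℕ) (j : Fin d) (r : R), s j * r ∈ Ideal.span (s '' {i | i < j}) ⊔ E m →
      g * r ∈ Ideal.span (s '' {i | i < j}) ⊔ E (m + 1)) :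
    ∀ (m n j : ℕ), n + m = d + 1 → j < n → ∀ y : ι → R, InDeg X.deg n y →
      (∀ μ, (X.D *ᵥ y) μ ∈ Ideal.span (s '' {i | i.val < j}) ⊔ E 0) →
      ∃ η, InDeg X.deg (n + 1) η ∧
        ∀ μ, (g ^ m • y - X.D *ᵥ η) μ ∈ Ideal.span (s '' {i | i.val < j}) ⊔ E m := by
  intro m
  induction m with
  | zero =>
    intro n j hn _ y hy _
    refine ⟨0, InDeg.zero, fun μ => ?_⟩
    rw [X.eq_zero_of_inDeg (by omega) hy]
    simp
  | succ m ih =>
    intro n j hn hj y hy hDy
    set j' : Fin d := ⟨j, by omega⟩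
    have hspan : ∀ K : Ideal R, Ideal.span (s '' {i | i.val < j + 1}) ⊔ K =
        Ideal.span {s j'} ⊔ (Ideal.span (s '' {i | i.val < j}) ⊔ K) := fun K => by
      rw [← sup_assoc, ← Ideal.span_union, ← Set.image_singleton, ← Set.image_union]
      congr 3
      ext i
      simp only [Set.mem_ofPred_eq, Set.mem_union, Set.mem_singleton_iff, Fin.ext_iff, j']
      omega
    have hmv : ∀ (A : Matrix ι ι R) (I : Ideal R) (v : ι → R), (∀ μ, v μ ∈ I) →
        ∀ μ, (A *ᵥ v) μ ∈ I := fun A I v hv μ =>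
      I.sum_mem fun ν _ => I.mul_mem_left _ (hv ν)
    obtain ⟨z', hz', hz⟩ := ih (n + 1) (j + 1) (by omega) (by omega) (X.H j' *ᵥ y)
      (X.inDeg_H hy j') (by
        intro μ
        rw [X.D_H, hspan]
        refine sub_mem (Ideal.mem_sup_left ?_) (Ideal.mem_sup_right (hmv _ _ _ hDy μ))
        exact Ideal.mem_span_singleton.mpr (Dvd.intro _ rfl))
    rw [hspan] at hz
    have hz2 : ∀ μ, ∃ c : R, (g ^ m • X.H j' *ᵥ y - X.D *ᵥ z') μ - s j' * c ∈
        Ideal.span (s '' {i | i.val < j}) ⊔ E m ∧ (X.deg μ ≠ n + 1 → c = 0) := by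
      intro μ
      by_cases hμ : X.deg μ = n + 1
      · obtain ⟨a, ha, b, hb, hab⟩ := Submodule.mem_sup.mp (hz μ)
        obtain ⟨c, rfl⟩ := Ideal.mem_span_singleton.mp ha
        exact ⟨c, by rw [← hab]; simpa using hb, fun h => absurd hμ h⟩
      · refine ⟨0, ?_, fun _ => rfl⟩
        have := (((X.inDeg_H hy j').smul (g ^ m)).sub (X.inDeg_D hz')) μ hμ
        rw [this]; simp
    choose z'' hz'' hdeg using hz2
    refine ⟨g • z'', InDeg.smul (fun μ h => hdeg μ h) g, fun μ => ?_⟩
    have h1 := hmv X.D _ (g ^ m • X.H j' *ᵥ y - X.D *ᵥ z' - s j' • z'') (fun μ => hz'' μ) μ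
    rw [mulVec_sub, mulVec_sub, X.D_D, mulVec_smul, mulVec_smul, X.D_H] at h1
    have h2 := (Ideal.span (s '' {i | i.val < j}) ⊔ E m).mul_mem_left (g ^ m)
      (SetLike.le_def.1 (sup_le_sup_left (hE m.zero_le) _) (hmv (X.H j') _ _ hDy μ))
    have e1 : s j' * ((g ^ m • y - X.D *ᵥ z'') μ) =
        (g ^ m • (s j' • y - X.H j' *ᵥ X.D *ᵥ y) - 0 - s j' • X.D *ᵥ z'') μ +
          g ^ m * (X.H j' *ᵥ X.D *ᵥ y) μ := by
      simp only [Pi.sub_apply, Pi.smul_apply, smul_eq_mul, Pi.zero_apply]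
      ring
    have h3 : g * ((g ^ m • y - X.D *ᵥ z'') μ) ∈ Ideal.span (s '' {i | i.val < j}) ⊔ E (m + 1) :=
      hg m j' ((g ^ m • y - X.D *ᵥ z'') μ) (by rw [e1]; exact add_mem h1 h2)
    have e2 : (g ^ (m + 1) • y - X.D *ᵥ g • z'') μ = g * ((g ^ m • y - X.D *ᵥ z'') μ) := by
      simp only [Pi.sub_apply, Pi.smul_apply, smul_eq_mul, mulVec_smul]
      ring
    rw [e2]
    exact h3

theorem colon {U : Type*} [CommRing U] {s d : ℕ}
    {J : Ideal U} {ι : Type*} [Fintype ι] [DecidableEq ι] (F : Rs U s J ι) (z : Fin d → U)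
    (t : Fin (s + d) → U) (g : U) (E : ℕ → Ideal U) (hE : Monotone E)
    (hg : ∀ (m : ℕ) (j : Fin (s + d)) (r : U),
      t j * r ∈ Ideal.span (t '' {i | i < j}) ⊔ E m →
      g * r ∈ Ideal.span (t '' {i | i < j}) ⊔ E (m + 1))
    (ht : ∀ i, t i ∈ J ⊔ Ideal.span (Set.range z)) (j : Fin d) (w : U)
    (hw : z j * w ∈ J ⊔ Ideal.span (z '' {i | i ≠ j})) :
    g ^ (s + d) * w ∈ J ⊔ Ideal.span (z '' {i | i ≠ j}) ⊔ E (s + d) := by
  obtain ⟨x, hx, v, hv, hxv⟩ := Submodule.mem_sup.mp hw
  obtain ⟨c, hc, hc'⟩ := F.exists_of_mem (neg_mem hx)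
  have : ∃ a : Fin d → U, a j = w ∧ ∑ l, a l * z l = x := by
    rw [Set.image_eq_range] at hv
    obtain ⟨a, ha⟩ := Ideal.mem_span_range_iff_exists_fun.mp hv
    refine ⟨fun l => if h : l ≠ j then -a ⟨l, h⟩ else w, by simp, ?_⟩
    rw [← Finset.add_sum_erase _ _ (Finset.mem_univ j),
      Finset.sum_subtype (p := fun i => i ∈ {i | i ≠ j}) (F := inferInstance) _ (by simp)]
    simp only [ne_eq, not_true_eq_false, dite_false]
    rw [mul_comm, ← hxv, ← ha, add_assoc, ← Finset.sum_add_distrib, add_eq_left]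
    refine Finset.sum_eq_zero fun x _ => ?_
    rw [dif_pos (show ¬x.1 = j from x.2)]; simp
  obtain ⟨a, rfl, ha⟩ := this
  obtain ⟨η, -, hη⟩ := acyc (F.cx z t ht) g E hE hg (s + d) 1 0 (add_comm _ _) one_pos _
    (F.inDeg_ch z hc a t ht) (by
      intro μ
      rw [Rs.cx_D, F.D_ch z hc, hc', ha, neg_add_cancel]
      simp)
  have h2 := hη ({j}, F.μ₀)
  rw [Rs.cx_D, ← uncurry_curry η, tD_mulVec] at h2
  simp only [Pi.smul_apply, Pi.sub_apply, uncurry_apply_pair, Rs.ch, Finset.singleton_ne_empty,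
    if_false, if_true, ch1_single, smul_eq_mul, Pi.add_apply, eV, not_lt_zero, Set.setOf_false,
    Set.image_empty, Ideal.span_empty, bot_sup_eq] at h2
  rw [← add_sub_cancel (_ + kdV z (curry η) {j} F.μ₀) (g ^ (s + d) * a j)]
  refine Submodule.add_mem_sup ?_ h2
  rw [kdV_apply]
  refine Submodule.add_mem_sup (J.mul_mem_left _ (F.mulVec_mem _)) (Ideal.sum_mem _ fun l _ => ?_)
  by_cases hl : l = j
  · simp [hl]
  · exact Ideal.mul_mem_right _ _ (Ideal.subset_span ⟨l, hl, rfl⟩)

variable (A : Type*) {T : Type*} [CommRing A] [CommRing T] [Algebra A T]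

lemma lower (I : Ideal T) (y G : T) (n : ℕ)
    (h : ∀ m < n, ∀ w, y ^ m * w ∈ I → G * w ∈ I ⊔ Ideal.span {y}) :
    n * ln A ((I ⊔ Ideal.span {y})) ≤ ln A ((I ⊔ Ideal.span {y ^ n})) +
        n * ln A ((I ⊔ Ideal.span {y} ⊔ Ideal.span {G})) := by
  induction n with
  | zero => simp
  | succ m ih =>
    have h1 : ln A ((I ⊔ Ideal.span {y})) ≤
        ln A ((I ⊔ Ideal.span {y ^ (m + 1)}).colon {y ^ m}) +
          ln A ((I ⊔ Ideal.span {y} ⊔ Ideal.span {G})) := by
      rw [len_colon A _ G]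
      refine add_le_add (len_anti A fun x hx => ?_) le_rfl
      rw [Submodule.mem_colon_singleton, smul_eq_mul] at hx ⊢
      obtain ⟨u, hu, v, hv, huv⟩ := Submodule.mem_sup.mp hx
      obtain ⟨c, rfl⟩ := Ideal.mem_span_singleton'.mp hv
      have h2 := h m m.lt_succ_self (x - c * y) (by
        rw [show y ^ m * (x - c * y) = u by rw [mul_sub, mul_comm _ x, ← huv]; ring]
        exact hu)
      rw [show x * G = G * (x - c * y) + G * c * y by ring]
      exact add_mem h2 (Ideal.mem_sup_right (Ideal.mem_span_singleton'.mpr ⟨_, rfl⟩))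
    rw [len_pow_succ, Nat.cast_succ, add_mul, add_mul, one_mul, one_mul]
    refine (add_le_add (ih fun k hk => h k (by omega)) h1).trans (le_of_eq ?_)
    ring

theorem filt {d : ℕ} (J : Ideal T) (z : Fin d → T) (G : T) (n : ℕ) (hn : 1 ≤ n)
    (h : ∀ (e : Fin d → ℕ) (j : Fin d) (w : T), (∀ i, e i ≤ n) →
      z j ^ e j * w ∈ J ⊔ Ideal.span ((fun i => z i ^ e i) '' {i | i ≠ j}) →
      G * w ∈ J ⊔ Ideal.span ((fun i => z i ^ e i) '' {i | i ≠ j}) ⊔ Ideal.span {z j}) :
    n ^ d * ln A (J ⊔ Ideal.span (Set.range z)) ≤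
      ln A (J ⊔ Ideal.span (Set.range fun i => z i ^ n)) +
        d * n ^ d * ln A (J ⊔ Ideal.span (Set.range z) ⊔ Ideal.span {G}) := by
  let ex : ℕ → Fin d → ℕ := fun j i => if i.val < j then n else 1
  have key : ∀ j, j ≤ d →
      n ^ j * ln A (J ⊔ Ideal.span (Set.range z)) ≤
        ln A (J ⊔ Ideal.span (Set.range fun i => z i ^ ex j i)) +
          j * n ^ j * ln A (J ⊔ Ideal.span (Set.range z) ⊔ Ideal.span {G}) ∧
      ln A (J ⊔ Ideal.span (Set.range fun i => z i ^ ex j i) ⊔ Ideal.span {G}) ≤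
        n ^ j * ln A (J ⊔ Ideal.span (Set.range z) ⊔ Ideal.span {G}) := by
    intro j
    induction j with
    | zero => intro _; simp [ex]
    | succ j ih =>
      intro hj
      obtain ⟨ih1, ih2⟩ := ih (by omega)
      set j' : Fin d := ⟨j, by omega⟩
      set I := J ⊔ Ideal.span ((fun i => z i ^ ex j i) '' {i | i ≠ j'}) with hI
      have e0 : ∀ m, (fun i => z i ^ Function.update (ex j) j' m i) '' {i | i ≠ j'} =
          (fun i => z i ^ ex j i) '' {i | i ≠ j'} := fun m =>
        Set.image_congr fun i hi => by rw [Function.update_of_ne hi]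
      have e1 : J ⊔ Ideal.span (Set.range fun i => z i ^ ex j i) = I ⊔ Ideal.span {z j'} := by
        rw [span_range_update _ j', hI, sup_assoc]; simp [ex, j']
      have e2 : J ⊔ Ideal.span (Set.range fun i => z i ^ ex (j + 1) i) =
          I ⊔ Ideal.span {z j' ^ n} := by
        rw [span_range_update _ j', hI, sup_assoc]
        congr 3
        · refine Set.image_congr fun i hi => ?_
          have : i.val ≠ j := fun h => hi (Fin.ext h)
          simp only [ex]
          congr 1
          split_ifs <;> omega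
        · simp [ex, j']
      rw [e1] at ih1 ih2
      rw [e2]
      constructor
      · have h3 := lower A I (z j') G n (fun m hm w hw => by
          have := h (Function.update (ex j) j' m) j' w (fun i => by
            by_cases hi : i = j'
            · rw [hi, Function.update_self]; omega
            · rw [Function.update_of_ne hi]; simp only [ex]; split_ifs <;> omega)
          rw [e0, Function.update_self] at this
          exact this hw)
        generalize ln A (J ⊔ Ideal.span (Set.range z)) = u at *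
        generalize ln A (J ⊔ Ideal.span (Set.range z) ⊔ Ideal.span {G}) = v at *
        generalize ln A (I ⊔ Ideal.span {z j'} ⊔ Ideal.span {G}) = v' at *
        generalize ln A (I ⊔ Ideal.span {z j'}) = u' at *
        generalize ln A (I ⊔ Ideal.span {z j' ^ n}) = u'' at *
        calc _ = n * (n ^ j * u) := by ring
          _ ≤ n * (u' + j * n ^ j * v) := by gcongr
          _ = n * u' + n * (j * n ^ j * v) := mul_add _ _ _
          _ ≤ (u'' + n * v') + n * (j * n ^ j * v) := by gcongr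
          _ ≤ (u'' + n * (n ^ j * v)) + n * (j * n ^ j * v) := by gcongr
          _ = _ := by push_cast; ring
      · rw [sup_right_comm] at ih2 ⊢
        refine (len_pow_upper A _ _ n).trans ?_
        rw [pow_succ', mul_assoc]
        gcongr
  have := (key d le_rfl).1
  simpa [ex] using this

end TrX

theorem filt_trunc (A : Type*) {U : Type*} [CommRing A] [CommRing U] [Algebra A U] {s d : ℕ}
    {J : Ideal U} {ι : Type*} [Fintype ι] [DecidableEq ι] (F : Rs U s J ι) (z : Fin d → U)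
    (t : Fin (s + d) → U) (g : U) (E : ℕ → Ideal U) (hE : Monotone E)
    (hg : ∀ (m : ℕ) (j : Fin (s + d)) (r : U),
      t j * r ∈ Ideal.span (t '' {i | i < j}) ⊔ E m →
      g * r ∈ Ideal.span (t '' {i | i < j}) ⊔ E (m + 1))
    {n : ℕ} (hn : 1 ≤ n) (ht : ∀ i, t i ∈ J ⊔ Ideal.span (Set.range fun i => z i ^ n))
    (hE' : E (s + d) ≤ J ⊔ Ideal.span (Set.range fun i => z i ^ n)) :
    (n : ℕ∞) ^ d * ln A (J ⊔ Ideal.span (Set.range z)) ≤
      ln A (J ⊔ Ideal.span (Set.range fun i => z i ^ n)) +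
        d * (n : ℕ∞) ^ d *
          ln A (J ⊔ (Ideal.span (Set.range z) ⊔ Ideal.span {g ^ (s + d)})) := by
  have le1 : ∀ e : Fin d → ℕ, (∀ i, e i ≤ n) → Ideal.span (Set.range fun i => z i ^ n) ≤
      Ideal.span (Set.range fun i => z i ^ e i) := fun e he => by
    rw [Ideal.span_le]
    rintro _ ⟨i, rfl⟩
    exact Ideal.mem_of_dvd _ (pow_dvd_pow _ (he i)) (Ideal.subset_span ⟨i, rfl⟩)
  rw [← sup_assoc]
  refine TrX.filt A J z _ n hn fun e j w he hw => ?_
  refine SetLike.le_def.1 (sup_le le_sup_left (hE'.trans (sup_le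
    (le_sup_of_le_left le_sup_left) ?_))) (TrX.colon F (fun i => z i ^ e i) t g E hE hg
      (fun i => SetLike.le_def.1 (sup_le_sup_left (le1 e he) J) (ht i)) j w hw)
  rw [Ideal.span_le]
  rintro _ ⟨i, rfl⟩
  by_cases hi : i = j
  · subst hi
    exact Ideal.mem_sup_right (Ideal.pow_mem_of_mem _ (Ideal.mem_span_singleton_self _) n hn)
  · exact Ideal.mem_sup_left (Ideal.mem_sup_right (Ideal.mem_of_dvd _ (pow_dvd_pow _ (he i))
      (Ideal.subset_span ⟨i, hi, rfl⟩)))

universe u v

/-- An almost homomorphism comes from an honest algebra. -/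
theorem exists_honest {B : Type*} {T : Type u} {D : Type v} [CommRing B] [CommRing T] [CommRing D]
    [Algebra B T] [Algebra B D] (κ : D) (ρ : T →ₗ[B] D) (h1 : ρ 1 = κ)
    (hmul : ∀ r r', ρ r * ρ r' = κ * ρ (r * r')) :
    ∃ (U : Type (max u v)) (_ : CommRing U) (_ : Algebra D U) (τ : T →+* U) (α : U →ₗ[D] D),
      (∀ b, τ (algebraMap B T b) = algebraMap D U (algebraMap B D b)) ∧
      (∀ u, α (algebraMap D U u) = κ * u) ∧ (∀ w, algebraMap D U (α w) = κ • w) ∧
      (∀ r, α (τ r) = ρ r) ∧ Submodule.span D (Set.range τ) = ⊤ := by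
  let α0 : D ⊗[B] T →ₗ[D] D := TensorProduct.AlgebraTensorModule.lift
    (LinearMap.toSpanSingleton D (T →ₗ[B] D) ρ)
  have hα0 : ∀ u r, α0 (u ⊗ₜ r) = u * ρ r := fun u r => by simp [α0]
  have hmul0 : ∀ x y, α0 x * α0 y = κ * α0 (x * y) := by
    intro x y
    induction x using TensorProduct.induction_on with
    | zero => simp
    | add a b ha hb => rw [map_add, add_mul, ha, hb, add_mul, map_add, mul_add]
    | tmul u r =>
      induction y using TensorProduct.induction_on with
      | zero => simp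
      | add a b ha hb => rw [map_add, mul_add, ha, hb, mul_add (u ⊗ₜ[B] r), map_add, mul_add]
      | tmul u' r' =>
        rw [Algebra.TensorProduct.tmul_mul_tmul, hα0, hα0, hα0, mul_mul_mul_comm, hmul]
        ring
  have hone : ∀ u, α0 (algebraMap D _ u) = κ * u := fun u => by
    rw [Algebra.TensorProduct.algebraMap_apply, hα0, h1, mul_comm]
    rfl
  let K : Ideal (D ⊗[B] T) :=
    { carrier := {x | ∀ y, α0 (x * y) = 0}
      zero_mem' := fun y => by rw [zero_mul, map_zero]
      add_mem' := fun {a b} ha hb y => by rw [add_mul, map_add, ha y, hb y, add_zero]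
      smul_mem' := fun c x hx y => by rw [smul_eq_mul, mul_comm c, mul_assoc]; exact hx _ }
  let α : ((D ⊗[B] T) ⧸ K) →ₗ[D] D :=
    ((K.restrictScalars D).liftQ α0 fun x hx => by
      have := hx 1
      rwa [mul_one] at this) ∘ₗ (Submodule.Quotient.restrictScalarsEquiv D K).symm.toLinearMap
  have hα : ∀ x, α (Ideal.Quotient.mk K x) = α0 x := fun x => rfl
  refine ⟨(D ⊗[B] T) ⧸ K, inferInstance, inferInstance, (Ideal.Quotient.mk K).comp
    Algebra.TensorProduct.includeRight.toRingHom, α, fun b => ?_, fun u => hone u, fun w => ?_,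
    fun r => ?_, ?_⟩
  · change Ideal.Quotient.mk K (Algebra.TensorProduct.includeRight (algebraMap B T b)) =
      Ideal.Quotient.mk K (algebraMap D _ _)
    rw [AlgHom.commutes, ← IsScalarTower.algebraMap_apply]
  · obtain ⟨x, rfl⟩ := Ideal.Quotient.mk_surjective w
    rw [hα, Algebra.smul_def]
    change Ideal.Quotient.mk K (algebraMap D _ _) =
      Ideal.Quotient.mk K (algebraMap D _ _) * Ideal.Quotient.mk K x
    rw [← map_mul, Ideal.Quotient.eq]
    intro y
    rw [sub_mul, mul_assoc, ← Algebra.smul_def, ← Algebra.smul_def, map_sub, map_smul, map_smul,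
      smul_eq_mul, smul_eq_mul, hmul0, sub_self]
  · exact (hα0 1 r).trans (one_mul _)
  · refine Submodule.eq_top_iff'.2 fun w => ?_
    obtain ⟨x, rfl⟩ := Ideal.Quotient.mk_surjective w
    induction x using TensorProduct.induction_on with
    | zero => rw [map_zero]; exact zero_mem _
    | add a b ha hb => rw [map_add]; exact add_mem ha hb
    | tmul u r =>
      have e : Ideal.Quotient.mk K (u ⊗ₜ[B] r) = u • Ideal.Quotient.mk K (1 ⊗ₜ[B] r) := by
        rw [← Ideal.Quotient.mkₐ_eq_mk D, ← map_smul, TensorProduct.smul_tmul', smul_eq_mul, mul_one]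
      rw [e]
      exact Submodule.smul_mem _ _ (Submodule.subset_span ⟨r, rfl⟩)

end Vale.Agent.P202
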