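import Vale.Agent.P202M.LamA
import Vale.Agent.P202M.LBc
import Vale.Agent.P202M.Tr

/-! Estimates for honest algebras. -/

open IsLocalRing Function Matrix
open scoped ENNReal

namespace Vale.Agent.P202

namespace LamX

lemma exists_rho {B T D : Type*} [CommRing B] [CommRing T] [CommRing D] [Algebra B T] [Algebra B D]
    (G : B) (κ : D) (Δ E : Ideal D)
    (hk : (RingHom.ker (algebraMap B T)).map (algebraMap B D) ≤ Δ)
    (hc : ∀ u, algebraMap B D G ^ 2 * u ∈ Δ → u ∈ E)
    (hex : ∀ t : T, ∃ β u, algebraMap B T β = algebraMap B T G * t ∧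
      algebraMap B D G * u - κ * algebraMap B D β ∈ Δ) :
    ∃ ρ : T →ₗ[B] D ⧸ E, ρ 1 = Ideal.Quotient.mk E κ ∧
      (∀ r r', ρ r * ρ r' = Ideal.Quotient.mk E κ * ρ (r * r')) ∧
      ∀ t β u, algebraMap B T β = algebraMap B T G * t →
        algebraMap B D G * u - κ * algebraMap B D β ∈ Δ → ρ t = Ideal.Quotient.mk E u := by
  choose β u hβ hu using hex
  have hker : ∀ b b', algebraMap B T b = algebraMap B T b' →
      algebraMap B D b - algebraMap B D b' ∈ Δ := fun b b' h => by
    rw [← map_sub]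
    exact hk (Ideal.mem_map_of_mem _ (by rw [RingHom.mem_ker, map_sub, h, sub_self]))
  have uniq : ∀ t b v, algebraMap B T b = algebraMap B T G * t →
      algebraMap B D G * v - κ * algebraMap B D b ∈ Δ →
      Ideal.Quotient.mk E (u t) = Ideal.Quotient.mk E v := fun t b v h1 h2 => by
    rw [Ideal.Quotient.eq]
    refine hc _ ?_
    have := Δ.mul_mem_left (algebraMap B D G) (add_mem (sub_mem (hu t) h2)
      (Δ.mul_mem_left κ (hker _ _ ((hβ t).trans h1.symm))))
    convert this using 1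
    ring
  refine ⟨⟨⟨fun t => Ideal.Quotient.mk E (u t), fun t t' => ?_⟩, fun b t => ?_⟩, ?_,
    fun r r' => ?_, uniq⟩
  · rw [← map_add]
    refine uniq _ (β t + β t') _ (by rw [map_add, hβ, hβ, mul_add]) ?_
    convert add_mem (hu t) (hu t') using 1
    rw [map_add]; ring
  · simp only [RingHom.id_apply]
    rw [uniq (b • t) (b * β t) (algebraMap B D b * u t)
      (by rw [map_mul, hβ, Algebra.smul_def]; ring) ?_, Algebra.smul_def, map_mul]
    · rfl
    · convert Δ.mul_mem_left (algebraMap B D b) (hu t) using 1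
      rw [map_mul]; ring
  · exact uniq 1 G κ (mul_one _).symm (by rw [mul_comm, sub_self]; exact Δ.zero_mem)
  · change Ideal.Quotient.mk E _ * Ideal.Quotient.mk E _ = _ * Ideal.Quotient.mk E _
    rw [← map_mul, ← map_mul, Ideal.Quotient.eq]
    refine hc _ ?_
    have h1 := hker (β r * β r') (G * β (r * r')) (by
      rw [map_mul, map_mul, hβ, hβ, hβ]; ring)
    rw [map_mul, map_mul] at h1
    have := add_mem (add_mem (Δ.mul_mem_left (algebraMap B D G * u r') (hu r))
      (Δ.mul_mem_left (κ * algebraMap B D (β r)) (hu r'))) (sub_mem (Δ.mul_mem_left (κ ^ 2) h1)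
      (Δ.mul_mem_left (algebraMap B D G * κ) (hu (r * r'))))
    convert this using 1
    ring

lemma isLam_map (A : Type*) {T U : Type*} [CommRing A] [CommRing T] [CommRing U] [Algebra A U]
    (τ : T →+* U) (c : ℝ≥0∞) : IsLam fun I : Ideal T => c * (ln A (I.map τ) : ℝ≥0∞) where
  anti I J h := by
    have := len_anti A (Ideal.map_mono (f := τ) h)
    simp only
    gcongr
  top := by simp [Ideal.map_top, ln]
  sub I w := by
    rw [← mul_add, ← ENat.toENNReal_add, len_colon A _ (τ w), Ideal.map_sup, Ideal.map_span,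
      Set.image_singleton]
    gcongr
    refine len_anti A ?_
    rw [Ideal.map_le_iff_le_comap]
    intro x hx
    rw [Submodule.mem_colon_singleton, smul_eq_mul] at hx
    rw [Ideal.mem_comap, Submodule.mem_colon_singleton, smul_eq_mul, ← map_mul]
    exact Ideal.mem_map_of_mem _ hx

lemma lm_alg {A U : Type*} [CommRing A] [CommRing U] [Algebra A U] (I : Ideal A) :
    lm I U = ln A (I.map (algebraMap A U)) := by
  unfold lm ln
  rw [Ideal.smul_top_eq_map]
  exact (Submodule.Quotient.restrictScalarsEquiv A (I.map (algebraMap A U))).length_eq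

section
variable {A U : Type*} [CommRing A] [CommRing U] [Algebra A U] {κ : A} (α : U →ₗ[A] A)

lemma alpha_mem (I : Ideal A) {u : U} (hu : u ∈ I.map (algebraMap A U)) : α u ∈ I := by
  have hr' : u ∈ (I • ⊤ : Submodule A U) := by rwa [Ideal.smul_top_eq_map]
  refine Submodule.smul_induction_on hr' (fun c hc x _ => ?_) (fun x y hx hy => ?_)
  · rw [map_smul]; exact I.mul_mem_right _ hc
  · rw [map_add]; exact add_mem hx hy

lemma hon_sop (h2 : ∀ w, algebraMap A U (α w) = κ • w) {m : ℕ} (x : Fin m → U)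
    (hx : Submodule.span A (Set.range x) = ⊤) (I : Ideal A) :
    ln A (I.map (algebraMap A U)) ≤ ln A I + m * ln A (Ideal.span {κ}) := by
  let N := LinearMap.range (Algebra.linearMap A U)
  rw [← lm_alg, ← lm_self]
  refine (lm_le_of_exact I (Algebra.linearMap A U) N.mkQ N.mkQ_surjective
    (LinearMap.exact_map_mkQ_range _)).trans (add_le_add le_rfl ?_)
  refine (lm_gen (fun i => N.mkQ (x i)) ?_ (Ideal.span {κ}) I ?_).trans ?_
  · rw [show (Set.range fun i => N.mkQ (x i)) = N.mkQ '' Set.range x from Set.range_comp _ _,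
      ← Submodule.map_span, hx, Submodule.map_top, Submodule.range_mkQ]
  · rw [Ideal.span_singleton_le_iff_mem, Module.mem_annihilator]
    intro w
    obtain ⟨w, rfl⟩ := N.mkQ_surjective w
    rw [← map_smul, Submodule.mkQ_apply, Submodule.Quotient.mk_eq_zero]
    exact ⟨α w, h2 w⟩
  · gcongr
    exact len_anti A le_sup_left

lemma hon_kap {m : ℕ} (x : Fin m → U) (hx : Submodule.span A (Set.range x) = ⊤) (C : ℕ) :
    ln A (Ideal.span {algebraMap A U κ ^ C}) ≤ m * (C * ln A (Ideal.span {κ})) := by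
  have h1 := lm_gen x hx ⊥ (Ideal.span {κ ^ C}) bot_le
  rw [lm_alg, Ideal.map_span, Set.image_singleton, map_pow] at h1
  refine h1.trans ?_
  have := len_pow_upper A (⊥ : Ideal A) κ C
  rw [bot_sup_eq (Ideal.span {κ})] at this
  gcongr

/-- The generic isomorphism given by `α`. -/
noncomputable def gen1 (h1 : ∀ u, α (algebraMap A U u) = κ * u)
    (h2 : ∀ w, algebraMap A U (α w) = κ • w) : Gen A U 1 κ where
  α := LinearMap.pi fun _ => α
  β := Algebra.linearMap A U ∘ₗ LinearMap.proj 0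
  βα r := h2 r
  αβ v := by
    ext i
    rw [Subsingleton.elim i 0]
    exact h1 _

end

lemma cx_congr {R : Type*} [CommRing R] {d : ℕ} {s s' : Fin d → R} {ι : Type*} [Fintype ι]
    [DecidableEq ι] (X : Cx R d s ι) (h : s = s') :
    ∃ X' : Cx R d s' ι, X'.deg = X.deg ∧ X'.D = X.D := by
  subst h
  exact ⟨X, rfl, rfl⟩

section
variable {D U : Type*} [CommRing D] [CommRing U] {E : Ideal D} [Algebra (D ⧸ E) U] {κ : D}
  (α : U →ₗ[D ⧸ E] D ⧸ E)
  (h1 : ∀ u, α (algebraMap (D ⧸ E) U u) = Ideal.Quotient.mk E κ * u)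
  (h2 : ∀ w, algebraMap (D ⧸ E) U (α w) = Ideal.Quotient.mk E κ • w)

include h2 in
lemma hon_A3 {m : Ideal D} {s d : ℕ} (hCM : CM m (s + d)) (y : Fin (s + d) → D)
    (hy : Prim m (Ideal.span (Set.range y))) {a M₀ : ℕ} (ha : 0 < a)
    (hE : E = Ideal.span (Set.range fun i => y i ^ M₀)) (hM : (s + d + 1) * a ≤ M₀)
    {J : Ideal U} {ι : Type*} [Fintype ι] [DecidableEq ι] (F : Rs U s J ι) (z : Fin d → U)
    {n : ℕ} (hn : 1 ≤ n) (ht : ∀ i, algebraMap (D ⧸ E) U (Ideal.Quotient.mk E (y i)) ^ a ∈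
      J ⊔ Ideal.span (Set.range fun i => z i ^ n)) :
    (n : ℕ∞) ^ d * ln (D ⧸ E) (J ⊔ Ideal.span (Set.range z)) ≤
      ln (D ⧸ E) (J ⊔ Ideal.span (Set.range fun i => z i ^ n)) + d * (n : ℕ∞) ^ d *
        ln (D ⧸ E) (Ideal.span {algebraMap (D ⧸ E) U (Ideal.Quotient.mk E κ) ^ (s + d)}) := by
  let φ : D →+* U := (algebraMap (D ⧸ E) U).comp (Ideal.Quotient.mk E)
  let Y : ℕ → Ideal D := fun K => Ideal.span (Set.range fun i => y i ^ K)
  have hY : Antitone Y := fun K K' h => Ideal.span_le.mpr (by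
    rintro _ ⟨i, rfl⟩
    exact Ideal.mem_of_dvd _ (pow_dvd_pow _ h) (Ideal.subset_span ⟨i, rfl⟩))
  refine (filt_trunc (D ⧸ E) F z (fun i => φ (y i ^ a)) (φ κ) (fun k => (Y (M₀ - k * a)).map φ)
    (fun k k' h => Ideal.map_mono (hY (Nat.sub_le_sub_left (Nat.mul_le_mul_right a h) _)))
    (fun k j r hr => ?_) hn (fun i => by rw [map_pow]; exact ht i) ?_).trans ?_
  · rw [← Set.image_image φ (fun i => y i ^ a), ← Ideal.map_span, ← Ideal.map_sup] at hr ⊢
    obtain ⟨u, hu⟩ := Ideal.Quotient.mk_surjective (α r)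
    have h3 := alpha_mem α ((Ideal.span ((fun i => y i ^ a) '' {i | i < j}) ⊔
      Y (M₀ - k * a)).map (Ideal.Quotient.mk E)) (by rw [Ideal.map_map]; exact hr)
    rw [show φ (y j ^ a) * r = Ideal.Quotient.mk E (y j ^ a) • r from (Algebra.smul_def _ _).symm,
      map_smul, ← hu, smul_eq_mul, ← map_mul, Ideal.mem_quotient_iff_mem_sup, sup_assoc,
      sup_eq_left.mpr (show E ≤ Y (M₀ - k * a) from hE.le.trans (hY (Nat.sub_le _ _)))] at h3
    have h4 := hCM.colon_trunc y hy a _ ha j u h3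
    rw [show φ κ * r = Ideal.Quotient.mk E κ • r from (Algebra.smul_def _ _).symm, ← h2, ← hu,
      add_mul, one_mul, ← Nat.sub_sub]
    exact Ideal.mem_map_of_mem φ h4
  · refine (Ideal.map_mono (hY (show a ≤ _ by
      rw [add_mul, one_mul] at hM; omega))).trans ?_
    rw [map_span_range, Ideal.span_le]
    rintro _ ⟨i, rfl⟩
    simp only [map_pow]
    exact ht i
  · gcongr
    exact len_anti _ (le_sup_right.trans le_sup_right)

include h1 h2 in
lemma hon_LB {d : ℕ} (x : Fin d → D) (hx : IsReg x) {a q W M : ℕ} (ha : 0 < a)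
    (hE : E ≤ Ideal.span (Set.range x) ^ M) (hM : (a + d * a) + W + d * a < M)
    {ι : Type*} [Fintype ι] [DecidableEq ι]
    (X : Cx U d (fun j => algebraMap (D ⧸ E) U (Ideal.Quotient.mk E (x j ^ a))) ι)
    (hD : ∀ μ ν, α (X.D μ ν) ∈ (Ideal.span (Set.range x) ^ q).map (Ideal.Quotient.mk E))
    (μ₀ : ι) (I : Ideal U) (hn : ∀ j, algebraMap (D ⧸ E) U (Ideal.Quotient.mk E (x j ^ a)) ∈ I)
    (hI : ∀ r ∈ I, ∃ η, InDeg X.deg 1 η ∧ X.D *ᵥ η = Pi.single μ₀ r) :
    (W * ∏ i : Fin d, ((i + 1) * q) : ℕ) * ln D (Ideal.span (Set.range x)) ≤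
      ((W + (a + d * a)) * d.factorial : ℕ) * ln (D ⧸ E) I +
        (W * ∏ i : Fin d, ((i + 1) * q) : ℕ) *
          ((2 * (d + 1) : ℕ) * ln (D ⧸ E) (Ideal.span {Ideal.Quotient.mk E κ})) := by
  let φ : D →+* U := (algebraMap (D ⧸ E) U).comp (Ideal.Quotient.mk E)
  let G := gen1 α h1 h2
  obtain ⟨X', e1, e2⟩ := cx_congr (G.cx (fun _ => rfl) X)
    (s' := fun j => Ideal.Quotient.mk E (κ ^ 2 * x j ^ a)) (by ext j; simp)
  have h3 := lbD x hx E hE hM (κ ^ 2) X' (q := q) (fun μ ν => by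
    rw [e2]
    have := hD μ.1 ν.1
    simpa [Gen.cx, Gen.blk, Gen.mm, G, gen1, Subsingleton.elim ν.2 0] using this)
    (μ₀, 0) (I.comap φ) (by
      have := pow_le_bracket_pow x ha 1
      rw [mul_one, pow_one] at this
      refine this.trans (Ideal.span_le.mpr ?_)
      rintro _ ⟨j, rfl⟩
      exact hn j) (fun r hr => by
      obtain ⟨η, k1, k2⟩ := hI _ hr
      refine ⟨G.A η, fun p hp => ?_, ?_⟩
      · rw [e1] at hp
        simp [Gen.A, k1 p.1 hp]
      · rw [e2]
        change G.blk X.D *ᵥ _ = _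
        rw [G.blk_mulVec, G.BA, Gen.mulVec_smul', k2, map_smul]
        ext ⟨μ, l⟩
        rw [Subsingleton.elim l 0]
        by_cases h : μ = μ₀
        · subst h
          simp [Gen.A, G, gen1, φ, h1, pow_two, mul_assoc]
        · simp [Gen.A, h])
  have h4 : ln D (I.comap φ) ≤ ln (D ⧸ E) I := by
    let : Algebra D U := φ.toAlgebra
    have : IsScalarTower D (D ⧸ E) U := IsScalarTower.of_algebraMap_eq fun _ => rfl
    rw [ln, ln, ← Module.length_eq_of_surjective (S := D) Ideal.Quotient.mk_surjective]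
    exact Module.length_le_of_injective (Ideal.quotientMapₐ I (Algebra.ofId D U) le_rfl).toLinearMap
      Ideal.quotientMap_injective
  have h5 : ln D (Ideal.span (Set.range x) ⊔ Ideal.span {(κ ^ 2) ^ (d + 1)}) ≤
      (2 * (d + 1) : ℕ) * ln (D ⧸ E) (Ideal.span {Ideal.Quotient.mk E κ}) := by
    have h6 : ln (D ⧸ E) (Ideal.span {Ideal.Quotient.mk E κ}) = ln D (E ⊔ Ideal.span {κ}) := by
      rw [← ln_map_mk, Ideal.map_span, Set.image_singleton]
      exact (Module.length_eq_of_surjective Ideal.Quotient.mk_surjective).symm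
    rw [h6, ← pow_mul]
    refine (len_anti D (sup_le_sup_right (hE.trans (Ideal.pow_le_self (by omega))) _)).trans ?_
    exact len_pow_upper D E κ _
  rw [len_colon D _ ((κ ^ 2) ^ (d + 1)), mul_add]
  refine add_le_add (h3.trans ?_) ?_ <;> gcongr

end

end LamX

end Vale.Agent.P202
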