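import Vale.Agent.P202M.LamB

/-! The length function at a finite level. -/

open IsLocalRing Function Matrix
open scoped ENNReal

namespace Vale.Agent.P202

namespace LamX

lemma gen_mem {P T A : Type*} [CommRing P] [CommRing T] [CommRing A] [Algebra P T] [Algebra P A]
    (G : P) (κ : A) (I Δ : Ideal A) {m : ℕ} (ρ : Fin m → T)
    (h : ∀ i, ∃ H, algebraMap P T H = algebraMap P T G * ρ i ∧
      κ * algebraMap P A H ∈ Ideal.span {algebraMap P A G} * I ⊔ Δ) {t : T}
    (ht : t ∈ Submodule.span P (Set.range ρ)) : ∃ β, ∃ u ∈ I,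
      algebraMap P T β = algebraMap P T G * t ∧
        algebraMap P A G * u - κ * algebraMap P A β ∈ Δ := by
  refine Submodule.span_induction ?_ ⟨0, 0, I.zero_mem, by simp, by simp⟩ ?_ ?_ ht
  · rintro _ ⟨i, rfl⟩
    obtain ⟨H, h1, h2⟩ := h i
    obtain ⟨v, hv, e, he, hve⟩ := Submodule.mem_sup.mp h2
    obtain ⟨u, hu, rfl⟩ := Ideal.mem_span_singleton_mul.mp hv
    exact ⟨H, u, hu, h1, by rw [← hve]; simpa using he⟩
  · rintro t t' - - ⟨β, u, hu, h1, h2⟩ ⟨β', u', hu', h1', h2'⟩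
    refine ⟨β + β', u + u', add_mem hu hu', by rw [map_add, h1, h1', mul_add], ?_⟩
    convert add_mem h2 h2' using 1
    rw [map_add]; ring
  · rintro b t - ⟨β, u, hu, h1, h2⟩
    refine ⟨b * β, algebraMap P A b * u, I.mul_mem_left _ hu,
      by rw [map_mul, h1, Algebra.smul_def]; ring, ?_⟩
    convert Δ.mul_mem_left (algebraMap P A b) h2 using 1
    rw [map_mul]; ring

lemma span_unit {A : Type*} [CommRing A] (g : A) :
    Ideal.span (Set.range fun _ : Unit => g) = Ideal.span {g} := by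
  rw [Set.range_const]

lemma ln_quot {A : Type*} [CommRing A] (E I : Ideal A) :
    ln (A ⧸ E) (I.map (Ideal.Quotient.mk E)) = ln A (E ⊔ I) := by
  rw [← ln_map_mk]
  exact (Module.length_eq_of_surjective Ideal.Quotient.mk_surjective).symm

theorem level_lam {P T A : Type*} [CommRing P] [IsLocalRing P] [CommRing T] [Algebra P T]
    [CommRing A] [IsLocalRing A] [IsNoetherianRing A] [Algebra P A] [IsLocalHom (algebraMap P A)]
    {D' s d : ℕ} (hsd : s + d = D' + 1) {K : Ideal P} (hker : RingHom.ker (algebraMap P T) = K)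
    {G : P} (hGm : G ∈ maximalIdeal P) {y : Fin (s + d) → P} (hym : ∀ i, y i ∈ maximalIdeal P)
    {ξ : Fin D' → P} (hξm : ∀ i, ξ i ∈ maximalIdeal P) {N₁ M₀ b Q' q q' : ℕ} (hQ' : 0 < Q')
    (hq : 0 < q) {c : ℝ≥0∞} {κ : A} {x : Fin (s + d) → A} (hCM : CM (maximalIdeal A) (s + d))
    (hp : Prim (maximalIdeal A) ((maximalIdeal P).map (algebraMap P A)))
    (hκ : κ ^ Q' = algebraMap P A G) (hx : ∀ i, x i ^ q = algebraMap P A (y i))
    (hNK : ∀ I : Ideal P, maximalIdeal P ^ N₁ ≤ K ⊔ I →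
      (maximalIdeal P ^ N₁ ⊔ K).map (algebraMap P A) ≤ I.map (algebraMap P A))
    (hK1 : ∀ w : Fin (s + d) → P, maximalIdeal P ^ N₁ ≤ K ⊔ Ideal.span (Set.range w) →
      c * ln A ((Ideal.span (Set.range w)).map (algebraMap P A)) =
        ln P (K ⊔ Ideal.span (Set.range w)))
    (hb : maximalIdeal P ^ b ≤ K ⊔ Ideal.span (Set.range fun i => y i ^ M₀)) (hbN : b ≤ N₁)
    (hN : maximalIdeal P ^ N₁ ≤
      K ⊔ (Ideal.span {G ^ (b + 2)} ⊔ Ideal.span (Set.range fun i => ξ i ^ b)))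
    {m : ℕ} {ρ : Fin m → T} (hρ : Submodule.span P (Set.range ρ) = ⊤)
    (hρH : ∀ i, ∃ H, algebraMap P T H = algebraMap P T G * ρ i ∧ κ * algebraMap P A H ∈
      Ideal.span {algebraMap P A G} ⊔ (maximalIdeal P ^ N₁).map (algebraMap P A))
    {n : Ideal T} {k : ℕ} {ν : Fin k → T}
    (hν : Submodule.span P (Set.range ν) = n.restrictScalars P)
    (hνH : ∀ i, ∃ H, algebraMap P T H = algebraMap P T G * ν i ∧ κ * algebraMap P A H ∈
      Ideal.span {algebraMap P A G} * Ideal.span (Set.range x) ^ q' ⊔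
        (maximalIdeal P ^ N₁).map (algebraMap P A))
    {J : Ideal T} {ι : Type} [Fintype ι] [DecidableEq ι] (F : Rs T s J ι) {z : Fin d → T}
    (hF : ∀ μ μ', F.D μ μ' ∈ n) (hz : ∀ i, z i ∈ n) {a a' W : ℕ} (ha0 : 0 < a) (ha' : 0 < a')
    (ha : ∀ i, algebraMap P T (y i) ^ a ∈ J ⊔ Ideal.span (Set.range z))
    (hM : (s + d + 1) * a' ≤ M₀) (hM' : (q * a + (s + d) * (q * a)) + W + (s + d) * (q * a) < M₀) :
    ∃ (lam : Ideal T → ℝ≥0∞) (η : ℝ≥0∞), IsLam lam ∧
      Q' * η ≤ ln P (K ⊔ (Ideal.span {G} ⊔ Ideal.span (Set.range fun i => ξ i ^ b))) ∧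
      (∀ w : Fin (s + d) → P, maximalIdeal P ^ N₁ ≤ K ⊔ Ideal.span (Set.range w) →
        lam ((Ideal.span (Set.range w)).map (algebraMap P T)) ≤
          ln P (K ⊔ Ideal.span (Set.range w)) + m * η) ∧
      (∀ j : ℕ, 1 ≤ j →
        (∀ i, algebraMap P T (y i) ^ a' ∈ J ⊔ Ideal.span (Set.range fun i => z i ^ j)) →
        (j : ℝ≥0∞) ^ d * lam (J ⊔ Ideal.span (Set.range z)) ≤
          lam (J ⊔ Ideal.span (Set.range fun i => z i ^ j)) +
            (d * j ^ d * (m * (s + d)) : ℕ) * η) ∧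
      (W * ∏ i : Fin (s + d), ((i + 1) * q') : ℕ) *
          (ln P (K ⊔ Ideal.span (Set.range y)) : ℝ≥0∞) ≤
        (q : ℝ≥0∞) ^ (s + d) * (((W + (q * a + (s + d) * (q * a))) * (s + d).factorial : ℕ) *
          lam (J ⊔ Ideal.span (Set.range z)) +
          (W * ∏ i : Fin (s + d), ((i + 1) * q') : ℕ) * ((2 * (s + d + 1) : ℕ) * η)) := by
  set φ := algebraMap P A with hφ
  set χ := algebraMap P T with hχ
  obtain ⟨E, hE⟩ : ∃ E : Ideal A, E = Ideal.span (Set.range fun i => φ (y i) ^ M₀) := ⟨_, rfl⟩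
  obtain ⟨Δ, hΔ⟩ : ∃ Δ : Ideal A, Δ = Ideal.span {φ G ^ (b + 2)} ⊔
    Ideal.span (Set.range fun i => φ (ξ i) ^ b) := ⟨_, rfl⟩
  have hM0 : M₀ ≠ 0 := by omega
  have hbE : (maximalIdeal P ^ b).map φ ≤ E := by
    have h1 := hNK _ ((Ideal.pow_le_pow_right hbN).trans hb)
    refine (Ideal.map_mono hb).trans ?_
    rw [Ideal.map_sup]
    refine (sup_le ((Ideal.map_mono le_sup_right).trans h1) le_rfl).trans ?_
    rw [map_span_range, hE]
    simp
  have hΔ1 : (maximalIdeal P ^ N₁ ⊔ K).map φ ≤ Δ := by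
    refine (hNK _ hN).trans ?_
    rw [Ideal.map_sup, map_span_range, Ideal.map_span, Set.image_singleton, hΔ]
    simp
  have hpE : Prim (maximalIdeal A) E := Prim.trans hp b (by rwa [← Ideal.map_pow])
  have hpΔ : Prim (maximalIdeal A) Δ := Prim.trans hp N₁ (by
    rw [← Ideal.map_pow]; exact (Ideal.map_mono le_sup_left).trans hΔ1)
  have hξE : Ideal.span (Set.range fun i => φ (ξ i) ^ b) ≤ E := Ideal.span_le.mpr (by
    rintro _ ⟨i, rfl⟩
    simp only [← map_pow]
    exact hbE (Ideal.mem_map_of_mem _ (Ideal.pow_mem_pow (hξm i) b)))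
  have hΔG : Δ ≤ Ideal.span {φ G} ⊔ Ideal.span (Set.range fun i => φ (ξ i) ^ b) := by
    rw [hΔ]
    exact sup_le_sup_right (Ideal.span_singleton_le_span_singleton.mpr
      (dvd_pow_self _ (by omega))) _
  have hc : ∀ u, φ G ^ 2 * u ∈ Δ → u ∈ E := fun u hu => by
    refine SetLike.le_def.mp (sup_le ?_ hξE) ((hsd ▸ hCM : CM _ (D' + 1)).cancel (φ G) _
      (hpΔ.mono hΔG) 2 b u (hΔ ▸ hu))
    rw [Ideal.span_singleton_le_iff_mem, ← map_pow]
    exact hbE (Ideal.mem_map_of_mem _ (Ideal.pow_mem_pow hGm b))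
  have hle : (maximalIdeal P ^ N₁).map φ ≤ Δ := (Ideal.map_mono le_sup_left).trans hΔ1
  obtain ⟨ρ', r1, r2, r3⟩ := exists_rho (T := T) G κ Δ E
    (by rw [hker]; exact (Ideal.map_mono le_sup_right).trans hΔ1) hc (fun t => by
      obtain ⟨β, u, -, h⟩ := gen_mem G κ ⊤ Δ ρ (fun i => by
        obtain ⟨H, h1, h2⟩ := hρH i
        exact ⟨H, h1, by
          rw [Ideal.mul_top]; exact SetLike.le_def.mp (sup_le_sup_left hle _) h2⟩)
        (t := t) (by rw [hρ]; trivial)
      exact ⟨β, u, h⟩)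
  have r4 : ∀ t ∈ n, ρ' t ∈ (Ideal.span (Set.range x) ^ q').map (Ideal.Quotient.mk E) :=
    fun t ht => by
      obtain ⟨β, u, hu, h1, h2⟩ := gen_mem G κ (Ideal.span (Set.range x) ^ q') Δ ν (fun i => by
        obtain ⟨H, h1, h2⟩ := hνH i
        exact ⟨H, h1, SetLike.le_def.mp (sup_le_sup_left hle _) h2⟩) (t := t) (by rw [hν]; exact ht)
      rw [r3 t β u h1 h2]
      exact Ideal.mem_map_of_mem _ hu
  obtain ⟨U, _, _, τ, α, t1, t2, t3, t4, t5⟩ := exists_honest _ ρ' r1 r2
  have t1' : ∀ b, τ (χ b) = algebraMap (A ⧸ E) U (Ideal.Quotient.mk E (φ b)) := t1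
  have hgen : Submodule.span (A ⧸ E) (Set.range fun i => τ (ρ i)) = ⊤ := by
    rw [eq_top_iff, ← t5, Submodule.span_le]
    rintro _ ⟨t, rfl⟩
    have ht : t ∈ Submodule.span P (Set.range ρ) := by rw [hρ]; trivial
    refine Submodule.span_induction (p := fun t _ => τ t ∈ Submodule.span (A ⧸ E)
      (Set.range fun i => τ (ρ i))) ?_ (by simp) ?_ ?_ ht
    · rintro _ ⟨i, rfl⟩
      exact Submodule.subset_span ⟨i, rfl⟩
    · intro t t' _ _ h h'
      rw [map_add]; exact add_mem h h'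
    · intro b t _ h
      rw [Algebra.smul_def, map_mul, t1', ← Algebra.smul_def]
      exact Submodule.smul_mem _ _ h
  have hmapw : ∀ I : Ideal P, (I.map χ).map τ =
      ((I.map φ).map (Ideal.Quotient.mk E)).map (algebraMap (A ⧸ E) U) := fun I => by
    rw [Ideal.map_map, Ideal.map_map, Ideal.map_map]
    congr 1
    exact RingHom.ext t1'
  have hJz : ∀ j : ℕ, (J ⊔ Ideal.span (Set.range fun i => z i ^ j)).map τ =
      J.map τ ⊔ Ideal.span (Set.range fun i => τ (z i) ^ j) := fun j => by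
    rw [Ideal.map_sup, map_span_range]; simp only [map_pow]
  have hJz1 : (J ⊔ Ideal.span (Set.range z)).map τ =
      J.map τ ⊔ Ideal.span (Set.range fun i => τ (z i)) := by
    rw [Ideal.map_sup, map_span_range]
  have hyx : ∀ i, φ (y i) ∈ Ideal.span (Set.range x) := fun i => by
    rw [← hx]; exact Ideal.pow_mem_of_mem _ (Ideal.subset_span (Set.mem_range_self i)) _ hq
  have hEx : E ≤ Ideal.span (Set.range x) ^ M₀ := by
    rw [hE, Ideal.span_le]
    rintro _ ⟨i, rfl⟩
    exact Ideal.pow_mem_pow (hyx i) _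
  have hEy : E ≤ Ideal.span (Set.range fun i => φ (y i)) := by
    rw [hE, Ideal.span_le]
    rintro _ ⟨i, rfl⟩
    exact Ideal.pow_mem_of_mem _ (Ideal.subset_span (Set.mem_range_self i)) _ (by omega)
  refine ⟨fun I => c * ln (A ⧸ E) (I.map τ),
    c * ln (A ⧸ E) (Ideal.span {Ideal.Quotient.mk E κ}), isLam_map _ τ c, ?_, fun w hw => ?_,
    fun j hj ht => ?_, ?_⟩
  · have hcard : Fintype.card (Unit ⊕ Fin D') = s + d := by simp [hsd, add_comm]
    have hκG : Ideal.span {φ G} ≤ Ideal.span {κ} := Ideal.span_singleton_le_span_singleton.mpr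
      (by rw [← hκ]; exact dvd_pow_self _ hQ'.ne')
    have e2 := hCM.bracket A hcard (Sum.elim (fun _ => κ) fun i => φ (ξ i) ^ b) (by
      rw [span_elim, span_unit]
      exact hpΔ.mono (hΔG.trans (sup_le_sup_right hκG _))) (Sum.elim (fun _ => Q') fun _ => 1)
    have e3 : (fun i => Sum.elim (fun _ : Unit => κ) (fun i => φ (ξ i) ^ b) i ^
        Sum.elim (fun _ => Q') (fun _ => 1) i) =
        Sum.elim (fun _ => φ G) fun i => φ (ξ i) ^ b := by
      ext (i | i) <;> simp [hκ]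
    rw [e3, span_elim, span_elim, span_unit, span_unit] at e2
    have e4 : Ideal.span (Set.range (Sum.elim (fun _ : Unit => G) (fun i => ξ i ^ b) ∘
        (Fintype.equivFinOfCardEq hcard).symm)) =
        Ideal.span {G} ⊔ Ideal.span (Set.range fun i => ξ i ^ b) := by
      rw [(Equiv.surjective _).range_comp, span_elim, span_unit]
    have e5 := hK1 _ (by
      rw [e4]
      exact hN.trans (sup_le_sup_left (sup_le_sup_right (Ideal.span_singleton_le_span_singleton.mpr
        (dvd_pow_self _ (by omega))) _) _))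
    rw [e4, Ideal.map_sup, Ideal.map_span, Set.image_singleton, map_span_range] at e5
    simp only [map_pow] at e5
    have e6 : ln (A ⧸ E) (Ideal.span {Ideal.Quotient.mk E κ}) ≤
        ln A (Ideal.span {κ} ⊔ Ideal.span (Set.range fun i => φ (ξ i) ^ b)) := by
      rw [← Set.image_singleton, ← Ideal.map_span, ln_quot, sup_comm]
      exact len_anti A (sup_le_sup_left hξE _)
    rw [← e5, e2, mul_left_comm]
    simp only [Fintype.prod_sum_type, Sum.elim_inl, Sum.elim_inr, Finset.prod_const_one, mul_one,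
      Fintype.prod_unique, ENat.toENNReal_mul, ENat.toENNReal_coe]
    gcongr
  · have h1 := hon_sop α t3 _ hgen (((Ideal.span (Set.range w)).map φ).map (Ideal.Quotient.mk E))
    rw [← hmapw, ln_quot] at h1
    have h2 := ENat.toENNReal_le.mpr (h1.trans (add_le_add (len_anti A le_sup_right) le_rfl))
    simp only [ENat.toENNReal_add, ENat.toENNReal_mul, ENat.toENNReal_coe] at h2
    rw [← hK1 w hw, mul_left_comm, ← mul_add]
    exact mul_le_mul_right h2 c
  · have h1 := hon_A3 α t3 hCM (fun i => φ (y i)) (hpE.mono hEy) ha' hE hM (F.map τ)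
      (fun i => τ (z i)) hj (fun i => by
        rw [← t1', ← map_pow, ← hJz]; exact Ideal.mem_map_of_mem _ (ht i))
    have h2 := hon_kap (κ := Ideal.Quotient.mk E κ) _ hgen (s + d)
    have h3 := ENat.toENNReal_le.mpr (h1.trans (add_le_add le_rfl (mul_le_mul_right h2 _)))
    simp only [ENat.toENNReal_add, ENat.toENNReal_mul, ENat.toENNReal_coe,
      ENat.toENNReal_pow] at h3
    simp only [hJz, hJz1]
    refine (mul_left_comm _ _ _).le.trans ((mul_le_mul_right h3 c).trans (le_of_eq ?_))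
    push_cast
    ring
  · have hxm : ∀ i, x i ∈ maximalIdeal A := fun i =>
      (maximalIdeal.isMaximal A).isPrime.mem_of_pow_mem q (by
        rw [hx]; exact map_nonunit φ _ (hym i))
    have hreg : IsReg x := hCM.regular x hxm (hpE.mono (hEx.trans (Ideal.pow_le_self hM0)))
    have ht : ∀ i, algebraMap (A ⧸ E) U (Ideal.Quotient.mk E (x i ^ (q * a))) ∈
        J.map τ ⊔ Ideal.span (Set.range fun i => τ (z i)) := fun i => by
      rw [pow_mul, hx, ← map_pow, ← t1', map_pow, ← hJz1]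
      exact Ideal.mem_map_of_mem _ (ha i)
    let Z : Ideal U := 
      { carrier := {u | ∀ v, α (u * v) ∈
          (Ideal.span (Set.range x) ^ q').map (Ideal.Quotient.mk E)}
        zero_mem' := fun v => by simp
        add_mem' := fun {u u'} h h' v => by rw [add_mul, map_add]; exact add_mem (h v) (h' v)
        smul_mem' := fun c u h v => by rw [smul_eq_mul, mul_comm c, mul_assoc]; exact h _ }
    have hZ : ∀ t ∈ n, τ t ∈ Z := fun t ht v => by
      have hv : v ∈ Submodule.span (A ⧸ E) (Set.range τ) := by rw [t5]; trivial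
      refine Submodule.span_induction (p := fun v _ => α (τ t * v) ∈
        (Ideal.span (Set.range x) ^ q').map (Ideal.Quotient.mk E)) ?_ (by simp) ?_ ?_ hv
      · rintro _ ⟨r, rfl⟩
        rw [← map_mul, t4]
        exact r4 _ (n.mul_mem_right _ ht)
      · intro v v' _ _ h h'
        rw [mul_add, map_add]; exact add_mem h h'
      · intro e v _ h
        rw [mul_smul_comm, map_smul]
        exact Ideal.mul_mem_left _ _ h
    have h1 := hon_LB α t2 t3 x hreg (q := q') (W := W) (Nat.mul_pos hq ha0) hEx hM'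
      ((F.map τ).cx _ _ ht) (fun μ μ' => by
        have := tM_mem Z (M := (F.map τ).D) (fun μ μ' => hZ _ (hF μ μ')) Cm
          (fun i => hZ _ (hz i)) μ μ' 1
        rwa [mul_one] at this) (∅, F.μ₀) _ ht (fun r hr => by
        obtain ⟨u, hu, v, hv, rfl⟩ := Submodule.mem_sup.mp hr
        obtain ⟨w, rfl⟩ := Ideal.mem_span_range_iff_exists_fun.mp hv
        obtain ⟨e, he, rfl⟩ := (F.map τ).exists_of_mem hu
        exact ⟨_, (F.map τ).inDeg_ch _ he w _ ht, (F.map τ).D_ch _ he w⟩)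
    have h2 := lm_bracket_le (M := A) x fun _ => q
    rw [lm_self, lm_self] at h2
    simp only [hx, Finset.prod_const, Finset.card_univ, Fintype.card_fin] at h2
    have h3 := hK1 y ((Ideal.pow_le_pow_right hbN).trans (hb.trans (sup_le_sup_left
      (Ideal.span_le.mpr (by
        rintro _ ⟨i, rfl⟩
        exact Ideal.pow_mem_of_mem _ (Ideal.subset_span (Set.mem_range_self i)) _ (by omega))) _)))
    rw [map_span_range] at h3
    have h4 := ENat.toENNReal_le.mpr h1
    have h5 := ENat.toENNReal_le.mpr h2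
    simp only [ENat.toENNReal_add, ENat.toENNReal_mul, ENat.toENNReal_coe] at h4 h5
    simp only [hJz1]
    rw [← h3]
    generalize ((W * ∏ i : Fin (s + d), ((i + 1) * q') : ℕ) : ℝ≥0∞) = A₁ at *
    calc _ ≤ A₁ * (c * ((q ^ (s + d) : ℕ) * ln A (Ideal.span (Set.range x)))) := by gcongr
      _ = (q : ℝ≥0∞) ^ (s + d) * (c * (A₁ * ln A (Ideal.span (Set.range x)))) := by
        push_cast; ring
      _ ≤ _ := by
        refine (mul_le_mul_right (mul_le_mul_right h4 c) _).trans (le_of_eq ?_)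
        ring

end LamX

end Vale.Agent.P202
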