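import Vale.Agent.P202M.LamC

/-! The length function. -/

open IsLocalRing Function MvPowerSeries Filter Topology
open scoped ENNReal

namespace Vale.Agent.P202

namespace LamX

lemma mem_of_alg {P T : Type*} [CommRing P] [CommRing T] [Algebra P T] {G : P}
    (hg : ∀ t : T, ∃ b, algebraMap P T b = algebraMap P T G * t) (I : Ideal P) {t : T}
    (ht : t ∈ I.map (algebraMap P T)) (m : ℕ) {b : P}
    (hb : algebraMap P T b = algebraMap P T G ^ m * (algebraMap P T G * t)) :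
    b ∈ Ideal.span {G} ^ m * I ⊔ RingHom.ker (algebraMap P T) := by
  have : ∃ e ∈ I, algebraMap P T e = algebraMap P T G * t := by
    have ht' : t ∈ (I • ⊤ : Submodule P T) := by rwa [Ideal.smul_top_eq_map]
    refine Submodule.smul_induction_on ht' (fun c hc x _ => ?_) ?_
    · obtain ⟨e, he⟩ := hg x
      exact ⟨c * e, I.mul_mem_right _ hc, by rw [map_mul, he, Algebra.smul_def]; ring⟩
    · rintro x y ⟨e, he, h⟩ ⟨e', he', h'⟩
      exact ⟨e + e', add_mem he he', by rw [map_add, h, h', mul_add]⟩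
  obtain ⟨e, he, h⟩ := this
  rw [show b = G ^ m * e + (b - G ^ m * e) by ring]
  refine Submodule.add_mem_sup (Ideal.mul_mem_mul
    (Ideal.pow_mem_pow (Ideal.mem_span_singleton_self G) m) he) ?_
  rw [RingHom.mem_ker, map_sub, map_mul, map_pow, h, hb, sub_self]

lemma pow_mem_bracket {T ι : Type*} [CommRing T] {d a : ℕ} {J : Ideal T} {z : Fin d → T}
    {t : ι → T} (ha0 : 0 < a) (ha : ∀ i, t i ^ a ∈ J ⊔ Ideal.span (Set.range z)) {N : ℕ}
    (hN : 0 < N) : ∃ a', 0 < a' ∧ ∀ j ≤ N, ∀ i,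
      t i ^ a' ∈ J ⊔ Ideal.span (Set.range fun i => z i ^ j) := by
  refine ⟨a * (1 + (N * 1 + d * N)), by positivity, fun j hj i => ?_⟩
  rw [pow_mul]
  have h1 := Ideal.sup_pow_add_le_pow_sup_pow (Ideal.pow_mem_pow (ha i) (1 + (N * 1 + d * N)))
  refine SetLike.le_def.mp (sup_le_sup (pow_one J).le ((pow_le_bracket_pow z hN 1).trans ?_)) h1
  rw [pow_one, Ideal.span_le]
  rintro _ ⟨i, rfl⟩
  exact Ideal.mem_of_dvd _ (pow_dvd_pow _ hj) (Ideal.subset_span ⟨i, rfl⟩)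

lemma lim_le {F : Filter ℕ} [F.NeBot] (hF : F ≤ atTop) {u v : ℕ → ℝ≥0∞} {a b C : ℝ≥0∞}
    (hu : Tendsto u F (𝓝 a)) (hv : Tendsto v F (𝓝 b)) (hC : C ≠ ⊤)
    (h : ∀ᶠ N : ℕ in atTop, u N ≤ v N + C * (N : ℝ≥0∞)⁻¹) : a ≤ b := by
  have h1 : Tendsto (fun N : ℕ => C * (N : ℝ≥0∞)⁻¹) F (𝓝 0) := by
    have := ENNReal.Tendsto.const_mul (a := C) ENNReal.tendsto_inv_nat_nhds_zero (Or.inr hC)
    rw [mul_zero] at this
    exact this.mono_left hF
  have := le_of_tendsto_of_tendsto hu (hv.add h1) (hF h)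
  rwa [add_zero] at this

lemma exists_lim {T : Type*} [CommRing T] (l : ℕ → Ideal T → ℝ≥0∞) (h : ∀ N, IsLam (l N)) :
    ∃ (F : Filter ℕ) (lam : Ideal T → ℝ≥0∞), F.NeBot ∧ F ≤ atTop ∧ IsLam lam ∧
      ∀ I, Tendsto (fun N => l N I) F (𝓝 (lam I)) := by
  let F := hyperfilter ℕ
  have key : ∀ I, Tendsto (fun N => l N I) F (𝓝 (F.map fun N => l N I).lim) := fun I =>
    (F.map fun N => l N I).le_nhds_lim
  refine ⟨F, fun I => (F.map fun N => l N I).lim, inferInstance,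
    Nat.hyperfilter_le_atTop, ⟨fun I J hIJ => ?_, ?_, fun I w => ?_⟩, key⟩
  · exact le_of_tendsto_of_tendsto' (key J) (key I) fun N => (h N).anti hIJ
  · refine tendsto_nhds_unique (key ⊤) ?_
    simp only [(h _).top]
    exact tendsto_const_nhds
  · exact le_of_tendsto_of_tendsto' (key I) ((key _).add (key _)) fun N => (h N).sub I w

lemma le_inv {N A : ℕ} {η : ℝ≥0∞} (h : ((N * (A + 1) : ℕ) : ℝ≥0∞) * η ≤ A) :
    η ≤ (N : ℝ≥0∞)⁻¹ := by
  rw [ENNReal.le_inv_iff_mul_le]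
  refine (ENNReal.mul_le_mul_iff_right (a := ((A + 1 : ℕ) : ℝ≥0∞)) (by simp)
    (ENNReal.natCast_ne_top _)).mp ?_
  rw [mul_one]
  refine le_trans (le_of_eq ?_) (h.trans (by exact_mod_cast Nat.le_succ A))
  push_cast; ring

lemma lb_div {N ν D q q' : ℕ} (hN : 0 < N) (hν : 0 < ν) {e l η : ℝ≥0∞} (hη : η ≤ (N : ℝ≥0∞)⁻¹)
    (h : (N * ν * ∏ i : Fin D, ((i + 1) * q') : ℕ) * e ≤
      (q : ℝ≥0∞) ^ D * (((N * ν + ν) * D.factorial : ℕ) * l +
        (N * ν * ∏ i : Fin D, ((i + 1) * q') : ℕ) * ((2 * (D + 1) : ℕ) * η))) :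
    (q' : ℝ≥0∞) ^ D * e ≤ (q : ℝ≥0∞) ^ D * ((1 + (N : ℝ≥0∞)⁻¹) * l) +
      (q ^ D * (q' ^ D * (2 * (D + 1))) : ℕ) * (N : ℝ≥0∞)⁻¹ := by
  have e1 : ∏ i : Fin D, ((i + 1) * q') = D.factorial * q' ^ D := by
    rw [Finset.prod_mul_distrib, Fin.prod_univ_eq_prod_range (fun i => i + 1),
      Finset.prod_range_add_one_eq_factorial]
    simp
  rw [e1] at h
  have h0 : ((N * ν * D.factorial : ℕ) : ℝ≥0∞) ≠ 0 := by
    have := D.factorial_pos
    exact_mod_cast (by positivity : 0 < N * ν * D.factorial).ne'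
  have h1 : (N : ℝ≥0∞) * (N : ℝ≥0∞)⁻¹ = 1 :=
    ENNReal.mul_inv_cancel (by exact_mod_cast hN.ne') (ENNReal.natCast_ne_top _)
  refine (ENNReal.mul_le_mul_iff_right h0 (ENNReal.natCast_ne_top _)).mp ?_
  refine le_trans (le_of_eq (by push_cast; ring)) (h.trans ?_)
  calc _ ≤ (q : ℝ≥0∞) ^ D * (((N * ν + ν) * D.factorial : ℕ) * l +
        (N * ν * (D.factorial * q' ^ D) : ℕ) * ((2 * (D + 1) : ℕ) * (N : ℝ≥0∞)⁻¹)) := by gcongr
    _ = _ := by
      have h2 : ((N * ν + ν : ℕ) : ℝ≥0∞) = N * ν * (1 + (N : ℝ≥0∞)⁻¹) := by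
        rw [mul_add, mul_one, mul_right_comm, h1, one_mul]; push_cast; rfl
      rw [Nat.cast_mul (N * ν + ν), h2]
      push_cast
      ring

end LamX

open LamX

theorem exists_lambda (p : ℕ) [Fact p.Prime] {V : Type*} [CommRing V] [IsDomain V]
    [IsDiscreteValuationRing V] [PerfectField (ResidueField V)]
    (hV : maximalIdeal V = Ideal.span {(p : V)}) {M D' r s d : ℕ} (hM : M + 1 = r + (s + d))
    (hsd : s + d = D' + 1) {T : Type*} [CommRing T] [Algebra (PS M V) T] (f : Fin r → PS M V)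
    (hker : RingHom.ker (algebraMap (PS M V) T) = Ideal.span (Set.range f))
    (G : Fin M) (y : Fin (s + d) → Fin M) (hy : Injective y) (hG : ∀ i, y i ≠ G)
    (hprim : Prim (maximalIdeal (PS M V))
      (Ideal.span (Set.range f) ⊔ Ideal.span (Set.range fun i => X (y i))))
    (ξ : Fin D' → PS M V) (hξ : Prim (maximalIdeal (PS M V))
      (Ideal.span (Set.range f) ⊔ (Ideal.span {X G} ⊔ Ideal.span (Set.range ξ))))
    (hξm : ∀ i, ξ i ∈ maximalIdeal (PS M V))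
    (hg : ∀ t : T, ∃ b, algebraMap (PS M V) T b = algebraMap (PS M V) T (X G) * t)
    {m : ℕ} (ρ : Fin m → T) (hρ : Submodule.span (PS M V) (Set.range ρ) = ⊤)
    (hρH : ∀ i, ∃ H, algebraMap (PS M V) T (X H) = algebraMap (PS M V) T (X G) * ρ i)
    (n : Ideal T) {k : ℕ} (ν : Fin k → T)
    (hν : Submodule.span (PS M V) (Set.range ν) = n.restrictScalars (PS M V))
    (hνH : ∀ i, ∃ H, algebraMap (PS M V) T (X H) = algebraMap (PS M V) T (X G) * ν i)
    (c : ℕ) (hn : ∀ j, n ^ (j + c) ≤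
      Ideal.span (Set.range fun i => algebraMap (PS M V) T (X (y i))) ^ j)
    {J : Ideal T} {ι : Type} [Fintype ι] [DecidableEq ι] (F : Rs T s J ι) (z : Fin d → T)
    (hF : ∀ μ μ', F.D μ μ' ∈ n) (hz : ∀ i, z i ∈ n) (a : ℕ)
    (ha : ∀ i, algebraMap (PS M V) T (X (y i)) ^ a ∈ J ⊔ Ideal.span (Set.range z))
    (q : ℕ) (hq : 0 < q) :
    ∃ lam : Ideal T → ℝ≥0∞, IsLam lam ∧
      (∀ w : Fin (s + d) → PS M V, Prim (maximalIdeal (PS M V))
        (Ideal.span (Set.range f) ⊔ Ideal.span (Set.range w)) →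
        lam ((Ideal.span (Set.range w)).map (algebraMap (PS M V) T)) ≤
          ln (PS M V) (Ideal.span (Set.range f) ⊔ Ideal.span (Set.range w))) ∧
      (∀ j : ℕ, 1 ≤ j → (j : ℝ≥0∞) ^ d * lam (J ⊔ Ideal.span (Set.range z)) ≤
        lam (J ⊔ Ideal.span (Set.range fun i => z i ^ j))) ∧
      ((q - (s + d) - 1 : ℕ) : ℝ≥0∞) ^ (s + d) *
          ln (PS M V) (Ideal.span (Set.range f) ⊔ Ideal.span (Set.range fun i => X (y i))) ≤
        (q : ℝ≥0∞) ^ (s + d) * lam (J ⊔ Ideal.span (Set.range z)) := by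
  classical
  by_cases hfm : ¬∀ j, f j ∈ maximalIdeal (PS M V)
  · push Not at hfm
    obtain ⟨j, hj⟩ := hfm
    have : Ideal.span (Set.range f) = ⊤ := Ideal.eq_top_of_isUnit_mem _ (Ideal.subset_span ⟨j, rfl⟩)
      (by simpa using hj)
    exact ⟨fun _ => 0, ⟨fun _ _ _ => le_rfl, rfl, fun _ _ => zero_le⟩, fun _ _ => zero_le,
      fun _ _ => by simp, by simp [this, ln]⟩
  push Not at hfm
  have hXm : ∀ i, (X i : PS M V) ∈ maximalIdeal (PS M V) := fun i => by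
    rw [max_PSV]; exact Ideal.mem_sup_right (Ideal.subset_span ⟨i, rfl⟩)
  choose Hρ hHρ using hρH
  choose Hν hHν using hνH
  have ha1 : ∀ i, algebraMap (PS M V) T (X (y i)) ^ (a + 1) ∈ J ⊔ Ideal.span (Set.range z) := fun i => by
    rw [pow_succ]; exact Ideal.mul_mem_right _ _ (ha i)
  have h₁ : ∀ H ∈ Finset.univ.image Hρ, ∀ m, (X H : PS M V) ^ (m + (c + 1)) ∈
      Ideal.span {X G} ^ m ⊔ Ideal.span (Set.range f) := fun H hH m => by
    obtain ⟨i, -, rfl⟩ := Finset.mem_image.mp hH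
    have := mem_of_alg hg ⊤ (t := algebraMap (PS M V) T (X G) ^ c * ρ i ^ (m + (c + 1)))
      (by rw [Ideal.map_top]; trivial) m (b := X (Hρ i) ^ (m + (c + 1)))
      (by rw [map_pow, hHρ]; ring)
    rwa [Ideal.mul_top, hker] at this
  have h₂ : ∀ H ∈ Finset.univ.image Hν, ∀ m, (X H : PS M V) ^ (m + (c + 1)) ∈ (Ideal.span {X G} *
      Ideal.span (Set.range fun i => X (y i))) ^ m ⊔ Ideal.span (Set.range f) := fun H hH m => by
    obtain ⟨i, -, rfl⟩ := Finset.mem_image.mp hH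
    have h0 : ν i ∈ n := hν.le (Submodule.subset_span ⟨i, rfl⟩)
    have := mem_of_alg hg (Ideal.span (Set.range fun i => X (y i)) ^ m)
      (t := algebraMap (PS M V) T (X G) ^ c * ν i * ν i ^ (m + c))
      (by
        rw [Ideal.map_pow, map_span_range]
        exact Ideal.mul_mem_left _ _ (hn m (Ideal.pow_mem_pow h0 _))) m
      (b := X (Hν i) ^ (m + (c + 1))) (by rw [map_pow, hHν]; ring)
    rwa [← mul_pow, hker] at this
  have key : ∀ N : ℕ, ∃ l : Ideal T → ℝ≥0∞, IsLam l ∧ (0 < N →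
      (∀ w : Fin (s + d) → (PS M V), maximalIdeal (PS M V) ^ N ≤ Ideal.span (Set.range f) ⊔ Ideal.span (Set.range w) →
        l ((Ideal.span (Set.range w)).map (algebraMap (PS M V) T)) ≤
          ln (PS M V) (Ideal.span (Set.range f) ⊔ Ideal.span (Set.range w)) + m * (N : ℝ≥0∞)⁻¹) ∧
      (∀ j : ℕ, 1 ≤ j → j ≤ N → (j : ℝ≥0∞) ^ d * l (J ⊔ Ideal.span (Set.range z)) ≤
        l (J ⊔ Ideal.span (Set.range fun i => z i ^ j)) +
          (d * j ^ d * (m * (s + d)) : ℕ) * (N : ℝ≥0∞)⁻¹) ∧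
      ((q - (s + d) - 1 : ℕ) : ℝ≥0∞) ^ (s + d) *
          ln (PS M V) (Ideal.span (Set.range f) ⊔ Ideal.span (Set.range fun i => X (y i))) ≤
        (q : ℝ≥0∞) ^ (s + d) * ((1 + (N : ℝ≥0∞)⁻¹) * l (J ⊔ Ideal.span (Set.range z))) +
          (q ^ (s + d) * ((q - (s + d) - 1) ^ (s + d) * (2 * (s + d + 1))) : ℕ) *
            (N : ℝ≥0∞)⁻¹) := fun N => by
    rcases Nat.eq_zero_or_pos N with hN | hN
    · exact ⟨fun _ => 0, ⟨fun _ _ _ => le_rfl, rfl, fun _ _ => zero_le⟩, by omega⟩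
    obtain ⟨a', ha', ha''⟩ := pow_mem_bracket a.succ_pos ha1 hN
    obtain ⟨ν₀, hν₀⟩ : ∃ ν₀, ν₀ = q * (a + 1) + (s + d) * (q * (a + 1)) := ⟨_, rfl⟩
    obtain ⟨M₀, hM₀⟩ : ∃ M₀, M₀ = ν₀ + N * ν₀ + (s + d) * (q * (a + 1)) + 1 + (s + d + 1) * a' :=
      ⟨_, rfl⟩
    obtain ⟨b, hb⟩ := hprim.span_pow fun _ => M₀
    have hξ' : Prim (maximalIdeal (PS M V)) (Ideal.span (Set.range f) ⊔ Ideal.span (Set.range (Sum.elim (fun _ : Unit => X G) ξ))) := by
      rwa [span_elim, span_unit]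
    obtain ⟨N₀, hN₀⟩ := hξ'.span_pow (Sum.elim (fun _ => b + 2) fun _ => b)
    have e3 : (fun i => Sum.elim (fun _ : Unit => (X G : PS M V)) ξ i ^
        Sum.elim (fun _ => b + 2) (fun _ => b) i) =
        Sum.elim (fun _ => X G ^ (b + 2)) fun i => ξ i ^ b := by
      ext1 (i | i) <;> rfl
    rw [e3, span_elim, span_unit] at hN₀
    obtain ⟨A₀, hA₀⟩ := ENat.ne_top_iff_exists.mp (show ln (PS M V) (Ideal.span (Set.range f) ⊔ (Ideal.span {X G} ⊔
      Ideal.span (Set.range fun i => ξ i ^ b))) ≠ ⊤ by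
        rw [← lm_self]
        refine lm_ne_top ⟨N₀, hN₀.trans (le_trans ?_ le_sup_left)⟩
        exact sup_le_sup_left (sup_le_sup_right (Ideal.span_singleton_le_span_singleton.mpr
          (dvd_pow_self _ (by omega))) _) _)
    have hQ' : 0 < N * (A₀ + 1) := by positivity
    obtain ⟨A, _, _, _, _, c', κ, x, a1, a2, a3, a4, a5, a6, a7, a8, a9⟩ :=
      exists_level p V hV hM G y hy hG f hfm _ _ _ h₁ h₂ (N₀ + b + N) _ q hQ' hq
    obtain ⟨l, η, l1, l2, l3, l4, l5⟩ := level_lam hsd hker (hXm G) (fun i => hXm (y i)) hξm hQ' hq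
      a2 a3 a4 a5 a6 a7 hb (by omega) ((Ideal.pow_le_pow_right (by omega)).trans hN₀) hρ
      (fun i => ⟨_, hHρ i, a8 _ (Finset.mem_image_of_mem _ (Finset.mem_univ i))⟩) hν
      (fun i => ⟨_, hHν i, a9 _ (Finset.mem_image_of_mem _ (Finset.mem_univ i))⟩) F hF hz
      (W := N * ν₀) (a := a + 1) a.succ_pos ha' ha1 (by omega) (by rw [← hν₀]; omega)
    rw [← hA₀, ENat.toENNReal_coe] at l2
    have hη := le_inv l2
    refine ⟨l, l1, fun _ => ⟨fun w hw => ?_, fun j hj hjN => ?_, ?_⟩⟩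
    · refine (l3 w ((Ideal.pow_le_pow_right (by omega)).trans hw)).trans ?_
      gcongr
    · refine (l4 j hj (ha'' j hjN)).trans ?_
      gcongr
    · rw [← hν₀] at l5
      exact lb_div hN (by rw [hν₀]; positivity) hη l5
  choose l hl hl' using key
  obtain ⟨Φ, lam, _, hΦ, h1, h2⟩ := exists_lim l hl
  refine ⟨lam, h1, fun w ⟨e, he⟩ => ?_, fun j hj => ?_, ?_⟩
  · refine lim_le hΦ (h2 _) tendsto_const_nhds (ENNReal.natCast_ne_top m) ?_
    filter_upwards [eventually_ge_atTop (e + 1)] with N hN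
    exact (hl' N (by omega)).1 w ((Ideal.pow_le_pow_right (by omega)).trans he)
  · refine lim_le hΦ (ENNReal.Tendsto.const_mul (h2 _) (Or.inr (by simp))) (h2 _)
      (ENNReal.natCast_ne_top (d * j ^ d * (m * (s + d)))) ?_
    filter_upwards [eventually_ge_atTop j] with N hN
    exact (hl' N (by omega)).2.1 j hj hN
  · have h3 : Tendsto (fun N : ℕ => 1 + (N : ℝ≥0∞)⁻¹) Φ (𝓝 1) := by
      simpa using (ENNReal.tendsto_inv_nat_nhds_zero.mono_left hΦ).const_add 1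
    have h4 := ENNReal.Tendsto.mul h3 (Or.inl one_ne_zero)
      (h2 (J ⊔ Ideal.span (Set.range z))) (Or.inr ENNReal.one_ne_top)
    rw [one_mul] at h4
    refine lim_le hΦ tendsto_const_nhds (ENNReal.Tendsto.const_mul h4 (Or.inr (by simp)))
      (ENNReal.natCast_ne_top
        (q ^ (s + d) * ((q - (s + d) - 1) ^ (s + d) * (2 * (s + d + 1))))) ?_
    filter_upwards [eventually_ge_atTop 1] with N hN
    exact (hl' N hN).2.2

end Vale.Agent.P202
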