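import Vale.Agent.P202M.Coh
import Vale.Agent.P202M.PSV

/-! Complete models in residue characteristic `p`. -/

open IsLocalRing

namespace Vale.Agent.P202

universe u v

namespace ModX

open TensorProduct

theorem noeth (V B : Type*) [CommRing V] [IsLocalRing V] [IsNoetherianRing V] [CommRing B]
    [IsLocalRing B] [Algebra V B] [IsAdicComplete (maximalIdeal B) B]
    (hres : ∀ b : B, ∃ v : V, b - algebraMap V B v ∈ maximalIdeal B) (fg : (maximalIdeal B).FG) :
    IsNoetherianRing B := by
  obtain ⟨n, y, hy⟩ := Submodule.fg_iff_exists_fin_generating_family.1 fg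
  obtain ⟨φ, -, hφ⟩ := exists_surj_PS hres y hy.symm
  exact isNoetherianRing_of_surjective (PS n V) B φ.toRingHom hφ

theorem noeth_compl (A : Type*) [CommRing A] [IsLocalRing A] [IsNoetherianRing A] :
    IsNoetherianRing (AdicCompletion (maximalIdeal A) A) := by
  have fg := (maximalIdeal A).fg_of_isNoetherianRing
  refine noeth A _ (fun b => ?_) (AdicCompletion.maximalIdeal_eq_map (R := A) ▸ fg.map _)
  obtain ⟨t, ht⟩ := compl_approx _ fg 1 b
  rw [pow_one, ← AdicCompletion.maximalIdeal_eq_map] at ht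
  exact ⟨t, ht⟩

theorem flat_of_LP {A B : Type*} [CommRing A] [IsLocalRing A] [IsNoetherianRing A] [CommRing B]
    [IsLocalRing B] [IsNoetherianRing B] [Algebra A B] (h : LenPres (algebraMap A B)) :
    Module.Flat A B := by
  have := isLocalHom_of_map_le h.1.le
  exact flat_of_lengths 1 fun N => by rw [h.2 _ N le_rfl, Nat.cast_one, mul_one]

theorem charP_res (p : ℕ) [Fact p.Prime] {B : Type*} [CommRing B] [IsLocalRing B]
    (hp : (p : B) ∈ maximalIdeal B) : CharP (ResidueField B) p := by
  rw [CharP.charP_iff_prime_eq_zero (Fact.out : p.Prime), ← map_natCast (residue B),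
    residue_eq_zero_iff]
  exact hp

theorem coef (p : ℕ) [Fact p.Prime] (B : Type u) [CommRing B] [IsLocalRing B] [IsNoetherianRing B]
    [IsAdicComplete (maximalIdeal B) B] (hp : (p : B) ∈ maximalIdeal B) :
    ∃ (C : Type u) (_ : CommRing C) (_ : IsDomain C) (_ : IsDiscreteValuationRing C)
      (_ : Algebra C B), IsAdicComplete (maximalIdeal C) C ∧
      maximalIdeal C = Ideal.span {(p : C)} ∧ IsLocalHom (algebraMap C B) ∧
      (∀ b : B, ∃ v : C, b - algebraMap C B v ∈ maximalIdeal B) ∧
      Nonempty (ResidueField C ≃+* ResidueField B) := by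
  have := charP_res p hp
  obtain ⟨C, _, _, _, hc, hm, ⟨e⟩⟩ := exists_cohen p (ResidueField B)
  obtain ⟨g, hg⟩ := cohen_lift p hm hp (maximalIdeal B) le_rfl (e.toRingHom.comp (residue C))
  refine ⟨C, inferInstance, inferInstance, inferInstance, g.toAlgebra, hc, hm,
    isLocalHom_of_map_le (f := g) ?_, fun b => ?_, ⟨e⟩⟩
  · rw [hm, Ideal.map_span, Set.image_singleton, map_natCast, Ideal.span_singleton_le_iff_mem]
    exact hp
  · obtain ⟨v, hv⟩ := residue_surjective (e.symm (residue B b))
    refine ⟨v, Ideal.Quotient.eq.1 ?_⟩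
    have h1 : Ideal.Quotient.mk _ (g v) = e (residue C v) := RingHom.congr_fun hg v
    rw [hv, e.apply_symm_apply] at h1
    exact h1.symm

theorem closure (p : ℕ) [Fact p.Prime] (C : Type u) [CommRing C] [IsDomain C]
    [IsDiscreteValuationRing C] (hC : maximalIdeal C = Ideal.span {(p : C)}) :
    ∃ (V : Type u) (_ : CommRing V) (_ : IsDomain V) (_ : IsDiscreteValuationRing V)
      (_ : Algebra C V), IsAdicComplete (maximalIdeal V) V ∧
      maximalIdeal V = Ideal.span {(p : V)} ∧ IsAlgClosed (ResidueField V) ∧ Module.Flat C V ∧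
      (maximalIdeal C).map (algebraMap C V) = maximalIdeal V := by
  have := charP_res p (hC ▸ Ideal.mem_span_singleton_self (p : C))
  obtain ⟨V, _, _, _, hc, hm, ⟨e⟩⟩ := exists_cohen p (AlgebraicClosure (ResidueField C))
  obtain ⟨g, -⟩ := cohen_lift p hC (hm ▸ Ideal.mem_span_singleton_self (p : V)) (maximalIdeal V)
    le_rfl (e.symm.toRingHom.comp ((algebraMap (ResidueField C) _).comp (residue C)))
  let := g.toAlgebra
  have hp0 : (p : V) ≠ 0 := fun h => IsDiscreteValuationRing.not_a_field V (by
    rw [hm, h, Ideal.span_singleton_zero])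
  have hirr : Irreducible (p : C) := (IsDiscreteValuationRing.irreducible_iff_uniformizer _).2 hC
  have hinj : Function.Injective (algebraMap C V) := by
    rw [injective_iff_map_eq_zero]
    intro c hc
    by_contra h0
    obtain ⟨n, w, rfl⟩ := IsDiscreteValuationRing.eq_unit_mul_pow_irreducible h0 hirr
    rw [map_mul, map_pow, map_natCast] at hc
    exact mul_ne_zero (w.isUnit.map _).ne_zero (pow_ne_zero _ hp0) hc
  have : Module.IsTorsionFree C V := (Module.isTorsionFree_iff_algebraMap_injective).2 hinj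
  refine ⟨V, inferInstance, inferInstance, inferInstance, inferInstance, hc, hm,
    IsAlgClosed.of_ringEquiv _ _ e.symm, inferInstance, ?_⟩
  rw [hC, hm, Ideal.map_span, Set.image_singleton, map_natCast]

theorem baseChange (C : Type*) (A V : Type u) [CommRing C] [IsLocalRing C] [CommRing A]
    [IsLocalRing A] [CommRing V] [IsLocalRing V] [IsNoetherianRing V] [Algebra C A] [Algebra C V]
    [Module.Flat C V] [IsLocalHom (algebraMap C A)] (hfg : (maximalIdeal A).FG)
    (hres : ∀ a : A, ∃ c : C, a - algebraMap C A c ∈ maximalIdeal A)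
    (hV : (maximalIdeal C).map (algebraMap C V) = maximalIdeal V) :
    ∃ (B : Type u) (_ : CommRing B) (_ : IsLocalRing B) (_ : IsNoetherianRing B)
      (_ : Algebra V B) (f : A →+* B), LenPres f ∧ IsAdicComplete (maximalIdeal B) B ∧
      IsLocalHom (algebraMap V B) ∧ ∀ b : B, ∃ v : V, b - algebraMap V B v ∈ maximalIdeal B := by
  have := isLocalHom_of_map_le hV.le
  have : Module.FaithfullyFlat C V := Module.FaithfullyFlat.of_flat_of_isLocalHom
  let M0 : Ideal (A ⊗[C] V) := (maximalIdeal A).map (algebraMap A (A ⊗[C] V))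
  let ir : V →+* A ⊗[C] V :=
    (Algebra.TensorProduct.includeRight (R := C) (A := A) (B := V)).toRingHom
  have hir : ∀ v, ir v = (1 : A) ⊗ₜ[C] v := fun _ => rfl
  have hρ : ∀ x, ∃ v, x - ir v ∈ M0 := fun x => by
    induction x with
    | zero => exact ⟨0, by simp⟩
    | add x y hx hy =>
      obtain ⟨v, hv⟩ := hx
      obtain ⟨w, hw⟩ := hy
      exact ⟨v + w, by rw [map_add, add_sub_add_comm]; exact M0.add_mem hv hw⟩
    | tmul a v =>
      obtain ⟨c, hc⟩ := hres a
      refine ⟨c • v, ?_⟩
      have : a ⊗ₜ[C] v - ir (c • v) =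
          algebraMap A (A ⊗[C] V) (a - algebraMap C A c) * (1 : A) ⊗ₜ[C] v := by
        rw [Algebra.TensorProduct.algebraMap_apply, Algebra.TensorProduct.tmul_mul_tmul, hir]
        simp [sub_tmul, Algebra.algebraMap_eq_smul_one, smul_tmul]
      rw [this]
      exact Ideal.mul_mem_right _ _ (Ideal.mem_map_of_mem _ hc)
  have hmV : maximalIdeal V ≤ M0.comap ir := by
    rw [← hV, Ideal.map_le_iff_le_comap]
    intro c hc
    have h1 : ir (algebraMap C V c) = algebraMap A (A ⊗[C] V) (algebraMap C A c) := by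
      rw [hir, Algebra.TensorProduct.algebraMap_apply]
      simp [Algebra.algebraMap_eq_smul_one, smul_tmul]
    rw [Ideal.mem_comap, Ideal.mem_comap, h1]
    exact Ideal.mem_map_of_mem _ (map_nonunit _ c hc)
  have : M0.IsMaximal := by
    rw [Ideal.isMaximal_iff]
    refine ⟨fun h => ?_, fun J x hJ hx hxJ => ?_⟩
    · refine Module.FaithfullyFlat.submodule_ne_top (R := A) (M := A ⊗[C] V)
        (maximalIdeal.isMaximal A) ?_
      rw [Ideal.smul_top_eq_map, show (maximalIdeal A).map _ = ⊤ from (Ideal.eq_top_iff_one _).2 h]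
      rfl
    · obtain ⟨v, hv⟩ := hρ x
      have h1 : IsUnit v := by
        by_contra h2
        exact hx (sub_add_cancel x (ir v) ▸ M0.add_mem hv (hmV h2))
      have h3 : ir v ∈ J := sub_sub_cancel x (ir v) ▸ J.sub_mem hxJ (hJ hv)
      exact (Ideal.eq_top_iff_one _).1 (J.eq_top_of_isUnit_mem h3 (h1.map ir))
  let T := Localization.AtPrime M0
  have hT0 : M0.map (algebraMap (A ⊗[C] V) T) = maximalIdeal T :=
    Localization.AtPrime.map_eq_maximalIdeal
  have hT : (maximalIdeal A).map (algebraMap A T) = maximalIdeal T := by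
    rw [IsScalarTower.algebraMap_eq A (A ⊗[C] V) T, ← Ideal.map_map]
    exact hT0
  have fg : (maximalIdeal T).FG := hT ▸ hfg.map _
  have := AdicCompletion.isLocalRing_of_fg fg
  let B := AdicCompletion (maximalIdeal T) T
  have hc : IsAdicComplete (maximalIdeal B) B := AdicCompletion.isAdicComplete_of_fg fg
  let j : A ⊗[C] V →+* B := (algebraMap T B).comp (algebraMap (A ⊗[C] V) T)
  let : Algebra V B := (j.comp ir).toAlgebra
  have hLP : LenPres ((algebraMap T B).comp (algebraMap A T)) := (LP_of_flat hT).comp (LP_compl fg)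
  have hmB : maximalIdeal B = (maximalIdeal T).map (algebraMap T B) :=
    AdicCompletion.maximalIdeal_eq_map_of_fg fg
  have hj : ∀ y ∈ M0, j y ∈ maximalIdeal B := fun y hy =>
    hmB ▸ Ideal.mem_map_of_mem (algebraMap T B) (hT0 ▸ Ideal.mem_map_of_mem _ hy)
  have hK : ∀ b : B, ∃ v : V, b - algebraMap V B v ∈ maximalIdeal B := fun x => by
    obtain ⟨t, ht⟩ := compl_approx _ fg 1 x
    rw [pow_one, ← hmB] at ht
    obtain ⟨y, hy⟩ := (IsLocalization.AtPrime.equivQuotMaximalIdeal M0 T).surjective
      (Ideal.Quotient.mk _ t)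
    obtain ⟨y, rfl⟩ := Ideal.Quotient.mk_surjective y
    rw [IsLocalization.AtPrime.equivQuotMaximalIdeal_apply_mk, Ideal.Quotient.eq] at hy
    have h1 : j y - algebraMap T B t ∈ maximalIdeal B := by
      have h2 := Ideal.mem_map_of_mem (algebraMap T B) hy
      rwa [map_sub, ← hmB] at h2
    obtain ⟨v, hv⟩ := hρ y
    refine ⟨v, ?_⟩
    have h3 := (maximalIdeal B).add_mem ((maximalIdeal B).sub_mem ht h1) (hj _ hv)
    rw [map_sub] at h3
    convert h3 using 1
    show x - j (ir v) = _
    ring
  exact ⟨B, inferInstance, inferInstance, noeth V B hK (hmB ▸ fg.map _), inferInstance, _, hLP,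
    hc, isLocalHom_of_map_le (Ideal.map_le_iff_le_comap.2 fun v hv => hj _ (hmV hv)), hK⟩

/-- The generic extension `A(t)`. -/
abbrev Gen (A : Type u) [CommRing A] [IsLocalRing A] : Type u :=
  Localization.AtPrime ((maximalIdeal A).map (Polynomial.C : A →+* Polynomial A))

theorem gen_map (A : Type u) [CommRing A] [IsLocalRing A] :
    (maximalIdeal A).map (algebraMap A (Gen A)) = maximalIdeal (Gen A) := by
  rw [IsScalarTower.algebraMap_eq A (Polynomial A) (Gen A), ← Ideal.map_map]
  exact Localization.AtPrime.map_eq_maximalIdeal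

theorem gen_infinite (A : Type u) [CommRing A] [IsLocalRing A] :
    Infinite (ResidueField (Gen A)) := by
  refine Infinite.of_injective (fun i : ℕ => residue (Gen A)
    (algebraMap (Polynomial A) (Gen A) (Polynomial.X ^ i))) fun i j hij => ?_
  by_contra hne
  have h1 := Ideal.Quotient.eq.mp hij
  rw [← map_sub, IsLocalization.AtPrime.to_map_mem_maximal_iff (Gen A)
    ((maximalIdeal A).map (Polynomial.C : A →+* Polynomial A)), Ideal.mem_map_C_iff] at h1
  have h2 := h1 i
  rw [Polynomial.coeff_sub, Polynomial.coeff_X_pow, Polynomial.coeff_X_pow, if_pos rfl,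
    if_neg hne, sub_zero] at h2
  exact Ideal.IsPrime.ne_top' ((Ideal.eq_top_iff_one _).mpr h2)

theorem gen_hom (R : Type u) (S : Type v) [CommRing R] [IsLocalRing R] [CommRing S]
    [IsLocalRing S] (f : R →+* S) [IsLocalHom f] :
    ∃ g : Gen R →+* Gen S, g.comp (algebraMap R (Gen R)) = (algebraMap S (Gen S)).comp f := by
  refine ⟨Localization.localRingHom _ _ (Polynomial.mapRingHom f) ?_, RingHom.ext fun r => ?_⟩
  · ext q
    simp only [Ideal.mem_comap, Ideal.mem_map_C_iff, Polynomial.coe_mapRingHom,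
      Polynomial.coeff_map]
    refine forall_congr' fun n => ?_
    rw [← Ideal.mem_comap, IsLocalRing.maximalIdeal_comap]
  · rw [RingHom.comp_apply, RingHom.comp_apply,
      IsScalarTower.algebraMap_apply R (Polynomial R) (Gen R), Localization.localRingHom_to_map,
      IsScalarTower.algebraMap_apply S (Polynomial S) (Gen S)]
    simp

end ModX

theorem exists_model1 (p : ℕ) [Fact p.Prime] (A : Type u) [CommRing A] [IsLocalRing A]
    [IsNoetherianRing A] (hp : (p : A) ∈ maximalIdeal A) :
    ∃ (V : Type u) (_ : CommRing V) (_ : IsDomain V) (_ : IsDiscreteValuationRing V)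
      (B : Type u) (_ : CommRing B) (_ : IsLocalRing B) (_ : IsNoetherianRing B)
      (_ : Algebra V B) (_ : Algebra A B),
      IsAdicComplete (maximalIdeal V) V ∧ maximalIdeal V = Ideal.span {(p : V)} ∧
      IsAlgClosed (ResidueField V) ∧ IsAdicComplete (maximalIdeal B) B ∧
      IsLocalHom (algebraMap V B) ∧ (∀ b : B, ∃ v : V, b - algebraMap V B v ∈ maximalIdeal B) ∧
      Module.Flat A B ∧ (maximalIdeal A).map (algebraMap A B) = maximalIdeal B := by
  have fg := (maximalIdeal A).fg_of_isNoetherianRing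
  let Ah := AdicCompletion (maximalIdeal A) A
  have := ModX.noeth_compl A
  have lA : LenPres (algebraMap A Ah) := LP_compl fg
  have hph : (p : Ah) ∈ maximalIdeal Ah := by
    rw [← lA.1, ← map_natCast (algebraMap A Ah)]
    exact Ideal.mem_map_of_mem _ hp
  obtain ⟨C, _, _, _, _, -, hC, _, hres, -⟩ := ModX.coef p Ah hph
  obtain ⟨V, _, _, _, _, cV, hV, aV, _, hCV⟩ := ModX.closure p C hC
  obtain ⟨B, _, _, _, _, f, hf, cB, lB, rB⟩ :=
    ModX.baseChange C Ah V (maximalIdeal Ah).fg_of_isNoetherianRing hres hCV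
  let : Algebra A B := (f.comp (algebraMap A Ah)).toAlgebra
  have h : LenPres (algebraMap A B) := lA.comp hf
  exact ⟨V, inferInstance, inferInstance, inferInstance, B, inferInstance, inferInstance,
    inferInstance, inferInstance, inferInstance, cV, hV, aV, cB, lB, rB, ModX.flat_of_LP h, h.1⟩

theorem exists_model2 (p : ℕ) [Fact p.Prime] (R : Type u) (S : Type v) [CommRing R] [IsLocalRing R]
    [IsNoetherianRing R] [CommRing S] [IsLocalRing S] [IsNoetherianRing S] [Algebra R S]
    [Module.Flat R S] [IsLocalHom (algebraMap R S)] (hp : (p : R) ∈ maximalIdeal R)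
    (ha : Prim (maximalIdeal S) ((maximalIdeal R).map (algebraMap R S))) :
    ∃ (C : Type u) (_ : CommRing C) (_ : IsDomain C) (_ : IsDiscreteValuationRing C)
      (R' : Type u) (_ : CommRing R') (_ : IsLocalRing R') (_ : IsNoetherianRing R')
      (_ : Algebra C R') (_ : Algebra R R')
      (V : Type v) (_ : CommRing V) (_ : IsDomain V) (_ : IsDiscreteValuationRing V)
      (S' : Type v) (_ : CommRing S') (_ : IsLocalRing S') (_ : IsNoetherianRing S')
      (_ : Algebra V S') (_ : Algebra S S') (_ : Algebra R' S'),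
      (IsAdicComplete (maximalIdeal C) C ∧ maximalIdeal C = Ideal.span {(p : C)} ∧
        Infinite (ResidueField C) ∧ IsAdicComplete (maximalIdeal R') R' ∧
        IsLocalHom (algebraMap C R') ∧
        (∀ b : R', ∃ v : C, b - algebraMap C R' v ∈ maximalIdeal R') ∧
        Module.Flat R R' ∧ (maximalIdeal R).map (algebraMap R R') = maximalIdeal R') ∧
      (IsAdicComplete (maximalIdeal V) V ∧ maximalIdeal V = Ideal.span {(p : V)} ∧
        IsAlgClosed (ResidueField V) ∧ IsAdicComplete (maximalIdeal S') S' ∧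
        IsLocalHom (algebraMap V S') ∧
        (∀ b : S', ∃ v : V, b - algebraMap V S' v ∈ maximalIdeal S') ∧
        Module.Flat S S' ∧ (maximalIdeal S).map (algebraMap S S') = maximalIdeal S') ∧
      Module.Flat R' S' ∧ IsLocalHom (algebraMap R' S') ∧
      Prim (maximalIdeal S') ((maximalIdeal R').map (algebraMap R' S')) := by
  obtain ⟨a, ha⟩ := ha
  have fgS := (maximalIdeal S).fg_of_isNoetherianRing
  have hmm : (maximalIdeal R).map (algebraMap R S) ≤ maximalIdeal S :=
    IsLocalRing.map_maximalIdeal_le _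
  let R' := AdicCompletion (maximalIdeal (ModX.Gen R)) (ModX.Gen R)
  have := ModX.noeth_compl (ModX.Gen R)
  have lR1 : LenPres (algebraMap (ModX.Gen R) R') :=
    LP_compl (maximalIdeal (ModX.Gen R)).fg_of_isNoetherianRing
  have eR := IsScalarTower.algebraMap_eq R (ModX.Gen R) R'
  have lR : LenPres (algebraMap R R') := eR ▸ (LP_of_flat (ModX.gen_map R)).comp lR1
  have hpR : (p : R') ∈ maximalIdeal R' := by
    rw [← lR.1, ← map_natCast (algebraMap R R')]
    exact Ideal.mem_map_of_mem _ hp
  obtain ⟨C, _, _, _, _, cC, hC, lC, rC, ⟨e⟩⟩ := ModX.coef p R' hpR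
  have := ModX.gen_infinite R
  have iC : Infinite (ResidueField C) := Infinite.of_injective _
    (e.symm.injective.comp (AdicCompletion.residueField_map_bijective (ModX.Gen R)).1)
  have hpS : (p : ModX.Gen S) ∈ maximalIdeal (ModX.Gen S) := by
    rw [← ModX.gen_map, ← map_natCast (algebraMap S (ModX.Gen S)), ← map_natCast (algebraMap R S)]
    exact Ideal.mem_map_of_mem _ (hmm (Ideal.mem_map_of_mem _ hp))
  obtain ⟨V, _, _, _, S', _, _, _, _, _, cV, hV, aV, cS, lV, rV, _, hS⟩ :=
    exists_model1 p (ModX.Gen S) hpS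
  let : Algebra S S' := ((algebraMap (ModX.Gen S) S').comp (algebraMap S (ModX.Gen S))).toAlgebra
  have lS : LenPres (algebraMap S S') := (LP_of_flat (ModX.gen_map S)).comp (LP_of_flat hS)
  obtain ⟨g, hg⟩ := ModX.gen_hom R S (algebraMap R S)
  have hg' : ((algebraMap (ModX.Gen S) S').comp g).comp (algebraMap R (ModX.Gen R)) =
      (algebraMap S S').comp (algebraMap R S) := by
    rw [RingHom.comp_assoc, hg]
    rfl
  obtain ⟨ψ, hψ⟩ := exists_lift_compl (maximalIdeal (ModX.Gen R)) (maximalIdeal S')
    ((algebraMap (ModX.Gen S) S').comp g) (by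
      rw [← Ideal.map_le_iff_le_comap, ← ModX.gen_map, Ideal.map_map, hg', ← Ideal.map_map, ← lS.1]
      exact Ideal.map_mono hmm)
  let : Algebra R' S' := ψ.toAlgebra
  have hcomm : (algebraMap R' S').comp (algebraMap R R') =
      (algebraMap S S').comp (algebraMap R S) := by
    rw [← hg', eR]
    exact RingHom.ext fun r => hψ _
  have hpow : ∀ N, (maximalIdeal R' ^ N).map (algebraMap R' S') =
      ((maximalIdeal R ^ N).map (algebraMap R S)).map (algebraMap S S') := fun N => by
    rw [← lR.1, ← Ideal.map_pow, Ideal.map_map, hcomm]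
    exact (Ideal.map_map _ _).symm
  have hone := hpow 1
  rw [pow_one, pow_one] at hone
  have hloc : IsLocalHom (algebraMap R' S') := isLocalHom_of_map_le (by
    rw [hone, ← lS.1]
    exact Ideal.map_mono hmm)
  have hfin : Module.length S (S ⧸ (maximalIdeal R).map (algebraMap R S)) ≠ ⊤ := by
    obtain ⟨h, y, hy⟩ := Submodule.fg_iff_exists_fin_generating_family.mp fgS
    exact ne_top_of_le_ne_top (ENat.natCast_ne_top _)
      ((len_quot_anti ((Ideal.pow_le_pow_right a.le_succ).trans ha)).trans
        (length_quot_pow_leL y hy.symm a))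
  have hflat : Module.Flat R' S' := flat_of_lengths
    (Module.length S (S ⧸ (maximalIdeal R).map (algebraMap R S))).toNat fun N => by
      rw [hpow, lS.2 _ (a * N), len_flat, ENat.natCast_toNat hfin, ← lR.1, ← Ideal.map_pow,
        lR.2 _ N le_rfl]
      rw [pow_mul, Ideal.map_pow]
      exact Ideal.pow_right_mono ha N
  refine ⟨C, inferInstance, inferInstance, inferInstance, R', inferInstance, inferInstance,
    inferInstance, inferInstance, inferInstance, V, inferInstance, inferInstance, inferInstance,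
    S', inferInstance, inferInstance, inferInstance, inferInstance, inferInstance, inferInstance,
    ⟨cC, hC, iC, inferInstance, lC, rC, ModX.flat_of_LP lR, lR.1⟩,
    ⟨cV, hV, aV, cS, lV, rV, ModX.flat_of_LP lS, lS.1⟩, hflat, hloc, a, ?_⟩
  rw [hone, ← lS.1, ← Ideal.map_pow]
  exact Ideal.map_mono ha

end Vale.Agent.P202
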