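import Vale.Agent.P202M.Asym

/-! Multiplicities of modules. -/

open IsLocalRing Filter Function
open scoped ENNReal

namespace Vale.Agent.P202

variable {A : Type*} [CommRing A] {M M₁ M₂ M₃ : Type*} [AddCommGroup M] [Module A M]
  [AddCommGroup M₁] [Module A M₁] [AddCommGroup M₂] [Module A M₂] [AddCommGroup M₃] [Module A M₃]
  {d : ℕ}

theorem lm_self (I : Ideal A) : lm I A = ln A I := by
  exact (Submodule.quotEquivOfEq _ _ (by rw [smul_eq_mul, Ideal.mul_top])).length_eq

theorem MulX.lm_quot_sub (I : Ideal A) (N : Submodule A M) :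
    lm I (M ⧸ N) = Module.length A (M ⧸ (N ⊔ I • ⊤ : Submodule A M)) := by
  rw [← (Submodule.quotientQuotientEquivQuotientSup N (I • ⊤)).length_eq, Submodule.map_smul'',
    Submodule.map_top, Submodule.range_mkQ]

theorem lm_quot (I K : Ideal A) : lm I (A ⧸ K) = ln A (K ⊔ I) := by
  rw [MulX.lm_quot_sub, smul_eq_mul, Ideal.mul_top]
  rfl

theorem lm_anti {I J : Ideal A} (h : J ≤ I ⊔ Module.annihilator A M) : lm I M ≤ lm J M := by
  refine len_quot_anti ((Submodule.smul_mono_left h).trans ?_)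
  rw [Submodule.sup_smul]
  refine sup_le le_rfl (Submodule.smul_le.2 fun r hr m _ => ?_)
  rw [Module.mem_annihilator.1 hr m]
  exact zero_mem _

theorem lm_congr (I : Ideal A) (e : M₁ ≃ₗ[A] M₂) : lm I M₁ = lm I M₂ := by
  exact (Submodule.Quotient.equiv _ _ e (by
    rw [Submodule.map_smul'', Submodule.map_top, LinearEquiv.range])).length_eq

theorem MulX.smul_le_comap (I : Ideal A) (g : M₁ →ₗ[A] M₂) :
    (I • ⊤ : Submodule A M₁) ≤ (I • ⊤ : Submodule A M₂).comap g := by
  rw [← Submodule.map_le_iff_le_comap, Submodule.map_smul'']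
  exact Submodule.smul_mono le_rfl le_top

theorem MulX.exists_sub (I : Ideal A) {f : M₁ →ₗ[A] M₂} {g : M₂ →ₗ[A] M₃} (hg : Surjective g)
    (h : Exact f g) {y : M₂} (hy : g y ∈ (I • ⊤ : Submodule A M₃)) :
    ∃ x, f x - y ∈ (I • ⊤ : Submodule A M₂) := by
  rw [← LinearMap.range_eq_top.2 hg, ← Submodule.map_top, ← Submodule.map_smul''] at hy
  obtain ⟨z, hz, e⟩ := hy
  obtain ⟨x, hx⟩ := (h (y - z)).1 (by rw [map_sub, e, sub_self])
  exact ⟨x, by rw [hx, sub_sub_cancel_left]; exact neg_mem hz⟩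

theorem lm_le_of_surj (I : Ideal A) (g : M₁ →ₗ[A] M₂) (hg : Surjective g) :
    lm I M₂ ≤ lm I M₁ := by
  refine Module.length_le_of_surjective (Submodule.mapQ _ _ g (MulX.smul_le_comap I g)) fun y => ?_
  obtain ⟨y, rfl⟩ := Submodule.Quotient.mk_surjective _ y
  obtain ⟨x, rfl⟩ := hg y
  exact ⟨Submodule.Quotient.mk x, rfl⟩

theorem lm_le_of_exact (I : Ideal A) (f : M₁ →ₗ[A] M₂) (g : M₂ →ₗ[A] M₃) (hg : Surjective g)
    (h : Exact f g) : lm I M₂ ≤ lm I M₁ + lm I M₃ := by
  refine len_le_add (Submodule.mapQ _ _ f (MulX.smul_le_comap I f))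
    (Submodule.mapQ _ _ g (MulX.smul_le_comap I g)) fun y hy => ?_
  obtain ⟨y, rfl⟩ := Submodule.Quotient.mk_surjective _ y
  obtain ⟨x, hx⟩ := MulX.exists_sub I hg h ((Submodule.Quotient.mk_eq_zero _).1 hy)
  exact ⟨Submodule.Quotient.mk x, (Submodule.Quotient.eq _).2 hx⟩

theorem lm_quot_quot (I J : Ideal A) :
    lm I (M ⧸ (J • ⊤ : Submodule A M)) = lm (J ⊔ I) M := by
  rw [MulX.lm_quot_sub, ← Submodule.sup_smul]

theorem MulX.lm_gen {μ : ℕ} (x : Fin μ → M) (hx : Submodule.span A (Set.range x) = ⊤)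
    (K I : Ideal A) (hK : K ≤ Module.annihilator A M) : lm I M ≤ μ * ln A (K ⊔ I) := by
  have := len_quot_finset (I • ⊤ : Submodule A M) x (K ⊔ I) Finset.univ fun i _ a ha => by
    obtain ⟨k, hk, b, hb, rfl⟩ := Submodule.mem_sup.1 ha
    rw [add_smul, Module.mem_annihilator.1 (hK hk), zero_add]
    exact Submodule.smul_mem_smul hb trivial
  rwa [Finset.coe_univ, Set.image_univ, hx, sup_top_eq, Module.length_eq_zero (M := _ ⧸ ⊤),
    add_zero, Finset.card_univ, Fintype.card_fin] at this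

theorem lm_ne_top [IsLocalRing A] [IsNoetherianRing A] [Module.Finite A M] {I : Ideal A}
    (h : Prim (maximalIdeal A) (I ⊔ Module.annihilator A M)) : lm I M ≠ ⊤ := by
  obtain ⟨a, ha⟩ := h
  obtain ⟨μ, x, hx⟩ := Module.Finite.exists_fin (R := A) (M := M)
  obtain ⟨n, y, hy⟩ := Submodule.fg_iff_exists_fin_generating_family.1
    (IsNoetherian.noetherian (maximalIdeal A))
  have h1 := MulX.lm_gen x hx ⊥ (maximalIdeal A ^ (a + 1)) bot_le
  rw [bot_sup_eq] at h1
  refine ne_top_of_le_ne_top ?_ ((lm_anti ((Ideal.pow_le_pow_right a.le_succ).trans ha)).trans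
    (h1.trans (mul_le_mul_right (length_quot_pow_le y hy.symm a) _)))
  rw [← Nat.cast_mul]
  exact ENat.natCast_ne_top _

theorem lm_gen {μ : ℕ} (x : Fin μ → M) (hx : Submodule.span A (Set.range x) = ⊤) (K I : Ideal A)
    (hK : K ≤ Module.annihilator A M) : lm I M ≤ μ * ln A (K ⊔ I) := by
  exact MulX.lm_gen x hx K I hK

theorem MulX.lm_mono {I J : Ideal A} (h : J ≤ I) : lm I M ≤ lm J M := lm_anti (h.trans le_sup_left)

theorem MulX.lm_step (J J' : Ideal A) (v : A) (h : ∀ a ∈ J', v * a ∈ J) :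
    lm J M ≤ lm J' M + lm (J ⊔ Ideal.span {v}) M := by
  refine len_le_add (Submodule.mapQ _ _ (v • LinearMap.id) (Submodule.smul_le.2 fun a ha m _ => ?_))
    (Submodule.factor (Submodule.smul_mono_left le_sup_left)) fun y hy => ?_
  · rw [Submodule.mem_comap, LinearMap.smul_apply, LinearMap.id_apply, smul_smul]
    exact Submodule.smul_mem_smul (h a ha) trivial
  · obtain ⟨y, rfl⟩ := Submodule.Quotient.mk_surjective _ y
    have hy' := (Submodule.Quotient.mk_eq_zero _).1 hy
    rw [Submodule.sup_smul, Submodule.ideal_span_singleton_smul] at hy'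
    obtain ⟨u, hu, z, ⟨x, -, rfl⟩, rfl⟩ := Submodule.mem_sup.1 hy'
    exact ⟨Submodule.Quotient.mk x, (Submodule.Quotient.eq _).2 (by simpa using hu)⟩

theorem MulX.lm_top : lm (⊤ : Ideal A) M = 0 := by
  rw [lm, Submodule.top_smul]
  exact Module.length_eq_zero

theorem MulX.lm_pow (K : Ideal A) (y : A) (m : ℕ) :
    lm (K ⊔ Ideal.span {y ^ m}) M ≤ m * lm (K ⊔ Ideal.span {y}) M := by
  induction m with
  | zero => simp [MulX.lm_top]
  | succ m ih =>
    rw [Nat.cast_succ, add_mul, one_mul]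
    refine (MulX.lm_step _ (K ⊔ Ideal.span {y ^ m}) y fun a ha => ?_).trans
      (add_le_add ih (MulX.lm_mono (sup_le_sup_right le_sup_left _)))
    obtain ⟨k, hk, b, hb, rfl⟩ := Submodule.mem_sup.1 ha
    obtain ⟨c, rfl⟩ := Ideal.mem_span_singleton'.1 hb
    rw [mul_add]
    exact Submodule.add_mem_sup (K.mul_mem_left _ hk) (Ideal.mem_span_singleton'.2 ⟨c, by ring⟩)

theorem MulX.lm_brk {ι : Type*} (w : ι → A) (e : ι → ℕ) (s : Finset ι) (K : Ideal A) :
    lm (K ⊔ Ideal.span ((fun i => w i ^ e i) '' s)) M ≤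
      (∏ i ∈ s, e i : ℕ) * lm (K ⊔ Ideal.span (w '' s)) M := by
  classical
  induction s using Finset.induction_on generalizing K with
  | empty => simp
  | insert a s ha ih =>
    rw [Finset.coe_insert, Set.image_insert_eq, Set.image_insert_eq, Ideal.span_insert,
      Ideal.span_insert, ← sup_assoc, Finset.prod_insert ha, mul_comm (e a), Nat.cast_mul,
      mul_assoc, ← sup_assoc, sup_right_comm K (Ideal.span {w a})]
    refine (ih _).trans (mul_le_mul_right ?_ _)
    rw [sup_right_comm]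
    exact MulX.lm_pow _ _ _

theorem lm_bracket_le (w : Fin d → A) (e : Fin d → ℕ) :
    lm (Ideal.span (Set.range fun i => w i ^ e i)) M ≤
      (∏ i, e i : ℕ) * lm (Ideal.span (Set.range w)) M := by
  simpa using MulX.lm_brk (M := M) w e Finset.univ ⊥

theorem MulX.lm_restrict {B : Type*} [CommRing B] [Algebra A B] [Module B M] [IsScalarTower A B M]
    (I : Ideal A) : lm I M =
      Module.length A (M ⧸ (I.map (algebraMap A B) • ⊤ : Submodule B M)) := by
  rw [← (Submodule.Quotient.restrictScalarsEquiv A _).length_eq, Ideal.smul_restrictScalars,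
    Submodule.restrictScalars_top]

/-- Change of rings along a surjection. -/
theorem lm_surj {B : Type*} [CommRing B] [Algebra A B] (h : Surjective (algebraMap A B))
    [Module B M] [IsScalarTower A B M] (I : Ideal A) :
    lm I M = lm (I.map (algebraMap A B)) M := by
  rw [MulX.lm_restrict (B := B), Module.length_eq_of_surjective h]

/-- Change of rings along a local map with trivial residue field extension. -/
theorem lm_res {B : Type*} [CommRing B] [Algebra A B] [IsLocalRing A] [IsLocalRing B]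
    [IsLocalHom (algebraMap A B)] (h : ∀ b : B, ∃ a : A, b - algebraMap A B a ∈ maximalIdeal B)
    [Module B M] [IsScalarTower A B M] (I : Ideal A) :
    lm I M = lm (I.map (algebraMap A B)) M := by
  rw [MulX.lm_restrict (B := B), len_eq_of_res (B := B) fun b => ?_]
  obtain ⟨a, ha⟩ := h b
  exact ⟨a, (Ideal.Quotient.eq.2 ha).symm⟩

theorem eU_congr (I : Ideal A) (e : M₁ ≃ₗ[A] M₂) : eU I M₁ d = eU I M₂ d := by
  simp only [eU, lm_congr _ e]

theorem eL_congr (I : Ideal A) (e : M₁ ≃ₗ[A] M₂) : eL I M₁ d = eL I M₂ d := by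
  simp only [eL, lm_congr _ e]

theorem eL_le_eU (I : Ideal A) : eL I M d ≤ eU I M d := by
  exact lw_le_um

theorem eU_subsingleton [Subsingleton M] (I : Ideal A) : eU I M d = 0 := by
  simp only [eU, lm, Module.length_eq_zero]
  exact um_zero

theorem eU_le_of_surj (I : Ideal A) (g : M₁ →ₗ[A] M₂) (hg : Surjective g) :
    eU I M₂ d ≤ eU I M₁ d := by
  exact um_mono (Eventually.of_forall fun j => lm_le_of_surj _ g hg)

theorem eU_le_of_exact (I : Ideal A) (f : M₁ →ₗ[A] M₂) (g : M₂ →ₗ[A] M₃) (hg : Surjective g)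
    (h : Exact f g) : eU I M₂ d ≤ eU I M₁ d + eU I M₃ d := by
  exact (um_mono (Eventually.of_forall fun j => lm_le_of_exact _ f g hg h)).trans um_add_le

/-- Artin-Rees. -/
theorem eL_add_le [IsNoetherianRing A] [Module.Finite A M₂] (I : Ideal A) (f : M₁ →ₗ[A] M₂)
    (g : M₂ →ₗ[A] M₃) (hf : Injective f) (hg : Surjective g) (h : Exact f g) :
    eL I M₁ d + eL I M₃ d ≤ eL I M₂ d := by
  obtain ⟨c, hc⟩ := Ideal.exists_pow_inf_eq_pow_smul I (LinearMap.range f)
  refine lw_add_le.trans ((lw_mono (Eventually.of_forall fun j => ?_)).trans (lw_shift c))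
  have h1 : ((I ^ (j + c) • ⊤ : Submodule A M₂)).comap f ≤ I ^ j • ⊤ := by
    intro x hx
    have h2 : f x ∈ I ^ (j + c) • ⊤ ⊓ LinearMap.range f := ⟨hx, x, rfl⟩
    rw [hc _ (Nat.le_add_left _ _), Nat.add_sub_cancel] at h2
    have h3 := Submodule.smul_mono le_rfl inf_le_right h2
    rw [← Submodule.map_top, ← Submodule.map_smul''] at h3
    obtain ⟨y, hy, e⟩ := h3
    exact hf e ▸ hy
  rw [lm, lm, lm, Module.length_eq_add_of_exact
    (Submodule.mapQ ((I ^ (j + c) • ⊤ : Submodule A M₂).comap f) _ f le_rfl)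
    (Submodule.mapQ _ _ g (MulX.smul_le_comap (I ^ (j + c)) g)) ?_ ?_ ?_]
  · exact add_le_add (len_quot_anti h1) (MulX.lm_mono (Ideal.pow_le_pow_right (Nat.le_add_right _ _)))
  · rw [injective_iff_map_eq_zero]
    intro x hx
    obtain ⟨x, rfl⟩ := Submodule.Quotient.mk_surjective _ x
    rw [Submodule.mapQ_apply, Submodule.Quotient.mk_eq_zero] at hx
    exact (Submodule.Quotient.mk_eq_zero _).2 hx
  · intro y
    obtain ⟨y, rfl⟩ := Submodule.Quotient.mk_surjective _ y
    obtain ⟨x, rfl⟩ := hg y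
    exact ⟨Submodule.Quotient.mk x, rfl⟩
  · intro y
    obtain ⟨y, rfl⟩ := Submodule.Quotient.mk_surjective _ y
    constructor
    · intro hy
      obtain ⟨x, hx⟩ := MulX.exists_sub _ hg h ((Submodule.Quotient.mk_eq_zero _).1 hy)
      exact ⟨Submodule.Quotient.mk x, (Submodule.Quotient.eq _).2 hx⟩
    · rintro ⟨x, hx⟩
      obtain ⟨x, rfl⟩ := Submodule.Quotient.mk_surjective _ x
      rw [← hx, Submodule.mapQ_apply, Submodule.mapQ_apply, h.apply_apply_eq_zero,
        Submodule.Quotient.mk_zero]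

theorem eU_scale {I J : Ideal A} {n : ℕ} (hn : 0 < n) (c : ℕ)
    (h : ∀ j, J ^ (n * j + c) ≤ I ^ j ⊔ Module.annihilator A M) :
    eU I M d ≤ (n : ℝ≥0∞) ^ d * eU J M d := by
  exact (um_mono (Eventually.of_forall fun j => lm_anti (h j))).trans
    (um_comp (f := fun j => lm (J ^ j) M) hn c)

theorem eU_le_of_pow {I J : Ideal A} (c : ℕ)
    (h : ∀ j, J ^ (j + c) ≤ I ^ j ⊔ Module.annihilator A M) : eU I M d ≤ eU J M d := by
  simpa using eU_scale (d := d) one_pos c (by simpa using h)

theorem eL_le_of_pow {I J : Ideal A} (c : ℕ)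
    (h : ∀ j, J ^ (j + c) ≤ I ^ j ⊔ Module.annihilator A M) : eL I M d ≤ eL J M d := by
  exact (lw_mono (Eventually.of_forall fun j => lm_anti (h j))).trans
    (lw_shift (f := fun j => lm (J ^ j) M) c)

theorem MulX.lm_sum (K J : Ideal A) (v : A) (j : ℕ) :
    lm (K ⊔ (Ideal.span {v} ⊔ J) ^ j) M ≤
      ∑ k ∈ Finset.range (j + 1), lm (K ⊔ Ideal.span {v} ⊔ J ^ k) M := by
  induction j with
  | zero => simp [MulX.lm_top]
  | succ j ih =>
    rw [Finset.sum_range_succ]
    refine (MulX.lm_step _ (K ⊔ (Ideal.span {v} ⊔ J) ^ j) v fun a ha => ?_).trans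
      (add_le_add ih (MulX.lm_mono ?_))
    · obtain ⟨k, hk, b, hb, rfl⟩ := Submodule.mem_sup.1 ha
      rw [mul_add, pow_succ']
      exact Submodule.add_mem_sup (K.mul_mem_left _ hk)
        (Ideal.mul_mem_mul (Ideal.mem_sup_left (Ideal.mem_span_singleton_self v)) hb)
    · rw [sup_right_comm]
      exact sup_le_sup_right (sup_le_sup_left (Ideal.pow_right_mono le_sup_right _) _) _

theorem MulX.um_lifts {ι : Type*} (v : ι → A) (I : Ideal A) (s : Finset ι) (K : Ideal A)
    (hfin : ∀ j, lm (K ⊔ Ideal.span (v '' s) ⊔ I ^ j) M ≠ ⊤) :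
    um (fun j => lm (K ⊔ (Ideal.span (v '' s) ⊔ I) ^ j) M) (s.card + d) ≤
      um (fun j => lm (K ⊔ Ideal.span (v '' s) ⊔ I ^ j) M) d := by
  classical
  induction s using Finset.induction_on generalizing K with
  | empty => simp
  | insert a s ha ih =>
    simp only [Finset.coe_insert, Set.image_insert_eq, Ideal.span_insert, ← sup_assoc K] at hfin ⊢
    rw [Finset.card_insert_of_notMem ha, add_right_comm]
    simp only [sup_assoc (Ideal.span {v a})]
    refine ((um_mono (Eventually.of_forall fun j => MulX.lm_sum K _ (v a) j)).trans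
      (um_sum fun k => ?_)).trans (ih _ hfin)
    have h1 := MulX.lm_brk (M := M) v (fun _ => k) s (K ⊔ Ideal.span {v a} ⊔ I ^ k)
    rw [sup_right_comm _ (I ^ k) (Ideal.span (v '' s))] at h1
    refine ne_top_of_le_ne_top (WithTop.mul_ne_top (ENat.natCast_ne_top _) (hfin k))
      ((MulX.lm_mono ?_).trans h1)
    rw [sup_assoc]
    refine sup_le_sup_left (sup_le (Ideal.pow_right_mono le_sup_right _) (Ideal.span_le.2 ?_)) _
    rintro _ ⟨i, hi, rfl⟩
    exact Ideal.pow_mem_pow (Ideal.mem_sup_left (Ideal.subset_span (Set.mem_image_of_mem v hi))) _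

theorem eU_lifts {s : ℕ} (v : Fin s → A) (I : Ideal A)
    (hfin : ∀ j, lm (Ideal.span (Set.range v) ⊔ I ^ j) M ≠ ⊤) :
    eU (Ideal.span (Set.range v) ⊔ I) M (s + d) ≤
      eU I (M ⧸ (Ideal.span (Set.range v) • ⊤ : Submodule A M)) d := by
  simpa [eU, lm_quot_quot] using MulX.um_lifts (M := M) (d := d) v I Finset.univ ⊥ (by simpa using hfin)

theorem eU_sop (w : Fin d → A) :
    eU (Ideal.span (Set.range w)) M d ≤ lm (Ideal.span (Set.range w)) M := by
  by_cases h : lm (Ideal.span (Set.range w)) M = ⊤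
  · rw [h]
    exact le_top
  have h1 := eU_lifts (M := M) (d := 0) w ⊥ fun j => ne_top_of_le_ne_top h (MulX.lm_mono le_sup_left)
  rw [sup_bot_eq, add_zero] at h1
  refine h1.trans ((um_mono (Eventually.of_forall fun j => ?_)).trans (um_choose _))
  rw [lm_quot_quot, Nat.choose_zero_right, Nat.cast_one, one_mul]
  exact MulX.lm_mono le_sup_left

theorem eU_gen {μ : ℕ} (x : Fin μ → M) (hx : Submodule.span A (Set.range x) = ⊤) (K I : Ideal A)
    (hK : K ≤ Module.annihilator A M) : eU I M d ≤ μ * eU I (A ⧸ K) d := by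
  refine (um_mono (Eventually.of_forall fun j => ?_)).trans (um_const_mul μ)
  rw [lm_quot]
  exact lm_gen x hx K _ hK

theorem eU_surj {B : Type*} [CommRing B] [Algebra A B] (h : Surjective (algebraMap A B))
    [Module B M] [IsScalarTower A B M] (I : Ideal A) :
    eU I M d = eU (I.map (algebraMap A B)) M d ∧ eL I M d = eL (I.map (algebraMap A B)) M d := by
  simp only [eU, eL, lm_surj h, Ideal.map_pow, and_self]

theorem eU_res {B : Type*} [CommRing B] [Algebra A B] [IsLocalRing A] [IsLocalRing B]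
    [IsLocalHom (algebraMap A B)] (h : ∀ b : B, ∃ a : A, b - algebraMap A B a ∈ maximalIdeal B)
    [Module B M] [IsScalarTower A B M] (I : Ideal A) :
    eU I M d = eU (I.map (algebraMap A B)) M d ∧ eL I M d = eL (I.map (algebraMap A B)) M d := by
  simp only [eU, eL, lm_res h, Ideal.map_pow, and_self]

/-- Local rings with the same Hilbert-Samuel function. -/
theorem eU_eq_of_flat {B : Type*} [CommRing B] [Algebra A B] [IsLocalRing A] [IsLocalRing B]
    [Module.Flat A B] (h : (maximalIdeal A).map (algebraMap A B) = maximalIdeal B) :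
    eU (maximalIdeal A) A d = eU (maximalIdeal B) B d ∧
      eL (maximalIdeal A) A d = eL (maximalIdeal B) B d := by
  have e : ∀ j, lm (maximalIdeal A ^ j) A = lm (maximalIdeal B ^ j) B := fun j => by
    rw [lm_self, lm_self, ln, ln, ← (LP_of_flat h).2 _ j le_rfl, Ideal.map_pow, h]
  simp only [eU, eL, e, and_self]

/-- Subadditivity along a composition series. -/
theorem IsLam.le_len [IsLocalRing A] [IsNoetherianRing A] {lam : Ideal A → ℝ≥0∞} (h : IsLam lam)
    {I : Ideal A} (hI : Prim (maximalIdeal A) I) :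
    lam I ≤ (ln A I : ℝ≥0∞) * lam (maximalIdeal A) := by
  induction I using IsNoetherian.induction with
  | hgt I ih =>
    by_cases hT : I = ⊤
    · rw [hT, h.top]
      exact zero_le
    obtain ⟨w, hp, hw⟩ := exists_colon_prime hT
    obtain ⟨a, ha⟩ := hI
    have e : I.colon {w} = maximalIdeal A :=
      ((maximalIdeal.isMaximal A).eq_of_le hp.ne_top (Ideal.IsPrime.le_of_pow_le
        (ha.trans fun x hx => Submodule.mem_colon_singleton.2 (Ideal.mul_mem_right _ _ hx)))).symm
    refine (h.sub I w).trans ?_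
    rw [len_colon A I w, e, ln, len_residue_one, ENat.toENNReal_add, ENat.toENNReal_one, add_mul,
      one_mul]
    exact add_le_add le_rfl (ih _ hw ⟨a, ha.trans le_sup_left⟩)

end Vale.Agent.P202
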