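import Vale.Agent.P202M.PSV

/-! Normality and flatness for power series rings. -/

open IsLocalRing Filter Function MvPowerSeries

namespace Vale.Agent.P202

namespace NrmX

lemma dvd_of_almost {A : Type*} [CommRing A] [IsDomain A] [IsNoetherianRing A]
    [IsIntegrallyClosed A] {a b c : A} (hb : b ≠ 0) (hc : c ≠ 0)
    (h : ∀ n, b ^ n ∣ c * a ^ n) : b ∣ a := by
  have hb' : algebraMap A (FractionRing A) b ≠ 0 := by simpa using hb
  have h1 : IsAlmostIntegral A (algebraMap A (FractionRing A) a / algebraMap A _ b) := by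
    refine ⟨c, mem_nonZeroDivisors_of_ne_zero hc, fun n => ?_⟩
    obtain ⟨u, hu⟩ := h n
    refine ⟨u, ?_⟩
    rw [Algebra.smul_def, div_pow, ← mul_div_assoc, ← map_pow, ← map_pow, ← map_mul, hu, map_mul,
      mul_div_cancel_left₀ _ (by rw [map_pow]; exact pow_ne_zero _ hb')]
  obtain ⟨y, hy⟩ := IsIntegrallyClosed.algebraMap_eq_of_integral h1.isIntegral
  rw [eq_div_iff hb', ← map_mul] at hy
  exact Dvd.intro_left y (IsFractionRing.injective A _ hy)

lemma normal_of_dvd {R : Type*} [CommRing R] [IsDomain R]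
    (H : ∀ a b c : R, b ≠ 0 → c ≠ 0 → (∀ n, b ^ n ∣ c * a ^ n) → b ∣ a) :
    IsIntegrallyClosed R := by
  refine (isIntegrallyClosed_iff (FractionRing R)).2 fun {x} hx => ?_
  obtain ⟨c, hc, h⟩ := hx.isAlmostIntegral
  obtain ⟨a, b, hb, rfl⟩ := IsFractionRing.div_surjective (A := R) x
  have hb0 := nonZeroDivisors.ne_zero hb
  have hb' : algebraMap R (FractionRing R) b ≠ 0 := by simpa using hb0
  obtain ⟨y, rfl⟩ := H a b c hb0 (nonZeroDivisors.ne_zero hc) fun n => by
    obtain ⟨u, hu⟩ := h n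
    rw [Algebra.smul_def, div_pow, ← mul_div_assoc, eq_div_iff (pow_ne_zero _ hb'), ← map_pow,
      ← map_pow, ← map_mul, ← map_mul] at hu
    exact Dvd.intro_left u (IsFractionRing.injective R _ hu)
  exact ⟨y, by rw [map_mul, mul_div_cancel_left₀ _ hb']⟩

section ps
variable {A : Type*} [CommRing A] [IsDomain A]

lemma eq_zero_of_X_pow {f : PowerSeries A} (h : ∀ n, PowerSeries.X ^ n ∣ f) : f = 0 :=
  PowerSeries.ext fun k => PowerSeries.X_pow_dvd_iff.1 (h (k + 1)) k (Nat.lt_succ_self k)

lemma cancel_X {g u : PowerSeries A} (hg : ¬ PowerSeries.X ∣ g) (e : ℕ)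
    (h : g ∣ PowerSeries.X ^ e * u) : g ∣ u := by
  obtain ⟨v, hv⟩ := h
  obtain ⟨w, rfl⟩ := PowerSeries.X_prime.pow_dvd_of_dvd_mul_left e hg (Dvd.intro u hv)
  refine ⟨w, mul_left_cancel₀ (pow_ne_zero e PowerSeries.X_ne_zero) ?_⟩
  rw [hv]
  ring

variable [IsNoetherianRing A] [IsIntegrallyClosed A]

lemma dvd_unit_case {g c f : PowerSeries A} (hg : ¬ PowerSeries.X ∣ g)
    (hc : ¬ PowerSeries.X ∣ c) (hf : ∀ n, g ^ n ∣ c * f ^ n) : g ∣ f := by
  have hg' : ∀ n, ¬ PowerSeries.X ∣ g ^ n := fun n h => hg (PowerSeries.X_prime.dvd_of_dvd_pow h)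
  have step : ∀ f : {f : PowerSeries A // ∀ n, g ^ n ∣ c * f ^ n},
      ∃ (a : A) (f' : {f : PowerSeries A // ∀ n, g ^ n ∣ c * f ^ n}),
        f.1 = PowerSeries.C a * g + PowerSeries.X * f'.1 := by
    rintro ⟨f, hf⟩
    obtain ⟨a, ha⟩ := dvd_of_almost (a := PowerSeries.constantCoeff f)
      (mt PowerSeries.X_dvd_iff.2 hg) (mt PowerSeries.X_dvd_iff.2 hc) fun n => by
        simpa using map_dvd PowerSeries.constantCoeff (hf n)
    obtain ⟨f', hf'⟩ : PowerSeries.X ∣ f + -(PowerSeries.C a * g) := by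
      rw [PowerSeries.X_dvd_iff]
      simp [ha, mul_comm]
    refine ⟨a, ⟨f', fun n => cancel_X (hg' n) n ?_⟩, by rw [← hf']; ring⟩
    rw [mul_left_comm, ← mul_pow, ← hf', add_pow, Finset.mul_sum]
    refine Finset.dvd_sum fun k hk => ?_
    obtain ⟨u, hu⟩ := hf k
    have hk' : k ≤ n := Nat.lt_succ_iff.1 (Finset.mem_range.1 hk)
    refine ⟨u * (-PowerSeries.C a) ^ (n - k) * n.choose k, ?_⟩
    rw [← mul_assoc, ← mul_assoc, hu, ← neg_mul, mul_pow]
    conv_rhs => rw [← Nat.add_sub_cancel' hk', pow_add, Nat.add_sub_cancel' hk']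
    ring
  choose a nx hnx using step
  let H : {f : PowerSeries A // ∀ n, g ^ n ∣ c * f ^ n} → PowerSeries A := fun f =>
    PowerSeries.mk fun k => a (nx^[k] f)
  have hH : ∀ f, H f = PowerSeries.C (a f) + PowerSeries.X * H (nx f) := by
    intro f
    ext k
    cases k with
    | zero => simp [H]
    | succ k => simp [H, PowerSeries.coeff_succ_X_mul, PowerSeries.coeff_C]
  have key : ∀ k f, PowerSeries.X ^ k ∣ f.1 - g * H f := by
    intro k
    induction k with
    | zero => simp
    | succ k ih =>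
      intro f
      have : f.1 - g * H f = PowerSeries.X * ((nx f).1 - g * H (nx f)) := by
        rw [hH f, hnx f]
        ring
      rw [this, pow_succ']
      exact mul_dvd_mul_left _ (ih _)
  exact ⟨H ⟨f, hf⟩, sub_eq_zero.1 (eq_zero_of_X_pow fun k => key k ⟨f, hf⟩)⟩

lemma normal_powerSeries : IsIntegrallyClosed (PowerSeries A) := by
  refine normal_of_dvd fun f g c hg hc h => ?_
  obtain ⟨s, g, hg', rfl⟩ := WfDvdMonoid.max_power_factor hg PowerSeries.X_prime.irreducible
  clear hg
  induction s generalizing f with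
  | zero =>
    obtain ⟨e, c, hc', rfl⟩ := WfDvdMonoid.max_power_factor hc PowerSeries.X_prime.irreducible
    rw [pow_zero, one_mul] at h ⊢
    refine dvd_unit_case hg' hc' fun n => cancel_X
      (fun h => hg' (PowerSeries.X_prime.dvd_of_dvd_pow h)) e ?_
    rw [← mul_assoc]
    exact h n
  | succ s ih =>
    obtain ⟨f, rfl⟩ : PowerSeries.X ∣ f := by
      by_contra hf
      refine hc (eq_zero_of_X_pow fun n => PowerSeries.X_prime.pow_dvd_of_dvd_mul_right n
        (fun h => hf (PowerSeries.X_prime.dvd_of_dvd_pow h)) (dvd_trans ?_ (h n)))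
      exact pow_dvd_pow_of_dvd (Dvd.dvd.mul_right (dvd_pow_self _ (Nat.succ_ne_zero s)) _) n
    rw [pow_succ', mul_assoc]
    refine mul_dvd_mul_left _ (ih f fun n => ?_)
    have := h n
    rwa [pow_succ', mul_assoc, mul_pow, mul_pow _ f, mul_left_comm c,
      mul_dvd_mul_iff_left (pow_ne_zero n PowerSeries.X_ne_zero)] at this

end ps

attribute [local instance] MvPolynomial.algebraMvPolynomial in
lemma flat_mapPoly {C A : Type*} [CommRing C] [CommRing A] (σ : C →+* A) (hσ : σ.Flat) (n : ℕ) :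
    (MvPolynomial.map (σ := Fin n) σ).Flat := by
  let := σ.toAlgebra
  have : Module.Flat C A := hσ
  exact Module.Flat.isBaseChange C (MvPolynomial (Fin n) C) A (MvPolynomial (Fin n) A)
    (Algebra.IsPushout.out (R := C))

lemma desc {A : Type*} [CommRing A] {n N : ℕ} (J : Ideal (MvPolynomial (Fin n) A))
    (hJ : Ideal.span (Set.range MvPolynomial.X) ^ N ≤ J) (g : MvPolynomial (Fin n) A)
    (h : (g : PS n A) ∈ J.map MvPolynomial.coeToMvPowerSeries.ringHom ⊔ xI n A ^ N) : g ∈ J := by
  let θ := (Ideal.Quotient.mk (xI n A ^ N)).comp MvPolynomial.coeToMvPowerSeries.ringHom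
  have hθ : Surjective θ := by
    intro y
    obtain ⟨f, rfl⟩ := Ideal.Quotient.mk_surjective y
    obtain ⟨p, hp⟩ := exists_trunc f N
    exact ⟨p, (Ideal.Quotient.eq.2 hp).symm⟩
  have h1 : θ g ∈ J.map θ := by
    rw [← Ideal.map_map]
    exact Ideal.mem_quotient_iff_mem_sup.2 h
  obtain ⟨j, hj, e⟩ := (Ideal.mem_map_iff_of_surjective θ hθ).1 h1
  have h2 := poly_mem_pow (⊥ : Ideal A) N (j - g) (by
    rw [Ideal.map_bot, bot_sup_eq]
    have := Ideal.Quotient.eq.1 e
    rwa [← map_sub] at this)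
  rw [Ideal.map_bot, bot_sup_eq] at h2
  have := J.sub_mem hj (hJ h2)
  rwa [sub_sub_cancel] at this

end NrmX

theorem normal_PS {V : Type*} [CommRing V] [IsDomain V] [IsNoetherianRing V]
    [IsIntegrallyClosed V] (n : ℕ) : IsIntegrallyClosed (PS n V) := by
  induction n with
  | zero => exact IsIntegrallyClosed.of_equiv (isEmptyEquiv (Fin 0) V).toRingEquiv.symm
  | succ n ih =>
    have := NrmX.normal_powerSeries (A := PS n V)
    exact IsIntegrallyClosed.of_equiv (MvPowerSeries.finSuccEquiv V n).toRingEquiv.symm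

theorem flat_mapPS {C A : Type*} [CommRing C] [IsLocalRing C] [IsNoetherianRing C] [CommRing A]
    [IsLocalRing A] [IsNoetherianRing A] (σ : C →+* A) [IsLocalHom σ] (hσ : σ.Flat) (n : ℕ) :
    (MvPowerSeries.map (σ := Fin n) σ).Flat := by
  let := (MvPowerSeries.map (σ := Fin n) σ).toAlgebra
  let := (MvPolynomial.map (σ := Fin n) σ).toAlgebra
  have : Module.Flat (MvPolynomial (Fin n) C) (MvPolynomial (Fin n) A) := NrmX.flat_mapPoly σ hσ n
  have : IsLocalHom (algebraMap (PS n C) (PS n A)) := map.isLocalHom σ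
  have hcomm : (algebraMap (PS n C) (PS n A)).comp MvPolynomial.coeToMvPowerSeries.ringHom =
      MvPolynomial.coeToMvPowerSeries.ringHom.comp
        (algebraMap (MvPolynomial (Fin n) C) (MvPolynomial (Fin n) A)) := by
    apply MvPolynomial.ringHom_ext
    · intro c; simp [RingHom.algebraMap_toAlgebra]
    · intro j; simp [RingHom.algebraMap_toAlgebra]
  have hx : (xI n C).map (algebraMap (PS n C) (PS n A)) = xI n A := by
    rw [Ideal.map_span, ← Set.range_comp]
    simp [RingHom.algebraMap_toAlgebra, Function.comp_def]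
  have hx' : (Ideal.span (Set.range MvPolynomial.X)).map
      (algebraMap (MvPolynomial (Fin n) C) (MvPolynomial (Fin n) A)) =
      Ideal.span (Set.range MvPolynomial.X) := by
    rw [Ideal.map_span, ← Set.range_comp]
    simp [RingHom.algebraMap_toAlgebra, Function.comp_def]
  have hx'' : (Ideal.span (Set.range MvPolynomial.X)).map
      (MvPolynomial.coeToMvPowerSeries.ringHom (σ := Fin n) (R := C)) = xI n C := by
    rw [Ideal.map_span, ← Set.range_comp]
    simp [Function.comp_def]
  refine flat_of_colon fun I N w c hI h => ?_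
  have hI' : xI n C ^ N ≤ I :=
    (Ideal.pow_right_mono (by rw [max_PSV]; exact le_sup_right) N).trans hI
  obtain ⟨w₀, hw⟩ := exists_trunc w N
  obtain ⟨c₀, hc⟩ := exists_trunc c N
  set I₀ := I.comap (MvPolynomial.coeToMvPowerSeries.ringHom (σ := Fin n) (R := C)) with hI₀
  have h1 : I ≤ I₀.map MvPolynomial.coeToMvPowerSeries.ringHom ⊔ xI n C ^ N := by
    intro a ha
    obtain ⟨a₀, ha₀⟩ := exists_trunc a N
    have : a₀ ∈ I₀ := by
      have := I.sub_mem ha (hI' ha₀)
      rwa [sub_sub_cancel] at this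
    rw [← add_sub_cancel (a₀ : PS n C) a]
    exact Submodule.add_mem_sup (Ideal.mem_map_of_mem _ this) ha₀
  have h2 : I.map (algebraMap (PS n C) (PS n A)) ≤
      (I₀.map (algebraMap _ (MvPolynomial (Fin n) A))).map
        MvPolynomial.coeToMvPowerSeries.ringHom ⊔ xI n A ^ N := by
    refine (Ideal.map_mono h1).trans ?_
    rw [Ideal.map_sup, Ideal.map_pow, hx, Ideal.map_map, hcomm, Ideal.map_map]
  have hw' : algebraMap (PS n C) (PS n A) w - algebraMap _ _ (w₀ : PS n C) ∈ xI n A ^ N := by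
    rw [← map_sub, ← hx, ← Ideal.map_pow]
    exact Ideal.mem_map_of_mem _ hw
  have h3 := colon_of_flat I₀ w₀ c₀ (NrmX.desc (N := N) _ (by
    rw [← hx', ← Ideal.map_pow]
    refine Ideal.map_mono (Ideal.map_le_iff_le_comap.1 ?_)
    rw [Ideal.map_pow, hx'']
    exact hI') _ (by
    have e : ((algebraMap _ (MvPolynomial (Fin n) A) w₀ * c₀ : MvPolynomial (Fin n) A) : PS n A) =
        algebraMap (PS n C) (PS n A) w * c - (algebraMap (PS n C) (PS n A) w * (c - c₀) +
          (algebraMap (PS n C) (PS n A) w - algebraMap _ _ (w₀ : PS n C)) * c₀) := by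
      have := DFunLike.congr_fun hcomm w₀
      simp only [RingHom.comp_apply, MvPolynomial.coeToMvPowerSeries.ringHom_apply] at this
      rw [MvPolynomial.coe_mul, ← this]
      ring
    rw [e]
    exact sub_mem (h2 h) (Ideal.mem_sup_right
      (add_mem (Ideal.mul_mem_left _ _ hc) (Ideal.mul_mem_right _ _ hw')))))
  rw [← add_sub_cancel (c₀ : PS n A) c]
  refine add_mem ?_ ?_
  · have h4 := Ideal.mem_map_of_mem MvPolynomial.coeToMvPowerSeries.ringHom h3
    rw [Ideal.map_map, ← hcomm, ← Ideal.map_map] at h4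
    refine Ideal.map_mono (Ideal.map_le_iff_le_comap.2 fun a ha => ?_) h4
    rw [Ideal.mem_comap, Submodule.mem_colon_singleton, smul_eq_mul, ← add_sub_cancel (w₀ : PS n C) w,
      mul_add]
    refine add_mem ?_ (I.mul_mem_left _ (hI' hw))
    have h5 : a * w₀ ∈ I₀ := Submodule.mem_colon_singleton.1 ha
    simpa [hI₀] using h5
  · rw [← hx, ← Ideal.map_pow] at hc
    refine Ideal.map_mono (hI'.trans fun a ha => ?_) hc
    exact Submodule.mem_colon_singleton.2 (I.mul_mem_right _ ha)

theorem exists_flat_PSV {C V : Type*} [CommRing C] [IsDomain C] [IsDiscreteValuationRing C]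
    [CommRing V] [IsDomain V] [IsDiscreteValuationRing V] (s d : ℕ) (σ : C →+* PS s V)
    [IsLocalHom σ] (hσ : Injective σ) :
    ∃ ι : PS d C →+* PS (s + d) V, ι.Flat ∧ Injective ι ∧
      (∀ j, ι (X j) = X (Fin.natAdd s j)) ∧
      ∀ c, ι (MvPowerSeries.C c) = rename (Fin.castAdd d) (σ c) := by
  classical
  let e : (Fin (s + d) →₀ ℕ) ≃+ (Fin s →₀ ℕ) × (Fin d →₀ ℕ) :=
    (Finsupp.domCongr finSumFinEquiv.symm).trans Finsupp.sumFinsuppAddEquivProdFinsupp
  have e1 : ∀ m i, (e m).1 i = m (Fin.castAdd d i) := fun m i => by simp [e]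
  have e2 : ∀ m j, (e m).2 j = m (Fin.natAdd s j) := fun m i => by simp [e]
  have hfl : σ.Flat := by
    let := σ.toAlgebra
    have : FaithfulSMul C (PS s V) := (faithfulSMul_iff_algebraMap_injective _ _).2 hσ
    exact (inferInstance : Module.Flat C (PS s V))
  refine ⟨(JFlat.sumEquiv V e).toRingHom.comp (MvPowerSeries.map σ),
    (flat_mapPS σ hfl d).comp (.of_bijective (JFlat.sumEquiv V e).bijective),
    (JFlat.sumEquiv V e).injective.comp fun f g h => ?_, fun j => ?_, fun c => ?_⟩
  · refine MvPowerSeries.ext fun m => hσ ?_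
    rw [← coeff_map, ← coeff_map, h]
  · ext m
    have h : e (Finsupp.single (Fin.natAdd s j) 1) = (0, Finsupp.single j 1) := by
      ext i
      · rw [e1, Finsupp.single_eq_of_ne]
        · rfl
        · intro h; have := congrArg Fin.val h; simp at this; omega
      · rw [e2]; simp [Finsupp.single_apply]
    simp only [RingHom.comp_apply, map_X, RingEquiv.toRingHom_eq_coe, RingHom.coe_coe,
      JFlat.coeff_sumEquiv, coeff_X, ← e.injective.eq_iff (a := m), h, Prod.ext_iff]
    by_cases h2 : (e m).2 = Finsupp.single j 1 <;> simp [h2, coeff_one]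
  · ext m
    simp only [RingHom.comp_apply, map_C, RingEquiv.toRingHom_eq_coe, RingHom.coe_coe,
      JFlat.coeff_sumEquiv, coeff_C]
    split_ifs with h2
    · have : m = Finsupp.embDomain (Fin.castAddEmb d) (e m).1 := by
        ext i
        refine Fin.addCases (fun i => ?_) (fun j => ?_) i
        · rw [← e1]
          exact (Finsupp.embDomain_apply_self (Fin.castAddEmb d) _ i).symm
        · rw [← e2, h2, Finsupp.embDomain_of_notMem_range]
          · rfl
          · rintro ⟨i, h⟩; have := congrArg Fin.val h; simp at this; omega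
      conv_rhs => rw [this]
      exact (coeff_embDomain_rename (Fin.castAddEmb d) _ _).symm
    · rw [coeff_rename_eq_zero, map_zero]
      rintro ⟨p, rfl⟩
      apply h2
      ext j
      rw [e2, Finsupp.mapDomain_of_notMem_range]
      · rfl
      · rintro ⟨i, h⟩; have := congrArg Fin.val h; simp at this; omega

end Vale.Agent.P202
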