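import Vale.Agent.P202M.Dim

/-! Minimal reductions. -/

open IsLocalRing Filter Function
open scoped ENNReal

namespace Vale.Agent.P202

variable {A : Type*} [CommRing A] [IsLocalRing A] [IsNoetherianRing A] {n : ℕ}

namespace RedX

omit [IsLocalRing A] [IsNoetherianRing A] in
lemma ln_anti' {I J : Ideal A} (h : I ≤ J) : ln A J ≤ ln A I := by
  unfold ln
  rw [Module.length_quotient, Module.length_quotient]
  exact Order.coheight_anti h

omit [IsLocalRing A] [IsNoetherianRing A] in
lemma ln_lt {I J : Ideal A} (h : I < J) : ln A J + 1 ≤ ln A I := by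
  unfold ln
  rw [Module.length_quotient, Module.length_quotient]
  exact Order.coheight_add_one_le h

omit [IsLocalRing A] [IsNoetherianRing A] in
lemma ln_chain {α : Type*} [DecidableEq α] (J : Ideal A) (x : α → A) (S : Finset α)
    (h : ∀ T ⊆ S, ∀ μ ∈ S, μ ∉ T → x μ ∉ J ⊔ Ideal.span (x '' T)) :
    ∀ T ⊆ S, ln A (J ⊔ Ideal.span (x '' T)) + T.card ≤ ln A J := by
  intro T
  induction T using Finset.induction_on with
  | empty => simp
  | insert μ T hμ ih =>
    intro hT
    have hT' : T ⊆ S := (Finset.subset_insert _ _).trans hT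
    have h1 : J ⊔ Ideal.span (x '' T) < J ⊔ Ideal.span (x '' (insert μ T : Finset α)) := by
      refine lt_of_le_of_ne (sup_le_sup_left (Ideal.span_mono (Set.image_mono (by simp))) _) ?_
      intro e
      apply h T hT' μ (hT (Finset.mem_insert_self _ _)) hμ
      rw [e]
      exact Ideal.mem_sup_right (Ideal.subset_span ⟨μ, by simp, rfl⟩)
    rw [Finset.card_insert_of_notMem hμ, Nat.cast_add, Nat.cast_one, add_comm (T.card : ℕ∞),
      ← add_assoc]
    exact (add_le_add_left (ln_lt h1) _).trans (ih hT')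

lemma exists_form (K : Ideal A) (w : Fin (n + 1) → A)
    (hw : ∀ i, w i ∈ maximalIdeal A) (h : Prim (maximalIdeal A) (K ⊔ Ideal.span (Set.range w)))
    (hd : ringKrullDim (A ⧸ K) ≤ n) :
    ∃ (k : ℕ) (F : MvPolynomial (Fin (n + 1)) A) (μ : Fin (n + 1) →₀ ℕ), F.IsHomogeneous k ∧
      F.coeff μ = 1 ∧
      MvPolynomial.eval w F ∈ K ⊔ maximalIdeal A * Ideal.span (Set.range w) ^ k := by
  classical
  by_contra hn
  set W := Ideal.span (Set.range w) with hW
  have hWm : W ≤ maximalIdeal A := Ideal.span_le.2 (by rintro _ ⟨i, rfl⟩; exact hw i)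
  let x : (Fin (n + 1) →₀ ℕ) → A := fun μ => MvPolynomial.eval w (MvPolynomial.monomial μ 1)
  have hdeg : ∀ (k : ℕ) (μ : Fin (n + 1) →₀ ℕ),
      μ ∈ (Finset.univ : Finset (Fin (n + 1))).finsuppAntidiag k →
      μ.degree = k := fun k μ hμ => by
    rw [Finsupp.degree_eq_sum]
    exact (Finset.mem_finsuppAntidiag.1 hμ).1
  have step : ∀ k, ln A (K ⊔ W ^ k) + ((n + k).choose k : ℕ) ≤ ln A (K ⊔ W ^ (k + 1)) := by
    intro k
    set S := (Finset.univ : Finset (Fin (n + 1))).finsuppAntidiag k with hS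
    have h1 := ln_chain (K ⊔ maximalIdeal A * W ^ k) x S (fun T hT μ hμ hμT hx => by
      obtain ⟨y, hy, z, hz, hyz⟩ := Submodule.mem_sup.1 hx
      obtain ⟨a, ha⟩ := (Submodule.mem_span_image_finset_iff_exists_fun' A).1 hz
      refine hn ⟨k, MvPolynomial.monomial μ 1 - ∑ ν ∈ T, MvPolynomial.monomial ν (a ν), μ,
        (MvPolynomial.isHomogeneous_monomial _ (hdeg k μ hμ)).sub
          (MvPolynomial.IsHomogeneous.sum _ _ _ fun ν hν =>
            MvPolynomial.isHomogeneous_monomial _ (hdeg k ν (hT hν))), ?_, ?_⟩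
      · rw [MvPolynomial.coeff_sub, MvPolynomial.coeff_sum, MvPolynomial.coeff_monomial,
          if_pos rfl, Finset.sum_eq_zero, sub_zero]
        intro ν hν
        rw [MvPolynomial.coeff_monomial, if_neg]
        rintro rfl
        exact hμT hν
      · have h2 : MvPolynomial.eval w (∑ ν ∈ T, MvPolynomial.monomial ν (a ν)) = z := by
          rw [← ha, map_sum]
          refine Finset.sum_congr rfl fun ν _ => ?_
          simp [x, MvPolynomial.eval_monomial]
        have h3 : MvPolynomial.eval w (MvPolynomial.monomial μ 1) = y + z := hyz.symm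
        rw [map_sub, h2, h3, add_sub_cancel_right]
        exact hy) S le_rfl
    have h2 : S.card = (n + k).choose k := by
      rw [hS, Finset.card_finsuppAntidiag_nat_eq_choose]
      congr 1
      simp
    have h3 : K ⊔ maximalIdeal A * W ^ k ⊔ Ideal.span (x '' S) ≤ K ⊔ W ^ k := by
      refine sup_le (sup_le_sup_left Ideal.mul_le_right _) (le_sup_of_le_right ?_)
      refine Ideal.span_le.2 ?_
      rintro _ ⟨μ, hμ, rfl⟩
      exact (Ideal.mem_span_pow_iff_exists_isHomogeneous w _).2
        ⟨_, MvPolynomial.isHomogeneous_monomial _ (hdeg k μ hμ), rfl⟩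
    have h4 : K ⊔ W ^ (k + 1) ≤ K ⊔ maximalIdeal A * W ^ k := by
      refine sup_le_sup_left ?_ _
      rw [pow_succ']
      exact Ideal.mul_mono_left hWm
    rw [h2] at h1
    exact ((add_le_add_left (ln_anti' h3) _).trans h1).trans (ln_anti' h4)
  have low : ∀ j, (((j + (n + 1)).choose (n + 1) : ℕ) : ℕ∞) ≤ ln A (K ⊔ W ^ (j + 1)) := by
    intro j
    induction j with
    | zero => simpa using le_add_self.trans (step 0)
    | succ j ih =>
      refine le_trans ?_ (step (j + 1))
      have e : (j + 1 + (n + 1)).choose (n + 1) =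
          (j + (n + 1)).choose (n + 1) + (n + (j + 1)).choose (j + 1) := by
        rw [show j + 1 + (n + 1) = (j + (n + 1)) + 1 by ring, Nat.choose_succ_succ', add_comm,
          Nat.choose_symm_add (a := n) (b := j + 1) |>.symm,
          show n + (j + 1) = j + (n + 1) by ring]
      rw [e, Nat.cast_add]
      exact add_le_add_left ih _
  have h0 : eU W (A ⧸ K) (n + 1) = 0 :=
    eU_eq_zero (M := A ⧸ K) (n := n + 1) K W (by rw [Ideal.annihilator_quotient]) h
      (lt_of_le_of_lt hd (by exact_mod_cast Nat.lt_succ_self n))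
  have h1 := le_lw_choose (d := n + 1) 1
  have h2 : lw (fun j => ((j + (n + 1)).choose (n + 1) : ℕ) * (1 : ℕ∞)) (n + 1) ≤
      lw (fun j => lm (W ^ (j + 1)) (A ⧸ K)) (n + 1) :=
    lw_mono (Eventually.of_forall fun j => by
      rw [mul_one, lm_quot]
      exact low j)
  have h3 := lw_shift (f := fun j => lm (W ^ j) (A ⧸ K)) (d := n + 1) 1
  have h4 := ((h1.trans h2).trans h3).trans (eL_le_eU (M := A ⧸ K) (d := n + 1) W)
  rw [h0] at h4
  simp at h4

end RedX

open RedX

/-- One step of the construction of minimal reductions. -/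
theorem red_step [Infinite (ResidueField A)] (K : Ideal A) (w : Fin (n + 1) → A)
    (hw : ∀ i, w i ∈ maximalIdeal A) (h : Prim (maximalIdeal A) (K ⊔ Ideal.span (Set.range w)))
    (hd : ringKrullDim (A ⧸ K) ≤ n) :
    ∃ (i₀ : Fin (n + 1)) (c : Fin n → A) (k : ℕ), Ideal.span (Set.range w) ^ (k + 1) ≤
      K ⊔ Ideal.span (Set.range fun i => w (i₀.succAbove i) - c i * w i₀) *
        Ideal.span (Set.range w) ^ k := by
  classical
  by_cases hK : K = ⊤
  · exact ⟨0, 0, 0, by simp [hK]⟩
  have hKm : K ≤ maximalIdeal A := le_maximalIdeal hK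
  obtain ⟨k, F, μ, hF, hμ, hFw⟩ := exists_form K w hw h hd
  set I := Ideal.span (Set.range w) with hI
  have hF0 : MvPolynomial.map (residue A) F ≠ 0 := fun e => by
    have := congrArg (MvPolynomial.coeff μ) e
    rw [MvPolynomial.coeff_map, hμ, map_one, MvPolynomial.coeff_zero] at this
    exact one_ne_zero this
  obtain ⟨cb, hcb⟩ : ∃ cb : Fin (n + 1) → ResidueField A,
      MvPolynomial.eval cb (MvPolynomial.map (residue A) F) ≠ 0 := by
    by_contra hn
    push Not at hn
    exact hF0 (MvPolynomial.funext fun c => by simpa using hn c)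
  choose c hc using fun i => residue_surjective (R := A) (cb i)
  have hcc : cb = residue A ∘ c := funext fun i => (hc i).symm
  have hu : IsUnit (MvPolynomial.eval c F) := by
    rw [← residue_ne_zero_iff_isUnit, MvPolynomial.map_eval, ← hcc]
    exact hcb
  cases k with
  | zero =>
    exfalso
    have hF1 : F ≠ 0 := fun e => hF0 (by rw [e, map_zero])
    have e : F = MvPolynomial.C (F.coeff 0) :=
      MvPolynomial.totalDegree_eq_zero_iff_eq_C.1 (hF.totalDegree hF1)
    rw [e, MvPolynomial.eval_C] at hu hFw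
    have hle : K ⊔ maximalIdeal A * I ^ 0 ≤ maximalIdeal A := sup_le hKm Ideal.mul_le_left
    exact (mem_maximalIdeal _).1 (hle hFw) hu
  | succ a =>
    obtain ⟨i, hi⟩ : ∃ i, cb i ≠ 0 := by
      by_contra hn
      push Not at hn
      rw [show cb = 0 from funext hn, MvPolynomial.eval_zero, MvPolynomial.constantCoeff_eq] at hcb
      exact hcb ((hF.map _).coeff_eq_zero (by simp))
    obtain ⟨u, hui⟩ : ∃ u : A, c i * u = 1 := by
      rw [← hc i, residue_ne_zero_iff_isUnit] at hi
      exact hi.exists_right_inv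
    obtain ⟨e, he⟩ := hu.exists_left_inv
    refine ⟨i, fun j => c (i.succAbove j) * u, a, ?_⟩
    set I' := Ideal.span (Set.range fun j => w (i.succAbove j) - c (i.succAbove j) * u * w i)
      with hI'
    have hwI : ∀ j, w j ∈ I := fun j => Ideal.subset_span ⟨j, rfl⟩
    have hb : ∀ j, w j - c j • (u * w i) ∈ I' := fun j => by
      rcases Fin.eq_self_or_eq_succAbove i j with rfl | ⟨j, rfl⟩
      · rw [smul_eq_mul, ← mul_assoc, hui, one_mul, sub_self]
        exact zero_mem _
      · rw [smul_eq_mul, ← mul_assoc]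
        exact Ideal.subset_span ⟨j, rfl⟩
    have hv : u * w i ∈ I := I.mul_mem_left _ (hwI i)
    have h1 := aeval_homog_sub (K := A) w c _ I I' hwI hv hb hF
    rw [MvPolynomial.aeval_eq_eval] at h1
    have h2 : (u * w i) ^ (a + 1) ∈ (K ⊔ I' * I ^ a) ⊔ maximalIdeal A • I ^ (a + 1) := by
      have h3 : MvPolynomial.eval w F ∈ (K ⊔ I' * I ^ a) ⊔ maximalIdeal A • I ^ (a + 1) :=
        (sup_le_sup_right le_sup_left _ : _ ≤ (K ⊔ I' * I ^ a) ⊔ maximalIdeal A * I ^ (a + 1)) hFw
      have := Ideal.mul_mem_left _ e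
        (sub_mem h3 (Ideal.mem_sup_left (Ideal.mem_sup_right h1)))
      rwa [sub_sub_cancel, smul_eq_mul (MvPolynomial.eval c F), ← mul_assoc, he, one_mul] at this
    refine Submodule.le_of_le_smul_of_le_jacobson_bot (I := maximalIdeal A)
      (IsNoetherian.noetherian _) (maximalIdeal_le_jacobson _) fun x hx => ?_
    obtain ⟨H, hH, rfl⟩ := (Ideal.mem_span_pow_iff_exists_isHomogeneous w x).1 hx
    have h4 := aeval_homog_sub (K := A) w c _ I I' hwI hv hb hH
    rw [MvPolynomial.aeval_eq_eval] at h4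
    have := add_mem (Ideal.mem_sup_left (Ideal.mem_sup_right (S := K) h4))
      (Submodule.smul_mem _ (MvPolynomial.eval c H) h2)
    simpa using this

theorem exists_red [Infinite (ResidueField A)] (I : Ideal A) (hI : I ≤ maximalIdeal A)
    (h : Prim (maximalIdeal A) I) (hd : ringKrullDim A ≤ n) :
    ∃ w : Fin n → A, IsRed (Ideal.span (Set.range w)) I := by
  have key : ∀ m : ℕ, (∃ w : Fin (n + m) → A, IsRed (Ideal.span (Set.range w)) I) →
      ∃ w : Fin n → A, IsRed (Ideal.span (Set.range w)) I := by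
    intro m
    induction m with
    | zero => exact id
    | succ m ih =>
      rintro ⟨w, hw⟩
      have hwI : ∀ j, w j ∈ Ideal.span (Set.range w) := fun j => Ideal.subset_span ⟨j, rfl⟩
      have hp : Prim (maximalIdeal A) (⊥ ⊔ Ideal.span (Set.range w)) := by
        obtain ⟨a, ha⟩ := h
        obtain ⟨c, hc⟩ := hw.pow_le
        refine ⟨a * (1 + c), le_sup_of_le_right ?_⟩
        have := hc 1
        rw [pow_one] at this
        rw [pow_mul]
        exact (Ideal.pow_right_mono ha _).trans this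
      have hd' : ringKrullDim (A ⧸ (⊥ : Ideal A)) ≤ (n + m : ℕ) := by
        rw [ringKrullDim_eq_of_ringEquiv (RingEquiv.quotientBot A)]
        exact hd.trans (by exact_mod_cast Nat.le_add_right n m)
      obtain ⟨i₀, c, k, hk⟩ := red_step (n := n + m) ⊥ w (fun j => hI (hw.1 (hwI j))) hp hd'
      rw [bot_sup_eq] at hk
      refine ih ⟨_, IsRed.trans' ⟨Ideal.span_le.2 ?_, k, hk⟩ hw⟩
      rintro _ ⟨j, rfl⟩
      exact sub_mem (hwI _) (Ideal.mul_mem_left _ _ (hwI _))
  obtain ⟨r, y, hy⟩ := Submodule.fg_iff_exists_fin_generating_family.mp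
    (IsNoetherian.noetherian I)
  refine key r ⟨Fin.append 0 y, ?_⟩
  have : Ideal.span (Set.range (Fin.append (0 : Fin n → A) y)) = I := by
    rw [← hy]
    apply le_antisymm
    · refine Ideal.span_le.2 ?_
      rintro _ ⟨j, rfl⟩
      refine Fin.addCases (fun j => ?_) (fun j => ?_) j
      · simp
      · rw [Fin.append_right]
        exact Ideal.subset_span ⟨j, rfl⟩
    · refine Ideal.span_mono ?_
      rintro _ ⟨j, rfl⟩
      exact ⟨Fin.natAdd n j, Fin.append_right _ _ _⟩
  rw [this]
  exact IsRed.refl' I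

end Vale.Agent.P202
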