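import Vale.Agent.P202M.Bas

/-! Abstract truncated tilting. -/

namespace Vale.Agent.P202

/-- A multiplicative map from a perfect ring to a ring killed by `p ^ N` which induces an
isomorphism `E / t ≃ O / p`. -/
structure Tilt (p N : ℕ) (O E : Type*) [CommRing O] [CommRing E] where
  sh : E →* O
  t : E
  sh_zero : sh 0 = 0
  sh_t : sh t = p
  pN : (p : O) ^ N = 0
  add : ∀ x y, sh (x + y) - sh x - sh y ∈ Ideal.span {(p : O)}
  surj : ∀ a : O, ∃ z, a - sh z ∈ Ideal.span {(p : O)}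
  ker : ∀ z, sh z ∈ Ideal.span {(p : O)} → t ∣ z
  tors : ∀ a : O, (p : O) * a = 0 → a ∈ Ideal.span {(p : O) ^ (N - 1)}

/-- The `p ^ n`-th root in a perfect ring. -/
noncomputable def rt (p : ℕ) [Fact p.Prime] {E : Type*} [CommRing E] [CharP E p] [PerfectRing E p]
    (n : ℕ) (z : E) : E := (iterateFrobeniusEquiv E p n).symm z

namespace TiltAX

variable {p : ℕ} [hp : Fact p.Prime] {E : Type*} [CommRing E] [CharP E p]

omit hp [CharP E p] in
lemma lift {I : Ideal E} {z : E} {n m : ℕ} (h : z ^ p ^ n ∈ I ^ m) (k : ℕ) :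
    z ^ p ^ (n + k) ∈ I ^ (m * p ^ k) := by
  rw [pow_add, pow_mul, pow_mul]
  exact Ideal.pow_mem_pow h _

lemma ppos (n : ℕ) : (0 : ℝ) < (p : ℝ) ^ n := pow_pos (by exact_mod_cast hp.out.pos) n

lemma lift' {l : ℝ} {n m : ℕ} (h : l * (p : ℝ) ^ n ≤ m) (k : ℕ) :
    l * (p : ℝ) ^ (n + k) ≤ (m * p ^ k : ℕ) := by
  rw [pow_add, ← mul_assoc]
  push_cast
  exact mul_le_mul_of_nonneg_right h (ppos k).le

variable (p) in
/-- elements of order at least `l` -/
def B (I : Ideal E) (l : ℝ) : Ideal E where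
  carrier := {z | ∃ n m : ℕ, l * (p : ℝ) ^ n ≤ m ∧ z ^ p ^ n ∈ I ^ m}
  zero_mem' := ⟨0, ⌈l⌉₊ + 1, by simpa using (Nat.le_ceil l).trans (by linarith), by simp⟩
  add_mem' := by
    rintro x y ⟨n, m, h1, h2⟩ ⟨n', m', h3, h4⟩
    have a1 := lift' h1 n'
    have a2 := lift' h3 n
    have a3 := lift h4 n
    rw [add_comm n'] at a2 a3
    refine ⟨n + n', min (m * p ^ n') (m' * p ^ n), by rw [Nat.cast_min]; exact le_min a1 a2, ?_⟩
    rw [add_pow_char_pow]
    exact add_mem (Ideal.pow_le_pow_right (min_le_left _ _) (lift h2 n'))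
      (Ideal.pow_le_pow_right (min_le_right _ _) a3)
  smul_mem' := by
    rintro c x ⟨n, m, h1, h2⟩
    exact ⟨n, m, h1, by rw [smul_eq_mul, mul_pow]; exact Ideal.mul_mem_left _ _ h2⟩

variable {I I' : Ideal E} {l l' : ℝ} {x y z : E}

lemma B_top (h : l ≤ 0) (z : E) : z ∈ B p I l := ⟨0, 0, by simpa using h, by simp⟩

lemma B_anti (h : l' ≤ l) : B p I l ≤ B p I l' := fun _ ⟨n, m, h1, h2⟩ =>
  ⟨n, m, (mul_le_mul_of_nonneg_right h (ppos n).le).trans h1, h2⟩

lemma B_self : I ≤ B p I 1 := fun z hz => ⟨0, 1, by simp, by simpa using hz⟩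

lemma B_mul (hx : x ∈ B p I l) (hy : y ∈ B p I l') : x * y ∈ B p I (l + l') := by
  obtain ⟨n, m, h1, h2⟩ := hx
  obtain ⟨n', m', h3, h4⟩ := hy
  have a2 := lift' h3 n
  have a3 := lift h4 n
  rw [add_comm n'] at a2 a3
  refine ⟨n + n', m * p ^ n' + m' * p ^ n, ?_, ?_⟩
  · rw [add_mul, Nat.cast_add]
    exact add_le_add (lift' h1 n') a2
  · rw [mul_pow, pow_add I]
    exact Ideal.mul_mem_mul (lift h2 n') a3

lemma B_pow_le (h : I ≤ B p I' l) (m : ℕ) : I ^ m ≤ B p I' (m * l) := by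
  induction m with
  | zero => exact fun z _ => B_top (by simp) z
  | succ m ih =>
    rw [pow_succ, Nat.cast_succ, add_mul, one_mul]
    exact Ideal.mul_le.2 fun r hr s hs => B_mul (ih hr) (h hs)

lemma B_pow (hx : x ∈ B p I l) (m : ℕ) : x ^ m ∈ B p I (m * l) :=
  B_pow_le le_rfl m (Ideal.pow_mem_pow hx m)

lemma B_root {a : ℕ} (h : z ^ p ^ a ∈ B p I l) : z ∈ B p I (l / (p : ℝ) ^ a) := by
  obtain ⟨n, m, h1, h2⟩ := h
  refine ⟨a + n, m, ?_, by rwa [pow_add, pow_mul]⟩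
  rwa [pow_add, ← mul_assoc, div_mul_cancel₀ _ (ppos a).ne']

lemma B_univ (h : I ≤ B p I' l') (h0 : 0 ≤ l') : B p I 1 ≤ B p I' l' := by
  rintro z ⟨n, m, h1, h2⟩
  refine B_anti ?_ (B_root (B_pow_le h m h2))
  rw [le_div_iff₀ (ppos n), mul_comm]
  exact mul_le_mul_of_nonneg_right (by simpa using h1) h0

lemma B_one (h : z ∈ B p I 1) : ∃ n, z ^ p ^ n ∈ I ^ p ^ n := by
  obtain ⟨n, m, h1, h2⟩ := h
  refine ⟨n, Ideal.pow_le_pow_right ?_ h2⟩
  rw [one_mul] at h1
  exact_mod_cast h1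

lemma B_scale (h : z ∈ B p I 1) (x : E) : x * z ∈ B p (Ideal.span {x} * I) 1 := by
  obtain ⟨n, hn⟩ := B_one h
  refine ⟨n, p ^ n, by simp, ?_⟩
  rw [mul_pow, mul_pow]
  exact Ideal.mul_mem_mul (Ideal.pow_mem_pow (Ideal.mem_span_singleton_self x) _) hn

/-- the key step of the approximation -/
lemma B_step {φ σ : E} {i : ℕ} (hz : z ∈ B p (Ideal.span {φ, σ ^ i}) 1) :
    φ ∈ B p (Ideal.span {φ + σ * z, σ ^ (i + 1)}) 1 ∧ ∀ w ∈ B p (Ideal.span {φ, σ ^ i}) 1,
      σ * w ∈ B p (Ideal.span {φ + σ * z, σ ^ (i + 1)}) 1 := by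
  set J := Ideal.span {φ + σ * z, σ ^ (i + 1)}
  have h1 : φ + σ * z ∈ B p J 1 := B_self (Ideal.subset_span (by simp))
  have h2 : σ ^ (i + 1) ∈ B p J 1 := B_self (Ideal.subset_span (by simp))
  have h3 : σ ∈ B p J (1 / (p : ℝ) ^ i) := B_root (Ideal.mem_of_dvd _
    (pow_dvd_pow σ (Nat.lt_pow_self hp.out.one_lt)) h2)
  have e0 := (one_div_pos.2 (ppos (p := p) i)).le
  have key : ∀ μ : ℝ, 0 ≤ μ → φ ∈ B p J μ → ∀ w ∈ B p (Ideal.span {φ, σ ^ i}) 1,
      σ * w ∈ B p J (min 1 (1 / (p : ℝ) ^ i + μ)) := by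
    intro μ h0 hφ w hw
    refine B_univ ?_ (le_min zero_le_one (add_nonneg e0 h0)) (B_scale hw σ)
    rw [Ideal.span_singleton_mul_le_iff]
    intro v hv
    obtain ⟨a, b, rfl⟩ := Ideal.mem_span_pair.1 hv
    rw [mul_add, mul_left_comm, mul_left_comm σ b, ← pow_succ']
    exact add_mem (Ideal.mul_mem_left _ _ (B_anti (min_le_right _ _) (B_mul h3 hφ)))
      (Ideal.mul_mem_left _ _ (B_anti (min_le_left _ _) h2))
  have ind : ∀ k : ℕ, φ ∈ B p J (min 1 (k * (1 / (p : ℝ) ^ i))) := by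
    intro k
    induction k with
    | zero => exact B_top (by simp) _
    | succ k ih =>
      have a1 := key _ (le_min zero_le_one (mul_nonneg k.cast_nonneg e0)) ih z hz
      have a2 := sub_mem (B_anti (min_le_left _ _) h1) a1
      rw [add_sub_cancel_right] at a2
      refine B_anti (le_min (min_le_left _ _) ?_) a2
      rw [Nat.cast_succ, add_mul, one_mul, add_min, add_comm]
      exact min_le_min (le_add_of_nonneg_left e0) le_rfl
  have h4 := ind (p ^ i)
  rw [Nat.cast_pow, mul_one_div_cancel (ppos i).ne', min_self] at h4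
  exact ⟨h4, fun w hw => B_anti (le_min le_rfl (by linarith)) (key 1 zero_le_one h4 w hw)⟩

variable [PerfectRing E p] {N : ℕ} {O : Type*} [CommRing O] (τ : Tilt p N O E)

lemma rt_pow (n : ℕ) (z : E) : rt p n z ^ p ^ n = z :=
  (iterateFrobeniusEquiv E p n).apply_symm_apply z

lemma rt_add (m n : ℕ) (z : E) : rt p (m + n) z = rt p m (rt p n z) :=
  iterateFrobeniusEquiv_symm_add_apply E p m n z

lemma rt_rt (n : ℕ) (z : E) : rt p n (z ^ p ^ n) = z :=
  (iterateFrobeniusEquiv E p n).symm_apply_apply z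

omit hp [CharP E p] [PerfectRing E p] in
lemma pw (τ : Tilt p N O E) {a b : O} (h : a - b ∈ Ideal.span {(p : O)}) :
    a ^ p ^ N = b ^ p ^ N := by
  have h1 := dvd_sub_pow_of_dvd_sub (Ideal.mem_span_singleton.1 h) N
  rwa [pow_succ, τ.pN, zero_mul, zero_dvd_iff, sub_eq_zero] at h1

/-- the filtration of `O` -/
def Fil (I : Ideal E) (l : ℝ) : Ideal O := Ideal.span (τ.sh '' (B p I l : Set E))

omit [PerfectRing E p] in
lemma sh_mem (h : z ∈ B p I l) : τ.sh z ∈ Fil τ I l := Ideal.subset_span ⟨z, h, rfl⟩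

omit [PerfectRing E p] in
lemma Fil_mono (h : B p I l ≤ B p I' l') : Fil τ I l ≤ Fil τ I' l' :=
  Ideal.span_mono (Set.image_mono h)

lemma sh_add (hx : x ∈ B p I l) (hy : y ∈ B p I l) :
    τ.sh (x + y) - τ.sh x - τ.sh y ∈ Ideal.span {(p : O)} * Fil τ I l := by
  have hx' : rt p N x ∈ B p I (l / (p : ℝ) ^ N) := B_root (by rwa [rt_pow])
  have hy' : rt p N y ∈ B p I (l / (p : ℝ) ^ N) := B_root (by rwa [rt_pow])
  have h1 := pw τ (a := τ.sh (rt p N x + rt p N y)) (b := τ.sh (rt p N x) + τ.sh (rt p N y))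
    (by rw [← sub_sub]; exact τ.add _ _)
  rw [← map_pow, add_pow_char_pow, rt_pow, rt_pow, add_pow_prime_pow_eq' hp.out, ← map_pow,
    ← map_pow, rt_pow, rt_pow] at h1
  rw [h1, add_assoc, add_sub_cancel_left, add_sub_cancel_left]
  refine Ideal.mul_mem_mul (Ideal.mem_span_singleton_self _) (Ideal.sum_mem _ fun k hk => ?_)
  refine Ideal.mul_mem_right _ _ ?_
  rw [← map_pow, ← map_pow, ← map_mul]
  refine sh_mem τ (B_anti (le_of_eq ?_) (B_mul (B_pow hx' _) (B_pow hy' _)))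
  rw [← add_mul, ← Nat.cast_add, Nat.add_sub_cancel' (Finset.mem_Ioo.1 hk).2.le, Nat.cast_pow,
    mul_div_cancel₀ _ (ppos N).ne']

lemma approx {a : O} (h : a ∈ Fil τ I l) :
    ∃ z ∈ B p I l, a - τ.sh z ∈ Ideal.span {(p : O)} * Fil τ I l := by
  induction h using Submodule.span_induction with
  | mem a ha =>
    obtain ⟨z, hz, rfl⟩ := ha
    exact ⟨z, hz, by simp⟩
  | zero => exact ⟨0, zero_mem _, by simp [τ.sh_zero]⟩
  | add a b _ _ ha hb =>
    obtain ⟨x, hx, ha⟩ := ha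
    obtain ⟨y, hy, hb⟩ := hb
    refine ⟨x + y, add_mem hx hy, ?_⟩
    convert sub_mem (add_mem ha hb) (sh_add τ hx hy) using 1
    ring
  | smul c a _ ha =>
    obtain ⟨x, hx, ha⟩ := ha
    obtain ⟨w, hw⟩ := τ.surj c
    refine ⟨w * x, Ideal.mul_mem_left _ _ hx, ?_⟩
    convert add_mem (Ideal.mul_mem_left _ c ha) (Ideal.mul_mem_mul hw (sh_mem τ hx)) using 1
    rw [map_mul, smul_eq_mul]
    ring

lemma order {θ : ℝ} (h0 : 0 ≤ θ) (ht : τ.t ∈ B p I θ) {M : ℕ} (hM : M ≤ N) {l : ℝ} {z : E}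
    (h : τ.sh z ∈ Fil τ I l ⊔ Ideal.span {(p : O) ^ M}) : z ∈ B p I (min l (M * θ)) := by
  induction M generalizing l z with
  | zero => exact B_top (by simp) _
  | succ M ih =>
    have h1 := ih (by omega) (sup_le_sup_left (Ideal.span_singleton_le_span_singleton.2
      (pow_dvd_pow (p : O) M.le_succ)) _ h)
    obtain ⟨a, ha, b, hb, e⟩ := Submodule.mem_sup.1 h
    obtain ⟨b, rfl⟩ := Ideal.mem_span_singleton'.1 hb
    obtain ⟨u, hu, ha⟩ := approx τ ha
    obtain ⟨g, hg, e1⟩ := Ideal.mem_span_singleton_mul.1 ha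
    have hu' : u ∈ B p I (min l (M * θ)) := B_anti (min_le_left _ _) hu
    obtain ⟨g', hg', e2⟩ := Ideal.mem_span_singleton_mul.1 (sh_add τ hu' (sub_mem h1 hu'))
    rw [add_sub_cancel] at e2
    have e3 : τ.sh (z - u) = p * (g - g' + b * p ^ M) := by
      linear_combination e2 - e1 - e
    obtain ⟨z₁, e4⟩ := τ.ker _ (Ideal.mem_span_singleton.2 ⟨_, e3⟩)
    rw [e4, map_mul, τ.sh_t, ← sub_eq_zero, ← mul_sub] at e3
    have h2 := Ideal.span_singleton_le_span_singleton.2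
      (pow_dvd_pow (p : O) (by omega : M ≤ N - 1)) (τ.tors _ e3)
    have h3 : τ.sh z₁ ∈ Fil τ I (min l (M * θ)) ⊔ Ideal.span {(p : O) ^ M} := by
      have := add_mem (Ideal.mem_sup_left (T := Ideal.span {(p : O) ^ M})
        (sub_mem (Fil_mono τ (B_anti (min_le_left _ _)) hg) hg')) (Ideal.mem_sup_right
          (add_mem h2 (Ideal.mul_mem_left _ b (Ideal.mem_span_singleton_self _))))
      convert this using 1
      ring
    have h4 := B_mul ht (ih (by omega) h3)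
    rw [← e4] at h4
    rw [← add_sub_cancel u z]
    refine add_mem (B_anti (min_le_left _ _) hu) (B_anti ?_ h4)
    rw [min_assoc, min_self, add_min, Nat.cast_succ]
    exact min_le_min (by linarith) (by linarith)

lemma exists_approx (f : O) (i : ℕ) : ∃ φ, f - τ.sh φ ∈ Ideal.span {τ.sh (rt p 1 τ.t)} *
    Fil τ (Ideal.span {φ, rt p 1 τ.t ^ i}) 1 := by
  have e : τ.sh (rt p 1 τ.t) ∣ p := by
    rw [← τ.sh_t, ← congrArg τ.sh (rt_pow 1 τ.t), map_pow]
    exact dvd_pow_self _ (pow_ne_zero _ hp.out.ne_zero)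
  have e' := Ideal.span_singleton_le_span_singleton.2 e
  induction i with
  | zero =>
    obtain ⟨φ, h⟩ := τ.surj f
    refine ⟨φ, ?_⟩
    have h1 := sh_mem τ (B_self (p := p) (Ideal.subset_span (s := {φ, rt p 1 τ.t ^ 0})
      (Set.mem_insert_of_mem _ rfl)))
    rw [pow_zero, map_one] at h1
    simpa using Ideal.mul_mem_mul (e' h) h1
  | succ i ih =>
    obtain ⟨φ, h⟩ := ih
    obtain ⟨g, hg, e1⟩ := Ideal.mem_span_singleton_mul.1 h
    obtain ⟨z, hz, h1⟩ := approx τ hg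
    obtain ⟨g', hg', e2⟩ := Ideal.mem_span_singleton_mul.1 h1
    obtain ⟨k1, k2⟩ := B_step hz
    have k3 : τ.sh (rt p 1 τ.t) * g' ∈
        Fil τ (Ideal.span {φ + rt p 1 τ.t * z, rt p 1 τ.t ^ (i + 1)}) 1 := by
      refine Ideal.span_singleton_mul_le_iff.1 ?_ g' hg'
      rw [Fil, Ideal.span_mul_span', Ideal.span_le]
      rintro _ ⟨_, rfl, _, ⟨w, hw, rfl⟩, rfl⟩
      simpa only [map_mul, SetLike.mem_coe] using sh_mem τ (k2 w hw)
    refine ⟨φ + rt p 1 τ.t * z, Ideal.mul_mono_left e' ?_⟩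
    convert sub_mem (Ideal.mul_mem_mul (Ideal.mem_span_singleton_self (p : O)) k3)
      (sh_add τ k1 (k2 z hz)) using 1
    rw [map_mul]
    linear_combination (-1 : O) * e1 - τ.sh (rt p 1 τ.t) * e2

/-- reduction modulo `p` -/
def red : E →+* O ⧸ Ideal.span {(p : O)} where
  toFun x := Ideal.Quotient.mk _ (τ.sh x)
  map_one' := by simp
  map_mul' := by simp
  map_zero' := by simp [τ.sh_zero]
  map_add' x y := by
    rw [← map_add, Ideal.Quotient.eq, ← sub_sub]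
    exact τ.add x y

lemma extract {S : Set E} {n m : ℕ} (h : z ^ p ^ n ∈ Ideal.span S ^ m) :
    τ.sh z ∈ Ideal.span ((fun s => τ.sh (rt p (N + n) s)) '' S) ^ (m * p ^ N) := by
  have h1 := Ideal.mem_map_of_mem ((red τ).comp
    (iterateFrobeniusEquiv E p (N + n)).symm.toRingHom) h
  have e : Ideal.map ((red τ).comp (iterateFrobeniusEquiv E p (N + n)).symm.toRingHom)
      (Ideal.span S ^ m) = Ideal.map (Ideal.Quotient.mk _)
        (Ideal.span ((fun s => τ.sh (rt p (N + n) s)) '' S) ^ m) := by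
    rw [Ideal.map_pow, Ideal.map_pow, Ideal.map_span, Ideal.map_span, Set.image_image]
    rfl
  rw [e, Ideal.mem_map_iff_of_surjective _ Ideal.Quotient.mk_surjective] at h1
  obtain ⟨a, ha, e1⟩ := h1
  have e2 := pw τ (Ideal.Quotient.eq.1 (show Ideal.Quotient.mk _ a =
    Ideal.Quotient.mk _ (τ.sh (rt p (N + n) (z ^ p ^ n))) from e1))
  rw [← map_pow, rt_add, rt_rt, rt_pow] at e2
  rw [← e2, pow_mul]
  exact Ideal.pow_mem_pow ha _

end TiltAX

open TiltAX Filter in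
theorem Tilt.main {p N : ℕ} [Fact p.Prime] {O E : Type*} [CommRing O] [CommRing E] [CharP E p]
    [PerfectRing E p] (τ : Tilt p N O E) {r : ℕ} (f : Fin r → O) (j : ℕ) :
    ∃ φ : Fin r → E,
      (∃ k₀ : ℕ, ∀ k, k₀ ≤ k → ∀ i, f i - τ.sh (φ i) ∈ Ideal.span {τ.sh (rt p 2 τ.t)} *
        Ideal.span {τ.sh (rt p k (φ i)), τ.sh (rt p k (τ.t ^ j))} ^ p ^ k) ∧
      ∀ (S : Set E) (c b n₀ : ℕ) (z : E), 0 < c → τ.t ^ c ∈ S → c * p ^ b ≤ j → c * p ^ b ≤ N →
        τ.sh z ^ p ^ b ∈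
          Ideal.span (τ.sh '' S) ^ (p ^ b - n₀) ⊔ Ideal.span (Set.range f) →
        ∃ n K : ℕ, (p ^ b - n₀ - 1) * p ^ n ≤ K * p ^ b ∧
          τ.sh z ∈ (Ideal.span ((fun s => τ.sh (rt p n s)) '' S) ⊔
            Ideal.span (Set.range fun i => τ.sh (rt p (n + b) (φ i)))) ^ K := by
  have hp : p.Prime := Fact.out
  choose φ hφ using fun i => exists_approx τ (f i) (p ^ 1 * j)
  simp only [pow_mul, rt_pow] at hφ
  refine ⟨φ, eventually_atTop.1 (eventually_all.2 fun i => ?_), ?_⟩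
  · obtain ⟨g, hg, e⟩ := Ideal.mem_span_singleton_mul.1 (hφ i)
    have h1 : ∀ᶠ k in atTop,
        g ∈ Ideal.span {τ.sh (rt p k (φ i)), τ.sh (rt p k (τ.t ^ j))} ^ p ^ k := by
      clear e
      induction hg using Submodule.span_induction with
      | mem a ha =>
        obtain ⟨w, hw, rfl⟩ := ha
        obtain ⟨n, hn⟩ := B_one hw
        filter_upwards [eventually_ge_atTop (N + n)] with k hk
        obtain ⟨a, rfl⟩ := Nat.exists_eq_add_of_le hk
        have h2 := extract τ (lift hn a)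
        rwa [Set.image_pair, ← pow_add, ← pow_add, add_comm _ N, ← add_assoc] at h2
      | zero => exact Eventually.of_forall fun k => zero_mem _
      | add a b _ _ ha hb => exact (ha.and hb).mono fun k h => add_mem h.1 h.2
      | smul c a _ ha => exact ha.mono fun k h => Ideal.mul_mem_left _ c h
    refine h1.mono fun k hk => e ▸ Ideal.mul_mem_mul (Ideal.mem_span_singleton.2 ?_) hk
    rw [← congrArg τ.sh (rt_pow (p := p) 1 (rt p 1 τ.t)), map_pow, ← rt_add]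
    exact dvd_pow_self _ (pow_ne_zero _ hp.ne_zero)
  · intro S c b n₀ z hc hS hj hN hz
    set I := Ideal.span (S ∪ Set.range fun i => rt p b (φ i)) with hI
    have s1 : ∀ s ∈ S, s ∈ B p I 1 := fun s hs => B_self (Ideal.subset_span (Or.inl hs))
    have hq : ((p ^ b - n₀ : ℕ) : ℝ) ≤ ((p ^ b : ℕ) : ℝ) * 1 := by
      rw [mul_one]
      exact_mod_cast Nat.sub_le _ _
    have s2 : ∀ i, φ i ∈ B p I ((p ^ b : ℕ) * 1) := fun i => by
      have := B_pow (B_self (p := p) (I := I) (Ideal.subset_span (Or.inr ⟨i, rfl⟩))) (p ^ b)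
      rwa [rt_pow] at this
    have s3 : τ.t ^ j ∈ B p I ((p ^ b : ℕ) * 1) := Ideal.mem_of_dvd _
      (by rw [← pow_mul]; exact pow_dvd_pow _ hj) (B_pow (s1 _ hS) (p ^ b))
    have s4 : Ideal.span (Set.range f) ≤ Fil τ I (p ^ b - n₀ : ℕ) := by
      refine le_trans ?_ (Fil_mono τ (B_anti hq))
      rw [Ideal.span_le]
      rintro _ ⟨i, rfl⟩
      have h1 := Fil_mono τ (B_univ (I := Ideal.span {φ i, τ.t ^ j}) (Ideal.span_le.2 (by
        rintro _ (rfl | rfl)
        exacts [s2 i, s3])) (mul_nonneg (Nat.cast_nonneg _) zero_le_one))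
        (Ideal.mul_le_right (hφ i))
      simpa using add_mem h1 (sh_mem τ (s2 i))
    have s5 : ∀ m : ℕ, Ideal.span (τ.sh '' S) ^ m ≤ Fil τ I m := by
      intro m
      induction m with
      | zero =>
        rw [pow_zero, Ideal.one_eq_top, top_le_iff, Ideal.eq_top_iff_one, ← map_one τ.sh]
        exact sh_mem τ (B_top (by simp) _)
      | succ m ih =>
        rw [pow_succ]
        refine (Ideal.mul_mono_left ih).trans ?_
        rw [Fil, Ideal.span_mul_span', Ideal.span_le]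
        rintro _ ⟨_, ⟨w, hw, rfl⟩, _, ⟨s, hs, rfl⟩, rfl⟩
        rw [Nat.cast_succ]
        simpa only [map_mul, SetLike.mem_coe] using sh_mem τ (B_mul hw (s1 s hs))
    have s6 : τ.t ∈ B p I ((p ^ N / c : ℕ) * 1 / (p : ℝ) ^ N) := B_root (Ideal.mem_of_dvd _
      (by rw [← pow_mul]; exact pow_dvd_pow _ (Nat.mul_div_le _ _)) (B_pow (s1 _ hS) _))
    rw [← map_pow] at hz
    have s7 := order τ (by positivity) s6 le_rfl (Ideal.mem_sup_left (sup_le (s5 _) s4 hz))
    have s8 : ((p ^ b - n₀ - 1 : ℕ) : ℝ) ≤ N * ((p ^ N / c : ℕ) * 1 / (p : ℝ) ^ N) := by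
      rw [mul_one, ← mul_div_assoc, le_div_iff₀ (ppos N)]
      have a1 : p ^ N < c * (p ^ N / c + 1) := Nat.lt_mul_div_succ _ hc
      have a2 : N < p ^ N := Nat.lt_pow_self hp.one_lt
      have a3 : p ^ b * p ^ N ≤ N * (p ^ N / c) + p ^ N := by
        calc _ ≤ p ^ b * (c * (p ^ N / c + 1)) := Nat.mul_le_mul_left _ a1.le
          _ = c * p ^ b * (p ^ N / c + 1) := by ring
          _ ≤ N * (p ^ N / c + 1) := Nat.mul_le_mul_right _ hN
          _ ≤ _ := by rw [mul_add, mul_one]; omega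
      have a4 : (p ^ b - n₀ - 1) * p ^ N ≤ N * (p ^ N / c) := by
        refine (Nat.mul_le_mul_right _ (by omega : _ ≤ p ^ b - 1)).trans ?_
        rw [Nat.sub_mul, one_mul]
        omega
      exact_mod_cast a4
    obtain ⟨n, m, h1, h2⟩ := B_anti (le_min (Nat.cast_le.2 (Nat.sub_le _ 1)) s8) s7
    rw [← pow_mul, ← pow_add] at h2
    have h3 := extract τ h2
    refine ⟨N + (b + n), m * p ^ N, ?_, ?_⟩
    · have h4 : (p ^ b - n₀ - 1) * p ^ n ≤ m := by exact_mod_cast h1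
      calc _ = (p ^ b - n₀ - 1) * p ^ n * p ^ N * p ^ b := by ring
        _ ≤ _ := by gcongr
    · rwa [Set.image_union, Ideal.span_union, ← Set.range_comp', funext fun i =>
        congrArg τ.sh (rt_add (N + (b + n)) b (φ i)).symm] at h3

end Vale.Agent.P202
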