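import Vale.Agent.P202M.TiltA
import Vale.Agent.P202M.PSV

/-! Tilting for monoid algebras with rational exponents. -/

open IsLocalRing Function
open scoped NNRat

namespace Vale.Agent.P202

/-- Polynomials with nonnegative rational exponents. -/
abbrev AA (M : ℕ) (V : Type*) [CommRing V] := AddMonoidAlgebra V (Fin (M + 1) →₀ ℚ≥0)

/-- A power of a variable. -/
noncomputable def mo {M : ℕ} (V : Type*) [CommRing V] (i : Fin (M + 1)) (a : ℚ≥0) : AA M V :=
  AddMonoidAlgebra.single (Finsupp.single i a) 1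

/-- Ordinary polynomials. -/
noncomputable def toA (M : ℕ) (V : Type*) [CommRing V] : MvPolynomial (Fin M) V →ₐ[V] AA M V :=
  MvPolynomial.aeval fun i => mo V i.succ 1

/-- The relation identifying the variable of index zero with `p`. -/
noncomputable def relA (p M : ℕ) (V : Type*) [CommRing V] : Ideal (AA M V) :=
  Ideal.span {mo V 0 1 - (p : AA M V)}

/-- The ideal generated by `p` and the variables. -/
noncomputable def mP (p M : ℕ) (V : Type*) [CommRing V] : Ideal (MvPolynomial (Fin M) V) :=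
  Ideal.span {(p : MvPolynomial (Fin M) V)} ⊔ Ideal.span (Set.range MvPolynomial.X)

namespace TiltBX

section
variable {p : ℕ} [Fact p.Prime] {E : Type*} [CommRing E] [CharP E p] [PerfectRing E p]

lemma rt_eq_iff {n : ℕ} {z w : E} : rt p n z = w ↔ z = w ^ p ^ n :=
  (iterateFrobeniusEquiv E p n).symm_apply_eq

lemma rt_pow (n : ℕ) (z : E) : rt p n z ^ p ^ n = z := (rt_eq_iff.1 rfl).symm

lemma rt_of_le {n a : ℕ} (h : n ≤ a) (z : E) : rt p n z = rt p a z ^ p ^ (a - n) :=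
  rt_eq_iff.2 (by rw [← pow_mul, ← pow_add, Nat.sub_add_cancel h, rt_pow])

theorem exists_tilt {N : ℕ} (hN : 0 < N) {A : Type*} [CommRing A] (ρ : A →+* E)
    (hρ : Surjective ρ) (hk : ∀ a, ρ a = 0 → (p : A) ∣ a) (T₀ T : A) (h0 : T₀ ^ p ^ N = T)
    (hT : ∀ z, z * ρ T = 0 → z = 0) (hp : ∀ a : A, p * a = 0 → a = 0) {J : Ideal A}
    (hJ : J = Ideal.span {T - p} ⊔ Ideal.span {(p : A) ^ N}) :
    ∃ τ : Tilt p N (A ⧸ J) E, τ.t = ρ T ∧
      ∀ a : A, τ.sh (ρ a ^ p ^ N) = Ideal.Quotient.mk J (a ^ p ^ N) := by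
  have j1 : Ideal.span {T - p} ≤ J := hJ ▸ le_sup_left
  have j2 : Ideal.span {(p : A) ^ N} ≤ J := hJ ▸ le_sup_right
  let L : E → A := fun z => surjInv hρ (rt p N z) ^ p ^ N
  have hL : ∀ z, ρ (L z) = z := fun z => by rw [map_pow, surjInv_eq hρ, rt_pow]
  have key : ∀ a, Ideal.Quotient.mk J (L (ρ a ^ p ^ N)) = Ideal.Quotient.mk J (a ^ p ^ N) := by
    intro a
    refine Ideal.Quotient.eq.2 (j2 (Ideal.mem_span_singleton.2 ?_))
    refine (pow_dvd_pow _ N.le_succ).trans (dvd_sub_pow_of_dvd_sub (hk _ ?_) N)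
    rw [map_sub, surjInv_eq hρ, rt_eq_iff.2 rfl, sub_self]
  have hp' : ∀ a, ρ a = 0 → Ideal.Quotient.mk J a ∈ Ideal.span {(p : A ⧸ J)} := fun a ha =>
    Ideal.mem_span_singleton.2 (by simpa using map_dvd (Ideal.Quotient.mk J) (hk a ha))
  have hq : p ^ N ≠ 0 := pow_ne_zero _ (Fact.out : p.Prime).ne_zero
  have hρp : ρ p = 0 := by simp
  let sh : E →* A ⧸ J :=
    { toFun := fun z => Ideal.Quotient.mk J (L z)
      map_one' := by simpa using key 1
      map_mul' := fun x y => by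
        have := key (surjInv hρ (rt p N x) * surjInv hρ (rt p N y))
        rwa [map_mul, surjInv_eq hρ, surjInv_eq hρ, mul_pow, rt_pow, rt_pow, mul_pow,
          map_mul] at this }
  refine ⟨⟨sh, ρ T, ?_, ?_, ?_, fun x y => ?_, fun a => ?_, fun z hz => ?_, fun a ha => ?_⟩,
    rfl, key⟩
  · have := key 0
    rwa [map_zero, zero_pow hq, zero_pow hq, map_zero] at this
  · have := key T₀
    rw [← map_pow, h0] at this
    refine this.trans ((Ideal.Quotient.eq.2 ?_).trans (map_natCast _ p))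
    exact j1 (Ideal.mem_span_singleton_self _)
  · rw [← map_natCast (Ideal.Quotient.mk J), ← map_pow]
    exact Ideal.Quotient.eq_zero_iff_mem.2 (j2 (Ideal.mem_span_singleton_self _))
  · exact hp' (L (x + y) - L x - L y) (by simp [hL])
  · obtain ⟨a, rfl⟩ := Ideal.Quotient.mk_surjective a
    exact ⟨ρ a, hp' (a - L (ρ a)) (by simp [hL])⟩
  · obtain ⟨c, hc⟩ := Ideal.mem_span_singleton'.1 hz
    obtain ⟨c, rfl⟩ := Ideal.Quotient.mk_surjective c
    rw [← map_natCast (Ideal.Quotient.mk J), ← map_mul] at hc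
    have h1 : J ≤ (Ideal.span {ρ T}).comap ρ := by
      refine hJ.trans_le (sup_le ?_ ?_) <;> rw [Ideal.span_singleton_le_iff_mem, Ideal.mem_comap]
      · simp
      · simp [hN.ne']
    have h2 := h1 (Ideal.Quotient.eq.1 hc.symm)
    rwa [Ideal.mem_comap, map_sub, map_mul, hρp, mul_zero, sub_zero, hL,
      Ideal.mem_span_singleton] at h2
  · obtain ⟨a, rfl⟩ := Ideal.Quotient.mk_surjective a
    rw [← map_natCast (Ideal.Quotient.mk J), ← map_mul, Ideal.Quotient.eq_zero_iff_mem] at ha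
    obtain ⟨_, hu, _, hv, e⟩ := Submodule.mem_sup.1 (hJ.le ha)
    obtain ⟨u, rfl⟩ := Ideal.mem_span_singleton'.1 hu
    obtain ⟨v, rfl⟩ := Ideal.mem_span_singleton'.1 hv
    obtain ⟨w, rfl⟩ := hk u (hT _ (by simpa [hN.ne'] using congrArg ρ e))
    obtain ⟨n, rfl⟩ := Nat.exists_eq_add_one_of_ne_zero hN.ne'
    have e2 : a - v * p ^ n = w * (T - p) :=
      sub_eq_zero.1 (hp _ (by linear_combination -e))
    refine Ideal.mem_span_singleton'.2 ⟨Ideal.Quotient.mk J v, ?_⟩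
    rw [← map_natCast (Ideal.Quotient.mk J), ← map_pow, ← map_mul, eq_comm, Ideal.Quotient.eq]
    exact e2 ▸ j1 (Ideal.mul_mem_left _ _ (Ideal.mem_span_singleton_self _))

end

lemma mem_of {A : Type*} [CommRing A] {I J : Ideal A} {x : A} (hx : x ∈ I) (h : I ≤ J) : x ∈ J :=
  h hx

lemma sup_pow_le {A : Type*} [CommRing A] (I J : Ideal A) (K : ℕ) : (I ⊔ J) ^ K ≤ I ^ K ⊔ J := by
  induction K with
  | zero => simp
  | succ K ih =>
    rw [pow_succ, pow_succ]
    refine (Ideal.mul_mono_left ih).trans ?_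
    rw [Ideal.sup_mul, Ideal.mul_sup]
    exact sup_le (sup_le le_sup_left (le_sup_of_le_right Ideal.mul_le_right))
      (le_sup_of_le_right Ideal.mul_le_left)

abbrev Ex (M : ℕ) := Fin (M + 1) →₀ ℚ≥0

variable {M : ℕ} {V : Type*} [CommRing V]

/-- A monomial. -/
noncomputable def mn (V : Type*) [CommRing V] (g : Ex M) : AA M V := AddMonoidAlgebra.single g 1

lemma mo_eq (i : Fin (M + 1)) (a : ℚ≥0) : mo V i a = mn V (Finsupp.single i a) := rfl

lemma mn_add (g h : Ex M) : mn V (g + h) = mn V g * mn V h := by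
  simp [mn, AddMonoidAlgebra.single_mul_single]

lemma mn_pow (g : Ex M) (n : ℕ) : mn V g ^ n = mn V ((n : ℚ≥0) • g) := by
  simp [mn, AddMonoidAlgebra.single_pow, Nat.cast_smul_eq_nsmul]

lemma mn_mem {g h : Ex M} (hh : h ≤ g) {I : Ideal (AA M V)} (hI : mn V h ∈ I) : mn V g ∈ I := by
  obtain ⟨c, rfl⟩ := le_iff_exists_add.1 hh
  exact mn_add (V := V) h c ▸ I.mul_mem_right _ hI

lemma rt_mn {p : ℕ} [Fact p.Prime] [CharP (AA M V) p] [PerfectRing (AA M V) p] (n : ℕ) (g : Ex M) :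
    rt p n (mn V g) = mn V ((((p ^ n : ℕ) : ℚ≥0))⁻¹ • g) := by
  have : ((p ^ n : ℕ) : ℚ≥0) ≠ 0 := Nat.cast_ne_zero.2 (pow_ne_zero _ (Fact.out : p.Prime).ne_zero)
  rw [rt_eq_iff, mn_pow, smul_inv_smul₀ this]

lemma exists_floor {ι : Type*} [Fintype ι] {y : ι → Fin (M + 1)} (hy : Injective y) {δ : ℚ≥0}
    (hδ : 0 < δ) (g : Ex M) (e : ℕ) (he : ((e : ℚ≥0) + Fintype.card ι) * δ ≤ ∑ i, g (y i)) :
    ∃ h ≤ g, (∀ x, (∀ i, y i ≠ x) → h x = 0) ∧
      mn V h ∈ Ideal.span (Set.range fun i => mo V (y i) δ) ^ e := by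
  classical
  let n : ι → ℕ := fun i => ⌊g (y i) / δ⌋₊
  have h0 : ∀ x, (∀ i, y i ≠ x) → (∑ i, (n i : ℚ≥0) • Finsupp.single (y i) δ : Ex M) x = 0 :=
    fun x hx => by simp [Finsupp.finsetSum_apply, hx]
  refine ⟨∑ i, (n i : ℚ≥0) • Finsupp.single (y i) δ, fun x => ?_, h0, ?_⟩
  · by_cases hx : ∀ i, y i ≠ x
    · rw [h0 x hx]; exact zero_le
    · obtain ⟨i, rfl⟩ : ∃ i, y i = x := by simpa using hx
      simp only [Finsupp.finsetSum_apply, Finsupp.smul_apply, Finsupp.single_apply, hy.eq_iff,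
        smul_eq_mul, mul_ite, mul_zero, Finset.sum_ite_eq', Finset.mem_univ, if_true]
      exact (le_div_iff₀ hδ).1 (Nat.floor_le zero_le)
  · have h1 : e ≤ ∑ i, n i := by
      have h2 : ∑ i, g (y i) ≤ ∑ i, ((n i : ℚ≥0) + 1) * δ := Finset.sum_le_sum fun i _ =>
        ((div_lt_iff₀ hδ).1 (Nat.lt_floor_add_one _)).le
      rw [← Finset.sum_mul, Finset.sum_add_distrib, Finset.sum_const, nsmul_eq_mul, mul_one,
        Finset.card_univ] at h2
      have h3 := le_of_add_le_add_right (le_of_mul_le_mul_right (he.trans h2) hδ)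
      exact_mod_cast h3
    refine Ideal.pow_le_pow_right h1 ?_
    have h4 : ∀ s : Finset ι, mn V (∑ i ∈ s, (n i : ℚ≥0) • Finsupp.single (y i) δ : Ex M) ∈
        Ideal.span (Set.range fun i => mo V (y i) δ) ^ ∑ i ∈ s, n i := fun s => by
      induction s using Finset.induction_on with
      | empty => simp
      | insert i s hi ih =>
        rw [Finset.sum_insert hi, Finset.sum_insert hi, pow_add, mn_add, ← mn_pow]
        exact Ideal.mul_mem_mul (Ideal.pow_mem_pow (Ideal.subset_span (Set.mem_range_self i)) _) ih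
    exact h4 _

lemma mn_mem_pow {δ : ℚ≥0} (hδ : 0 < δ) (g : Ex M) (e : ℕ)
    (he : ((e + M + 1 : ℕ) : ℚ≥0) * δ ≤ ∑ i, g i) :
    mn V g ∈ Ideal.span (Set.range fun i => mo V i δ) ^ e := by
  obtain ⟨h, h1, -, h2⟩ := exists_floor (V := V) injective_id hδ g e
    (by simpa [add_assoc] using he)
  exact mn_mem h1 h2

/-- Monomial filtration. -/
noncomputable def Nn (V : Type*) [CommRing V] (ν : Ex M → ℚ≥0) (l : ℚ≥0) : Ideal (AA M V) :=
  Ideal.span (mn V '' {g | l ≤ ν g})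

lemma Nn_pow {ν : Ex M → ℚ≥0} (hν : ∀ g h, ν g + ν h ≤ ν (g + h)) (l : ℚ≥0) (K : ℕ) :
    Nn V ν l ^ K ≤ Nn V ν (K * l) := by
  induction K with
  | zero =>
    rw [pow_zero, Ideal.one_eq_top, top_le_iff, Ideal.eq_top_iff_one]
    exact Ideal.subset_span ⟨0, by simp, rfl⟩
  | succ K ih =>
    rw [pow_succ]
    refine (Ideal.mul_mono_left ih).trans ?_
    rw [Nn, Nn, Ideal.span_mul_span']
    refine Ideal.span_mono ?_
    rintro _ ⟨_, ⟨g, hg, rfl⟩, _, ⟨h, hh, rfl⟩, rfl⟩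
    refine ⟨g + h, le_trans ?_ (hν g h), mn_add g h⟩
    rw [Nat.cast_succ, add_one_mul]
    exact add_le_add hg hh

lemma num {P n₀ K s u R : ℕ} (hs : 0 < s) (hu : 0 < u) (hR : 0 < R) (h1 : (n₀ + 2) * u ≤ P)
    (h2 : (P - n₀ - 1) * s ≤ K * P) {x d : ℚ≥0} (h3 : K * (s : ℚ≥0)⁻¹ ≤ x + d / (R * P : ℕ))
    (h4 : d ≤ R) : 1 ≤ x + 1 / u := by
  have h5 : n₀ + 2 ≤ P := (Nat.le_mul_of_pos_right _ hu).trans h1
  obtain ⟨e, rfl⟩ := Nat.exists_eq_add_of_le h5
  rw [show n₀ + 2 + e - n₀ - 1 = e + 1 by omega] at h2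
  generalize hP : n₀ + 2 + e = P at *
  have p0 : (0 : ℚ) < P := by exact_mod_cast (by omega : 0 < P)
  have s0 : (0 : ℚ) < s := by exact_mod_cast hs
  have u0 : (0 : ℚ) < u := by exact_mod_cast hu
  have r0 : (0 : ℚ) < R := by exact_mod_cast hR
  have a1 : ((n₀ : ℚ) + 2) / P ≤ 1 / u := by
    rw [div_le_div_iff₀ p0 u0, one_mul]; exact_mod_cast h1
  have a2 : ((e : ℚ) + 1) / P ≤ K / s := by
    rw [div_le_div_iff₀ p0 s0]; exact_mod_cast h2
  have a3 : (K : ℚ) / s ≤ x + d / (R * P) := by rw [div_eq_mul_inv]; exact_mod_cast h3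
  have a4 : (d : ℚ) / (R * P) ≤ 1 / P := by
    rw [div_le_div_iff₀ (by positivity) p0, one_mul]
    exact mul_le_mul_of_nonneg_right (by exact_mod_cast h4) p0.le
  have a5 : ((n₀ : ℚ) + 2) / P + (e + 1) / P = 1 + 1 / P := by
    field_simp
    rw [← hP]; push_cast; ring
  have : (1 : ℚ) ≤ x + 1 / u := by linarith
  exact_mod_cast this

lemma perfect (p : ℕ) [Fact p.Prime] (k : Type*) [Field k] [CharP k p] [PerfectField k]
    [CharP (AA M k) p] : PerfectRing (AA M k) p := by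
  refine PerfectRing.ofSurjective _ _ fun z => ?_
  induction z using AddMonoidAlgebra.induction_linear with
  | zero => exact ⟨0, map_zero _⟩
  | add a b ha hb =>
    obtain ⟨a, rfl⟩ := ha
    obtain ⟨b, rfl⟩ := hb
    exact ⟨a + b, map_add _ _ _⟩
  | single g c =>
    obtain ⟨c, rfl⟩ := surjective_frobenius k p c
    have : (p : ℚ≥0) ≠ 0 := Nat.cast_ne_zero.2 (Fact.out : p.Prime).ne_zero
    refine ⟨AddMonoidAlgebra.single ((p : ℚ≥0)⁻¹ • g) c, ?_⟩
    rw [frobenius_def, frobenius_def, AddMonoidAlgebra.single_pow,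
      ← Nat.cast_smul_eq_nsmul ℚ≥0, smul_inv_smul₀ this]

lemma exists_tilt_AA (p : ℕ) [Fact p.Prime] [IsDomain V] [IsDiscreteValuationRing V]
    [CharP (AA M (ResidueField V)) p] [PerfectRing (AA M (ResidueField V)) p]
    (hV : maximalIdeal V = Ideal.span {(p : V)}) {N : ℕ} (hN : 0 < N) :
    ∃ τ : Tilt p N (AA M V ⧸ (relA p M V ⊔ Ideal.span {(p : AA M V) ^ N}))
      (AA M (ResidueField V)), τ.t = mo _ 0 1 ∧
      ∀ g, τ.sh (mn _ g) = Ideal.Quotient.mk _ (mn V g) := by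
  let ρ := AddMonoidAlgebra.mapRingHom (Ex M) (residue V)
  have hρ : ∀ g, ρ (mn V g) = mn _ g := fun g => by simp [ρ, mn]
  have hq : ((p ^ N : ℕ) : ℚ≥0) ≠ 0 :=
    Nat.cast_ne_zero.2 (pow_ne_zero _ (Fact.out : p.Prime).ne_zero)
  have e : ∀ g : Ex M, mn V (((p ^ N : ℕ) : ℚ≥0)⁻¹ • g) ^ p ^ N = mn V g := fun g => by
    rw [mn_pow, smul_inv_smul₀ hq]
  have p0 : (p : V) ≠ 0 := fun h => IsDiscreteValuationRing.not_a_field V (by simp [hV, h])
  have hk : ∀ a, ρ a = 0 → (p : AA M V) ∣ a := fun a ha => by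
    rw [← a.sum_coeff_single]
    refine Finset.dvd_sum fun g _ => ?_
    have : a.coeff g ∈ maximalIdeal V := by
      rw [← residue_eq_zero_iff, ← AddMonoidAlgebra.coeff_mapRingHom]
      exact congrArg (fun x => x.coeff g) ha
    obtain ⟨c, hc⟩ := Ideal.mem_span_singleton.1 (hV ▸ this)
    exact ⟨.single g c, by simp [hc, AddMonoidAlgebra.natCast_def,
      AddMonoidAlgebra.single_mul_single]⟩
  have t0 : ρ (mo V 0 1) ≠ 0 := by
    rw [mo_eq, hρ]
    exact AddMonoidAlgebra.single_ne_zero.2 one_ne_zero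
  have p1 : (p : AA M V) ≠ 0 := AddMonoidAlgebra.single_ne_zero.2 p0
  obtain ⟨τ, h1, h2⟩ := exists_tilt (p := p) hN ρ
    (AddMonoidAlgebra.map_surjective _ residue_surjective) hk _ (mo V 0 1) (e _)
    (fun z hz => (mul_eq_zero.1 hz).resolve_right t0)
    (fun a ha => (mul_eq_zero.1 ha).resolve_left p1)
    (J := relA p M V ⊔ Ideal.span {(p : AA M V) ^ N}) rfl
  exact ⟨τ, h1.trans (hρ _), fun g => by rw [← e g, ← h2, ← map_pow, e, hρ]⟩

lemma map_mP {p : ℕ} {O : Type*} [CommRing O] (π : AA M V →+* O) (h : π (mo V 0 1) = p) :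
    ((mP p M V).map (toA M V)).map π = (Ideal.span (Set.range fun i => mo V i 1)).map π := by
  have e : ∀ i, toA M V (MvPolynomial.X i) = mo V i.succ 1 := fun i => MvPolynomial.aeval_X _ _
  simp only [mP, Ideal.map_sup, Ideal.map_span, Set.image_singleton, map_natCast,
    ← Set.range_comp, comp_def, e, Fin.range_fin_succ (fun i => π (mo V i 1)), h, Fin.tail_def]
  rw [Ideal.span_insert]

/-- The second half of `Tilt.main` for monomial ideals. -/
lemma core {p N' : ℕ} [Fact p.Prime] {k O : Type*} [CommRing k] [CommRing O] [CharP (AA M k) p]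
    [PerfectRing (AA M k) p] (τ : Tilt p N' O (AA M k)) (π : AA M V →+* O)
    (ht : τ.t = mo k 0 1) (hsh : ∀ g, τ.sh (mn k g) = π (mn V g)) {r : ℕ} {f : Fin r → O}
    {φ : Fin r → AA M k} {b n₀ N u : ℕ} (hu : 0 < u) (hb : (n₀ + 2) * u ≤ p ^ b)
    (h2 : ∀ (S : Set (AA M k)) (z : AA M k), τ.t ^ ((N + M + 1) * p ^ b) ∈ S →
      τ.sh z ^ p ^ b ∈ Ideal.span (τ.sh '' S) ^ (p ^ b - n₀) ⊔ Ideal.span (Set.range f) →
      ∃ n K : ℕ, (p ^ b - n₀ - 1) * p ^ n ≤ K * p ^ b ∧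
        τ.sh z ∈ (Ideal.span ((fun s => τ.sh (rt p n s)) '' S) ⊔
          Ideal.span (Set.range fun i => τ.sh (rt p (n + b) (φ i)))) ^ K)
    {ι : Type*} (s : ι → Ex M) {ν : Ex M → ℚ≥0} (hν : ∀ g h, ν g + ν h ≤ ν (g + h))
    (hs : ∀ (x : ℚ≥0) i, x ≤ ν (x • s i)) (z : Ex M) {N₂ : ℕ}
    (hN₂ : (p ^ b + M + 1) * ((N + M + 1) * p ^ b) ≤ N₂)
    (hz : π (mn V z) ^ p ^ b ∈ Ideal.span (Set.range fun i => π (mn V (s i))) ^ (p ^ b - n₀) ⊔
      Ideal.span (Set.range f) ⊔ ((Ideal.span (Set.range fun i => mo V i 1)).map π) ^ N₂) :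
    ∃ n, π (mn V z) ∈ (Ideal.span (mn V '' {g | 1 ≤ ν g + 1 / u}) ⊔
      Ideal.span (Set.range fun i => mo V i 1) ^ N).map π ⊔
      Ideal.span (Set.range fun i => τ.sh (rt p (n + b) (φ i))) := by
  have hp : ∀ n, 0 < p ^ n := fun n => pow_pos (Fact.out : p.Prime).pos n
  generalize hc : (N + M + 1) * p ^ b = c at h2 hN₂
  have c0 : (0 : ℚ≥0) < c := Nat.cast_pos.2 (hc ▸ Nat.mul_pos (Nat.succ_pos _) (hp b))
  have hdeg : ∀ g h : Ex M, ∑ i, g i + ∑ i, h i ≤ ∑ i, (g + h) i := fun g h => by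
    simp [Finset.sum_add_distrib]
  have hd1 : ∀ (i : Fin (M + 1)) (x : ℚ≥0), ∑ j, (Finsupp.single i x : Ex M) j = x :=
    fun i x => by simp [Finsupp.single_apply]
  obtain ⟨n, K, hK, hm⟩ := h2 (Set.range (fun i => mn k (s i)) ∪ Set.range fun i => mo k i c)
    (mn k z) (Or.inr ⟨0, by simp [ht, mo_eq, mn_pow]⟩) (by
      rw [hsh]
      refine mem_of hz (sup_le (sup_le_sup_right (Ideal.pow_right_mono (Ideal.span_mono ?_) _) _)
        (le_sup_of_le_left ?_))
      · rintro _ ⟨i, rfl⟩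
        exact ⟨_, Or.inl ⟨i, rfl⟩, hsh _⟩
      · have a1 : Ideal.span (Set.range fun i => mo V i 1) ≤ Nn V (fun g : Ex M => ∑ i, g i) 1 :=
          Ideal.span_mono (by rintro _ ⟨i, rfl⟩; exact ⟨_, (hd1 i 1).ge, rfl⟩)
        have a2 : Nn V (fun g : Ex M => ∑ i, g i) (N₂ * 1) ≤
            Ideal.span (Set.range fun i => mo V i c) ^ (p ^ b - n₀) := by
          refine Ideal.span_le.2 ?_
          rintro _ ⟨g, hg, rfl⟩
          refine Ideal.pow_le_pow_right (Nat.sub_le _ _) (mn_mem_pow c0 g _ (le_trans ?_ hg))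
          rw [mul_one]
          exact_mod_cast hN₂
        rw [← Ideal.map_pow]
        refine (Ideal.map_mono (((Ideal.pow_right_mono a1 _).trans (Nn_pow hdeg 1 N₂)).trans
          a2)).trans ?_
        rw [Ideal.map_pow, Ideal.map_span]
        refine Ideal.pow_right_mono (Ideal.span_mono ?_) _
        rintro _ ⟨_, ⟨i, rfl⟩, rfl⟩
        exact ⟨_, Or.inr ⟨i, rfl⟩, hsh _⟩)
  refine ⟨n, mem_of (sup_pow_le _ _ K (hsh z ▸ hm)) (sup_le_sup_right ?_ _)⟩
  have a1 : Ideal.span ((fun s => τ.sh (rt p n s)) ''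
      (Set.range (fun i => mn k (s i)) ∪ Set.range fun i => mo k i c)) ≤
      (Nn V (fun g => ν g + (∑ i, g i) / c) ((p ^ n : ℕ) : ℚ≥0)⁻¹).map π := by
    refine Ideal.span_le.2 ?_
    rintro _ ⟨_, ⟨i, rfl⟩ | ⟨i, rfl⟩, rfl⟩ <;> simp only [mo_eq, rt_mn, hsh] <;>
      refine Ideal.mem_map_of_mem _ (Ideal.subset_span ⟨_, ?_, rfl⟩)
    · exact (hs _ i).trans le_self_add
    · simp only [Set.mem_ofPred_eq, Finsupp.smul_single, hd1, smul_eq_mul,
        mul_div_cancel_right₀ _ c0.ne']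
      exact le_add_self
  refine (Ideal.pow_right_mono a1 K).trans ?_
  rw [← Ideal.map_pow]
  refine Ideal.map_mono ((Nn_pow (fun g h => ?_) _ K).trans (Ideal.span_le.2 ?_))
  · rw [add_add_add_comm, ← add_div]
    exact add_le_add (hν g h) (div_le_div_of_nonneg_right (hdeg g h) c0.le)
  · rintro _ ⟨g, hg, rfl⟩
    rcases le_total (∑ i, g i) (N + M + 1 : ℕ) with h | h
    · exact Ideal.mem_sup_left (Ideal.subset_span
        ⟨g, num (hp n) hu (Nat.succ_pos _) hb hK (hc ▸ hg) h, rfl⟩)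
    · exact Ideal.mem_sup_right (mn_mem_pow one_pos g N (by rwa [mul_one]))

end TiltBX

open TiltBX in

theorem tiltB (p : ℕ) [Fact p.Prime] (V : Type*) [CommRing V] [IsDomain V]
    [IsDiscreteValuationRing V] [PerfectField (ResidueField V)]
    (hV : maximalIdeal V = Ideal.span {(p : V)}) {M D r : ℕ} (G : Fin M) (y : Fin D → Fin M)
    (hy : Injective y) (hG : ∀ i, y i ≠ G) (n₀ N Q' q : ℕ) (hQ' : 0 < Q') (hq : 0 < q) :
    ∃ m N₂ : ℕ, N < N₂ ∧ ∀ (f : Fin r → MvPolynomial (Fin M) V) (H₁ H₂ : Finset (Fin M)),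
      (∀ H ∈ H₁, MvPolynomial.X H ^ (m + n₀) ∈ Ideal.span {MvPolynomial.X G} ^ m ⊔
        Ideal.span (Set.range f) ⊔ mP p M V ^ N₂) →
      (∀ H ∈ H₂, MvPolynomial.X H ^ (m + n₀) ∈ (Ideal.span {MvPolynomial.X G} *
        Ideal.span (Set.range fun i => MvPolynomial.X (y i))) ^ m ⊔
        Ideal.span (Set.range f) ⊔ mP p M V ^ N₂) →
      ∃ (ψ : Fin r → AA M V) (Q : ℕ) (θ : ℚ≥0), 0 < Q ∧ 0 < θ ∧
        (∀ j, toA M V (f j) - ψ j ^ Q ∈
          Ideal.span {mo V 0 θ} * Ideal.span {ψ j, mo V 0 (N / Q)} ^ Q ⊔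
            Ideal.span {(p : AA M V) ^ (N + 1)} ⊔ relA p M V) ∧
        (∀ H ∈ H₁, mo V G.succ (1 / Q') * mo V H.succ 1 ∈ Ideal.span {mo V G.succ 1} ⊔
          Ideal.span (Set.range ψ) ⊔ (mP p M V ^ N).map (toA M V) ⊔ relA p M V) ∧
        (∀ H ∈ H₂, mo V G.succ (1 / Q') * mo V H.succ 1 ∈ Ideal.span {mo V G.succ 1} *
          Ideal.span (Set.range fun i => mo V (y i).succ (1 / q)) ^ (q - D - 1) ⊔
          Ideal.span (Set.range ψ) ⊔ (mP p M V ^ N).map (toA M V) ⊔ relA p M V) := by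
  classical
  have : CharP (ResidueField V) p := (CharP.charP_iff_prime_eq_zero Fact.out).2 (by
    rw [← map_natCast (residue V), residue_eq_zero_iff, hV]
    exact Ideal.mem_span_singleton_self _)
  have : CharP (AA M (ResidueField V)) p := charP_of_injective_ringHom
    (f := AddMonoidAlgebra.singleZeroRingHom) AddMonoidAlgebra.single_right_injective p
  have := perfect (M := M) p (ResidueField V)
  have hp : ∀ n, 0 < p ^ n := fun n => pow_pos (Fact.out : p.Prime).pos n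
  obtain ⟨u, hu1, hu2⟩ : ∃ u, Q' ≤ u ∧ q ≤ u := ⟨_, le_max_left _ _, le_max_right _ _⟩
  obtain ⟨b, hb⟩ : ∃ b, (n₀ + 2) * u ≤ p ^ b :=
    ⟨_, (Nat.lt_pow_self (Fact.out : p.Prime).one_lt).le⟩
  have hu := hq.trans_le hu2
  have hb0 : p ^ b - n₀ + n₀ = p ^ b :=
    Nat.sub_add_cancel ((n₀.le_add_right 2).trans ((Nat.le_mul_of_pos_right _ hu).trans hb))
  obtain ⟨N', hN1, hN2⟩ : ∃ N', (N + M + 1) * p ^ b * p ^ b ≤ N' ∧ N + 1 ≤ N' :=
    ⟨_, le_max_left _ _, le_max_right _ _⟩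
  obtain ⟨N₂, hN3, hN4⟩ : ∃ N₂, (p ^ b + M + 1) * ((N + M + 1) * p ^ b) ≤ N₂ ∧ N + 1 ≤ N₂ :=
    ⟨_, le_max_left _ _, le_max_right _ _⟩
  refine ⟨p ^ b - n₀, N₂, hN4, fun f H₁ H₂ h₁ h₂ => ?_⟩
  rw [hb0] at h₁ h₂
  obtain ⟨τ, ht, hsh⟩ := exists_tilt_AA (M := M) p hV (N.succ_pos.trans_le hN2)
  generalize hJ : relA p M V ⊔ Ideal.span {(p : AA M V) ^ N'} = J at τ hsh
  let π := Ideal.Quotient.mk J
  have hX : ∀ i, toA M V (MvPolynomial.X i) = mn V (Finsupp.single i.succ 1) := fun i =>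
    MvPolynomial.aeval_X _ _
  have hπ : π (mo V 0 1) = p := (hsh _).symm.trans ((congrArg τ.sh ht.symm).trans τ.sh_t)
  obtain ⟨φ, ⟨k₀, hk₀⟩, hφ⟩ := τ.main (fun i => π (toA M V (f i))) N'
  have tr : ∀ (I : Ideal (MvPolynomial (Fin M) V)) (H : Fin M), MvPolynomial.X H ^ p ^ b ∈
      I ^ (p ^ b - n₀) ⊔ Ideal.span (Set.range f) ⊔ mP p M V ^ N₂ →
      π (mn V (Finsupp.single H.succ 1)) ^ p ^ b ∈ ((I.map (toA M V)).map π) ^ (p ^ b - n₀) ⊔
        Ideal.span (Set.range fun i => π (toA M V (f i))) ⊔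
        ((Ideal.span (Set.range fun i => mo V i 1)).map π) ^ N₂ := fun I H h => by
    have := Ideal.mem_map_of_mem π (Ideal.mem_map_of_mem (toA M V) h)
    simpa only [Ideal.map_sup, Ideal.map_pow, map_pow, hX, map_mP π hπ,
      Ideal.map_span _ (Set.range f), Ideal.map_span _ (_ '' _), Set.image_image,
      Set.image_image, ← Set.range_comp' _ f, Ideal.map_span π (Set.range fun i => toA M V (f i)),
      ← Set.range_comp' π] using this
  have co := fun {ι : Type} => core (V := V) (ι := ι) τ π ht hsh hu hb fun S z hS hz =>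
    hφ S _ b n₀ z (Nat.mul_pos (Nat.succ_pos _) (hp b)) hS hN1 hN1 hz
  have c₁ := fun H (hH : H ∈ H₁) => co (fun _ : Unit => Finsupp.single G.succ 1)
    (ν := fun g => g G.succ) (fun g h => le_rfl) (fun x i => by simp) _ hN3 (by
      have := tr _ H (h₁ H hH)
      rwa [Ideal.map_span, Ideal.map_span, Set.image_singleton, Set.image_singleton, hX,
        ← Set.range_const (ι := Unit)] at this)
  have c₂ := fun H (hH : H ∈ H₂) =>
    co (fun i : Fin D => Finsupp.single G.succ 1 + Finsupp.single (y i).succ 1)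
    (ν := fun g => min (g G.succ) (∑ i, g (y i).succ)) (fun g h => by
      simp only [Finsupp.add_apply, Finset.sum_add_distrib]
      exact le_min (add_le_add (min_le_left _ _) (min_le_left _ _))
        (add_le_add (min_le_right _ _) (min_le_right _ _))) (fun x i => by
      refine le_min (by simp) (le_trans ?_ (Finset.single_le_sum (fun _ _ => zero_le)
        (Finset.mem_univ i)))
      simp) _ hN3 (by
      have := tr _ H (h₂ H hH)
      rw [Ideal.span_mul_span', Ideal.map_span, Ideal.map_span, Set.singleton_mul,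
        ← Set.range_comp', ← Set.range_comp', ← Set.range_comp'] at this
      simpa only [map_mul, hX, mn_add] using this)
  choose! n₁ c₁ using c₁
  choose! n₂ c₂ using c₂
  obtain ⟨a, ha0, ha1, ha2⟩ : ∃ a, k₀ ≤ a ∧ (∀ H, n₁ H + b ≤ a) ∧ ∀ H, n₂ H + b ≤ a := by
    refine ⟨k₀ + ∑ H, (n₁ H + n₂ H + b), le_self_add, fun H => ?_, fun H => ?_⟩ <;>
      have := Finset.single_le_sum (f := fun H => n₁ H + n₂ H + b) (fun _ _ => zero_le)
        (Finset.mem_univ H) <;> omega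
  choose ψ hψ using fun j => Ideal.Quotient.mk_surjective (τ.sh (rt p a (φ j)))
  have hB : ∀ {n : ℕ} {T T' : Ideal (AA M V)} {κ x : AA M V}, n ≤ a → Ideal.span {κ} * T ≤ T' →
      π x ∈ (T ⊔ Ideal.span (Set.range fun i => mo V i 1) ^ N).map π ⊔
        Ideal.span (Set.range fun i => τ.sh (rt p n (φ i))) →
      κ * x ∈ T' ⊔ Ideal.span (Set.range ψ) ⊔ (mP p M V ^ N).map (toA M V) ⊔ relA p M V := by
    intro n T T' κ x hn hT hx
    have a1 : Ideal.span (Set.range fun i => τ.sh (rt p n (φ i))) ≤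
        (Ideal.span (Set.range ψ)).map π := by
      refine Ideal.span_le.2 ?_
      rintro _ ⟨i, rfl⟩
      simp only [rt_of_le hn, map_pow, ← hψ]
      exact Ideal.pow_mem_of_mem _
        (Ideal.mem_map_of_mem _ (Ideal.subset_span (Set.mem_range_self i))) _ (hp _)
    have a2 := sup_le_sup_left a1 _ hx
    rw [Ideal.map_sup, Ideal.map_pow, ← map_mP π hπ, ← Ideal.map_pow, ← Ideal.map_pow,
      ← Ideal.map_sup, ← Ideal.map_sup, Ideal.mem_quotient_iff_mem_sup] at a2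
    have a3 : J ≤ (mP p M V ^ N).map (toA M V) ⊔ relA p M V := by
      refine hJ.ge.trans (sup_le le_sup_right (le_sup_of_le_left ?_))
      rw [Ideal.span_singleton_le_iff_mem, ← map_natCast (toA M V), ← map_pow]
      exact Ideal.mem_map_of_mem _ (Ideal.pow_le_pow_right (by omega) (Ideal.pow_mem_pow
        (Ideal.mem_sup_left (Ideal.mem_span_singleton_self _)) N'))
    refine mem_of (Ideal.mul_mem_mul (Ideal.mem_span_singleton_self κ) a2) ?_
    rw [Ideal.mul_sup, Ideal.mul_sup, Ideal.mul_sup, sup_assoc (T' ⊔ _)]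
    exact sup_le (sup_le (sup_le (le_sup_of_le_left (le_sup_of_le_left hT))
      (le_sup_of_le_right (le_sup_of_le_left Ideal.mul_le_right)))
      (le_sup_of_le_left (le_sup_of_le_right Ideal.mul_le_right)))
      (le_sup_of_le_right (Ideal.mul_le_right.trans a3))
  have hG1 : ∀ x : ℚ≥0, 1 ≤ x + 1 / u → 1 ≤ 1 / (Q' : ℚ≥0) + x := fun x hx =>
    hx.trans ((add_comm _ _).trans_le (add_le_add_left (one_div_le_one_div_of_le
      (Nat.cast_pos.2 hQ') (Nat.cast_le.2 hu1)) x))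
  refine ⟨ψ, p ^ a, ((p ^ 2 : ℕ) : ℚ≥0)⁻¹, hp a, inv_pos.2 (Nat.cast_pos.2 (hp 2)), fun j => ?_,
    fun H hH => hB (ha1 H) ?_ (c₁ H hH), fun H hH => hB (ha2 H) ?_ (c₂ H hH)⟩
  · have a1 : π (toA M V (f j) - ψ j ^ p ^ a) ∈ (Ideal.span {mo V 0 ((p ^ 2 : ℕ) : ℚ≥0)⁻¹} *
        Ideal.span {ψ j, mo V 0 (N / (p ^ a : ℕ))} ^ p ^ a).map π := by
      rw [map_sub, map_pow, hψ, ← map_pow, rt_pow, Ideal.map_mul, Ideal.map_pow]
      refine mem_of (hk₀ a ha0 j) (Ideal.mul_mono ?_ (Ideal.pow_right_mono ?_ _))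
      · rw [ht, mo_eq, rt_mn, hsh, Finsupp.smul_single, smul_eq_mul, mul_one, Ideal.map_span,
          Set.image_singleton]
        rfl
      · rw [Ideal.span_le, Set.insert_subset_iff, Set.singleton_subset_iff, ← hψ, ht, mo_eq 0 1,
          mn_pow, rt_mn, hsh]
        refine ⟨Ideal.mem_map_of_mem _ (Ideal.subset_span (Or.inl rfl)), Ideal.mem_map_of_mem _
          (mn_mem ?_ (Ideal.subset_span (Or.inr rfl)))⟩
        rw [Finsupp.smul_single, Finsupp.smul_single, Finsupp.single_le_single, smul_eq_mul,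
          smul_eq_mul, mul_one, inv_mul_eq_div]
        exact div_le_div_of_nonneg_right (Nat.cast_le.2 (by omega)) zero_le
    refine mem_of (Ideal.mem_quotient_iff_mem_sup.1 a1) ?_
    rw [sup_assoc, ← hJ, sup_comm (relA p M V)]
    exact sup_le_sup_left (sup_le_sup_right
      (Ideal.span_singleton_le_span_singleton.2 (pow_dvd_pow _ hN2)) _) _
  · rw [Ideal.span_mul_span', Ideal.span_le]
    rintro _ ⟨_, rfl, _, ⟨g, hg, rfl⟩, rfl⟩
    refine (mn_add (V := V) _ g).subst (mn_mem ?_ (Ideal.mem_span_singleton_self _))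
    rw [Finsupp.single_le_iff, Finsupp.add_apply, Finsupp.single_eq_same]
    exact hG1 _ hg
  · rw [Ideal.span_mul_span', Ideal.span_le]
    rintro _ ⟨_, rfl, _, ⟨g, hg, rfl⟩, rfl⟩
    have q0 : (0 : ℚ≥0) < q := Nat.cast_pos.2 hq
    have a1 : 1 ≤ ∑ i, g (y i).succ + 1 / (q : ℚ≥0) := hg.trans (add_le_add (min_le_right _ _)
      (one_div_le_one_div_of_le q0 (Nat.cast_le.2 hu2)))
    have a2 := hG1 _ (hg.trans (add_le_add_left (min_le_left _ _) _))
    obtain ⟨h, h1, h2, h3⟩ : ∃ h ≤ g, (∀ x, (∀ i, (y i).succ ≠ x) → h x = 0) ∧ mn V h ∈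
        Ideal.span (Set.range fun i => mo V (y i).succ (1 / q)) ^ (q - D - 1) := by
      rcases le_or_gt q D with hD | hD
      · exact ⟨0, zero_le, fun _ _ => rfl, by simp [Nat.sub_eq_zero_of_le hD]⟩
      refine exists_floor ((Fin.succ_injective _).comp hy) (one_div_pos.2 q0) g _ ?_
      refine le_of_add_le_add_right (le_trans (le_of_eq ?_) a1)
      rw [← add_one_mul, Fintype.card_fin, mul_one_div, div_eq_one_iff_eq q0.ne']
      exact_mod_cast (by omega : q - D - 1 + D + 1 = q)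
    refine (mn_add (V := V) _ g).subst (mn_mem (h := Finsupp.single G.succ 1 + h) (fun x => ?_)
      (mn_add (V := V) _ h ▸ Ideal.mul_mem_mul (Ideal.mem_span_singleton_self _) h3))
    by_cases hx : x = G.succ
    · rw [hx, Finsupp.add_apply, Finsupp.add_apply, Finsupp.single_eq_same, Finsupp.single_eq_same,
        h2 _ fun i hi => hG i (Fin.succ_injective _ hi), add_zero]
      exact a2
    · rw [Finsupp.add_apply, Finsupp.add_apply, Finsupp.single_eq_of_ne hx,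
        Finsupp.single_eq_of_ne hx]
      exact add_le_add_right (h1 x) _

end Vale.Agent.P202
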