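import Vale.Agent.P202M.TiltB

/-! Descent to a finite level. -/

open IsLocalRing Function MvPowerSeries

namespace Vale.Agent.P202

universe v

namespace TiltCX

open Filter
open scoped NNRat

section eh
variable {A : Type*} [CommRing A] {B : ℕ → Type*} [∀ n, CommRing (B n)]

/-- Families of maps that are eventually ring homomorphisms on given elements. -/
structure EH (ρ : ∀ n, A → B n) : Prop where
  add : ∀ a b, ∀ᶠ n in atTop, ρ n (a + b) = ρ n a + ρ n b
  mul : ∀ a b, ∀ᶠ n in atTop, ρ n (a * b) = ρ n a * ρ n b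
  one : ∀ n, ρ n 1 = 1

/-- Elements of `I` are eventually mapped to `T n`. -/
def Desc (ρ : ∀ n, A → B n) (I : Ideal A) (T : ∀ n, Ideal (B n)) : Prop :=
  ∀ a ∈ I, ∀ᶠ n in atTop, ρ n a ∈ T n

variable {ρ : ∀ n, A → B n} {I I' : Ideal A} {T T' : ∀ n, Ideal (B n)}

lemma EH.sub (h : EH ρ) (a b : A) : ∀ᶠ n in atTop, ρ n (a - b) = ρ n a - ρ n b := by
  filter_upwards [h.add (a - b) b] with n hn
  rw [sub_add_cancel] at hn
  exact eq_sub_of_add_eq hn.symm

lemma EH.zero (h : EH ρ) : ∀ᶠ n in atTop, ρ n 0 = 0 := by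
  filter_upwards [h.sub 0 0] with n hn
  simpa using hn

lemma EH.pow (h : EH ρ) (a : A) (k : ℕ) : ∀ᶠ n in atTop, ρ n (a ^ k) = ρ n a ^ k := by
  induction k with
  | zero => exact Eventually.of_forall fun n => by rw [pow_zero, pow_zero, h.one]
  | succ k ih =>
    filter_upwards [ih, h.mul (a ^ k) a] with n h1 h2
    rw [pow_succ, pow_succ, h2, h1]

lemma EH.span (h : EH ρ) {S : Set A} (hS : ∀ s ∈ S, ∀ᶠ n in atTop, ρ n s ∈ T n) :
    Desc ρ (Ideal.span S) T := by
  intro a ha
  refine Submodule.span_induction hS ?_ (fun a b _ _ h1 h2 => ?_) (fun a b _ h1 => ?_) ha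
  · filter_upwards [h.zero] with n hn
    exact hn ▸ zero_mem _
  · filter_upwards [h.add a b, h1, h2] with n hn h1 h2
    exact hn ▸ add_mem h1 h2
  · filter_upwards [h.mul a b, h1] with n hn h1
    rw [smul_eq_mul, hn]
    exact Ideal.mul_mem_left _ _ h1

lemma EH.span' (h : EH ρ) {S : Set A} (hS : ∀ s ∈ S, ∀ n, ρ n s ∈ T n) :
    Desc ρ (Ideal.span S) T := h.span fun s hs => Eventually.of_forall (hS s hs)

lemma Desc.mono (h : Desc ρ I T) (hT : ∀ᶠ n in atTop, T n ≤ T' n) : Desc ρ I T' := fun a ha => by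
  filter_upwards [h a ha, hT] with n h1 h2
  exact h2 h1

lemma EH.sup (h : EH ρ) (h1 : Desc ρ I T) (h2 : Desc ρ I' T) : Desc ρ (I ⊔ I') T := by
  rw [← Ideal.span_eq I, ← Ideal.span_eq I', ← Ideal.span_union]
  exact h.span fun s hs => hs.elim (h1 s) (h2 s)

lemma EH.sup' (h : EH ρ) (h1 : Desc ρ I T) (h2 : Desc ρ I' T') :
    Desc ρ (I ⊔ I') fun n => T n ⊔ T' n :=
  h.sup (h1.mono (Eventually.of_forall fun _ => le_sup_left))
    (h2.mono (Eventually.of_forall fun _ => le_sup_right))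

lemma EH.dmul (h : EH ρ) (h1 : Desc ρ I T) (h2 : Desc ρ I' T') :
    Desc ρ (I * I') fun n => T n * T' n := by
  rw [← Ideal.span_eq I, ← Ideal.span_eq I', Ideal.span_mul_span']
  refine h.span ?_
  rintro _ ⟨a, ha, b, hb, rfl⟩
  filter_upwards [h.mul a b, h1 a ha, h2 b hb] with n hn h1 h2
  exact hn ▸ Ideal.mul_mem_mul h1 h2

lemma EH.dpow (h : EH ρ) (h1 : Desc ρ I T) (k : ℕ) : Desc ρ (I ^ k) fun n => T n ^ k := by
  induction k with
  | zero => exact fun a _ => Eventually.of_forall fun n => by simp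
  | succ k ih => simpa only [pow_succ] using h.dmul ih h1

end eh

variable {M : ℕ} {V : Type v} [CommRing V]

/-- Scaling of exponents. -/
noncomputable def sc (M n : ℕ) : (Fin (M + 1) →₀ ℕ) →+ (Fin (M + 1) →₀ ℚ≥0) :=
  Finsupp.mapRange.addMonoidHom
    ((AddMonoidHom.mulRight ((n.factorial : ℚ≥0)⁻¹)).comp (Nat.castAddMonoidHom ℚ≥0))

lemma fac_ne (n : ℕ) : (n.factorial : ℚ≥0) ≠ 0 := by exact_mod_cast n.factorial_ne_zero

lemma sc_injective (n : ℕ) : Injective (sc M n) := by
  intro a b h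
  ext i
  simpa [sc, fac_ne n] using DFunLike.congr_fun h i

/-- Polynomials in the roots of level `n !`. -/
noncomputable def io (M : ℕ) (V : Type v) [CommRing V] (n : ℕ) :
    MvPolynomial (Fin (M + 1)) V →ₐ[V] AA M V :=
  AddMonoidAlgebra.mapDomainAlgHom V V (sc M n)

lemma io_injective (n : ℕ) : Injective (io M V n) :=
  AddMonoidAlgebra.mapDomain_injective (sc_injective n)

lemma io_X_pow (n : ℕ) (i : Fin (M + 1)) (k : ℕ) :
    io M V n (MvPolynomial.X i ^ k) = mo V i (k * (n.factorial : ℚ≥0)⁻¹) := by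
  rw [MvPolynomial.X_pow_eq_monomial]
  refine AddMonoidAlgebra.mapDomain_single.trans ?_
  simp [sc, mo]

lemma io_X_fac (n : ℕ) (i : Fin (M + 1)) :
    io M V n (MvPolynomial.X i ^ n.factorial) = mo V i 1 := by
  rw [io_X_pow, mul_inv_cancel₀ (fac_ne n)]

lemma mo_pow (i : Fin (M + 1)) (θ : ℚ≥0) (k : ℕ) : mo V i θ ^ k = mo V i (k * θ) := by
  simp [mo, AddMonoidAlgebra.single_pow]

lemma ev_range (a : AA M V) : ∀ᶠ n in atTop, a ∈ (io M V n).range := by
  induction a using AddMonoidAlgebra.induction_linear with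
  | zero => exact Eventually.of_forall fun n => zero_mem _
  | add a b ha hb =>
    filter_upwards [ha, hb] with n ha hb
    exact add_mem ha hb
  | single g c =>
    have h1 : ∀ i, ∀ᶠ n in atTop, mo V i (g i) ∈ (io M V n).range := by
      intro i
      filter_upwards [eventually_ge_atTop (g i).den] with n hn
      obtain ⟨k, hk⟩ := Nat.dvd_factorial (g i).den_pos hn
      refine ⟨MvPolynomial.X i ^ ((g i).num * k), (io_X_pow n i _).trans ?_⟩
      rw [← div_eq_mul_inv, (div_eq_iff (fac_ne n)).2]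
      rw [hk, Nat.cast_mul, Nat.cast_mul, ← mul_assoc, NNRat.mul_den_eq_num]
    filter_upwards [eventually_all.2 h1] with n hn
    have h2 : (AddMonoidAlgebra.single g c : AA M V) = c • ∏ i, mo V i (g i) := by
      have h3 := map_prod (AddMonoidAlgebra.of V (Fin (M + 1) →₀ ℚ≥0))
        (fun i => Multiplicative.ofAdd (Finsupp.single i (g i))) Finset.univ
      rw [← ofAdd_sum, Finsupp.univ_sum_single] at h3
      change AddMonoidAlgebra.single g 1 = ∏ i, mo V i (g i) at h3
      rw [← h3, AddMonoidAlgebra.smul_single, smul_eq_mul, mul_one]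
    rw [h2]
    exact Subalgebra.smul_mem _ (prod_mem fun i _ => hn i) _

/-- The ring at level `n !`. -/
abbrev BB (p M : ℕ) (V : Type v) [CommRing V] (n : ℕ) :=
  PS (M + 1) V ⧸ Ideal.span (Set.range fun _ : Fin 1 =>
    (X 0 ^ n.factorial - (p : PS (M + 1) V) : PS (M + 1) V))

lemma hasSubst_fac (n : ℕ) :
    HasSubst (fun i : Fin M => (X i.succ ^ n.factorial : MvPowerSeries (Fin (M + 1)) V)) :=
  hasSubst_of_constantCoeff_zero fun i => by simp [n.factorial_ne_zero]

/-- The structure map. -/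
noncomputable def alg (p M : ℕ) (V : Type v) [CommRing V] (n : ℕ) : PS M V →+* BB p M V n :=
  (Ideal.Quotient.mk _).comp (substAlgHom (R := V) (hasSubst_fac (M := M) (V := V) n)).toRingHom

lemma alg_X (p n : ℕ) (i : Fin M) :
    alg p M V n (X i) = Ideal.Quotient.mk _ (X i.succ) ^ n.factorial :=
  (congrArg (Ideal.Quotient.mk _) (substAlgHom_X _ i)).trans (map_pow _ _ _)

lemma mk_X_zero (p n : ℕ) : (Ideal.Quotient.mk _ (X 0) : BB p M V n) ^ n.factorial = p := by
  rw [← map_pow, ← map_natCast (Ideal.Quotient.mk _), Ideal.Quotient.eq]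
  exact Ideal.subset_span ⟨0, rfl⟩

/-- The eventually multiplicative maps. -/
noncomputable def rho (p M : ℕ) (V : Type v) [CommRing V] (n : ℕ) (a : AA M V) : BB p M V n :=
  Ideal.Quotient.mk _ ((invFun (io M V n) a : MvPolynomial (Fin (M + 1)) V) : PS (M + 1) V)

lemma rho_io (p n : ℕ) (g : MvPolynomial (Fin (M + 1)) V) :
    rho p M V n (io M V n g) = Ideal.Quotient.mk _ (g : PS (M + 1) V) := by
  rw [rho, leftInverse_invFun (io_injective n) g]

lemma eh_rho (p : ℕ) : EH (rho p M V) := by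
  refine ⟨fun a b => ?_, fun a b => ?_, fun n => ?_⟩
  · filter_upwards [ev_range a, ev_range b] with n ⟨a', ha⟩ ⟨b', hb⟩
    change io M V n a' = a at ha
    change io M V n b' = b at hb
    rw [← ha, ← hb, ← map_add, rho_io, rho_io, rho_io, MvPolynomial.coe_add, map_add]
  · filter_upwards [ev_range a, ev_range b] with n ⟨a', ha⟩ ⟨b', hb⟩
    change io M V n a' = a at ha
    change io M V n b' = b at hb
    rw [← ha, ← hb, ← map_mul, rho_io, rho_io, rho_io, MvPolynomial.coe_mul, map_mul]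
  · rw [← map_one (io M V n), rho_io, MvPolynomial.coe_one, map_one]

lemma rho_toA (p n : ℕ) (g : MvPolynomial (Fin M) V) :
    rho p M V n (toA M V g) = alg p M V n g := by
  have h1 : toA M V = (io M V n).comp
      (MvPolynomial.aeval fun i : Fin M => MvPolynomial.X i.succ ^ n.factorial) := by
    refine MvPolynomial.algHom_ext fun i => ?_
    rw [AlgHom.comp_apply, MvPolynomial.aeval_X, io_X_fac, toA, MvPolynomial.aeval_X]
  have h2 : (MvPolynomial.coeToMvPowerSeries.algHom V).comp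
      (MvPolynomial.aeval fun i : Fin M =>
        (MvPolynomial.X i.succ ^ n.factorial : MvPolynomial (Fin (M + 1)) V)) =
      MvPolynomial.aeval fun i : Fin M =>
        (X i.succ ^ n.factorial : MvPowerSeries (Fin (M + 1)) V) := by
    refine MvPolynomial.algHom_ext fun i => ?_
    simp
  rw [h1, AlgHom.comp_apply, rho_io]
  refine congrArg (Ideal.Quotient.mk _) (Eq.trans ?_ (substAlgHom_coe _ g).symm)
  rw [← h2]
  simp

lemma rho_succ (p n : ℕ) (i : Fin M) : rho p M V n (mo V i.succ 1) = alg p M V n (X i) := by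
  have h := rho_toA (V := V) p n (MvPolynomial.X i)
  rwa [toA, MvPolynomial.aeval_X, MvPolynomial.coe_X] at h

lemma rho_zero (p n : ℕ) : rho p M V n (mo V 0 1) = p := by
  rw [← io_X_fac n, rho_io, MvPolynomial.coe_pow, MvPolynomial.coe_X, map_pow, mk_X_zero]

lemma rho_p (p n k : ℕ) : rho p M V n ((p : AA M V) ^ k) = (p : BB p M V n) ^ k := by
  rw [← map_natCast (io M V n), ← map_pow, rho_io, MvPolynomial.coe_pow, map_pow,
    ← MvPolynomial.coeToMvPowerSeries.ringHom_apply, map_natCast, map_natCast]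

lemma rho_root (p : ℕ) (i : Fin M) {q : ℕ} (hq : 0 < q) :
    ∀ᶠ n in atTop, rho p M V n (mo V i.succ (1 / q)) ^ q = alg p M V n (X i) := by
  filter_upwards [(eh_rho (M := M) (V := V) p).pow (mo V i.succ (1 / q)) q] with n hn
  rw [← hn, mo_pow, mul_one_div_cancel (by exact_mod_cast hq.ne'), rho_succ]

lemma rho_pow_zero (p : ℕ) {θ : ℚ≥0} {k N : ℕ} (h : k * θ = N) :
    ∀ᶠ n in atTop, rho p M V n (mo V 0 θ) ^ k = (p : BB p M V n) ^ N := by
  filter_upwards [(eh_rho (M := M) (V := V) p).pow (mo V 0 θ) k,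
    (eh_rho (M := M) (V := V) p).pow (mo V 0 1) N] with n h1 h2
  rw [← h1, ← rho_zero p n, ← h2, mo_pow, mo_pow, h, mul_one]

lemma desc_rel (p : ℕ) (T : ∀ n, Ideal (BB p M V n)) : Desc (rho p M V) (relA p M V) T := by
  refine (eh_rho p).span ?_
  rintro _ rfl
  filter_upwards [(eh_rho (M := M) (V := V) p).sub (mo V 0 1) p] with n hn
  rw [hn, rho_zero, ← pow_one (p : AA M V), rho_p, pow_one, sub_self]
  exact zero_mem _

section loc
variable [IsLocalRing V] {p : ℕ} (hV : maximalIdeal V = Ideal.span {(p : V)})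
include hV

lemma max_eq (M : ℕ) : maximalIdeal (PS M V) = Ideal.span {(p : PS M V)} ⊔ xI M V := by
  rw [max_PSV, hV, Ideal.map_span, Set.image_singleton, map_natCast]

lemma p_mem (M : ℕ) : (p : PS M V) ∈ maximalIdeal (PS M V) :=
  max_eq hV M ▸ Ideal.mem_sup_left (Ideal.subset_span rfl)

lemma X_mem (i : Fin M) : (X i : PS M V) ∈ maximalIdeal (PS M V) :=
  max_eq hV M ▸ Ideal.mem_sup_right (Ideal.subset_span ⟨i, rfl⟩)

lemma mP_le : (mP p M V).map MvPolynomial.coeToMvPowerSeries.ringHom ≤ maximalIdeal (PS M V) := by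
  rw [mP, Ideal.map_sup, Ideal.map_span, Ideal.map_span, sup_le_iff, Ideal.span_le, Ideal.span_le]
  constructor
  · rintro _ ⟨_, rfl, rfl⟩
    rw [map_natCast]
    exact p_mem hV M
  · rintro _ ⟨_, ⟨i, rfl⟩, rfl⟩
    rw [MvPolynomial.coeToMvPowerSeries.ringHom_apply, MvPolynomial.coe_X]
    exact X_mem hV i

lemma desc_mP (N : ℕ) : Desc (rho p M V) ((mP p M V ^ N).map (toA M V))
    fun n => (maximalIdeal (PS M V) ^ N).map (alg p M V n) := by
  refine (eh_rho p).span' ?_
  rintro _ ⟨g, hg, rfl⟩ n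
  rw [rho_toA]
  refine Ideal.mem_map_of_mem _ (Ideal.pow_right_mono (mP_le hV) N ?_)
  rw [← Ideal.map_pow]
  exact Ideal.mem_map_of_mem MvPolynomial.coeToMvPowerSeries.ringHom hg

lemma poly_desc (N : ℕ) (J : Ideal (MvPolynomial (Fin M) V)) (g : MvPolynomial (Fin M) V)
    (h : (g : PS M V) ∈ J.map MvPolynomial.coeToMvPowerSeries.ringHom ⊔
      maximalIdeal (PS M V) ^ N) : g ∈ J ⊔ mP p M V ^ N := by
  have hx : xI M V ^ N ≤ maximalIdeal (PS M V) ^ N :=
    Ideal.pow_right_mono (max_eq hV M ▸ le_sup_right) N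
  have key : ∀ u ∈ J.map MvPolynomial.coeToMvPowerSeries.ringHom,
      ∃ u' ∈ J, u - (u' : PS M V) ∈ maximalIdeal (PS M V) ^ N := by
    intro u hu
    refine Submodule.span_induction ?_ ⟨0, zero_mem _, by simp⟩ ?_ ?_ hu
    · rintro _ ⟨u', hu', rfl⟩
      exact ⟨u', hu', by simp⟩
    · rintro a b _ _ ⟨a', h1, h2⟩ ⟨b', h3, h4⟩
      refine ⟨a' + b', add_mem h1 h3, ?_⟩
      rw [MvPolynomial.coe_add, add_sub_add_comm]
      exact add_mem h2 h4
    · rintro a b _ ⟨b', h3, h4⟩
      obtain ⟨a', h2⟩ := exists_trunc a N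
      refine ⟨a' * b', J.mul_mem_left _ h3, ?_⟩
      rw [MvPolynomial.coe_mul, smul_eq_mul,
        show a * b - (a' : PS M V) * b' = (a - a') * b + a' * (b - b') by ring]
      exact add_mem (Ideal.mul_mem_right _ _ (hx h2)) (Ideal.mul_mem_left _ _ h4)
  obtain ⟨u, hu, w, hw, huw⟩ := Submodule.mem_sup.1 h
  obtain ⟨u', h1, h2⟩ := key u hu
  have h3 := poly_mem_pow (maximalIdeal V) N (g - u') (by
    rw [← max_PSV, ← MvPolynomial.coeToMvPowerSeries.ringHom_apply, map_sub,
      MvPolynomial.coeToMvPowerSeries.ringHom_apply, MvPolynomial.coeToMvPowerSeries.ringHom_apply,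
      ← huw, add_sub_right_comm]
    exact add_mem h2 hw)
  rw [hV, Ideal.map_span, Set.image_singleton, map_natCast] at h3
  simpa [mP] using Submodule.add_mem_sup h1 h3

lemma local_BB (M n : ℕ) : IsLocalRing (BB p M V n) := by
  have : Nontrivial (BB p M V n) := by
    refine Ideal.Quotient.nontrivial_iff.2 fun h => (maximalIdeal.isMaximal (PS (M + 1) V)).ne_top
      (top_le_iff.1 (h ▸ Ideal.span_le.2 ?_))
    rintro _ ⟨_, rfl⟩
    exact sub_mem (Ideal.pow_mem_of_mem _ (X_mem hV 0) _ n.factorial_pos) (p_mem hV _)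
  exact IsLocalRing.of_surjective' _ Ideal.Quotient.mk_surjective

end loc

lemma isRed_sup {A ι : Type*} [CommRing A] (J : Ideal A) (I K : ι → Ideal A)
    (h : ∀ j, IsRed (I j) (K j)) (hI : ∀ j, I j ≤ J) (s : Finset ι) : IsRed J (s.sup K ⊔ J) := by
  classical
  induction s using Finset.induction_on with
  | empty => simpa using IsRed.refl' J
  | insert j s _ ih =>
    have h1 := (h j).sup_right (s.sup K ⊔ J)
    rw [sup_eq_right.2 ((hI j).trans le_sup_right)] at h1
    rw [Finset.sup_insert, sup_assoc]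
    exact ih.trans' h1

lemma pair_pow_le {A : Type*} [CommRing A] (a b : A) (k : ℕ) :
    Ideal.span {a, b} ^ k ≤ Ideal.span {a} ⊔ Ideal.span {b ^ k} := by
  rw [Ideal.span_insert, ← Ideal.span_singleton_pow]
  induction k with
  | zero => simp
  | succ k ih =>
    rw [pow_succ, pow_succ]
    refine (Ideal.mul_mono_left ih).trans ?_
    rw [Ideal.sup_mul, Ideal.mul_sup (Ideal.span {b} ^ k)]
    exact sup_le (Ideal.mul_le_left.trans le_sup_left)
      (sup_le (Ideal.mul_le_right.trans le_sup_left) le_sup_right)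

lemma isRed_pair {A : Type*} [CommRing A] (a b : A) {k : ℕ} (hk : 0 < k) :
    IsRed (Ideal.span {a ^ k, b ^ k}) (Ideal.span {a, b} ^ k) := by
  have h := isRed_bracket ![a, b] hk
  have e : (fun i => ![a, b] i ^ k) = ![a ^ k, b ^ k] := by
    funext i
    fin_cases i <;> rfl
  rwa [e, Matrix.range_cons_cons_empty, Matrix.range_cons_cons_empty] at h

end TiltCX

open TiltCX Filter in
theorem tiltC (p : ℕ) [Fact p.Prime] (V : Type v) [CommRing V] [IsDomain V]
    [IsDiscreteValuationRing V] [PerfectField (ResidueField V)]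
    (hV : maximalIdeal V = Ideal.span {(p : V)}) {M D r : ℕ} (G : Fin M) (y : Fin D → Fin M)
    (hy : Injective y) (hG : ∀ i, y i ≠ G) (f : Fin r → PS M V) (H₁ H₂ : Finset (Fin M)) (n₀ : ℕ)
    (h₁ : ∀ H ∈ H₁, ∀ m, (X H : PS M V) ^ (m + n₀) ∈ Ideal.span {X G} ^ m ⊔
      Ideal.span (Set.range f))
    (h₂ : ∀ H ∈ H₂, ∀ m, (X H : PS M V) ^ (m + n₀) ∈ (Ideal.span {X G} *
      Ideal.span (Set.range fun i => X (y i))) ^ m ⊔ Ideal.span (Set.range f))
    (N Q' q : ℕ) (hQ' : 0 < Q') (hq : 0 < q) :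
    ∃ (B : Type v) (_ : CommRing B) (_ : IsLocalRing B) (_ : IsNoetherianRing B)
      (_ : Algebra (PS M V) B) (lam : ℕ) (ψ : Fin r → B) (Q : ℕ) (κ : B) (x : Fin D → B)
      (K : Ideal B),
      IsLocalHom (algebraMap (PS M V) B) ∧ CM (maximalIdeal B) (M + 1) ∧
      Prim (maximalIdeal B) ((maximalIdeal (PS M V)).map (algebraMap (PS M V) B)) ∧ 0 < lam ∧
      (∀ I : Ideal (PS M V), ln B (I.map (algebraMap (PS M V) B)) = ln (PS M V) I * lam) ∧
      0 < Q ∧ κ ^ Q' = algebraMap (PS M V) B (X G) ∧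
      (∀ i, x i ^ q = algebraMap (PS M V) B (X (y i))) ∧
      IsRed (Ideal.span (Set.range fun j => ψ j ^ Q) ⊔
        (maximalIdeal (PS M V) ^ N).map (algebraMap (PS M V) B)) K ∧
      K ≤ Ideal.span (Set.range ψ) ⊔ (maximalIdeal (PS M V) ^ N).map (algebraMap (PS M V) B) ∧
      (∀ j, algebraMap (PS M V) B (f j) - ψ j ^ Q ∈ maximalIdeal B * K) ∧
      (∀ H ∈ H₁, κ * algebraMap (PS M V) B (X H) ∈ Ideal.span {algebraMap (PS M V) B (X G)} ⊔
        Ideal.span (Set.range ψ) ⊔ (maximalIdeal (PS M V) ^ N).map (algebraMap (PS M V) B)) ∧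
      (∀ H ∈ H₂, κ * algebraMap (PS M V) B (X H) ∈ Ideal.span {algebraMap (PS M V) B (X G)} *
        Ideal.span (Set.range x) ^ (q - D - 1) ⊔
        Ideal.span (Set.range ψ) ⊔ (maximalIdeal (PS M V) ^ N).map (algebraMap (PS M V) B)) := by
  obtain ⟨m, N₂, hN, hB⟩ := tiltB p V hV (r := r) G y hy hG n₀ N Q' q hQ' hq
  choose f' hf' using fun j => exists_trunc (f j) N₂
  have hf'' : ∀ j, f j - f' j ∈ maximalIdeal (PS M V) ^ N₂ := fun j =>
    Ideal.pow_right_mono (max_eq hV M ▸ le_sup_right) N₂ (hf' j)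
  have hdesc : ∀ (J : Ideal (MvPolynomial (Fin M) V)) (H : Fin M), (X H : PS M V) ^ (m + n₀) ∈
      J.map MvPolynomial.coeToMvPowerSeries.ringHom ⊔ Ideal.span (Set.range f) →
      MvPolynomial.X H ^ (m + n₀) ∈ J ⊔ Ideal.span (Set.range f') ⊔ mP p M V ^ N₂ := by
    intro J H h
    refine poly_desc hV N₂ _ _ ?_
    rw [MvPolynomial.coe_pow, MvPolynomial.coe_X, Ideal.map_sup, sup_assoc]
    refine TiltBX.mem_of h (sup_le_sup_left (Ideal.span_le.2 ?_) _)
    rintro _ ⟨j, rfl⟩
    rw [← add_sub_cancel (f' j : PS M V) (f j)]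
    exact Submodule.add_mem_sup (Ideal.mem_map_of_mem MvPolynomial.coeToMvPowerSeries.ringHom
      (Ideal.subset_span ⟨j, rfl⟩)) (hf'' j)
  obtain ⟨ψ, Q, θ, hQ, hθ, g₀, g₁, g₂⟩ := hB f' H₁ H₂ (fun H hH => hdesc _ H (by
      simpa [Ideal.map_pow, Ideal.map_span] using h₁ H hH m)) fun H hH => hdesc _ H (by
      simpa [Ideal.map_pow, Ideal.map_mul, Ideal.map_span, ← Set.range_comp, comp_def]
        using h₂ H hH m)
  have eh := eh_rho (M := M) (V := V) p
  have hψ : Desc (rho p M V) (Ideal.span (Set.range ψ))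
      fun n => Ideal.span (Set.range fun j => rho p M V n (ψ j)) :=
    eh.span' (by rintro _ ⟨j, rfl⟩ n; exact Ideal.subset_span ⟨j, rfl⟩)
  have hXG : Desc (rho p M V) (Ideal.span {mo V G.succ 1})
      fun n => Ideal.span {alg p M V n (X G)} :=
    eh.span' (by rintro _ rfl n; rw [rho_succ]; exact Ideal.subset_span rfl)
  have e₀ := eventually_all.2 fun j => (eh.sup (eh.sup' (eh.dmul
    (eh.span' (T := fun n => Ideal.span {rho p M V n (mo V 0 θ)})
      (by rintro _ rfl n; exact Ideal.subset_span rfl))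
    (eh.dpow (eh.span' (T := fun n => Ideal.span {rho p M V n (ψ j), rho p M V n (mo V 0 (N / Q))})
      (by rintro _ (rfl | rfl) n <;> exact Ideal.subset_span (by simp))) Q))
    (eh.span' (T := fun n => Ideal.span {(p : BB p M V n) ^ (N + 1)})
      (by rintro _ rfl n; rw [rho_p]; exact Ideal.subset_span rfl))) (desc_rel p _)) _ (g₀ j)
  have e₁ := (eventually_all_finset H₁).2 fun H hH =>
    eh.sup (eh.sup' (eh.sup' hXG hψ) (desc_mP hV N)) (desc_rel p _) _ (g₁ H hH)
  have e₂ := (eventually_all_finset H₂).2 fun H hH =>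
    eh.sup (eh.sup' (eh.sup' (eh.dmul hXG (eh.dpow (eh.span'
      (T := fun n => Ideal.span (Set.range fun i => rho p M V n (mo V (y i).succ (1 / q))))
      (by rintro _ ⟨j, rfl⟩ n; exact Ideal.subset_span ⟨j, rfl⟩)) (q - D - 1))) hψ)
      (desc_mP hV N)) (desc_rel p _) _ (g₂ H hH)
  obtain ⟨n, e₀, e₁, e₂, e₃, e₄, e₅, e₆, e₇, e₈, e₉⟩ := (e₀.and (e₁.and (e₂.and
    ((rho_root (V := V) p G hQ').and ((eventually_all.2 fun i => rho_root (V := V) p (y i) hq).and
    ((eventually_all.2 fun H : Fin M => eh.mul (mo V G.succ (1 / Q')) (mo V H.succ 1)).and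
    ((eventually_all.2 fun j => eh.sub (toA M V (f' j)) (ψ j ^ Q)).and
    ((eventually_all.2 fun j => eh.pow (ψ j) Q).and
    ((rho_pow_zero (M := M) (V := V) p (θ := N / Q) (k := Q) (N := N)
      (mul_div_cancel₀ _ (by exact_mod_cast hQ.ne'))).and
    (rho_pow_zero (M := M) (V := V) p (θ := θ) (k := θ.den) (N := θ.num)
      ((mul_comm _ _).trans θ.mul_den_eq_num))))))))))).exists
  have hloc := local_BB hV M n
  have hmax := map_maximalIdeal_of_surjective (S := BB p M V n) _ Ideal.Quotient.mk_surjective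
  have hpB : (p : BB p M V n) ∈ maximalIdeal (BB p M V n) := by
    rw [← hmax, ← map_natCast (Ideal.Quotient.mk _)]
    exact Ideal.mem_map_of_mem _ (p_mem hV _)
  have hle : (maximalIdeal (PS M V)).map (alg p M V n) ≤ maximalIdeal (BB p M V n) := by
    rw [max_eq hV, Ideal.map_sup, Ideal.map_span, Ideal.map_span, sup_le_iff, Ideal.span_le,
      Ideal.span_le]
    constructor
    · rintro _ ⟨_, rfl, rfl⟩
      rw [map_natCast]
      exact hpB
    · rintro _ ⟨_, ⟨i, rfl⟩, rfl⟩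
      rw [alg_X, ← hmax]
      exact Ideal.pow_mem_of_mem _ (Ideal.mem_map_of_mem _ (X_mem hV _)) _ n.factorial_pos
  have hlh : IsLocalHom (alg p M V n) := ((local_hom_TFAE (alg p M V n)).out 0 2).2 hle
  have hcm : CM (maximalIdeal (BB p M V n)) (M + 1) := by
    rw [← hmax]
    exact CM.quot (r := 1) (add_comm (M + 1) 1 ▸ cm_PSV (M + 1)) _
  have hpA : (p : BB p M V n) ∈ (maximalIdeal (PS M V)).map (alg p M V n) :=
    map_natCast (alg p M V n) p ▸ Ideal.mem_map_of_mem _ (p_mem hV M)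
  have hprim : Prim (maximalIdeal (BB p M V n)) ((maximalIdeal (PS M V)).map (alg p M V n)) := by
    have h1 : Prim (maximalIdeal (BB p M V n)) (Ideal.span {(p : BB p M V n)} ⊔
        Ideal.span (Set.range fun i => Ideal.Quotient.mk _ (X i))) := by
      refine ⟨1, ?_⟩
      rw [pow_one, ← hmax, max_eq hV, Ideal.map_sup, Ideal.map_span, Ideal.map_span,
        Set.image_singleton, map_natCast, ← Set.range_comp]
      rfl
    refine (h1.span_pow fun _ => n.factorial).mono
      (sup_le (Ideal.span_le.2 (Set.singleton_subset_iff.2 hpA)) (Ideal.span_le.2 ?_))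
    rintro _ ⟨i, rfl⟩
    refine Fin.cases ?_ (fun i => ?_) i
    · have h2 := hpA
      rwa [← mk_X_zero] at h2
    · have h2 := Ideal.mem_map_of_mem (alg p M V n) (X_mem hV i)
      rwa [alg_X] at h2
  let _ := (alg p M V n).toAlgebra
  have hlh' : IsLocalHom (algebraMap (PS M V) (BB p M V n)) := hlh
  obtain ⟨lam, hlam⟩ := ENat.ne_top_iff_exists.1 (lm_self ((maximalIdeal (PS M V)).map
    (alg p M V n)) ▸ lm_ne_top (M := BB p M V n) (hprim.mono le_sup_left))
  have hlam0 : 0 < lam := by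
    have : Nontrivial (BB p M V n ⧸ (maximalIdeal (PS M V)).map (alg p M V n)) :=
      Ideal.Quotient.nontrivial_iff.2 fun h =>
        (maximalIdeal.isMaximal (BB p M V n)).ne_top (top_le_iff.1 (h ▸ hle))
    have h1 : 0 < ln (BB p M V n) ((maximalIdeal (PS M V)).map (alg p M V n)) :=
      Module.length_pos_iff.2 this
    rw [← hlam] at h1
    exact_mod_cast h1
  have hpN : (p : BB p M V n) ^ N ∈ (maximalIdeal (PS M V) ^ N).map (alg p M V n) := by
    rw [Ideal.map_pow]
    exact Ideal.pow_mem_pow hpA N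
  set J := Ideal.span (Set.range fun j => rho p M V n (ψ j) ^ Q) ⊔
    (maximalIdeal (PS M V) ^ N).map (alg p M V n) with hJ
  set K := (Finset.univ.sup fun j =>
    Ideal.span {rho p M V n (ψ j), rho p M V n (mo V 0 (N / Q))} ^ Q) ⊔ J with hK
  have hmK : (maximalIdeal (PS M V) ^ (N + 1)).map (alg p M V n) ≤
      maximalIdeal (BB p M V n) * K := by
    rw [pow_succ', Ideal.map_mul]
    exact Ideal.mul_mono hle (le_sup_right.trans le_sup_right)
  refine ⟨BB p M V n, inferInstance, hloc, inferInstance, (alg p M V n).toAlgebra, lam,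
    fun j => rho p M V n (ψ j), Q, rho p M V n (mo V G.succ (1 / Q')),
    fun i => rho p M V n (mo V (y i).succ (1 / q)), K, hlh, hcm, hprim, hlam0, fun I => ?_, hQ, e₃,
    e₄, isRed_sup J _ _ (fun j => isRed_pair _ _ hQ) (fun j => ?_) _, ?_, fun j => ?_,
    fun H hH => ?_, fun H hH => ?_⟩
  · rw [hlam]
    refine CM.ln_map (cm_PSV M) hcm (Fin.cons (p : PS M V) X) ?_ hprim I
    rw [max_eq hV, Fin.range_cons, Ideal.span_insert]
  · rw [e₈, Ideal.span_le, Set.insert_subset_iff, Set.singleton_subset_iff]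
    exact ⟨Ideal.mem_sup_left (Ideal.subset_span ⟨j, rfl⟩), Ideal.mem_sup_right hpN⟩
  · refine sup_le (Finset.sup_le fun j _ => (pair_pow_le _ _ _).trans (sup_le_sup
      (Ideal.span_mono (Set.singleton_subset_iff.2 ⟨j, rfl⟩)) ?_)) (sup_le_sup_right ?_ _)
    · rw [e₈]
      exact Ideal.span_le.2 (Set.singleton_subset_iff.2 hpN)
    · refine Ideal.span_le.2 ?_
      rintro _ ⟨j, rfl⟩
      exact Ideal.pow_mem_of_mem _ (Ideal.subset_span (Set.mem_range_self j)) _ hQ
  · have h1 := e₀ j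
    rw [e₆, e₇, rho_toA] at h1
    have h2 : alg p M V n (f j - f' j) ∈ maximalIdeal (BB p M V n) * K :=
      hmK (Ideal.mem_map_of_mem _ (Ideal.pow_le_pow_right hN (hf'' j)))
    rw [map_sub] at h2
    rw [← sub_add_sub_cancel _ (alg p M V n (f' j))]
    refine add_mem h2 (TiltBX.mem_of h1 (sup_le (Ideal.mul_mono ?_ ?_) ?_))
    · refine Ideal.span_le.2 (Set.singleton_subset_iff.2
        ((maximalIdeal.isMaximal _).isPrime.mem_of_pow_mem θ.den ?_))
      rw [e₉]
      exact Ideal.pow_mem_of_mem _ hpB _ (NNRat.num_pos.2 hθ)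
    · exact le_sup_of_le_left (Finset.le_sup (f := fun j =>
        Ideal.span {rho p M V n (ψ j), rho p M V n (mo V 0 (N / Q))} ^ Q) (Finset.mem_univ j))
    · refine Ideal.span_le.2 (Set.singleton_subset_iff.2 (hmK ?_))
      rw [Ideal.map_pow]
      exact Ideal.pow_mem_pow hpA _
  · have h1 := e₁ H hH
    rwa [e₅, rho_succ] at h1
  · have h1 := e₂ H hH
    rwa [e₅, rho_succ] at h1

end Vale.Agent.P202
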