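import Vale.Agent.P202M.CMl

/-! The upper bound at a prime of top dimension. -/

open IsLocalRing Function
open scoped ENNReal

namespace Vale.Agent.P202

namespace UBaX

variable {A : Type*} [CommRing A]

theorem modify [IsNoetherianRing A] (Q : Ideal A) {n : ℕ} (hQ : ringKrullDim (A ⧸ Q) ≤ n) (s : ℕ) :
    ∀ (I : Ideal A) (v : Fin s → A), ringKrullDim (A ⧸ I) ≤ (s + n : ℕ) →
      ∃ v' : Fin s → A, (∀ i, v' i - v i ∈ Q * Q) ∧
        ringKrullDim (A ⧸ (I ⊔ Ideal.span (Set.range v'))) ≤ n := by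
  induction s with
  | zero =>
    intro I v h
    exact ⟨v, fun i => i.elim0, (dim_quot_anti le_sup_left).trans (by simpa using h)⟩
  | succ s ih =>
    intro I v h
    obtain ⟨b, hb, h1⟩ := exists_avoid (n := s + n) I (Q * Q) (v 0) (by rwa [add_right_comm] at h)
      ((dim_quot_of_le_radical (I := Q) fun x hx => ⟨2, Ideal.mem_sup_right
        (sq x ▸ Ideal.mul_mem_mul hx hx)⟩).trans (hQ.trans (by exact_mod_cast Nat.le_add_left _ _)))
    obtain ⟨v', h2, h3⟩ := ih _ (Fin.tail v) h1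
    refine ⟨Fin.cons (v 0 + b) v', fun i => Fin.cases (by simpa using hb) h2 i, ?_⟩
    rwa [Fin.range_cons, Ideal.span_insert, ← sup_assoc]

theorem nak [IsNoetherianRing A] (Q : Ideal A) [hQ : Q.IsPrime] (W : Ideal A)
    (h : Q ≤ sat Q (W ⊔ Q * Q)) : ∃ a ∉ Q, ∀ x ∈ Q, a * x ∈ W := by
  have h1 : Q.map (algebraMap A (Localization.AtPrime Q)) ≤
      W.map (algebraMap A (Localization.AtPrime Q)) := by
    refine Submodule.le_of_le_smul_of_le_jacobson_bot (I := maximalIdeal _)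
      (IsNoetherian.noetherian _) (maximalIdeal_le_jacobson _)
      (Ideal.map_le_iff_le_comap.2 fun g hg => ?_)
    obtain ⟨s, hs, h1⟩ := h hg
    have := Ideal.mem_map_of_mem (algebraMap _ (Localization.AtPrime Q)) h1
    rw [map_mul, Ideal.unit_mul_mem_iff_mem _
      (IsLocalization.map_units _ (⟨s, hs⟩ : Q.primeCompl)), Ideal.map_sup, Ideal.map_mul] at this
    rw [Ideal.mem_comap, smul_eq_mul, ← Localization.AtPrime.map_eq_maximalIdeal]
    exact this
  obtain ⟨S, hS⟩ := IsNoetherian.noetherian Q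
  have h2 : ∀ x ∈ Q, ∃ a ∈ Q.primeCompl, a * x ∈ W := fun x hx =>
    (IsLocalization.algebraMap_mem_map_algebraMap_iff Q.primeCompl _ W x).1
      (h1 (Ideal.mem_map_of_mem _ hx))
  choose! a ha ha' using h2
  have hSQ : ∀ x ∈ S, x ∈ Q := fun x hx => hS ▸ Submodule.subset_span hx
  refine ⟨∏ x ∈ S, a x, Q.primeCompl.prod_mem fun x hx => ha x (hSQ x hx), fun x hx => ?_⟩
  have h3 : Q ≤ W.colon {∏ x ∈ S, a x} := by
    conv_lhs => rw [← hS]
    refine Submodule.span_le.2 fun y hy => Submodule.mem_colon_singleton.2 ?_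
    obtain ⟨c, hc⟩ := Finset.dvd_prod_of_mem a hy
    rw [hc, smul_eq_mul, show y * (a y * c) = c * (a y * y) by ring]
    exact W.mul_mem_left _ (ha' y (hSQ y hy))
  simpa [mul_comm] using Submodule.mem_colon_singleton.1 (h3 hx)

/-- The part supported away from `Q`. -/
theorem first [IsLocalRing A] [IsNoetherianRing A] (Q : Ideal A) [hQ : Q.IsPrime] (W : Ideal A)
    {d : ℕ} (hWQ : W ≤ Q) (hW : ringKrullDim (A ⧸ W) ≤ (d + 1 : ℕ))
    (hd : ringKrullDim (A ⧸ Q) ≤ (d + 1 : ℕ)) {a : A} (ha : a ∉ Q) (haW : ∀ x ∈ Q, a * x ∈ W) :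
    ∃ K : ℝ≥0∞, K ≠ ⊤ ∧ ∀ (I : Ideal A) (k : ℕ), Q ⊔ maximalIdeal A ^ k ≤ I →
      eU I (A ⧸ W) (d + 1) ≤ K * (k : ℝ≥0∞) ^ d + eU I (A ⧸ Q) (d + 1) := by
  obtain ⟨b, hb, h1⟩ := exists_avoid (n := d) (W ⊔ Ideal.span {a}) Q 0
    ((dim_quot_anti le_sup_left).trans hW) ((dim_quot_anti (sup_le le_sup_right
      (le_sup_of_le_left le_sup_right))).trans
      (dim_nzd Q a (fun x hx => (hQ.mem_or_mem hx).resolve_left ha) hd))
  rw [zero_add] at h1
  obtain ⟨w, hw, h2⟩ := exists_sop _ h1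
  obtain ⟨μ, x, hx⟩ := Module.Finite.exists_fin (R := A)
    (M := LinearMap.ker (Submodule.factor hWQ))
  have h3 : W ⊔ Ideal.span {a} ≤ Module.annihilator A (LinearMap.ker (Submodule.factor hWQ)) := by
    have : ∀ r : A, (∀ x ∈ Q, r * x ∈ W) →
        r ∈ Module.annihilator A (LinearMap.ker (Submodule.factor hWQ)) := by
      intro r hr
      refine Module.mem_annihilator.2 fun m => Subtype.ext ?_
      obtain ⟨m, hm⟩ := m
      obtain ⟨m, rfl⟩ := Submodule.Quotient.mk_surjective _ m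
      exact (Submodule.Quotient.mk_eq_zero W).2 (hr m ((Submodule.Quotient.mk_eq_zero Q).1 hm))
    exact sup_le (fun r hr => this r fun x _ => W.mul_mem_right _ hr)
      ((Ideal.span_singleton_le_iff_mem _).2 (this a haW))
  have h4 : lm (Ideal.span (Set.range (Fin.cons b w : Fin (d + 1) → A)))
      (A ⧸ (W ⊔ Ideal.span {a})) ≠ ⊤ := by
    refine lm_ne_top (h2.mono ?_)
    rw [Ideal.annihilator_quotient, Fin.range_cons, Ideal.span_insert, sup_assoc, sup_comm]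
  obtain ⟨L, hL⟩ := ENat.ne_top_iff_exists.1 h4
  refine ⟨(μ * L : ℕ), ENNReal.natCast_ne_top _, fun I k hI => ?_⟩
  refine (eU_le_of_exact I _ _ (Submodule.factor_surjective hWQ)
    (LinearMap.exact_subtype_ker_map _)).trans (add_le_add ?_ le_rfl)
  refine (eU_gen x hx _ I h3).trans ?_
  have h5 := lm_bracket_le (M := A ⧸ (W ⊔ Ideal.span {a})) (Fin.cons b w : Fin (d + 1) → A)
    (Fin.cons 1 fun _ => k)
  rw [← hL, ← Nat.cast_mul] at h5
  have h6 := (eU_le_of_pow (I := I) (d := d + 1) 0 fun j => le_sup_of_le_left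
    (Ideal.pow_right_mono (Ideal.span_le.2 ?_) j)).trans ((eU_sop _).trans
      (ENat.toENNReal_le.2 h5))
  · refine (mul_le_mul_right h6 _).trans_eq ?_
    simp [Fin.prod_univ_succ, mul_comm, mul_left_comm, mul_assoc]
  · rintro _ ⟨i, rfl⟩
    refine hI (Fin.cases ?_ (fun i => ?_) i)
    · simpa using Ideal.mem_sup_left hb
    · simpa using Ideal.mem_sup_right (Ideal.pow_mem_pow (hw i) k)

variable {T : Type*} [CommRing T] [Algebra A T]

/-- Elements `g t` with `t ∈ Z`. -/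
def gI (g : A) (Z : Ideal T) : Ideal A :=
  (Ideal.span {algebraMap A T g} * Z).comap (algebraMap A T)

theorem gI_pow {g : A} (hg : ∀ t : T, ∃ a : A, algebraMap A T a = algebraMap A T g * t)
    (Z : Ideal T) (j : ℕ) : ∀ t ∈ Z ^ j, ∃ b ∈ gI g Z ^ j,
      algebraMap A T b = algebraMap A T g ^ (j + 1) * t := by
  induction j with
  | zero => simpa using hg
  | succ j ih =>
    intro t ht
    rw [pow_succ] at ht
    refine Submodule.mul_induction_on ht (fun t ht u hu => ?_) ?_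
    · obtain ⟨b, hb, e⟩ := ih t ht
      obtain ⟨a, ha⟩ := hg u
      refine ⟨b * a, pow_succ (gI g Z) j ▸ Ideal.mul_mem_mul hb ?_, by rw [map_mul, e, ha]; ring⟩
      rw [gI, Ideal.mem_comap, ha]
      exact Ideal.mul_mem_mul (Ideal.mem_span_singleton_self _) hu
    · rintro t u ⟨b, hb, e⟩ ⟨b', hb', e'⟩
      exact ⟨b + b', add_mem hb hb', by rw [map_add, e, e', mul_add]⟩

/-- The part supported at the prime. -/
theorem second [IsLocalRing A] [IsLocalRing T] [IsLocalHom (algebraMap A T)]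
    (hres : ∀ t : T, ∃ a : A, t - algebraMap A T a ∈ maximalIdeal T) {g : A}
    (hg : ∀ t : T, ∃ a : A, algebraMap A T a = algebraMap A T g * t) (q Z : Ideal T) (I : Ideal A)
    {k : ℕ} (hk : 0 < k) (h1 : gI g Z ≤ I) (h2 : maximalIdeal A ^ k ≤ I) (d : ℕ) :
    eU I (A ⧸ q.comap (algebraMap A T)) (d + 1) ≤ eU Z (T ⧸ q) (d + 1) + 2 * ((d + 1 : ℕ) *
      ((k : ℝ≥0∞) ^ d * eU (maximalIdeal A) (A ⧸ (q.comap (algebraMap A T) ⊔ Ideal.span {g})) d)) := by
  refine (um_mono (g := fun j => lm (Z ^ j) (T ⧸ q) + (2 : ℕ) * (j * lm (maximalIdeal A ^ (k * j + 0))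
    (A ⧸ (q.comap (algebraMap A T) ⊔ Ideal.span {g})))) ?_).trans (um_add_le.trans (add_le_add le_rfl
      ((um_const_mul 2).trans (mul_le_mul_right (um_mul_id.trans (mul_le_mul_right
        (um_comp (f := fun j => lm (maximalIdeal A ^ j) _) hk 0) _)) _))))
  filter_upwards [Filter.eventually_ge_atTop 1] with j hj
  rw [lm_quot, lm_quot, lm_quot, len_colon A _ (g ^ (j + 1))]
  refine add_le_add ?_ ((len_pow_upper A _ g _).trans ?_)
  · refine (len_anti A (I := (q ⊔ Z ^ j).comap (algebraMap A T)) fun a ha => ?_).trans ?_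
    · obtain ⟨u, hu, t, ht, e⟩ := Submodule.mem_sup.1 (Ideal.mem_comap.1 ha)
      obtain ⟨b, hb, e'⟩ := gI_pow hg Z j t ht
      rw [Submodule.mem_colon_singleton, smul_eq_mul, ← sub_add_cancel (a * _) b]
      refine Submodule.add_mem_sup ?_ (Ideal.pow_right_mono h1 j hb)
      rw [Ideal.mem_comap, map_sub, map_mul, map_pow, e', ← e, add_mul, mul_comm t,
        add_sub_cancel_right]
      exact q.mul_mem_right _ hu
    · rw [ln, ln, ← len_eq_of_res (A := A) (B := T) fun b => ?_]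
      · exact Module.length_le_of_injective (Ideal.quotientMapₐ (R₁ := A) (q ⊔ Z ^ j)
          (Algebra.ofId A T) le_rfl).toLinearMap Ideal.quotientMap_injective
      · obtain ⟨a, ha⟩ := hres b
        exact ⟨a, (Ideal.Quotient.eq.2 ha).symm⟩
  · rw [← mul_assoc, ← Nat.cast_mul]
    refine mul_le_mul' (Nat.cast_le.2 (by omega)) (len_anti A ?_)
    rw [sup_right_comm, add_zero, pow_mul]
    exact sup_le_sup_right (sup_le_sup_left (Ideal.pow_right_mono h2 j) _) _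

end UBaX

theorem ub_top {T' T : Type*} [CommRing T'] [IsLocalRing T'] [IsNoetherianRing T']
    [Infinite (ResidueField T')] [CommRing T] [IsLocalRing T] [Algebra T' T] [Module.Finite T' T]
    (hinj : Injective (algebraMap T' T))
    (hres : ∀ t : T, ∃ a : T', t - algebraMap T' T a ∈ maximalIdeal T)
    {s d : ℕ} (hCM : CM (maximalIdeal T') (s + (d + 1)))
    (hdim : ringKrullDim T' ≤ (s + (d + 1) : ℕ))
    (g : T') (hg : ∀ t : T, ∃ a : T', algebraMap T' T a = algebraMap T' T g * t)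
    (q : Ideal T) [q.IsPrime] (hq : ringKrullDim (T ⧸ q) ≤ (d + 1 : ℕ))
    (hgq : algebraMap T' T g ∉ q) (v : Fin s → T') (hv : ∀ i, algebraMap T' T (v i) ∈ q)
    (hvq : q.comap (algebraMap T' T) ≤
      sat (q.comap (algebraMap T' T)) (Ideal.span (Set.range v)))
    (z : Fin (d + 1) → T) (hzm : ∀ i, z i ∈ maximalIdeal T) (c : ℕ)
    (hz : ∀ j, maximalIdeal T ^ (j + c) ≤ q ⊔ Ideal.span (Set.range z) ^ j)
    {lam : Ideal T → ℝ≥0∞} (hl : Antitone lam)
    (hsop : ∀ w : Fin (s + (d + 1)) → T', Prim (maximalIdeal T') (Ideal.span (Set.range w)) →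
      lam ((Ideal.span (Set.range w)).map (algebraMap T' T)) ≤ ln T' (Ideal.span (Set.range w))) :
    ∃ K : ℝ≥0∞, K ≠ ⊤ ∧ ∀ n : ℕ, 1 ≤ n →
      lam (q ⊔ Ideal.span (Set.range fun i => z i ^ n)) ≤
        (n : ℝ≥0∞) ^ (d + 1) * eU (maximalIdeal T) (T ⧸ q) (d + 1) + K * (n : ℝ≥0∞) ^ d := by
  have hq' : ringKrullDim (T' ⧸ q.comap (algebraMap T' T)) ≤ (d + 1 : ℕ) :=
    (dim_quot_comap q).trans_le hq
  have hm : (maximalIdeal T').map (algebraMap T' T) ≤ maximalIdeal T := by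
    rw [Ideal.map_le_iff_le_comap, eq_maximalIdeal
      (Ideal.isMaximal_comap_of_isIntegral_of_isMaximal (R := T') (maximalIdeal T))]
  have := isLocalHom_of_map_le hm
  obtain ⟨v', h1, h2⟩ := UBaX.modify _ hq' s ⊥ v ((ringKrullDim_quotient_le _).trans hdim)
  rw [bot_sup_eq] at h2
  have hv' : Ideal.span (Set.range v') ≤ q.comap (algebraMap T' T) := by
    refine Ideal.span_le.2 (Set.range_subset_iff.2 fun i => ?_)
    simpa using add_mem (Ideal.mul_le_left (h1 i)) (Ideal.mem_comap.2 (hv i))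
  obtain ⟨a, ha, ha'⟩ := UBaX.nak (q.comap (algebraMap T' T)) (Ideal.span (Set.range v'))
    fun x hx => by
      obtain ⟨t, ht, h3⟩ := hvq hx
      refine ⟨t, ht, Ideal.span_le.2 (Set.range_subset_iff.2 fun i => ?_) h3⟩
      simpa using sub_mem (Ideal.mem_sup_left (Ideal.subset_span (Set.mem_range_self (f := v') i)))
        (Ideal.mem_sup_right (h1 i))
  obtain ⟨K, hK, h3⟩ := UBaX.first _ _ hv' h2 hq' ha ha'
  have hE := eU_ne_top (M := T' ⧸ (q.comap (algebraMap T' T) ⊔ Ideal.span {g})) _ (maximalIdeal T')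
    Ideal.annihilator_quotient.ge ⟨1, by simp⟩ (dim_nzd _ g (fun x hx =>
      ((Ideal.comap_isPrime _ q).mem_or_mem hx).resolve_left hgq) hq')
  obtain ⟨E, hE'⟩ : ∃ E, E = eU (maximalIdeal T')
    (T' ⧸ (q.comap (algebraMap T' T) ⊔ Ideal.span {g})) d := ⟨_, rfl⟩
  rw [← hE'] at hE
  refine ⟨(K + 2 * ((d + 1 : ℕ) * E)) * ((d + 2 + c : ℕ) : ℝ≥0∞) ^ d, ENNReal.mul_ne_top
    (ENNReal.add_ne_top.2 ⟨hK, ENNReal.mul_ne_top (by simp) (ENNReal.mul_ne_top (by simp) hE)⟩)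
    (ENNReal.pow_ne_top (by simp)), fun n hn => ?_⟩
  obtain ⟨Z, hZ⟩ : ∃ Z, Z = Ideal.span (Set.range fun i => z i ^ n) := ⟨_, rfl⟩
  rw [← hZ]
  have hZ1 : ∀ j, maximalIdeal T ^ (n * j + ((d + 1) * n + c)) ≤ q ⊔ Z ^ j := fun j => by
    rw [← add_assoc, hZ]
    exact (hz _).trans (sup_le_sup_left (pow_le_bracket_pow z hn j) _)
  obtain ⟨k, hk⟩ : ∃ k, k = n * 1 + ((d + 1) * n + c) := ⟨_, rfl⟩
  obtain ⟨I, hI⟩ : ∃ I, I = q.comap (algebraMap T' T) ⊔ maximalIdeal T' ^ k ⊔ UBaX.gI g Z :=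
    ⟨_, rfl⟩
  have hI1 : I ≤ (q ⊔ Z).comap (algebraMap T' T) := by
    rw [hI]
    refine sup_le (sup_le (Ideal.comap_mono le_sup_left) ?_)
      (Ideal.comap_mono (Ideal.mul_le_right.trans le_sup_right))
    rw [← Ideal.map_le_iff_le_comap, Ideal.map_pow, ← pow_one Z, hk]
    exact (Ideal.pow_right_mono hm _).trans (hZ1 1)
  have hI2 : I ≤ maximalIdeal T' := by
    refine hI1.trans (le_maximalIdeal (Ideal.comap_ne_top _ (ne_top_of_le_ne_top
      (maximalIdeal.isMaximal T).ne_top (sup_le (le_maximalIdeal (Ideal.IsPrime.ne_top ‹_›)) ?_))))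
    rw [hZ]
    exact Ideal.span_le.2 (Set.range_subset_iff.2 fun i =>
      Ideal.pow_mem_of_mem _ (hzm i) n hn)
  have hI3 : maximalIdeal T' ^ k ≤ I := (le_sup_of_le_left le_sup_right).trans hI.ge
  have hI4 : q.comap (algebraMap T' T) ⊔ maximalIdeal T' ^ k ≤ I := le_sup_left.trans hI.ge
  have hI5 : UBaX.gI g Z ≤ I := le_sup_right.trans hI.ge
  clear hI
  obtain ⟨w, hw⟩ := exists_red I hI2 ⟨k, hI3⟩ hdim
  obtain ⟨e, he⟩ := hw.pow_le
  have hp : Prim (maximalIdeal T') (Ideal.span (Set.range w)) := ⟨k * (1 + e), by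
    rw [pow_mul]
    exact (Ideal.pow_right_mono hI3 _).trans ((he 1).trans_eq (pow_one _))⟩
  have h4 := eU_lifts (M := T') (d := d + 1) v' I fun j => lm_ne_top ⟨k * j, by
    rw [pow_mul]
    exact le_sup_of_le_left (le_sup_of_le_right (Ideal.pow_right_mono hI3 _))⟩
  rw [sup_eq_right.2 (hv'.trans (le_sup_left.trans hI4)), smul_eq_mul,
    Ideal.mul_top] at h4
  have h5 := UBaX.second hres hg q Z I (k := k) (by omega) hI5 hI3 d
  have h6 := eU_scale (M := T ⧸ q) (d := d + 1) hn _ fun j =>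
    (hZ1 j).trans_eq (by rw [Ideal.annihilator_quotient, sup_comm])
  have h7 : (k : ℝ≥0∞) ^ d ≤ ((d + 2 + c : ℕ) : ℝ≥0∞) ^ d * (n : ℝ≥0∞) ^ d := by
    rw [← mul_pow, ← Nat.cast_mul]
    exact pow_le_pow_left₀ zero_le (Nat.cast_le.2 (by nlinarith)) d
  refine (hl (Ideal.map_le_iff_le_comap.2 (hw.1.trans hI1))).trans ((hsop w hp).trans
    ((hCM.le_eU_of_isRed (Fintype.card_fin _) w ⟨k, hI3⟩ hw).trans (h4.trans
      ((h3 I k hI4).trans ?_))))
  rw [← hE'] at h5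
  refine (add_le_add le_rfl (h5.trans (add_le_add h6 le_rfl))).trans ?_
  rw [add_left_comm, mul_assoc]
  refine add_le_add le_rfl (le_trans (le_of_eq (by ring)) (mul_le_mul_right h7 _))

end Vale.Agent.P202
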